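import Mathlib

/-! A weak form of the symmetry of second derivatives. -/

namespace Vale.Agent.Lib.P084

open Set Metric Filter Topology

section

variable {E F : Type*} [NormedAddCommGroup E] [NormedSpace ℝ E]
  [NormedAddCommGroup F] [NormedSpace ℝ F]

/-- The estimate along one leg of a path, for a pair `u`, `k` with `k z ∘ Du z = 0`. -/
lemma annihilate_leg {u : E → F} {u' : E → E →L[ℝ] F} {k : E → F →L[ℝ] ℝ}
    {k' : E →L[ℝ] F →L[ℝ] ℝ} {p : E}
    (hu : ∀ᶠ z in 𝓝 p, HasFDerivAt u (u' z) z) (hu' : ContinuousAt u' p) (hk : HasFDerivAt k k' p)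
    (hann : ∀ᶠ z in 𝓝 p, ∀ v, k z (u' z v) = 0) {ε : ℝ} (hε : 0 < ε) :
    ∃ δ > 0, ∀ s v : E, ‖s‖ + ‖v‖ < δ →
      |k p (u (p + s + v)) - k p (u (p + s)) + k' s (u' p v) + (1 / 2) * k' v (u' p v)| ≤
        ε * (‖s‖ + ‖v‖) * ‖v‖ := by
  set M : ℝ := ‖k'‖ + ‖u' p‖ + 1 with hM
  have hMpos : 0 < M := by positivity
  set ε' : ℝ := min 1 (ε / M) with hε'
  have hε'pos : 0 < ε' := lt_min one_pos (div_pos hε hMpos)
  have hε'1 : ε' ≤ 1 := min_le_left _ _
  have hε'M : ε' * M ≤ ε := by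
    have : ε' ≤ ε / M := min_le_right _ _
    rwa [le_div_iff₀ hMpos] at this
  have h1 : ∀ᶠ z in 𝓝 p, ‖u' z - u' p‖ < ε' := by
    have := hu'.tendsto
    rw [Metric.tendsto_nhds] at this
    filter_upwards [this ε' hε'pos] with z hz
    rwa [dist_eq_norm] at hz
  have h2 : ∀ᶠ z in 𝓝 p, ‖k z - k p - k' (z - p)‖ ≤ ε' * ‖z - p‖ := hk.isLittleO.def hε'pos
  obtain ⟨δ, hδ, hball⟩ := Metric.eventually_nhds_iff.1 (hu.and (hann.and (h1.and h2)))
  refine ⟨δ, hδ, fun s v hsv => ?_⟩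
  -- the comparison function on the unit interval
  let G : ℝ → ℝ := fun τ => k p (u (p + s + τ • v)) + τ * k' s (u' p v) +
    τ ^ 2 / 2 * k' v (u' p v)
  let G' : ℝ → ℝ := fun τ => k p (u' (p + s + τ • v) v) + k' s (u' p v) + τ * k' v (u' p v)
  have hpt : ∀ τ ∈ Icc (0 : ℝ) 1, dist (p + s + τ • v) p < δ := by
    intro τ hτ
    rw [dist_eq_norm]
    have e : p + s + τ • v - p = s + τ • v := by abel
    rw [e]
    calc ‖s + τ • v‖ ≤ ‖s‖ + ‖τ • v‖ := norm_add_le _ _
      _ = ‖s‖ + τ * ‖v‖ := by rw [norm_smul, Real.norm_of_nonneg hτ.1]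
      _ ≤ ‖s‖ + ‖v‖ := by nlinarith [hτ.2, norm_nonneg v]
      _ < δ := hsv
  have hder : ∀ τ ∈ Icc (0 : ℝ) 1, HasDerivWithinAt G (G' τ) (Icc (0 : ℝ) 1) τ := by
    intro τ hτ
    have h3 := (hball (hpt τ hτ)).1
    have h4 : HasDerivAt (fun τ : ℝ => p + s + τ • v) v τ := by
      simpa using ((hasDerivAt_id τ).smul_const v).const_add (p + s)
    have h5 := h3.comp_hasDerivAt τ h4
    have h6 : HasDerivAt (fun τ : ℝ => k p (u (p + s + τ • v))) (k p (u' (p + s + τ • v) v)) τ :=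
      (k p).hasFDerivAt.comp_hasDerivAt τ h5
    have h7 : HasDerivAt (fun τ : ℝ => τ * k' s (u' p v)) (k' s (u' p v)) τ := by
      simpa using (hasDerivAt_id τ).mul_const (k' s (u' p v))
    have h8 : HasDerivAt (fun τ : ℝ => τ ^ 2 / 2 * k' v (u' p v)) (τ * k' v (u' p v)) τ := by
      have h9 := (((hasDerivAt_id τ).pow 2).div_const 2).mul_const (k' v (u' p v))
      refine h9.congr_deriv ?_
      simp
    exact ((h6.add h7).add h8).hasDerivWithinAt
  have hbd : ∀ τ ∈ Icc (0 : ℝ) 1, ‖G' τ‖ ≤ ε * (‖s‖ + ‖v‖) * ‖v‖ := by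
    intro τ hτ
    obtain ⟨_, h3, h4, h5⟩ := hball (hpt τ hτ)
    set z : E := p + s + τ • v with hz
    have e0 : z - p = s + τ • v := by
      rw [hz]
      abel
    have hsτ : ‖z - p‖ ≤ ‖s‖ + ‖v‖ := by
      rw [e0]
      calc ‖s + τ • v‖ ≤ ‖s‖ + ‖τ • v‖ := norm_add_le _ _
        _ = ‖s‖ + τ * ‖v‖ := by rw [norm_smul, Real.norm_of_nonneg hτ.1]
        _ ≤ ‖s‖ + ‖v‖ := by nlinarith [hτ.2, norm_nonneg v]
    have e1 : G' τ = -(k z - k p - k' (z - p)) (u' z v) - k' (z - p) ((u' z - u' p) v) := by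
      have e2 : k' (z - p) (u' p v) = k' s (u' p v) + τ * k' v (u' p v) := by
        rw [e0]
        simp only [map_add, map_smul, _root_.add_apply, _root_.smul_apply, smul_eq_mul]
      have e3 := h3 v
      have e4 : (k z - k p - k' (z - p)) (u' z v) =
          k z (u' z v) - k p (u' z v) - k' (z - p) (u' z v) := by
        simp only [_root_.sub_apply]
      have e5 : k' (z - p) ((u' z - u' p) v) =
          k' (z - p) (u' z v) - k' (z - p) (u' p v) := by
        rw [_root_.sub_apply, map_sub]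
      rw [e4, e5]
      show k p (u' z v) + k' s (u' p v) + τ * k' v (u' p v) = _
      linarith
    rw [e1]
    have h6 : |(k z - k p - k' (z - p)) (u' z v)| ≤ ε' * ‖z - p‖ * ((‖u' p‖ + ε') * ‖v‖) := by
      have h7 := (k z - k p - k' (z - p)).le_opNorm (u' z v)
      rw [Real.norm_eq_abs] at h7
      have h8 : ‖u' z v‖ ≤ (‖u' p‖ + ε') * ‖v‖ := by
        have h9 := (u' z).le_opNorm v
        have h10 : ‖u' z‖ ≤ ‖u' p‖ + ε' := by
          have := norm_sub_norm_le (u' z) (u' p)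
          linarith
        exact h9.trans (mul_le_mul_of_nonneg_right h10 (norm_nonneg v))
      calc _ ≤ ‖k z - k p - k' (z - p)‖ * ‖u' z v‖ := h7
        _ ≤ (ε' * ‖z - p‖) * ((‖u' p‖ + ε') * ‖v‖) :=
          mul_le_mul h5 h8 (norm_nonneg _) (by positivity)
    have h7 : |k' (z - p) ((u' z - u' p) v)| ≤ ‖k'‖ * ‖z - p‖ * (ε' * ‖v‖) := by
      have h8 := (k' (z - p)).le_opNorm ((u' z - u' p) v)
      rw [Real.norm_eq_abs] at h8
      have h9 := k'.le_opNorm (z - p)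
      have h10 := (u' z - u' p).le_opNorm v
      have h11 : ‖(u' z - u' p) v‖ ≤ ε' * ‖v‖ :=
        h10.trans (mul_le_mul_of_nonneg_right h4.le (norm_nonneg v))
      calc _ ≤ ‖k' (z - p)‖ * ‖(u' z - u' p) v‖ := h8
        _ ≤ (‖k'‖ * ‖z - p‖) * (ε' * ‖v‖) :=
          mul_le_mul h9 h11 (norm_nonneg _) (by positivity)
    rw [Real.norm_eq_abs]
    have h8 : |-(k z - k p - k' (z - p)) (u' z v) - k' (z - p) ((u' z - u' p) v)| ≤
        |(k z - k p - k' (z - p)) (u' z v)| + |k' (z - p) ((u' z - u' p) v)| := by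
      have := abs_sub (-(k z - k p - k' (z - p)) (u' z v)) (k' (z - p) ((u' z - u' p) v))
      rwa [abs_neg] at this
    refine h8.trans ?_
    have h9 : ε' * ‖z - p‖ * ((‖u' p‖ + ε') * ‖v‖) + ‖k'‖ * ‖z - p‖ * (ε' * ‖v‖) ≤
        ε' * M * ‖z - p‖ * ‖v‖ := by
      have : ε' * ‖z - p‖ * ((‖u' p‖ + ε') * ‖v‖) + ‖k'‖ * ‖z - p‖ * (ε' * ‖v‖) =
          ε' * (‖u' p‖ + ε' + ‖k'‖) * ‖z - p‖ * ‖v‖ := by ring
      rw [this]
      have h10 : ‖u' p‖ + ε' + ‖k'‖ ≤ M := by
        rw [hM]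
        linarith
      have h11 : 0 ≤ ‖z - p‖ * ‖v‖ := by positivity
      have h12 := mul_le_mul_of_nonneg_left h10 hε'pos.le
      nlinarith
    have h10 : ε' * M * ‖z - p‖ * ‖v‖ ≤ ε * (‖s‖ + ‖v‖) * ‖v‖ := by
      have h11 : ε' * M * ‖z - p‖ ≤ ε * (‖s‖ + ‖v‖) :=
        mul_le_mul hε'M hsτ (norm_nonneg _) hε.le
      exact mul_le_mul_of_nonneg_right h11 (norm_nonneg v)
    linarith [h6, h7]
  have h3 := (convex_Icc (0 : ℝ) 1).norm_image_sub_le_of_norm_hasDerivWithin_le hder hbd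
    (left_mem_Icc.2 zero_le_one) (right_mem_Icc.2 zero_le_one)
  simp only [G, one_smul, one_mul, zero_smul, add_zero, zero_mul, sub_zero, norm_one, mul_one,
    ne_eq, OfNat.ofNat_ne_zero, not_false_eq_true, zero_pow, zero_div, one_pow, Real.norm_eq_abs]
    at h3
  have e : k p (u (p + s + v)) - k p (u (p + s)) + k' s (u' p v) + (1 / 2) * k' v (u' p v) =
      k p (u (p + s + v)) + k' s (u' p v) + 1 / 2 * k' v (u' p v) - k p (u (p + s)) := by ring
  rw [e]
  exact h3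

/-- **Weak symmetry.**  If `k z` annihilates the range of the derivative of `u` near `p`, with `u`
of class `C^1` and `k` differentiable at `p`, then `Dk(a)(Du(w))` is symmetric in `a, w`.  When `u`
is twice differentiable this follows by differentiating the relation. -/
theorem annihilate_symm {u : E → F} {u' : E → E →L[ℝ] F} {k : E → F →L[ℝ] ℝ}
    {k' : E →L[ℝ] F →L[ℝ] ℝ} {p : E}
    (hu : ∀ᶠ z in 𝓝 p, HasFDerivAt u (u' z) z) (hu' : ContinuousAt u' p) (hk : HasFDerivAt k k' p)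
    (hann : ∀ᶠ z in 𝓝 p, ∀ v, k z (u' z v) = 0) (a w : E) :
    k' a (u' p w) = k' w (u' p a) := by
  by_contra hne
  set D : ℝ := |k' a (u' p w) - k' w (u' p a)| with hD
  have hDpos : 0 < D := abs_pos.2 (sub_ne_zero.2 hne)
  set L : ℝ := ‖a‖ + ‖w‖ + 1 with hL
  have hLpos : 0 < L := by positivity
  set ε : ℝ := D / (8 * L ^ 2) with hε
  have hεpos : 0 < ε := by positivity
  obtain ⟨δ, hδ, hleg⟩ := annihilate_leg hu hu' hk hann hεpos
  set h : ℝ := min 1 (δ / (2 * L)) with hh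
  have hhpos : 0 < h := lt_min one_pos (by positivity)
  have hhL : h * L < δ := by
    have h1 : h ≤ δ / (2 * L) := min_le_right _ _
    have h2 : h * L ≤ δ / (2 * L) * L := mul_le_mul_of_nonneg_right h1 hLpos.le
    have h3 : δ / (2 * L) * L = δ / 2 := by
      field_simp
    linarith
  -- the four legs
  have hna : ‖h • a‖ = h * ‖a‖ := by rw [norm_smul, Real.norm_of_nonneg hhpos.le]
  have hnw : ‖h • w‖ = h * ‖w‖ := by rw [norm_smul, Real.norm_of_nonneg hhpos.le]
  have ha0 := norm_nonneg a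
  have hw0 := norm_nonneg w
  have hb1 : ‖(0 : E)‖ + ‖h • a‖ < δ := by
    rw [norm_zero, hna, zero_add]
    nlinarith
  have hb2 : ‖h • a‖ + ‖h • w‖ < δ := by
    rw [hna, hnw]
    nlinarith
  have hb3 : ‖(0 : E)‖ + ‖h • w‖ < δ := by
    rw [norm_zero, hnw, zero_add]
    nlinarith
  have hb4 : ‖h • w‖ + ‖h • a‖ < δ := by
    rw [hna, hnw]
    nlinarith
  have l1 := hleg 0 (h • a) hb1
  have l2 := hleg (h • a) (h • w) hb2
  have l3 := hleg 0 (h • w) hb3
  have l4 := hleg (h • w) (h • a) hb4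
  simp only [add_zero, norm_zero, zero_add, map_zero, zero_apply, map_smul,
    _root_.smul_apply, smul_eq_mul, hna, hnw] at l1 l2 l3 l4
  have e : p + h • w + h • a = p + h • a + h • w := by abel
  rw [e] at l4
  -- combine
  set A₁ := k p (u (p + h • a)) with hA₁
  set A₂ := k p (u (p + h • w)) with hA₂
  set A₃ := k p (u (p + h • a + h • w)) with hA₃
  set A₀ := k p (u p) with hA₀
  have hbig : h * h * D ≤ 4 * (ε * (h * L) * (h * L)) := by
    have hr : h * h * (k' a (u' p w) - k' w (u' p a)) =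
        (A₃ - A₁ + h * (h * k' a (u' p w)) + 1 / 2 * (h * (h * k' w (u' p w))))
          + (A₁ - A₀ + 0 + 1 / 2 * (h * (h * k' a (u' p a))))
          - (A₃ - A₂ + h * (h * k' w (u' p a)) + 1 / 2 * (h * (h * k' a (u' p a))))
          - (A₂ - A₀ + 0 + 1 / 2 * (h * (h * k' w (u' p w)))) := by ring
    have b1 := abs_le.1 l1
    have b2 := abs_le.1 l2
    have b3 := abs_le.1 l3
    have b4 := abs_le.1 l4
    have c1 : ε * (h * ‖a‖) * (h * ‖a‖) ≤ ε * (h * L) * (h * L) := by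
      have : h * ‖a‖ ≤ h * L := mul_le_mul_of_nonneg_left (by rw [hL]; linarith) hhpos.le
      have h' : 0 ≤ h * ‖a‖ := by positivity
      exact mul_le_mul (mul_le_mul_of_nonneg_left this hεpos.le) this h' (by positivity)
    have c3 : ε * (h * ‖w‖) * (h * ‖w‖) ≤ ε * (h * L) * (h * L) := by
      have : h * ‖w‖ ≤ h * L := mul_le_mul_of_nonneg_left (by rw [hL]; linarith) hhpos.le
      have h' : 0 ≤ h * ‖w‖ := by positivity
      exact mul_le_mul (mul_le_mul_of_nonneg_left this hεpos.le) this h' (by positivity)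
    have c2 : ε * (h * ‖a‖ + h * ‖w‖) * (h * ‖w‖) ≤ ε * (h * L) * (h * L) := by
      have t1 : h * ‖a‖ + h * ‖w‖ ≤ h * L := by
        rw [← mul_add]
        exact mul_le_mul_of_nonneg_left (by rw [hL]; linarith) hhpos.le
      have t2 : h * ‖w‖ ≤ h * L := mul_le_mul_of_nonneg_left (by rw [hL]; linarith) hhpos.le
      have h' : 0 ≤ h * ‖w‖ := by positivity
      exact mul_le_mul (mul_le_mul_of_nonneg_left t1 hεpos.le) t2 h' (by positivity)
    have c4 : ε * (h * ‖w‖ + h * ‖a‖) * (h * ‖a‖) ≤ ε * (h * L) * (h * L) := by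
      have t1 : h * ‖w‖ + h * ‖a‖ ≤ h * L := by
        rw [← mul_add]
        exact mul_le_mul_of_nonneg_left (by rw [hL]; linarith) hhpos.le
      have t2 : h * ‖a‖ ≤ h * L := mul_le_mul_of_nonneg_left (by rw [hL]; linarith) hhpos.le
      have h' : 0 ≤ h * ‖a‖ := by positivity
      exact mul_le_mul (mul_le_mul_of_nonneg_left t1 hεpos.le) t2 h' (by positivity)
    have hr' : h * h * D = |h * h * (k' a (u' p w) - k' w (u' p a))| := by
      rw [abs_mul, abs_of_pos (by positivity : 0 < h * h)]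
    rw [hr', hr, abs_le]
    constructor <;> linarith [b1.1, b1.2, b2.1, b2.2, b3.1, b3.2, b4.1, b4.2]
  have e2 : 4 * (ε * (h * L) * (h * L)) = h * h * (D / 2) := by
    rw [hε]
    field_simp
    ring
  rw [e2] at hbig
  have h3 : 0 < h * h := by positivity
  have h4 := le_of_mul_le_mul_left hbig h3
  linarith

end

end Vale.Agent.Lib.P084
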