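import Mathlib

/-!
Finite-dimensional Mankiewicz theorem: a bijective isometry between convex subsets of
finite-dimensional normed spaces is affine.
-/

namespace Vale.Agent.Lib.P084

open Set Metric Filter Topology

variable {E E' : Type*} [NormedAddCommGroup E] [NormedSpace ℝ E]
  [NormedAddCommGroup E'] [NormedSpace ℝ E']

/-- `g` and `h` restrict to mutually inverse isometries between `K` and `L`. -/
structure SetIso (K : Set E) (L : Set E') (g : E → E') (h : E' → E) : Prop where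
  mapsTo_g : ∀ x ∈ K, g x ∈ L
  mapsTo_h : ∀ y ∈ L, h y ∈ K
  left : ∀ x ∈ K, h (g x) = x
  right : ∀ y ∈ L, g (h y) = y
  iso : ∀ a ∈ K, ∀ b ∈ K, ‖g a - g b‖ = ‖a - b‖

lemma SetIso.iso_h {K : Set E} {L : Set E'} {g : E → E'} {h : E' → E} (H : SetIso K L g h) :
    ∀ a ∈ L, ∀ b ∈ L, ‖h a - h b‖ = ‖a - b‖ := by
  intro a ha b hb
  have := H.iso (h a) (H.mapsTo_h a ha) (h b) (H.mapsTo_h b hb)
  rw [H.right a ha, H.right b hb] at this
  exact this.symm

/-- `K` contains the relative ball of radius `s` about `c`. -/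
def RelBall (K : Set E) (c : E) (s : ℝ) : Prop :=
  ∀ p ∈ affineSpan ℝ K, ‖p - c‖ ≤ s → p ∈ K

lemma RelBall.mono {K : Set E} {c : E} {s t : ℝ} (h : RelBall K c s) (hts : t ≤ s) :
    RelBall K c t := fun p hp hpc => h p hp (hpc.trans hts)

lemma add_sub_mem_affineSpan {K : Set E} {a b c : E} (ha : a ∈ affineSpan ℝ K)
    (hb : b ∈ affineSpan ℝ K) (hc : c ∈ affineSpan ℝ K) : a - b + c ∈ affineSpan ℝ K := by
  have := (affineSpan ℝ K).vadd_mem_of_mem_direction
    (AffineSubspace.vsub_mem_direction ha hb) hc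
  simpa using this

lemma lineMap_mem_affineSpan {K : Set E} {a b : E} (ha : a ∈ affineSpan ℝ K)
    (hb : b ∈ affineSpan ℝ K) (t : ℝ) : a + t • (b - a) ∈ affineSpan ℝ K := by
  have := (affineSpan ℝ K).vadd_mem_of_mem_direction
    ((affineSpan ℝ K).direction.smul_mem t (AffineSubspace.vsub_mem_direction hb ha)) ha
  simpa [add_comm] using this

/-- A nonempty convex set in a finite-dimensional space contains a relative ball. -/
lemma exists_relBall [FiniteDimensional ℝ E] {K : Set E} (hK : Convex ℝ K) (hne : K.Nonempty) :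
    ∃ c ∈ K, ∃ s > 0, RelBall K c s := by
  obtain ⟨c, hc⟩ := hne.intrinsicInterior hK
  have hcK : c ∈ K := intrinsicInterior_subset hc
  rw [mem_intrinsicInterior] at hc
  obtain ⟨y, hy, rfl⟩ := hc
  rw [mem_interior_iff_mem_nhds, Metric.mem_nhds_iff] at hy
  obtain ⟨ε, hε, hball⟩ := hy
  refine ⟨_, hcK, ε / 2, by positivity, fun p hp hpc => ?_⟩
  have h1 : (⟨p, hp⟩ : affineSpan ℝ K) ∈ ball y ε := by
    rw [mem_ball, Subtype.dist_eq, dist_eq_norm]
    exact lt_of_le_of_lt hpc (by linarith)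
  exact hball h1

/-- An isometric self-map of a compact set is onto. -/
lemma surjOn_of_isometry_of_isCompact {B : Set E} (hB : IsCompact B) (θ : E → E)
    (hmaps : ∀ x ∈ B, θ x ∈ B) (hiso : ∀ a ∈ B, ∀ b ∈ B, ‖θ a - θ b‖ = ‖a - b‖) :
    ∀ y ∈ B, ∃ x ∈ B, θ x = y := by
  intro y hy
  by_contra hcon
  push Not at hcon
  have hcont : ContinuousOn θ B := by
    rw [Metric.continuousOn_iff]
    intro b hb ε hε
    refine ⟨ε, hε, fun a ha hab => ?_⟩
    rw [dist_eq_norm, hiso a ha b hb, ← dist_eq_norm]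
    exact hab
  have hcomp : IsCompact (θ '' B) := hB.image_of_continuousOn hcont
  have hne : (θ '' B).Nonempty := ⟨θ y, y, hy, rfl⟩
  have hnot : y ∉ θ '' B := by
    rintro ⟨x, hx, hxy⟩
    exact hcon x hx hxy
  have hδ : 0 < infDist y (θ '' B) := (hcomp.isClosed.notMem_iff_infDist_pos hne).1 hnot
  set δ := infDist y (θ '' B) with hδdef
  -- the orbit of `y`
  set u : ℕ → E := fun n => θ^[n] y with hu
  have hub : ∀ n, u n ∈ B := by
    intro n
    induction n with
    | zero => exact hy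
    | succ n ih =>
      simp only [hu, Function.iterate_succ_apply'] at ih ⊢
      exact hmaps _ ih
  have hsep : ∀ n k : ℕ, δ ≤ ‖u (n + (k + 1)) - u n‖ := by
    intro n k
    induction n with
    | zero =>
      have h1 : u (0 + (k + 1)) ∈ θ '' B := by
        refine ⟨u k, hub k, ?_⟩
        simp only [hu, zero_add, Function.iterate_succ_apply']
      have h2 := infDist_le_dist_of_mem (x := y) h1
      rw [dist_comm, dist_eq_norm] at h2
      simpa [hu] using h2
    | succ n ih =>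
      have h1 : u (n + 1 + (k + 1)) = θ (u (n + (k + 1))) := by
        simp only [hu]
        rw [show n + 1 + (k + 1) = (n + (k + 1)) + 1 by ring, Function.iterate_succ_apply']
      have h2 : u (n + 1) = θ (u n) := by
        simp only [hu, Function.iterate_succ_apply']
      rw [h1, h2, hiso _ (hub _) _ (hub _)]
      exact ih
  obtain ⟨a, -, φ, hφ, hlim⟩ := hB.tendsto_subseq hub
  have hcauchy := hlim.cauchySeq
  obtain ⟨N, hN⟩ := Metric.cauchySeq_iff.1 hcauchy δ hδ
  have h1 := hN (N + 1) (by omega) N le_rfl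
  have hlt : φ N < φ (N + 1) := hφ (Nat.lt_succ_self N)
  obtain ⟨k, hk⟩ : ∃ k, φ (N + 1) = φ N + (k + 1) := by
    refine ⟨φ (N + 1) - φ N - 1, ?_⟩
    omega
  have h2 := hsep (φ N) k
  rw [← hk] at h2
  rw [dist_eq_norm] at h1
  simp only [Function.comp] at h1
  linarith

section Ball

variable {K : Set E} {L : Set E'} {g : E → E'} {h : E' → E}

/-- The isometry maps relative balls about `x` onto relative balls about `g x`. -/
theorem ball_onto [FiniteDimensional ℝ E] (H : SetIso K L g h) {x : E} {y₁ : E'} (hx : x ∈ K)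
    (hy₁ : y₁ ∈ L) {s : ℝ} (hxb : RelBall K x s) (hyb : RelBall L y₁ s) :
    ∀ y ∈ affineSpan ℝ L, ‖y - g x‖ ≤ s → y ∈ L := by
  classical
  have hxa : x ∈ affineSpan ℝ K := subset_affineSpan ℝ K hx
  have hy₁a : y₁ ∈ affineSpan ℝ L := subset_affineSpan ℝ L hy₁
  have hgx : g x ∈ L := H.mapsTo_g x hx
  have hgxa : g x ∈ affineSpan ℝ L := subset_affineSpan ℝ L hgx
  set B : Set E := (affineSpan ℝ K : Set E) ∩ closedBall x s with hBdef
  have hBcomp : IsCompact B := by
    have h1 : IsClosed (affineSpan ℝ K : Set E) :=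
      AffineSubspace.closed_of_finiteDimensional _
    rw [hBdef, inter_comm]
    exact (isCompact_closedBall x s).inter_right h1
  have hBK : ∀ p ∈ B, p ∈ K := by
    intro p hp
    refine hxb p hp.1 ?_
    have := hp.2
    rwa [mem_closedBall, dist_eq_norm] at this
  -- the auxiliary vector in `L`
  have hu : ∀ p ∈ B, g p - g x + y₁ ∈ L := by
    intro p hp
    have hpK := hBK p hp
    refine hyb _ (add_sub_mem_affineSpan (subset_affineSpan ℝ L (H.mapsTo_g p hpK)) hgxa hy₁a) ?_
    have : g p - g x + y₁ - y₁ = g p - g x := by abel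
    rw [this, H.iso p hpK x hx]
    have := hp.2
    rwa [mem_closedBall, dist_eq_norm] at this
  set θ : E → E := fun p => h (g p - g x + y₁) - h y₁ + x with hθ
  have hθmaps : ∀ p ∈ B, θ p ∈ B := by
    intro p hp
    refine ⟨?_, ?_⟩
    · exact add_sub_mem_affineSpan (subset_affineSpan ℝ K (H.mapsTo_h _ (hu p hp)))
        (subset_affineSpan ℝ K (H.mapsTo_h _ hy₁)) hxa
    · rw [mem_closedBall, dist_eq_norm]
      have : θ p - x = h (g p - g x + y₁) - h y₁ := by
        simp only [hθ]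
        abel
      rw [this, H.iso_h _ (hu p hp) _ hy₁]
      have h2 : g p - g x + y₁ - y₁ = g p - g x := by abel
      rw [h2, H.iso p (hBK p hp) x hx]
      have := hp.2
      rwa [mem_closedBall, dist_eq_norm] at this
  have hθiso : ∀ a ∈ B, ∀ b ∈ B, ‖θ a - θ b‖ = ‖a - b‖ := by
    intro a ha b hb
    have h1 : θ a - θ b = h (g a - g x + y₁) - h (g b - g x + y₁) := by
      simp only [hθ]
      abel
    rw [h1, H.iso_h _ (hu a ha) _ (hu b hb)]
    have h2 : g a - g x + y₁ - (g b - g x + y₁) = g a - g b := by abel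
    rw [h2, H.iso a (hBK a ha) b (hBK b hb)]
  have hsurj := surjOn_of_isometry_of_isCompact hBcomp θ hθmaps hθiso
  intro y hya hyn
  -- the vector `v`
  set v : E' := y - g x + y₁ with hv
  have hvL : v ∈ L := by
    refine hyb _ (add_sub_mem_affineSpan hya hgxa hy₁a) ?_
    have : v - y₁ = y - g x := by
      simp only [hv]
      abel
    rwa [this]
  have hpB : h v - h y₁ + x ∈ B := by
    refine ⟨add_sub_mem_affineSpan (subset_affineSpan ℝ K (H.mapsTo_h _ hvL))
      (subset_affineSpan ℝ K (H.mapsTo_h _ hy₁)) hxa, ?_⟩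
    rw [mem_closedBall, dist_eq_norm]
    have h1 : h v - h y₁ + x - x = h v - h y₁ := by abel
    rw [h1, H.iso_h _ hvL _ hy₁]
    have h2 : v - y₁ = y - g x := by
      simp only [hv]
      abel
    rwa [h2]
  obtain ⟨p, hp, hpθ⟩ := hsurj _ hpB
  have h3 : h (g p - g x + y₁) = h v := by
    have : h (g p - g x + y₁) - h y₁ + x = h v - h y₁ + x := hpθ
    exact sub_left_injective (add_right_cancel this)
  have h4 : g p - g x + y₁ = v := by
    have h5 := congrArg g h3
    rwa [H.right _ (hu p hp), H.right _ hvL] at h5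
  have h6 : g p = y := by
    have : g p - g x + y₁ = y - g x + y₁ := h4
    exact sub_left_injective (add_right_cancel this)
  rw [← h6]
  exact H.mapsTo_g p (hBK p hp)

/-- Displacement doubling: an isometric bijection of a bounded set symmetric about `m` fixes `m`. -/
lemma displacement_doubling {A : Set E} {m : E} {D : ℝ} (hm : m ∈ A)
    (hD : ∀ p ∈ A, ∀ q ∈ A, ‖p - q‖ ≤ D) (hσ : ∀ p ∈ A, (2 : ℝ) • m - p ∈ A) :
    ∀ n : ℕ, ∀ ρ ρ' : E → E, (∀ p ∈ A, ρ p ∈ A) → (∀ p ∈ A, ρ' p ∈ A) →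
      (∀ p ∈ A, ρ' (ρ p) = p) → (∀ p ∈ A, ρ (ρ' p) = p) →
      (∀ p ∈ A, ∀ q ∈ A, ‖ρ p - ρ q‖ = ‖p - q‖) → (2 : ℝ) ^ n * ‖ρ m - m‖ ≤ D := by
  intro n
  induction n with
  | zero =>
    intro ρ ρ' hρ _ _ _ _
    simpa using hD _ (hρ m hm) _ hm
  | succ n ih =>
    intro ρ ρ' hρ hρ' hl hr hiso
    have hiso' : ∀ p ∈ A, ∀ q ∈ A, ‖ρ' p - ρ' q‖ = ‖p - q‖ := by
      intro p hp q hq
      have := hiso (ρ' p) (hρ' p hp) (ρ' q) (hρ' q hq)
      rw [hr p hp, hr q hq] at this
      exact this.symm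
    set σ : E → E := fun p => (2 : ℝ) • m - p with hσdef
    have hσσ : ∀ p, σ (σ p) = p := by
      intro p
      simp [hσdef]
    have hσm : σ m = m := by
      simp only [hσdef]
      rw [two_smul]
      abel
    have hσiso : ∀ p q, ‖σ p - σ q‖ = ‖p - q‖ := by
      intro p q
      have : σ p - σ q = q - p := by
        simp only [hσdef]
        abel
      rw [this, norm_sub_rev]
    have hkey := ih (fun p => σ (ρ' (σ (ρ p)))) (fun p => ρ' (σ (ρ (σ p))))
      (fun p hp => hσ _ (hρ' _ (hσ _ (hρ p hp))))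
      (fun p hp => hρ' _ (hσ _ (hρ _ (hσ p hp))))
      (by
        intro p hp
        simp only [hσσ]
        rw [hr _ (hσ _ (hρ p hp)), hσσ, hl p hp])
      (by
        intro p hp
        show σ (ρ' (σ (ρ (ρ' (σ (ρ (σ p))))))) = p
        rw [hr _ (hσ _ (hρ _ (hσ p hp))), hσσ, hl _ (hσ p hp), hσσ])
      (by
        intro p hp q hq
        show ‖σ (ρ' (σ (ρ p))) - σ (ρ' (σ (ρ q)))‖ = ‖p - q‖
        rw [hσiso, hiso' _ (hσ _ (hρ p hp)) _ (hσ _ (hρ q hq)), hσiso, hiso p hp q hq])
    have hcalc : ‖σ (ρ' (σ (ρ m))) - m‖ = 2 * ‖ρ m - m‖ := by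
      have h1 : ‖σ (ρ' (σ (ρ m))) - m‖ = ‖ρ' (σ (ρ m)) - m‖ := by
        conv_lhs => rw [← hσm]
        rw [hσiso, hσm]
      have h2 : ‖ρ' (σ (ρ m)) - m‖ = ‖σ (ρ m) - ρ m‖ := by
        have := hiso' _ (hσ _ (hρ m hm)) _ (hρ m hm)
        rwa [hl m hm] at this
      have h3 : σ (ρ m) - ρ m = (2 : ℝ) • (m - ρ m) := by
        simp only [hσdef, smul_sub, two_smul]
        abel
      rw [h1, h2, h3, norm_smul, norm_sub_rev]
      simp
    rw [hcalc] at hkey
    rw [pow_succ]
    linarith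

lemma fixed_of_displacement {A : Set E} {m : E} {D : ℝ} (hm : m ∈ A)
    (hD : ∀ p ∈ A, ∀ q ∈ A, ‖p - q‖ ≤ D) (hσ : ∀ p ∈ A, (2 : ℝ) • m - p ∈ A)
    (ρ ρ' : E → E) (hρ : ∀ p ∈ A, ρ p ∈ A) (hρ' : ∀ p ∈ A, ρ' p ∈ A)
    (hl : ∀ p ∈ A, ρ' (ρ p) = p) (hr : ∀ p ∈ A, ρ (ρ' p) = p)
    (hiso : ∀ p ∈ A, ∀ q ∈ A, ‖ρ p - ρ q‖ = ‖p - q‖) : ρ m = m := by
  by_contra hne
  have hpos : 0 < ‖ρ m - m‖ := norm_pos_iff.2 (sub_ne_zero.2 hne)
  obtain ⟨n, hn⟩ := pow_unbounded_of_one_lt (D / ‖ρ m - m‖) (by norm_num : (1 : ℝ) < 2)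
  have h1 := displacement_doubling hm hD hσ n ρ ρ' hρ hρ' hl hr hiso
  rw [div_lt_iff₀ hpos] at hn
  linarith

/-- Local midpoint preservation. -/
theorem local_midpoint (H : SetIso K L g h) (hKc : Convex ℝ K) (hLc : Convex ℝ L) {x : E}
    (hx : x ∈ K) {s : ℝ} (hxb : RelBall K x s) (hgxb : RelBall L (g x) s) {a b : E}
    (ha : a ∈ K) (hb : b ∈ K) (hax : ‖a - x‖ ≤ s / 4) (hbx : ‖b - x‖ ≤ s / 4) :
    g ((1 / 2 : ℝ) • (a + b)) = (1 / 2 : ℝ) • (g a + g b) := by
  classical
  have hmK : (1 / 2 : ℝ) • (a + b) ∈ K := by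
    have := hKc ha hb (by norm_num : (0 : ℝ) ≤ 1 / 2) (by norm_num : (0 : ℝ) ≤ 1 / 2) (by norm_num)
    rwa [← smul_add] at this
  have hmL : (1 / 2 : ℝ) • (g a + g b) ∈ L := by
    have := hLc (H.mapsTo_g a ha) (H.mapsTo_g b hb) (by norm_num : (0 : ℝ) ≤ 1 / 2)
      (by norm_num : (0 : ℝ) ≤ 1 / 2) (by norm_num)
    rwa [← smul_add] at this
  set m : E := (1 / 2 : ℝ) • (a + b) with hm
  set m' : E' := (1 / 2 : ℝ) • (g a + g b) with hm'
  set δ : ℝ := ‖a - b‖ / 2 with hδ
  have hab : ‖a - b‖ ≤ s / 2 := by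
    have h1 : a - b = (a - x) - (b - x) := by abel
    rw [h1]
    refine (norm_sub_le _ _).trans ?_
    linarith
  have hgab : ‖g a - g b‖ = ‖a - b‖ := H.iso a ha b hb
  have hs0 : 0 ≤ s := by
    have := norm_nonneg (a - x)
    linarith
  have h2m : (2 : ℝ) • m = a + b := by
    rw [hm, smul_smul]
    norm_num
  have h2m' : (2 : ℝ) • m' = g a + g b := by
    rw [hm', smul_smul]
    norm_num
  -- the metric midpoint sets
  set A : Set E := {p | p ∈ K ∧ ‖p - a‖ = δ ∧ ‖p - b‖ = δ} with hA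
  set A' : Set E' := {p | p ∈ L ∧ ‖p - g a‖ = δ ∧ ‖p - g b‖ = δ} with hA'
  have hmA : m ∈ A := by
    refine ⟨hmK, ?_, ?_⟩
    · have : m - a = (1 / 2 : ℝ) • (b - a) := by
        rw [hm]
        module
      rw [this, norm_smul, norm_sub_rev, hδ]
      norm_num
      ring
    · have : m - b = (1 / 2 : ℝ) • (a - b) := by
        rw [hm]
        module
      rw [this, norm_smul, hδ]
      norm_num
      ring
  have hmA' : m' ∈ A' := by
    refine ⟨hmL, ?_, ?_⟩
    · have : m' - g a = (1 / 2 : ℝ) • (g b - g a) := by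
        rw [hm']
        module
      rw [this, norm_smul, norm_sub_rev, hgab, hδ]
      norm_num
      ring
    · have : m' - g b = (1 / 2 : ℝ) • (g a - g b) := by
        rw [hm']
        module
      rw [this, norm_smul, hgab, hδ]
      norm_num
      ring
  have hDA : ∀ p ∈ A, ∀ q ∈ A, ‖p - q‖ ≤ 2 * δ := by
    intro p hp q hq
    have h1 : p - q = (p - a) - (q - a) := by abel
    rw [h1]
    refine (norm_sub_le _ _).trans ?_
    rw [hp.2.1, hq.2.1]
    linarith
  have hσA : ∀ p ∈ A, (2 : ℝ) • m - p ∈ A := by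
    intro p hp
    rw [h2m]
    refine ⟨?_, ?_, ?_⟩
    · refine hxb _ ?_ ?_
      · have : a + b - p = a - p + b := by abel
        rw [this]
        exact add_sub_mem_affineSpan (subset_affineSpan ℝ K ha) (subset_affineSpan ℝ K hp.1)
          (subset_affineSpan ℝ K hb)
      · have h1 : a + b - p - x = (a - x) + -(p - b) := by abel
        rw [h1]
        refine (norm_add_le _ _).trans ?_
        rw [norm_neg, hp.2.2]
        linarith
    · have : a + b - p - a = -(p - b) := by abel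
      rw [this, norm_neg, hp.2.2]
    · have : a + b - p - b = -(p - a) := by abel
      rw [this, norm_neg, hp.2.1]
  have hσA' : ∀ p ∈ A', (2 : ℝ) • m' - p ∈ A' := by
    intro p hp
    rw [h2m']
    refine ⟨?_, ?_, ?_⟩
    · refine hgxb _ ?_ ?_
      · have : g a + g b - p = g a - p + g b := by abel
        rw [this]
        exact add_sub_mem_affineSpan (subset_affineSpan ℝ L (H.mapsTo_g a ha))
          (subset_affineSpan ℝ L hp.1) (subset_affineSpan ℝ L (H.mapsTo_g b hb))
      · have h1 : g a + g b - p - g x = (g a - g x) + -(p - g b) := by abel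
        rw [h1]
        refine (norm_add_le _ _).trans ?_
        rw [norm_neg, hp.2.2, H.iso a ha x hx]
        linarith
    · have : g a + g b - p - g a = -(p - g b) := by abel
      rw [this, norm_neg, hp.2.2]
    · have : g a + g b - p - g b = -(p - g a) := by abel
      rw [this, norm_neg, hp.2.1]
  have hgA : ∀ p ∈ A, g p ∈ A' := by
    intro p hp
    refine ⟨H.mapsTo_g p hp.1, ?_, ?_⟩
    · rw [H.iso p hp.1 a ha, hp.2.1]
    · rw [H.iso p hp.1 b hb, hp.2.2]
  have hhA : ∀ p ∈ A', h p ∈ A := by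
    intro p hp
    refine ⟨H.mapsTo_h p hp.1, ?_, ?_⟩
    · have := H.iso_h p hp.1 (g a) (H.mapsTo_g a ha)
      rw [H.left a ha] at this
      rw [this, hp.2.1]
    · have := H.iso_h p hp.1 (g b) (H.mapsTo_g b hb)
      rw [H.left b hb] at this
      rw [this, hp.2.2]
  set σ : E → E := fun p => (2 : ℝ) • m - p with hσ
  set σ' : E' → E' := fun p => (2 : ℝ) • m' - p with hσ'
  have hσσ : ∀ p, σ (σ p) = p := by
    intro p
    simp [hσ]
  have hσσ' : ∀ p, σ' (σ' p) = p := by
    intro p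
    simp [hσ']
  have hρfix := fixed_of_displacement (A := A) hmA hDA hσA
    (fun p => σ (h (σ' (g p)))) (fun p => h (σ' (g (σ p))))
    (fun p hp => hσA _ (hhA _ (hσA' _ (hgA p hp))))
    (fun p hp => hhA _ (hσA' _ (hgA _ (hσA p hp))))
    (by
      intro p hp
      simp only [hσσ]
      rw [H.right _ (hσA' _ (hgA p hp)).1, hσσ', H.left p hp.1])
    (by
      intro p hp
      show σ (h (σ' (g (h (σ' (g (σ p))))))) = p
      rw [H.right _ (hσA' _ (hgA _ (hσA p hp))).1, hσσ', H.left _ (hσA p hp).1, hσσ])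
    (by
      intro p hp q hq
      show ‖σ (h (σ' (g p))) - σ (h (σ' (g q)))‖ = ‖p - q‖
      have h1 : ∀ u v : E, ‖σ u - σ v‖ = ‖u - v‖ := by
        intro u v
        have : σ u - σ v = v - u := by
          simp only [hσ]
          abel
        rw [this, norm_sub_rev]
      have h2 : ∀ u v : E', ‖σ' u - σ' v‖ = ‖u - v‖ := by
        intro u v
        have : σ' u - σ' v = v - u := by
          simp only [hσ']
          abel
        rw [this, norm_sub_rev]
      rw [h1, H.iso_h _ (hσA' _ (hgA p hp)).1 _ (hσA' _ (hgA q hq)).1, h2, H.iso p hp.1 q hq.1])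
  -- conclude
  have hσm : σ m = m := by
    simp only [hσ]
    rw [two_smul]
    abel
  have h5 : h (σ' (g m)) = m := by
    have := congrArg σ hρfix
    simp only [hσσ] at this
    rw [this, hσm]
  have h6 : σ' (g m) = g m := by
    have h7 := congrArg g h5
    rwa [H.right _ (hσA' _ (hgA m hmA)).1] at h7
  have h8 : (2 : ℝ) • m' - g m = g m := h6
  have h9 : (2 : ℝ) • (m' - g m) = 0 := by
    rw [smul_sub, two_smul ℝ (g m)]
    rw [sub_eq_iff_eq_add] at h8
    rw [h8]
    abel
  have h10 : m' - g m = 0 := by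
    simpa using h9
  exact (sub_eq_zero.1 h10).symm

/-- Convex combinations of centres of relative balls are centres of relative balls. -/
lemma RelBall.combo (hKc : Convex ℝ K) {a b : E} {s : ℝ} (ha : RelBall K a s) (hb : RelBall K b s)
    (haK : a ∈ K) (hbK : b ∈ K) {t : ℝ} (ht0 : 0 ≤ t) (ht1 : t ≤ 1) :
    RelBall K (a + t • (b - a)) s := by
  intro p hp hpc
  have hc : a + t • (b - a) ∈ affineSpan ℝ K :=
    lineMap_mem_affineSpan (subset_affineSpan ℝ K haK) (subset_affineSpan ℝ K hbK) t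
  set v : E := p - (a + t • (b - a)) with hv
  have ha' : v + a ∈ K := by
    refine ha _ (add_sub_mem_affineSpan hp hc (subset_affineSpan ℝ K haK)) ?_
    simpa using hpc
  have hb' : v + b ∈ K := by
    refine hb _ (add_sub_mem_affineSpan hp hc (subset_affineSpan ℝ K hbK)) ?_
    simpa using hpc
  have h1 := hKc ha' hb' (sub_nonneg.2 ht1) ht0 (by ring)
  have h2 : (1 - t) • (v + a) + t • (v + b) = p := by
    rw [hv]
    module
  rwa [h2] at h1

/-- Midpoints are preserved between centres of relative balls. -/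
theorem midpoint_of_relBall [FiniteDimensional ℝ E] (H : SetIso K L g h) (hKc : Convex ℝ K)
    (hLc : Convex ℝ L) {a b : E} {s : ℝ} (hs : 0 < s) (ha : a ∈ K) (hb : b ∈ K)
    (hab : RelBall K a s) (hbb : RelBall K b s) {y₁ : E'} (hy₁ : y₁ ∈ L)
    (hy₁b : RelBall L y₁ s) : g ((1 / 2 : ℝ) • (a + b)) = (1 / 2 : ℝ) • (g a + g b) := by
  obtain ⟨N, hN⟩ := exists_nat_gt (2 * ‖b - a‖ / s)
  have hN0 : (0 : ℝ) ≤ 2 * ‖b - a‖ / s := by positivity
  have hNpos : (0 : ℝ) < (N : ℝ) + 1 := by positivity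
  set M : ℕ := N + 1 with hM
  have hMr : (M : ℝ) = (N : ℝ) + 1 := by
    rw [hM]
    push_cast
    ring
  have hMpos : (0 : ℝ) < (M : ℝ) := by
    rw [hMr]
    exact hNpos
  set d : E := ((1 : ℝ) / (2 * (M : ℝ))) • (b - a) with hd
  set p : ℕ → E := fun i => a + (i : ℝ) • d with hp
  have hdn : ‖d‖ ≤ s / 4 := by
    rw [hd, norm_smul, Real.norm_of_nonneg (by positivity)]
    have h1 : 2 * ‖b - a‖ < N * s := by
      rwa [div_lt_iff₀ hs] at hN
    have h2 : 2 * ‖b - a‖ ≤ (M : ℝ) * s := by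
      rw [hMr]
      nlinarith
    rw [one_div, inv_mul_le_iff₀ (by positivity)]
    nlinarith
  have hpt : ∀ i : ℕ, p i = a + ((i : ℝ) / (2 * (M : ℝ))) • (b - a) := by
    intro i
    simp only [hp, hd, smul_smul]
    congr 2
    ring
  have hp0 : p 0 = a := by simp [hp]
  have hp2M : p (2 * M) = b := by
    rw [hpt]
    have : (((2 * M : ℕ) : ℝ) / (2 * (M : ℝ))) = 1 := by
      push_cast
      field_simp
    rw [this, one_smul]
    abel
  have hpM : p M = (1 / 2 : ℝ) • (a + b) := by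
    rw [hpt]
    have : ((M : ℝ) / (2 * (M : ℝ))) = 1 / 2 := by
      field_simp
    rw [this]
    module
  have hmem : ∀ i : ℕ, i ≤ 2 * M → p i ∈ K ∧ RelBall K (p i) s := by
    intro i hi
    rw [hpt]
    have ht0 : 0 ≤ (i : ℝ) / (2 * (M : ℝ)) := by positivity
    have ht1 : (i : ℝ) / (2 * (M : ℝ)) ≤ 1 := by
      rw [div_le_one (by positivity)]
      exact_mod_cast hi
    refine ⟨hKc.add_smul_sub_mem ha hb ⟨ht0, ht1⟩, RelBall.combo hKc hab hbb ha hb ht0 ht1⟩
  have hstep : ∀ i : ℕ, i + 2 ≤ 2 * M → g (p (i + 1)) = (1 / 2 : ℝ) • (g (p i) + g (p (i + 2))) := by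
    intro i hi
    obtain ⟨hcK, hcb⟩ := hmem (i + 1) (by omega)
    have hgb : RelBall L (g (p (i + 1))) s := by
      intro y hy hyn
      exact ball_onto H hcK hy₁ hcb hy₁b y hy hyn
    have h1 := local_midpoint H hKc hLc hcK hcb hgb (hmem i (by omega)).1 (hmem (i + 2) hi).1
      (by
        have : p i - p (i + 1) = -d := by
          simp only [hp]
          push_cast
          module
        rw [this, norm_neg]
        exact hdn)
      (by
        have : p (i + 2) - p (i + 1) = d := by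
          simp only [hp]
          push_cast
          module
        rw [this]
        exact hdn)
    have h2 : (1 / 2 : ℝ) • (p i + p (i + 2)) = p (i + 1) := by
      simp only [hp]
      push_cast
      module
    rwa [h2] at h1
  set e : E' := g (p 1) - g (p 0) with he
  have hprog : ∀ i : ℕ, i + 1 ≤ 2 * M →
      g (p i) = g (p 0) + (i : ℝ) • e ∧ g (p (i + 1)) = g (p 0) + ((i : ℝ) + 1) • e := by
    intro i
    induction i with
    | zero =>
      intro _
      refine ⟨by simp, ?_⟩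
      simp [he]
    | succ i ih =>
      intro hi
      obtain ⟨h1, h2⟩ := ih (by omega)
      refine ⟨by
        rw [h2]
        push_cast
        rfl, ?_⟩
      have h3 := hstep i hi
      have h4 : g (p (i + 2)) = (2 : ℝ) • g (p (i + 1)) - g (p i) := by
        rw [h3]
        module
      rw [show i + 1 + 1 = i + 2 by ring, h4, h1, h2]
      push_cast
      module
  have h5 := (hprog M (by omega)).1
  have h6 : g (p (2 * M)) = g (p 0) + ((2 * M : ℕ) : ℝ) • e := by
    have hMne : 1 ≤ M := by omega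
    obtain ⟨k, hk⟩ : ∃ k, 2 * M = k + 1 := ⟨2 * M - 1, by omega⟩
    rw [hk]
    have h7 := (hprog k (by omega)).2
    rw [h7]
    push_cast
    rfl
  rw [← hpM, h5]
  rw [hp2M] at h6
  rw [h6, ← hp0, hp0]
  push_cast
  module

/-- A bijective isometry between convex subsets of finite-dimensional spaces preserves midpoints. -/
theorem midpoint_of_isometry [FiniteDimensional ℝ E] [FiniteDimensional ℝ E']
    (H : SetIso K L g h) (hKc : Convex ℝ K) (hLc : Convex ℝ L) {a b : E} (ha : a ∈ K)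
    (hb : b ∈ K) : g ((1 / 2 : ℝ) • (a + b)) = (1 / 2 : ℝ) • (g a + g b) := by
  obtain ⟨c, hc, s₀, hs₀, hcb⟩ := exists_relBall hKc ⟨a, ha⟩
  obtain ⟨y₁, hy₁, r₀, hr₀, hy₁b⟩ := exists_relBall hLc ⟨g a, H.mapsTo_g a ha⟩
  -- shrinking towards the centre
  have hshrink : ∀ p ∈ K, ∀ ε : ℝ, 0 < ε → ε ≤ 1 → RelBall K (p + ε • (c - p)) (ε * s₀) := by
    intro p hpK ε hε hε1 q hq hqn
    have hc' := subset_affineSpan ℝ K hc
    have hc0 : p + ε • (c - p) ∈ affineSpan ℝ K :=
      lineMap_mem_affineSpan (subset_affineSpan ℝ K hpK) hc' ε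
    set q' : E := c + (1 / ε) • (q - (p + ε • (c - p))) with hq'
    have hq'a : q' ∈ affineSpan ℝ K := by
      have := (affineSpan ℝ K).vadd_mem_of_mem_direction
        ((affineSpan ℝ K).direction.smul_mem (1 / ε)
          (AffineSubspace.vsub_mem_direction hq hc0)) hc'
      simpa [hq', add_comm] using this
    have hq'K : q' ∈ K := by
      refine hcb _ hq'a ?_
      have h1 : q' - c = (1 / ε) • (q - (p + ε • (c - p))) := by
        rw [hq']
        abel
      rw [h1, norm_smul, Real.norm_of_nonneg (by positivity), one_div, inv_mul_le_iff₀ hε]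
      exact hqn
    have h2 := hKc.add_smul_sub_mem hpK hq'K (show ε ∈ Icc (0 : ℝ) 1 from ⟨hε.le, hε1⟩)
    have h3 : p + ε • (q' - p) = q := by
      rw [hq', smul_sub, smul_add, smul_smul]
      have : ε * (1 / ε) = 1 := by field_simp
      rw [this, one_smul]
      rw [smul_sub]
      abel
    rwa [h3] at h2
  set Mb : ℝ := ‖a - c‖ + ‖b - c‖ with hMb
  have hbound : ∀ ε : ℝ, 0 < ε → ε ≤ 1 →
      ‖g ((1 / 2 : ℝ) • (a + b)) - (1 / 2 : ℝ) • (g a + g b)‖ ≤ ε * Mb := by
    intro ε hε hε1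
    set a' : E := a + ε • (c - a) with ha'
    set b' : E := b + ε • (c - b) with hb'
    have ha'K : a' ∈ K := hKc.add_smul_sub_mem ha hc ⟨hε.le, hε1⟩
    have hb'K : b' ∈ K := hKc.add_smul_sub_mem hb hc ⟨hε.le, hε1⟩
    set s : ℝ := min (ε * s₀) r₀ with hs
    have hspos : 0 < s := lt_min (by positivity) hr₀
    have hmid := midpoint_of_relBall H hKc hLc hspos ha'K hb'K
      ((hshrink a ha ε hε hε1).mono (min_le_left _ _))
      ((hshrink b hb ε hε hε1).mono (min_le_left _ _))
      hy₁ (hy₁b.mono (min_le_right _ _))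
    have hmK : (1 / 2 : ℝ) • (a + b) ∈ K := by
      have := hKc ha hb (by norm_num : (0 : ℝ) ≤ 1 / 2) (by norm_num : (0 : ℝ) ≤ 1 / 2)
        (by norm_num)
      rwa [← smul_add] at this
    have hmK' : (1 / 2 : ℝ) • (a' + b') ∈ K := by
      have := hKc ha'K hb'K (by norm_num : (0 : ℝ) ≤ 1 / 2) (by norm_num : (0 : ℝ) ≤ 1 / 2)
        (by norm_num)
      rwa [← smul_add] at this
    have h1 : ‖g ((1 / 2 : ℝ) • (a + b)) - g ((1 / 2 : ℝ) • (a' + b'))‖ ≤ ε / 2 * Mb := by
      rw [H.iso _ hmK _ hmK']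
      have : (1 / 2 : ℝ) • (a + b) - (1 / 2 : ℝ) • (a' + b')
          = (ε / 2) • (a - c) + (ε / 2) • (b - c) := by
        rw [ha', hb']
        module
      rw [this]
      refine (norm_add_le _ _).trans ?_
      rw [norm_smul, norm_smul, Real.norm_of_nonneg (by positivity), hMb]
      apply le_of_eq
      ring
    have h2 : ‖(1 / 2 : ℝ) • (g a' + g b') - (1 / 2 : ℝ) • (g a + g b)‖ ≤ ε / 2 * Mb := by
      have : (1 / 2 : ℝ) • (g a' + g b') - (1 / 2 : ℝ) • (g a + g b)
          = (1 / 2 : ℝ) • (g a' - g a) + (1 / 2 : ℝ) • (g b' - g b) := by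
        module
      rw [this]
      refine (norm_add_le _ _).trans ?_
      rw [norm_smul, norm_smul, H.iso _ ha'K _ ha, H.iso _ hb'K _ hb, hMb]
      have h3 : a' - a = ε • (c - a) := by
        rw [ha']
        abel
      have h4 : b' - b = ε • (c - b) := by
        rw [hb']
        abel
      rw [h3, h4, norm_smul, norm_smul, Real.norm_of_nonneg hε.le, norm_sub_rev c a,
        norm_sub_rev c b]
      norm_num
      apply le_of_eq
      ring
    have h3 : g ((1 / 2 : ℝ) • (a + b)) - (1 / 2 : ℝ) • (g a + g b)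
        = (g ((1 / 2 : ℝ) • (a + b)) - g ((1 / 2 : ℝ) • (a' + b')))
          + ((1 / 2 : ℝ) • (g a' + g b') - (1 / 2 : ℝ) • (g a + g b)) := by
      rw [hmid]
      abel
    rw [h3]
    refine (norm_add_le _ _).trans ?_
    linarith
  have hzero : ‖g ((1 / 2 : ℝ) • (a + b)) - (1 / 2 : ℝ) • (g a + g b)‖ ≤ 0 := by
    by_contra hcon
    push Not at hcon
    set D := ‖g ((1 / 2 : ℝ) • (a + b)) - (1 / 2 : ℝ) • (g a + g b)‖ with hD
    have hMb0 : 0 ≤ Mb := by positivity
    set ε : ℝ := min 1 (D / (2 * (Mb + 1))) with hε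
    have hεpos : 0 < ε := lt_min one_pos (by positivity)
    have h1 := hbound ε hεpos (min_le_left _ _)
    have h2 : ε ≤ D / (2 * (Mb + 1)) := min_le_right _ _
    have h3 : ε * (2 * (Mb + 1)) ≤ D := by
      rwa [le_div_iff₀ (by positivity)] at h2
    nlinarith
  exact sub_eq_zero.1 (norm_le_zero_iff.1 hzero)

/-- From midpoints to all convex combinations (quantitative form). -/
lemma affine_approx (H : SetIso K L g h) (hKc : Convex ℝ K)
    (hmid : ∀ a ∈ K, ∀ b ∈ K, g ((1 / 2 : ℝ) • (a + b)) = (1 / 2 : ℝ) • (g a + g b)) :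
    ∀ n : ℕ, ∀ a ∈ K, ∀ b ∈ K, ∀ t : ℝ, 0 ≤ t → t ≤ 1 →
      ‖g ((1 - t) • a + t • b) - ((1 - t) • g a + t • g b)‖ ≤ 2 / 2 ^ n * ‖a - b‖ := by
  intro n
  induction n with
  | zero =>
    intro a ha b hb t ht0 ht1
    have hpK : (1 - t) • a + t • b ∈ K := hKc ha hb (sub_nonneg.2 ht1) ht0 (by ring)
    have h1 : g ((1 - t) • a + t • b) - ((1 - t) • g a + t • g b)
        = (1 - t) • (g ((1 - t) • a + t • b) - g a) + t • (g ((1 - t) • a + t • b) - g b) := by
      module
    rw [h1]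
    refine (norm_add_le _ _).trans ?_
    rw [norm_smul, norm_smul, H.iso _ hpK _ ha, H.iso _ hpK _ hb,
      Real.norm_of_nonneg (sub_nonneg.2 ht1), Real.norm_of_nonneg ht0]
    have h2 : (1 - t) • a + t • b - a = t • (b - a) := by module
    have h3 : (1 - t) • a + t • b - b = (1 - t) • (a - b) := by module
    rw [h2, h3, norm_smul, norm_smul, Real.norm_of_nonneg (sub_nonneg.2 ht1),
      Real.norm_of_nonneg ht0, norm_sub_rev b a]
    have h4 := norm_nonneg (a - b)
    simp only [pow_zero, div_one]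
    have h5 : t * (1 - t) ≤ 1 := by nlinarith
    have h6 : t * (1 - t) * ‖a - b‖ ≤ 1 * ‖a - b‖ := mul_le_mul_of_nonneg_right h5 h4
    have h7 : (1 - t) * (t * ‖a - b‖) + t * ((1 - t) * ‖a - b‖) = 2 * (t * (1 - t) * ‖a - b‖) := by
      ring
    rw [h7]
    linarith
  | succ n ih =>
    intro a ha b hb t ht0 ht1
    have hmK : (1 / 2 : ℝ) • (a + b) ∈ K := by
      have := hKc ha hb (by norm_num : (0 : ℝ) ≤ 1 / 2) (by norm_num : (0 : ℝ) ≤ 1 / 2)
        (by norm_num)
      rwa [← smul_add] at this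
    rcases le_total t (1 / 2) with ht | ht
    · have h1 := ih a ha _ hmK (2 * t) (by positivity) (by linarith)
      have h2 : (1 - 2 * t) • a + (2 * t) • ((1 / 2 : ℝ) • (a + b)) = (1 - t) • a + t • b := by
        module
      rw [h2, hmid a ha b hb] at h1
      have h3 : (1 - 2 * t) • g a + (2 * t) • ((1 / 2 : ℝ) • (g a + g b))
          = (1 - t) • g a + t • g b := by
        module
      rw [h3] at h1
      refine h1.trans (le_of_eq ?_)
      have h4 : a - (1 / 2 : ℝ) • (a + b) = (1 / 2 : ℝ) • (a - b) := by module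
      rw [h4, norm_smul]
      norm_num
      field_simp
      ring
    · have h1 := ih _ hmK b hb (2 * t - 1) (by linarith) (by linarith)
      have h2 : (1 - (2 * t - 1)) • ((1 / 2 : ℝ) • (a + b)) + (2 * t - 1) • b
          = (1 - t) • a + t • b := by
        module
      rw [h2, hmid a ha b hb] at h1
      have h3 : (1 - (2 * t - 1)) • ((1 / 2 : ℝ) • (g a + g b)) + (2 * t - 1) • g b
          = (1 - t) • g a + t • g b := by
        module
      rw [h3] at h1
      refine h1.trans (le_of_eq ?_)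
      have h4 : (1 / 2 : ℝ) • (a + b) - b = (1 / 2 : ℝ) • (a - b) := by module
      rw [h4, norm_smul]
      norm_num
      field_simp
      ring

/-- **Finite-dimensional Mankiewicz theorem.** -/
theorem affine_of_isometry [FiniteDimensional ℝ E] [FiniteDimensional ℝ E']
    (H : SetIso K L g h) (hKc : Convex ℝ K) (hLc : Convex ℝ L) {a b : E} (ha : a ∈ K)
    (hb : b ∈ K) {t : ℝ} (ht0 : 0 ≤ t) (ht1 : t ≤ 1) :
    g ((1 - t) • a + t • b) = (1 - t) • g a + t • g b := by
  have happ := affine_approx H hKc (fun a ha b hb => midpoint_of_isometry H hKc hLc ha hb)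
  set D := ‖g ((1 - t) • a + t • b) - ((1 - t) • g a + t • g b)‖ with hD
  have hzero : D ≤ 0 := by
    by_contra hcon
    push Not at hcon
    obtain ⟨n, hn⟩ := pow_unbounded_of_one_lt (2 * ‖a - b‖ / D) (by norm_num : (1 : ℝ) < 2)
    have h1 := happ n a ha b hb t ht0 ht1
    have h2 : (0 : ℝ) < 2 ^ n := by positivity
    rw [div_lt_iff₀ hcon] at hn
    have h3 : 2 / 2 ^ n * ‖a - b‖ < D := by
      rw [div_mul_eq_mul_div, div_lt_iff₀ h2]
      linarith
    linarith
  exact sub_eq_zero.1 (norm_le_zero_iff.1 hzero)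

end Ball

end Vale.Agent.Lib.P084
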