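import Mathlib
import Vale.Agent.Lib.P084.Mankiewicz

/-!
Surjective isometries between unit spheres of finite-dimensional spaces are affine on convex
subsets of the sphere.
-/

namespace Vale.Agent.Lib.P084

open Set Metric

variable {X Y : Type*} [NormedAddCommGroup X] [NormedSpace ℝ X]
  [NormedAddCommGroup Y] [NormedSpace ℝ Y]

/-- `g` and `h` restrict to mutually inverse isometries between the unit spheres. -/
structure SphereIso (g : X → Y) (h : Y → X) : Prop where
  map_g : ∀ x, ‖x‖ = 1 → ‖g x‖ = 1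
  map_h : ∀ y, ‖y‖ = 1 → ‖h y‖ = 1
  left : ∀ x, ‖x‖ = 1 → h (g x) = x
  right : ∀ y, ‖y‖ = 1 → g (h y) = y
  iso : ∀ a b, ‖a‖ = 1 → ‖b‖ = 1 → ‖g a - g b‖ = ‖a - b‖

variable {g : X → Y} {h : Y → X}

lemma SphereIso.iso_h (H : SphereIso g h) (a b : Y) (ha : ‖a‖ = 1) (hb : ‖b‖ = 1) :
    ‖h a - h b‖ = ‖a - b‖ := by
  have := H.iso (h a) (h b) (H.map_h a ha) (H.map_h b hb)
  rw [H.right a ha, H.right b hb] at this
  exact this.symm

lemma SphereIso.symm (H : SphereIso g h) : SphereIso h g :=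
  ⟨H.map_h, H.map_g, H.right, H.left, fun a b ha hb => H.iso_h a b ha hb⟩

/-- A functional separating two antipodal-distance points. -/
lemma exists_functional_sub {a b : X} (ha : ‖a‖ = 1) (hb : ‖b‖ = 1) (hab : ‖a - b‖ = 2) :
    ∃ φ : StrongDual ℝ X, ‖φ‖ ≤ 1 ∧ φ a = 1 ∧ φ b = -1 := by
  obtain ⟨φ, hφ, hφab⟩ := exists_dual_vector'' ℝ (a - b)
  have h1 : φ a - φ b = 2 := by
    rw [← map_sub, hφab, hab]
    simp
  have h2 : |φ a| ≤ 1 := by
    have := φ.le_opNorm a
    rw [ha, mul_one, Real.norm_eq_abs] at this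
    exact this.trans hφ
  have h3 : |φ b| ≤ 1 := by
    have := φ.le_opNorm b
    rw [hb, mul_one, Real.norm_eq_abs] at this
    exact this.trans hφ
  have h4 := abs_le.1 h2
  have h5 := abs_le.1 h3
  exact ⟨φ, hφ, by linarith, by linarith⟩

lemma exists_functional_add {a b : X} (ha : ‖a‖ = 1) (hb : ‖b‖ = 1) (hab : ‖a + b‖ = 2) :
    ∃ φ : StrongDual ℝ X, ‖φ‖ ≤ 1 ∧ φ a = 1 ∧ φ b = 1 := by
  obtain ⟨φ, hφ, h1, h2⟩ := exists_functional_sub (a := a) (b := -b) ha (by rwa [norm_neg])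
    (by rwa [sub_neg_eq_add])
  refine ⟨φ, hφ, h1, ?_⟩
  rw [map_neg] at h2
  linarith

lemma functional_le (φ : StrongDual ℝ X) (hφ : ‖φ‖ ≤ 1) {x : X} : |φ x| ≤ ‖x‖ := by
  have := φ.le_opNorm x
  rw [Real.norm_eq_abs] at this
  have h2 := mul_le_mul_of_nonneg_right hφ (norm_nonneg x)
  linarith

/-- A maximal convex subset of the unit sphere. -/
def IsMaxFace (F : Set X) : Prop :=
  Maximal (fun C : Set X => Convex ℝ C ∧ ∀ p ∈ C, ‖p‖ = 1) F

/-- Every convex subset of the unit sphere lies in a maximal one. -/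
lemma exists_maxFace {C : Set X} (hC : Convex ℝ C) (hCs : ∀ p ∈ C, ‖p‖ = 1) :
    ∃ F, C ⊆ F ∧ IsMaxFace F := by
  obtain ⟨F, hCF, hF⟩ := zorn_subset_nonempty
    {C : Set X | Convex ℝ C ∧ ∀ p ∈ C, ‖p‖ = 1} (by
      intro c hc hchain hne
      refine ⟨⋃₀ c, ⟨?_, ?_⟩, fun s hs => subset_sUnion_of_mem hs⟩
      · exact (hchain.directedOn).convex_sUnion (fun A hA => (hc hA).1)
      · rintro p ⟨A, hA, hpA⟩
        exact (hc hA).2 p hpA) C ⟨hC, hCs⟩
  exact ⟨F, hCF, hF⟩

/-- Facts about a maximal face and a point in its relative interior. -/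
lemma maxFace_facts [FiniteDimensional ℝ X] {F : Set X} (hF : IsMaxFace F) (hne : F.Nonempty) :
    ∃ c ∈ F, ∃ φ : StrongDual ℝ X, ‖φ‖ ≤ 1 ∧ (∀ p ∈ F, φ p = 1) ∧
      ∀ y : X, ‖y‖ = 1 → (y ∈ F ↔ ‖y + c‖ = 2) := by
  obtain ⟨⟨hconv, hsph⟩, hmax⟩ := hF
  obtain ⟨c, hc, s, hs, hball⟩ := exists_relBall hconv hne
  have hcn : ‖c‖ = 1 := hsph c hc
  -- a functional equal to one at `c` is one on `F`
  have hone : ∀ ψ : StrongDual ℝ X, ‖ψ‖ ≤ 1 → ψ c = 1 → ∀ p ∈ F, ψ p = 1 := by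
    intro ψ hψ hψc p hp
    have hpa := subset_affineSpan ℝ F hp
    have hca := subset_affineSpan ℝ F hc
    -- a small step past `c` stays in `F`
    set ε : ℝ := s / (‖c - p‖ + 1) with hε
    have hεpos : 0 < ε := by positivity
    have hq : c + ε • (c - p) ∈ F := by
      refine hball _ ?_ ?_
      · have h1 := lineMap_mem_affineSpan hca hpa (-ε)
        have h2 : c + (-ε) • (p - c) = c + ε • (c - p) := by module
        rwa [h2] at h1
      · have h1 : c + ε • (c - p) - c = ε • (c - p) := by abel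
        rw [h1, norm_smul, Real.norm_of_nonneg hεpos.le, hε, div_mul_eq_mul_div,
          div_le_iff₀ (by positivity)]
        nlinarith [norm_nonneg (c - p)]
    have h3 : ψ (c + ε • (c - p)) ≤ 1 := by
      have := abs_le.1 (functional_le ψ hψ (x := c + ε • (c - p)))
      rw [hsph _ hq] at this
      exact this.2
    have h4 : ψ p ≤ 1 := by
      have := abs_le.1 (functional_le ψ hψ (x := p))
      rw [hsph _ hp] at this
      exact this.2
    rw [map_add, map_smul, map_sub, hψc, smul_eq_mul] at h3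
    have h5 : ε * (1 - ψ p) ≤ 0 := by linarith
    have h6 : 1 - ψ p ≤ 0 := by
      by_contra hcon
      push Not at hcon
      have := mul_pos hεpos hcon
      linarith
    linarith
  obtain ⟨φ, hφ, hφc⟩ := exists_dual_vector'' ℝ c
  have hφc' : φ c = 1 := by
    rw [hφc, hcn]
    simp
  refine ⟨c, hc, φ, hφ, hone φ hφ hφc', fun y hy => ⟨fun hyF => ?_, fun hyc => ?_⟩⟩
  · have h1 := hone φ hφ hφc' y hyF
    have h2 : φ (y + c) = 2 := by
      rw [map_add, h1, hφc']
      norm_num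
    have h3 := (abs_le.1 (functional_le φ hφ (x := y + c))).2
    rw [h2] at h3
    have h4 : ‖y + c‖ ≤ ‖y‖ + ‖c‖ := norm_add_le _ _
    rw [hy, hcn] at h4
    linarith
  · obtain ⟨ψ, hψ, hψy, hψc⟩ := exists_functional_add hy hcn hyc
    have hψF := hone ψ hψ hψc
    -- the exposed face of `ψ` is convex and contains `F` and `y`
    set F' : Set X := {p | ‖p‖ = 1 ∧ ψ p = 1} with hF'
    have hF'conv : Convex ℝ F' := by
      intro u hu v hv α β hα hβ hαβ
      have h1 : ψ (α • u + β • v) = 1 := by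
        rw [map_add, map_smul, map_smul, hu.2, hv.2, smul_eq_mul, smul_eq_mul, mul_one, mul_one,
          hαβ]
      refine ⟨le_antisymm ?_ ?_, h1⟩
      · have := (convex_closedBall (0 : X) 1) (x := u) (y := v) (by simp [hu.1]) (by simp [hv.1])
          hα hβ hαβ
        simpa using this
      · have h2 := (abs_le.1 (functional_le ψ hψ (x := α • u + β • v))).2
        rw [h1] at h2
        exact h2
    have hle : F ≤ F' := fun p hp => ⟨hsph p hp, hψF p hp⟩
    have := hmax ⟨hF'conv, fun p hp => hp.1⟩ hle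
    exact this ⟨hy, hψy⟩

/-- **Lemma A.** The image of a maximal face under a sphere isometry is convex. -/
theorem image_face_convex (H : SphereIso g h) {F : Set X} {c : X} (hc : ‖c‖ = 1)
    (hFs : ∀ p ∈ F, ‖p‖ = 1) (hFc : ∀ y : X, ‖y‖ = 1 → (y ∈ F ↔ ‖y + c‖ = 2))
    {φ : StrongDual ℝ X} (hφ : ‖φ‖ ≤ 1) (hφF : ∀ p ∈ F, φ p = 1) : Convex ℝ (g '' F) := by
  have hmc : ‖-c‖ = 1 := by rwa [norm_neg]
  set q : Y := g (-c) with hq
  have hqn : ‖q‖ = 1 := H.map_g _ hmc
  -- the image is the set of points at distance two from `q`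
  have hchar : ∀ y : Y, ‖y‖ = 1 → ‖y - q‖ = 2 → y ∈ g '' F := by
    intro y hy hyq
    refine ⟨h y, ?_, H.right y hy⟩
    rw [hFc _ (H.map_h y hy)]
    have := H.iso (h y) (-c) (H.map_h y hy) hmc
    rw [H.right y hy, hyq, sub_neg_eq_add] at this
    exact this.symm
  have hchar' : ∀ p ∈ F, ‖g p - q‖ = 2 := by
    intro p hp
    rw [H.iso p (-c) (hFs p hp) hmc, sub_neg_eq_add]
    exact (hFc p (hFs p hp)).1 hp
  intro y₁ hy₁ y₂ hy₂ α β hα hβ hαβ
  obtain ⟨p₁, hp₁, rfl⟩ := hy₁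
  obtain ⟨p₂, hp₂, rfl⟩ := hy₂
  have hn₁ : ‖g p₁‖ = 1 := H.map_g _ (hFs p₁ hp₁)
  have hn₂ : ‖g p₂‖ = 1 := H.map_g _ (hFs p₂ hp₂)
  have hq₁ : ‖q - g p₁‖ = 2 := by
    rw [norm_sub_rev]
    exact hchar' p₁ hp₁
  -- the auxiliary unit vector
  set c' : Y := (1 / 2 : ℝ) • (q - g p₁) with hc'
  have hc'n : ‖c'‖ = 1 := by
    rw [hc', norm_smul, hq₁]
    norm_num
  set w : X := h c' with hw
  have hwn : ‖w‖ = 1 := H.map_h _ hc'n
  have hgw : g w = c' := H.right _ hc'n
  -- a functional at distance two from `c'` also separates `q` and `g p₁`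
  have hsep : ∀ y : Y, ‖y‖ = 1 → ‖y - c'‖ = 2 →
      ∃ χ : StrongDual ℝ Y, ‖χ‖ ≤ 1 ∧ χ y = 1 ∧ χ q = -1 ∧ χ (g p₁) = 1 := by
    intro y hy hyc
    obtain ⟨χ, hχ, h1, h2⟩ := exists_functional_sub hy hc'n hyc
    have h3 : χ q - χ (g p₁) = -2 := by
      have : χ c' = (1 / 2 : ℝ) * (χ q - χ (g p₁)) := by
        rw [hc', map_smul, map_sub, smul_eq_mul]
      rw [h2] at this
      linarith
    have h4 := abs_le.1 (functional_le χ hχ (x := q))
    have h5 := abs_le.1 (functional_le χ hχ (x := g p₁))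
    rw [hqn] at h4
    rw [hn₁] at h5
    exact ⟨χ, hχ, h1, by linarith, by linarith⟩
  -- the points at distance two from `w` lie in `F`
  have hDw : ∀ p : X, ‖p‖ = 1 → ‖p - w‖ = 2 → p ∈ F := by
    intro p hp hpw
    have h1 : ‖g p - c'‖ = 2 := by
      rw [← hgw, H.iso p w hp hwn, hpw]
    obtain ⟨χ, hχ, h2, h3, -⟩ := hsep (g p) (H.map_g p hp) h1
    have h4 : ‖g p - q‖ = 2 := by
      apply le_antisymm
      · refine (norm_sub_le _ _).trans ?_
        rw [H.map_g p hp, hqn]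
        norm_num
      · have := (abs_le.1 (functional_le χ hχ (x := g p - q))).2
        rw [map_sub, h2, h3] at this
        linarith
    obtain ⟨p', hp', hp'eq⟩ := hchar (g p) (H.map_g p hp) h4
    have h5 : p' = p := by
      have := congrArg h hp'eq
      rwa [H.left p' (hFs p' hp'), H.left p hp] at this
    rwa [← h5]
  have hmw : -w ∈ F := by
    refine hDw (-w) (by rwa [norm_neg]) ?_
    have : -w - w = (-2 : ℝ) • w := by module
    rw [this, norm_smul, hwn]
    norm_num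
  have hφw : φ w = -1 := by
    have := hφF _ hmw
    rw [map_neg] at this
    linarith
  -- hence `g p₂` is at distance two from `c'`
  have hp₂w : ‖p₂ - w‖ = 2 := by
    apply le_antisymm
    · refine (norm_sub_le _ _).trans ?_
      rw [hFs p₂ hp₂, hwn]
      norm_num
    · have := (abs_le.1 (functional_le φ hφ (x := p₂ - w))).2
      rw [map_sub, hφF p₂ hp₂, hφw] at this
      linarith
  have hy₂c : ‖g p₂ - c'‖ = 2 := by
    rw [← hgw, H.iso p₂ w (hFs p₂ hp₂) hwn, hp₂w]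
  obtain ⟨χ, hχ, h1, h2, h3⟩ := hsep (g p₂) hn₂ hy₂c
  set y : Y := α • g p₁ + β • g p₂ with hy
  have hχy : χ y = 1 := by
    rw [hy, map_add, map_smul, map_smul, h1, h3, smul_eq_mul, smul_eq_mul, mul_one, mul_one, hαβ]
  have hyn : ‖y‖ = 1 := by
    refine le_antisymm ?_ ?_
    · have := (convex_closedBall (0 : Y) 1) (x := g p₁) (y := g p₂) (by simp [hn₁]) (by simp [hn₂])
        hα hβ hαβ
      simpa using this
    · have := (abs_le.1 (functional_le χ hχ (x := y))).2
      rwa [hχy] at this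
  refine hchar y hyn ?_
  apply le_antisymm
  · refine (norm_sub_le _ _).trans ?_
    rw [hyn, hqn]
    norm_num
  · have := (abs_le.1 (functional_le χ hχ (x := y - q))).2
    rw [map_sub, hχy, h2] at this
    linarith

/-- **Main lemma.** A sphere isometry between finite-dimensional spaces is affine on segments
lying in the unit sphere. -/
theorem sphere_affine [FiniteDimensional ℝ X] [FiniteDimensional ℝ Y] (H : SphereIso g h)
    {a b : X} (ha : ‖a‖ = 1) (hb : ‖b‖ = 1) (hab : ‖a + b‖ = 2) {t : ℝ} (ht0 : 0 ≤ t)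
    (ht1 : t ≤ 1) : g ((1 - t) • a + t • b) = (1 - t) • g a + t • g b := by
  obtain ⟨φ, hφ, hφa, hφb⟩ := exists_functional_add ha hb hab
  -- the exposed face
  set C : Set X := {p | ‖p‖ = 1 ∧ φ p = 1} with hC
  have hCconv : Convex ℝ C := by
    intro u hu v hv α β hα hβ hαβ
    have h1 : φ (α • u + β • v) = 1 := by
      rw [map_add, map_smul, map_smul, hu.2, hv.2, smul_eq_mul, smul_eq_mul, mul_one, mul_one, hαβ]
    refine ⟨le_antisymm ?_ ?_, h1⟩
    · have := (convex_closedBall (0 : X) 1) (x := u) (y := v) (by simp [hu.1]) (by simp [hv.1])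
        hα hβ hαβ
      simpa using this
    · have h2 := (abs_le.1 (functional_le φ hφ (x := α • u + β • v))).2
      rw [h1] at h2
      exact h2
  obtain ⟨F, hCF, hF⟩ := exists_maxFace hCconv (fun p hp => hp.1)
  have haF : a ∈ F := hCF ⟨ha, hφa⟩
  have hbF : b ∈ F := hCF ⟨hb, hφb⟩
  obtain ⟨c, hc, ψ, hψ, hψF, hFc⟩ := maxFace_facts hF ⟨a, haF⟩
  have hFs : ∀ p ∈ F, ‖p‖ = 1 := hF.prop.2
  have hconv : Convex ℝ (g '' F) := image_face_convex H (hFs c hc) hFs hFc hψ hψF
  have hiso : SetIso F (g '' F) g h := by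
    refine ⟨fun x hx => ⟨x, hx, rfl⟩, ?_, fun x hx => H.left x (hFs x hx), ?_, fun u hu v hv =>
      H.iso u v (hFs u hu) (hFs v hv)⟩
    · rintro y ⟨p, hp, rfl⟩
      rwa [H.left p (hFs p hp)]
    · rintro y ⟨p, hp, rfl⟩
      rw [H.left p (hFs p hp)]
  exact affine_of_isometry hiso hF.prop.1 hconv haF hbF ht0 ht1

/-- Two points of the sphere at distance... with `‖a + b‖ = 2` have images with the same property. -/
theorem sphere_norm_add [FiniteDimensional ℝ X] [FiniteDimensional ℝ Y] (H : SphereIso g h)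
    {a b : X} (ha : ‖a‖ = 1) (hb : ‖b‖ = 1) (hab : ‖a + b‖ = 2) : ‖g a + g b‖ = 2 := by
  have h1 := sphere_affine H ha hb hab (t := 1 / 2) (by norm_num) (by norm_num)
  have h2 : ‖(1 - (1 / 2 : ℝ)) • a + (1 / 2 : ℝ) • b‖ = 1 := by
    have : (1 - (1 / 2 : ℝ)) • a + (1 / 2 : ℝ) • b = (1 / 2 : ℝ) • (a + b) := by module
    rw [this, norm_smul, hab]
    norm_num
  have h3 := H.map_g _ h2
  rw [h1] at h3
  have h4 : (1 - (1 / 2 : ℝ)) • g a + (1 / 2 : ℝ) • g b = (1 / 2 : ℝ) • (g a + g b) := by module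
  rw [h4, norm_smul] at h3
  norm_num at h3
  linarith

end Vale.Agent.Lib.P084
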