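import Mathlib
import Vale.Agent.Lib.P084.Sphere

namespace Vale.Agent.Lib.P084

open Set Metric

variable {X Y : Type*} [NormedAddCommGroup X] [NormedSpace ℝ X]
  [NormedAddCommGroup Y] [NormedSpace ℝ Y]

/-- A surjective isometry between unit spheres, as a pair of functions on the ambient spaces. -/
theorem exists_sphereIso (f : sphere (0 : X) 1 ≃ᵢ sphere (0 : Y) 1) :
    ∃ (g : X → Y) (h : Y → X), SphereIso g h ∧ ∀ x : sphere (0 : X) 1, g x = f x := by
  classical
  have hX : ∀ x : X, ‖x‖ = 1 → x ∈ sphere (0 : X) 1 := fun x hx => by simpa using hx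
  have hY : ∀ y : Y, ‖y‖ = 1 → y ∈ sphere (0 : Y) 1 := fun y hy => by simpa using hy
  refine ⟨fun x => if hx : ‖x‖ = 1 then (f ⟨x, hX x hx⟩ : Y) else 0,
    fun y => if hy : ‖y‖ = 1 then (f.symm ⟨y, hY y hy⟩ : X) else 0, ⟨?_, ?_, ?_, ?_, ?_⟩, ?_⟩
  · intro x hx
    simp only [hx, dif_pos]
    simpa using (f ⟨x, hX x hx⟩).2
  · intro y hy
    simp only [hy, dif_pos]
    simpa using (f.symm ⟨y, hY y hy⟩).2
  · intro x hx
    have h1 : ‖(f ⟨x, hX x hx⟩ : Y)‖ = 1 := by
      simpa using (f ⟨x, hX x hx⟩).2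
    simp only [hx, dif_pos, h1]
    simp
  · intro y hy
    have h1 : ‖(f.symm ⟨y, hY y hy⟩ : X)‖ = 1 := by
      simpa using (f.symm ⟨y, hY y hy⟩).2
    simp only [hy, dif_pos, h1]
    simp
  · intro a b ha hb
    simp only [ha, hb, dif_pos]
    have := f.dist_eq ⟨a, hX a ha⟩ ⟨b, hX b hb⟩
    rw [Subtype.dist_eq, Subtype.dist_eq, dist_eq_norm, dist_eq_norm] at this
    exact this
  · intro x
    have hx : ‖(x : X)‖ = 1 := by simpa using x.2
    simp [hx]

/-- The target of a sphere isometry from a finite-dimensional space is finite-dimensional. -/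
theorem finiteDimensional_of_sphere [FiniteDimensional ℝ X]
    (f : sphere (0 : X) 1 ≃ᵢ sphere (0 : Y) 1) : FiniteDimensional ℝ Y := by
  haveI : CompactSpace (sphere (0 : X) 1) := isCompact_iff_compactSpace.1 (isCompact_sphere _ _)
  have h1 : IsCompact (sphere (0 : Y) 1) := by
    have h2 : IsCompact (range fun x : sphere (0 : X) 1 => (f x : Y)) :=
      isCompact_range (continuous_subtype_val.comp f.continuous)
    have h3 : (range fun x : sphere (0 : X) 1 => (f x : Y)) = sphere (0 : Y) 1 := by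
      ext y
      constructor
      · rintro ⟨x, rfl⟩
        exact (f x).2
      · intro hy
        refine ⟨f.symm ⟨y, hy⟩, ?_⟩
        simp
    rwa [h3] at h2
  have h4 : IsCompact (((fun p : ℝ × Y => p.1 • p.2) '' (Icc (0 : ℝ) 1 ×ˢ sphere (0 : Y) 1))
      ∪ {0}) := by
    refine IsCompact.union ?_ isCompact_singleton
    refine (isCompact_Icc.prod h1).image ?_
    exact continuous_fst.smul continuous_snd
  have h5 : closedBall (0 : Y) 1 ⊆ ((fun p : ℝ × Y => p.1 • p.2) '' (Icc (0 : ℝ) 1 ×ˢ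
      sphere (0 : Y) 1)) ∪ {0} := by
    intro v hv
    by_cases hv0 : v = 0
    · right
      exact hv0
    · left
      have hn : ‖v‖ ≠ 0 := norm_ne_zero_iff.2 hv0
      refine ⟨(‖v‖, ‖v‖⁻¹ • v), ⟨⟨norm_nonneg v, by simpa using hv⟩, ?_⟩, ?_⟩
      · simp [norm_smul, hn]
      · simp [smul_smul, hn]
  have h6 : IsCompact (closedBall (0 : Y) 1) := h4.of_isClosed_subset isClosed_closedBall h5
  exact FiniteDimensional.of_isCompact_closedBall ℝ one_pos h6

end Vale.Agent.Lib.P084
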