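import Mathlib
import Vale.Agent.Lib.P084.Sphere

/-! Radial extensions of maps defined on unit spheres, and the conjugate by the antipodal map. -/

namespace Vale.Agent.Lib.P084

open Set Metric

variable {E F : Type*} [NormedAddCommGroup E] [NormedSpace ℝ E]
  [NormedAddCommGroup F] [NormedSpace ℝ F]

/-- Radial extension of a map defined on the unit sphere. -/
noncomputable def radial (φ : E → F) (v : E) : F := ‖v‖ • φ (‖v‖⁻¹ • v)

lemma radial_of_unit (φ : E → F) {v : E} (hv : ‖v‖ = 1) : radial φ v = φ v := by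
  simp [radial, hv]

lemma radial_zero (φ : E → F) : radial φ 0 = 0 := by
  simp [radial]

lemma unit_of_ne {v : E} (hv : v ≠ 0) : ‖‖v‖⁻¹ • v‖ = 1 := by
  have hn : ‖v‖ ≠ 0 := norm_ne_zero_iff.2 hv
  rw [norm_smul, norm_inv, norm_norm, inv_mul_cancel₀ hn]

lemma radial_smul (φ : E → F) {t : ℝ} (ht : 0 ≤ t) (v : E) : radial φ (t • v) = t • radial φ v := by
  rcases ht.eq_or_lt with rfl | ht
  · simp [radial_zero]
  · by_cases hv : v = 0
    · simp [hv, radial_zero]
    · have hn : ‖v‖ ≠ 0 := norm_ne_zero_iff.2 hv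
      have h1 : ‖t • v‖ = t * ‖v‖ := by
        rw [norm_smul, Real.norm_of_nonneg ht.le]
      have h2 : ‖t • v‖⁻¹ • t • v = ‖v‖⁻¹ • v := by
        rw [h1, smul_smul]
        congr 1
        field_simp
      simp only [radial]
      rw [h2, h1, mul_smul]

lemma radial_neg (φ : E → F) (hodd : ∀ v, ‖v‖ = 1 → φ (-v) = -φ v) (v : E) :
    radial φ (-v) = -radial φ v := by
  by_cases hv : v = 0
  · simp [hv, radial_zero]
  · simp only [radial, norm_neg, smul_neg]
    rw [hodd _ (unit_of_ne hv), smul_neg]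

/-- A map that is homogeneous and midpoint-additive on the unit ball is additive. -/
lemma add_of_midpoint_ball (ψ : E → F) (hhom : ∀ t : ℝ, 0 ≤ t → ∀ v, ψ (t • v) = t • ψ v)
    (hmid : ∀ v v' : E, ‖v‖ ≤ 1 → ‖v'‖ ≤ 1 →
      ψ ((1 / 2 : ℝ) • (v + v')) = (1 / 2 : ℝ) • (ψ v + ψ v')) (v v' : E) :
    ψ (v + v') = ψ v + ψ v' := by
  set c : ℝ := ‖v‖ + ‖v'‖ + 1 with hc
  have hcpos : 0 < c := by positivity
  have hv1 : ‖c⁻¹ • v‖ ≤ 1 := by
    rw [norm_smul, norm_inv, Real.norm_of_nonneg hcpos.le, inv_mul_le_iff₀ hcpos]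
    linarith [norm_nonneg v, norm_nonneg v']
  have hv2 : ‖c⁻¹ • v'‖ ≤ 1 := by
    rw [norm_smul, norm_inv, Real.norm_of_nonneg hcpos.le, inv_mul_le_iff₀ hcpos]
    linarith [norm_nonneg v, norm_nonneg v']
  have h1 : v + v' = (2 * c) • ((1 / 2 : ℝ) • (c⁻¹ • v + c⁻¹ • v')) := by
    rw [smul_smul, smul_add, smul_smul, smul_smul]
    have : 2 * c * (1 / 2) * c⁻¹ = 1 := by
      field_simp
    rw [this, one_smul, one_smul]
  have h2 : ∀ u : E, ψ u = c • ψ (c⁻¹ • u) := by
    intro u
    rw [← hhom c hcpos.le, smul_smul, mul_inv_cancel₀ hcpos.ne', one_smul]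
  rw [h1, hhom (2 * c) (by positivity), hmid _ _ hv1 hv2, h2 v, h2 v']
  simp only [smul_smul, smul_add]
  have : 2 * c * (1 / 2) = c := by ring
  rw [this]

/-- The real-linear map given by a homogeneous, odd, additive function. -/
noncomputable def linearOfAdd (ψ : E → F) (hadd : ∀ v v', ψ (v + v') = ψ v + ψ v')
    (hhom : ∀ t : ℝ, 0 ≤ t → ∀ v, ψ (t • v) = t • ψ v)
    (hneg : ∀ v, ψ (-v) = -ψ v) : E →ₗ[ℝ] F where
  toFun := ψ
  map_add' := hadd
  map_smul' := by
    intro r v
    rcases le_total 0 r with hr | hr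
    · exact hhom r hr v
    · have h1 : r • v = (-r) • (-v) := by simp
      simp only [RingHom.id_apply]
      rw [h1, hhom (-r) (by linarith), hneg]
      simp

section NegConj

variable {X Y : Type*} [NormedAddCommGroup X] [NormedSpace ℝ X]
  [NormedAddCommGroup Y] [NormedSpace ℝ Y] {g : X → Y} {h : Y → X}

/-- The conjugate of the antipodal map by a sphere isometry. -/
lemma SphereIso.negConj (H : SphereIso g h) :
    SphereIso (fun x => -h (-g x)) (fun x => h (-g (-x))) := by
  refine ⟨?_, ?_, ?_, ?_, ?_⟩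
  · intro x hx
    rw [norm_neg]
    exact H.map_h _ (by rw [norm_neg]; exact H.map_g x hx)
  · intro x hx
    exact H.map_h _ (by rw [norm_neg]; exact H.map_g _ (by rwa [norm_neg]))
  · intro x hx
    have h1 : ‖-g x‖ = 1 := by
      rw [norm_neg]
      exact H.map_g x hx
    simp only [neg_neg]
    rw [H.right _ h1, neg_neg, H.left x hx]
  · intro x hx
    have h1 : ‖-x‖ = 1 := by rwa [norm_neg]
    have h2 : ‖-g (-x)‖ = 1 := by
      rw [norm_neg]
      exact H.map_g _ h1
    rw [H.right _ h2, neg_neg, H.left _ h1, neg_neg]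
  · intro a b ha hb
    have h1 : ‖-g a‖ = 1 := by
      rw [norm_neg]
      exact H.map_g a ha
    have h2 : ‖-g b‖ = 1 := by
      rw [norm_neg]
      exact H.map_g b hb
    have h3 : -h (-g a) - -h (-g b) = -(h (-g a) - h (-g b)) := by abel
    rw [h3, norm_neg, H.iso_h _ _ h1 h2]
    have h4 : -g a - -g b = -(g a - g b) := by abel
    rw [h4, norm_neg, H.iso a b ha hb]

end NegConj

end Vale.Agent.Lib.P084
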