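import Mathlib
import Vale.Agent.Lib.P084.Radial
import Vale.Agent.Lib.P084.Interface

/-! Sphere isometries of `ℓ_∞`-sums of two nontrivial finite-dimensional spaces extend linearly. -/

namespace Vale.Agent.Lib.P084

open Set Metric

variable {Z W Y : Type*} [NormedAddCommGroup Z] [NormedSpace ℝ Z]
  [NormedAddCommGroup W] [NormedSpace ℝ W] [NormedAddCommGroup Y] [NormedSpace ℝ Y]

lemma norm_pair_left {z : Z} {w : W} (hz : ‖z‖ = 1) (hw : ‖w‖ ≤ 1) : ‖(z, w)‖ = 1 := by
  rw [Prod.norm_mk, hz]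
  exact max_eq_left hw

lemma norm_pair_right {z : Z} {w : W} (hz : ‖z‖ ≤ 1) (hw : ‖w‖ = 1) : ‖(z, w)‖ = 1 := by
  rw [Prod.norm_mk, hw]
  exact max_eq_right hz

section Slices

variable [FiniteDimensional ℝ Z] [FiniteDimensional ℝ W] [FiniteDimensional ℝ Y]
  {g : Z × W → Y} {h : Y → Z × W}

lemma slice_left (H : SphereIso g h) {z : Z} {w₁ w₂ : W} (hz : ‖z‖ = 1) (h₁ : ‖w₁‖ ≤ 1)
    (h₂ : ‖w₂‖ ≤ 1) {t : ℝ} (ht0 : 0 ≤ t) (ht1 : t ≤ 1) :
    g (z, (1 - t) • w₁ + t • w₂) = (1 - t) • g (z, w₁) + t • g (z, w₂) := by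
  have hsum : ‖((z, w₁) : Z × W) + (z, w₂)‖ = 2 := by
    rw [Prod.mk_add_mk, Prod.norm_mk]
    have h1 : ‖z + z‖ = 2 := by
      rw [← two_smul ℝ z, norm_smul, hz]
      norm_num
    have h2 : ‖w₁ + w₂‖ ≤ 2 := (norm_add_le _ _).trans (by linarith)
    rw [h1]
    exact max_eq_left h2
  have h1 := sphere_affine H (norm_pair_left hz h₁) (norm_pair_left hz h₂) hsum ht0 ht1
  have h2 : (1 - t) • ((z, w₁) : Z × W) + t • (z, w₂) = (z, (1 - t) • w₁ + t • w₂) := by
    ext
    · simp only [Prod.fst_add, Prod.smul_fst]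
      module
    · simp
  rwa [h2] at h1

lemma slice_right (H : SphereIso g h) {z₁ z₂ : Z} {w : W} (h₁ : ‖z₁‖ ≤ 1) (h₂ : ‖z₂‖ ≤ 1)
    (hw : ‖w‖ = 1) {t : ℝ} (ht0 : 0 ≤ t) (ht1 : t ≤ 1) :
    g ((1 - t) • z₁ + t • z₂, w) = (1 - t) • g (z₁, w) + t • g (z₂, w) := by
  have hsum : ‖((z₁, w) : Z × W) + (z₂, w)‖ = 2 := by
    rw [Prod.mk_add_mk, Prod.norm_mk]
    have h1 : ‖w + w‖ = 2 := by
      rw [← two_smul ℝ w, norm_smul, hw]
      norm_num
    have h2 : ‖z₁ + z₂‖ ≤ 2 := (norm_add_le _ _).trans (by linarith)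
    rw [h1]
    exact max_eq_right h2
  have h1 := sphere_affine H (norm_pair_right h₁ hw) (norm_pair_right h₂ hw) hsum ht0 ht1
  have h2 : (1 - t) • ((z₁, w) : Z × W) + t • (z₂, w) = ((1 - t) • z₁ + t • z₂, w) := by
    ext
    · simp
    · simp only [Prod.snd_add, Prod.smul_snd]
      module
  rwa [h2] at h1

lemma mid_left (H : SphereIso g h) {z : Z} {w : W} (hz : ‖z‖ = 1) (hw : ‖w‖ ≤ 1) :
    g (z, w) + g (z, -w) = (2 : ℝ) • g (z, 0) := by
  have h1 := slice_left H hz hw (w₂ := -w) (by rwa [norm_neg]) (t := 1 / 2) (by norm_num)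
    (by norm_num)
  have h2 : (1 - (1 / 2 : ℝ)) • w + (1 / 2 : ℝ) • (-w) = 0 := by module
  rw [h2] at h1
  rw [h1]
  module

lemma mid_right (H : SphereIso g h) {z : Z} {w : W} (hz : ‖z‖ ≤ 1) (hw : ‖w‖ = 1) :
    g (z, w) + g (-z, w) = (2 : ℝ) • g (0, w) := by
  have h1 := slice_right H hz (z₂ := -z) (by rwa [norm_neg]) hw (t := 1 / 2) (by norm_num)
    (by norm_num)
  have h2 : (1 - (1 / 2 : ℝ)) • z + (1 / 2 : ℝ) • (-z) = 0 := by module
  rw [h2] at h1
  rw [h1]
  module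

lemma axes_sum (H : SphereIso g h) {z : Z} {w : W} (hz : ‖z‖ = 1) (hw : ‖w‖ = 1) :
    g (z, 0) + g (-z, 0) = g (0, w) + g (0, -w) := by
  have hz' : ‖-z‖ = 1 := by rwa [norm_neg]
  have hw' : ‖-w‖ = 1 := by rwa [norm_neg]
  have h1 := mid_left H hz hw.le
  have h2 := mid_left H hz' hw.le
  have h3 := mid_right H hz.le hw
  have h4 := mid_right H hz.le hw'
  have h5 : (2 : ℝ) • (g (z, 0) + g (-z, 0)) = (2 : ℝ) • (g (0, w) + g (0, -w)) := by
    rw [smul_add, smul_add, ← h1, ← h2, ← h3, ← h4]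
    abel
  exact smul_right_injective Y (by norm_num : (2 : ℝ) ≠ 0) h5

/-- The axes are mapped oddly. -/
lemma axes_odd [Nontrivial Z] [Nontrivial W] (H : SphereIso g h) :
    (∀ z : Z, ‖z‖ = 1 → g (-z, 0) = -g (z, 0)) ∧ (∀ w : W, ‖w‖ = 1 → g (0, -w) = -g (0, w)) := by
  obtain ⟨z₀, hz₀⟩ : ∃ z : Z, ‖z‖ = 1 := exists_norm_eq Z zero_le_one
  obtain ⟨w₀, hw₀⟩ : ∃ w : W, ‖w‖ = 1 := exists_norm_eq W zero_le_one
  set s : Y := g (z₀, 0) + g (-z₀, 0) with hs
  have hsz : ∀ z : Z, ‖z‖ = 1 → g (z, 0) + g (-z, 0) = s := by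
    intro z hz
    rw [axes_sum H hz hw₀, hs, axes_sum H hz₀ hw₀]
  have hsw : ∀ w : W, ‖w‖ = 1 → g (0, w) + g (0, -w) = s := by
    intro w hw
    rw [hs, axes_sum H hz₀ hw]
  have hs0 : s = 0 := by
    by_contra hne
    have hsn : ‖s‖ ≠ 0 := norm_ne_zero_iff.2 hne
    have hspos : 0 < ‖s‖ := norm_pos_iff.2 hne
    set y : Y := ‖s‖⁻¹ • s with hy
    have hyn : ‖y‖ = 1 := by
      rw [hy, norm_smul, norm_inv, norm_norm, inv_mul_cancel₀ hsn]
    have hpn := H.map_h y hyn
    have hgp : g (h y) = y := H.right y hyn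
    -- from the functional
    have key : ∀ (u u' : Y), ‖u‖ = 1 → ‖u'‖ = 1 → u + u' = s → ‖y - u'‖ = 2 → False := by
      intro u u' hu hu' huu hyu
      obtain ⟨χ, hχ, h1, h2⟩ := exists_functional_sub hyn hu' hyu
      have h3 : χ s = ‖s‖ := by
        have h4 : s = ‖s‖ • y := by
          rw [hy, smul_smul, mul_inv_cancel₀ hsn, one_smul]
        calc χ s = χ (‖s‖ • y) := by rw [← h4]
          _ = ‖s‖ := by rw [map_smul, h1, smul_eq_mul, mul_one]
      have h5 : χ u + χ u' = ‖s‖ := by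
        rw [← map_add, huu, h3]
      rw [h2] at h5
      have h6 := (abs_le.1 (functional_le χ hχ (x := u))).2
      rw [hu] at h6
      linarith
    have hmax : ‖(h y).1‖ = 1 ∨ ‖(h y).2‖ = 1 := by
      have h1 : max ‖(h y).1‖ ‖(h y).2‖ = 1 := by
        rw [← Prod.norm_def]
        exact hpn
      rcases max_choice ‖(h y).1‖ ‖(h y).2‖ with h2 | h2
      · left
        rwa [h2] at h1
      · right
        rwa [h2] at h1
    have hle1 : ‖(h y).1‖ ≤ 1 := by
      have := norm_fst_le (h y)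
      rwa [hpn] at this
    have hle2 : ‖(h y).2‖ ≤ 1 := by
      have := norm_snd_le (h y)
      rwa [hpn] at this
    rcases hmax with h1 | h1
    · set z := (h y).1 with hz
      have hz' : ‖-z‖ = 1 := by rwa [norm_neg]
      refine key (g (z, 0)) (g (-z, 0)) (H.map_g _ (norm_pair_left h1 (by simp)))
        (H.map_g _ (norm_pair_left hz' (by simp))) (hsz z h1) ?_
      have h2 : ‖g (h y) - g (-z, 0)‖ = ‖h y - (-z, 0)‖ :=
        H.iso _ _ hpn (norm_pair_left hz' (by simp))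
      rw [hgp] at h2
      rw [h2, Prod.norm_def]
      have h3 : (h y - ((-z, 0) : Z × W)).1 = (2 : ℝ) • z := by
        simp only [Prod.fst_sub, hz]
        module
      have h4 : (h y - ((-z, 0) : Z × W)).2 = (h y).2 := by
        simp
      rw [h3, h4, norm_smul, h1]
      norm_num
      linarith
    · set w := (h y).2 with hw
      have hw' : ‖-w‖ = 1 := by rwa [norm_neg]
      refine key (g (0, w)) (g (0, -w)) (H.map_g _ (norm_pair_right (by simp) h1))
        (H.map_g _ (norm_pair_right (by simp) hw')) (hsw w h1) ?_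
      have h2 : ‖g (h y) - g (0, -w)‖ = ‖h y - (0, -w)‖ :=
        H.iso _ _ hpn (norm_pair_right (by simp) hw')
      rw [hgp] at h2
      rw [h2, Prod.norm_def]
      have h3 : (h y - ((0, -w) : Z × W)).2 = (2 : ℝ) • w := by
        simp only [Prod.snd_sub, hw]
        module
      have h4 : (h y - ((0, -w) : Z × W)).1 = (h y).1 := by
        simp
      rw [h3, h4, norm_smul, h1]
      norm_num
      linarith
  constructor
  · intro z hz
    have := hsz z hz
    rw [hs0] at this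
    exact eq_neg_of_add_eq_zero_right this
  · intro w hw
    have := hsw w hw
    rw [hs0] at this
    exact eq_neg_of_add_eq_zero_right this

end Slices

section Extreme

variable {E : Type*} [NormedAddCommGroup E] [NormedSpace ℝ E]

lemma norm_of_extreme [Nontrivial E] {e : E} (he : e ∈ (closedBall (0 : E) 1).extremePoints ℝ) :
    ‖e‖ = 1 := by
  by_contra hne
  have hle : ‖e‖ ≤ 1 := by simpa using he.1
  have hlt : ‖e‖ < 1 := lt_of_le_of_ne hle hne
  obtain ⟨u, hu⟩ : ∃ u : E, ‖u‖ = 1 := exists_norm_eq E zero_le_one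
  set ε : ℝ := 1 - ‖e‖ with hε
  have hεpos : 0 < ε := by linarith
  have h1 : e + ε • u ∈ closedBall (0 : E) 1 := by
    rw [mem_closedBall_zero_iff]
    refine (norm_add_le _ _).trans ?_
    rw [norm_smul, hu, Real.norm_of_nonneg hεpos.le]
    linarith
  have h2 : e - ε • u ∈ closedBall (0 : E) 1 := by
    rw [mem_closedBall_zero_iff]
    refine (norm_sub_le _ _).trans ?_
    rw [norm_smul, hu, Real.norm_of_nonneg hεpos.le]
    linarith
  have h3 : e ∈ openSegment ℝ (e + ε • u) (e - ε • u) := by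
    refine ⟨1 / 2, 1 / 2, by norm_num, by norm_num, by norm_num, ?_⟩
    module
  have h4 := ((mem_extremePoints.1 he).2 _ h1 _ h2 h3).1
  have h5 : ε • u = 0 := by
    have : e + ε • u - e = 0 := by rw [h4]; abel
    simpa using this
  rcases smul_eq_zero.1 h5 with h6 | h6
  · linarith
  · rw [h6, norm_zero] at hu
    norm_num at hu

lemma extreme_of_sum {e p q : E} (he : e ∈ (closedBall (0 : E) 1).extremePoints ℝ)
    (hp : ‖p‖ ≤ 1) (hq : ‖q‖ ≤ 1) (hpq : p + q = (2 : ℝ) • e) : p = e := by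
  have h3 : e ∈ openSegment ℝ p q := by
    refine ⟨1 / 2, 1 / 2, by norm_num, by norm_num, by norm_num, ?_⟩
    have : (1 / 2 : ℝ) • p + (1 / 2 : ℝ) • q = (1 / 2 : ℝ) • (p + q) := by module
    rw [this, hpq]
    module
  exact ((mem_extremePoints.1 he).2 _ (by simpa using hp) _ (by simpa using hq) h3).1

/-- Krein-Milman in the form we need. -/
lemma ball_subset_of_extreme [FiniteDimensional ℝ E] {C : Set E} (hCconv : Convex ℝ C)
    (hCcl : IsClosed C) (hext : (closedBall (0 : E) 1).extremePoints ℝ ⊆ C) :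
    closedBall (0 : E) 1 ⊆ C := by
  have h1 := closure_convexHull_extremePoints (isCompact_closedBall (0 : E) 1)
    (convex_closedBall (0 : E) 1)
  rw [← h1]
  exact closure_minimal (convexHull_min hext hCconv) hCcl

end Extreme

section Identity

variable [FiniteDimensional ℝ Z] [FiniteDimensional ℝ W]
  {τ τ' : Z × W → Z × W}

/-- A sphere isometry of the sum fixing the axes is the identity on the sphere. -/
theorem eq_id_of_fix_axes [Nontrivial Z] [Nontrivial W] (H : SphereIso τ τ')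
    (hz : ∀ z : Z, ‖z‖ = 1 → τ (z, 0) = (z, 0)) (hw : ∀ w : W, ‖w‖ = 1 → τ (0, w) = (0, w)) :
    ∀ x : Z × W, ‖x‖ = 1 → τ x = x := by
  -- both coordinates are controlled at extreme points
  have hext : ∀ z : Z, z ∈ (closedBall (0 : Z) 1).extremePoints ℝ →
      ∀ w : W, w ∈ (closedBall (0 : W) 1).extremePoints ℝ → τ (z, w) = (z, w) := by
    intro z hzext w hwext
    have hzn := norm_of_extreme hzext
    have hwn := norm_of_extreme hwext
    have hzn' : ‖-z‖ = 1 := by rwa [norm_neg]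
    have hwn' : ‖-w‖ = 1 := by rwa [norm_neg]
    have h1 := mid_left H hzn hwn.le
    have h2 := mid_right H hzn.le hwn
    rw [hz z hzn] at h1
    rw [hw w hwn] at h2
    have hn1 : ‖τ (z, w)‖ = 1 := H.map_g _ (norm_pair_left hzn hwn.le)
    have hn2 : ‖τ (z, -w)‖ = 1 := H.map_g _ (norm_pair_left hzn hwn'.le)
    have hn3 : ‖τ (-z, w)‖ = 1 := H.map_g _ (norm_pair_left hzn' hwn.le)
    have e1 : (τ (z, w)).1 = z := by
      refine extreme_of_sum hzext ?_ (q := (τ (z, -w)).1) ?_ ?_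
      · exact (norm_fst_le _).trans hn1.le
      · exact (norm_fst_le _).trans hn2.le
      · have := congrArg Prod.fst h1
        simpa using this
    have e2 : (τ (z, w)).2 = w := by
      refine extreme_of_sum hwext ?_ (q := (τ (-z, w)).2) ?_ ?_
      · exact (norm_snd_le _).trans hn1.le
      · exact (norm_snd_le _).trans hn3.le
      · have := congrArg Prod.snd h2
        simpa using this
    exact Prod.ext e1 e2
  -- extension along slices
  have hleft : ∀ z : Z, ‖z‖ = 1 →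
      (∀ w : W, w ∈ (closedBall (0 : W) 1).extremePoints ℝ → τ (z, w) = (z, w)) →
      ∀ w : W, ‖w‖ ≤ 1 → τ (z, w) = (z, w) := by
    intro z hzn hfix
    set C : Set W := closedBall (0 : W) 1 ∩ (fun w => τ (z, w) - (z, w)) ⁻¹' {0} with hC
    have hCconv : Convex ℝ C := by
      intro u hu v hv α β hα hβ hαβ
      have hu1 : ‖u‖ ≤ 1 := by simpa using hu.1
      have hv1 : ‖v‖ ≤ 1 := by simpa using hv.1
      have hu2 : τ (z, u) = (z, u) := sub_eq_zero.1 hu.2
      have hv2 : τ (z, v) = (z, v) := sub_eq_zero.1 hv.2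
      refine ⟨(convex_closedBall (0 : W) 1) hu.1 hv.1 hα hβ hαβ, ?_⟩
      have h1 := slice_left H hzn hu1 hv1 (t := β) hβ (by linarith)
      have h2 : 1 - β = α := by linarith
      rw [h2, hu2, hv2] at h1
      simp only [mem_preimage, mem_singleton_iff, sub_eq_zero]
      rw [h1]
      ext
      · simp only [Prod.fst_add, Prod.smul_fst]
        rw [← add_smul, hαβ, one_smul]
      · simp
    have hCcl : IsClosed C := by
      refine ContinuousOn.preimage_isClosed_of_isClosed ?_ isClosed_closedBall isClosed_singleton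
      have h1 : ContinuousOn (fun w : W => τ (z, w)) (closedBall (0 : W) 1) := by
        rw [Metric.continuousOn_iff]
        intro b hb ε hε
        refine ⟨ε, hε, fun a ha hab => ?_⟩
        have ha1 : ‖a‖ ≤ 1 := by simpa using ha
        have hb1 : ‖b‖ ≤ 1 := by simpa using hb
        rw [dist_eq_norm, H.iso _ _ (norm_pair_left hzn ha1) (norm_pair_left hzn hb1),
          ← dist_eq_norm]
        have : dist ((z, a) : Z × W) (z, b) = dist a b := by
          rw [Prod.dist_eq, dist_self]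
          exact max_eq_right dist_nonneg
        rwa [this]
      have h2 : Continuous (fun w : W => ((z, w) : Z × W)) := by fun_prop
      exact h1.sub h2.continuousOn
    have hsub := ball_subset_of_extreme hCconv hCcl (fun w hw =>
      ⟨hw.1, sub_eq_zero.2 (hfix w hw)⟩)
    intro w hwn
    exact sub_eq_zero.1 (hsub (by simpa using hwn)).2
  have hright : ∀ w : W, ‖w‖ = 1 →
      (∀ z : Z, z ∈ (closedBall (0 : Z) 1).extremePoints ℝ → τ (z, w) = (z, w)) →
      ∀ z : Z, ‖z‖ ≤ 1 → τ (z, w) = (z, w) := by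
    intro w hwn hfix
    set C : Set Z := closedBall (0 : Z) 1 ∩ (fun z => τ (z, w) - (z, w)) ⁻¹' {0} with hC
    have hCconv : Convex ℝ C := by
      intro u hu v hv α β hα hβ hαβ
      have hu1 : ‖u‖ ≤ 1 := by simpa using hu.1
      have hv1 : ‖v‖ ≤ 1 := by simpa using hv.1
      have hu2 : τ (u, w) = (u, w) := sub_eq_zero.1 hu.2
      have hv2 : τ (v, w) = (v, w) := sub_eq_zero.1 hv.2
      refine ⟨(convex_closedBall (0 : Z) 1) hu.1 hv.1 hα hβ hαβ, ?_⟩
      have h1 := slice_right H hu1 hv1 hwn (t := β) hβ (by linarith)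
      have h2 : 1 - β = α := by linarith
      rw [h2, hu2, hv2] at h1
      simp only [mem_preimage, mem_singleton_iff, sub_eq_zero]
      rw [h1]
      ext
      · simp
      · simp only [Prod.snd_add, Prod.smul_snd]
        rw [← add_smul, hαβ, one_smul]
    have hCcl : IsClosed C := by
      refine ContinuousOn.preimage_isClosed_of_isClosed ?_ isClosed_closedBall isClosed_singleton
      have h1 : ContinuousOn (fun z : Z => τ (z, w)) (closedBall (0 : Z) 1) := by
        rw [Metric.continuousOn_iff]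
        intro b hb ε hε
        refine ⟨ε, hε, fun a ha hab => ?_⟩
        have ha1 : ‖a‖ ≤ 1 := by simpa using ha
        have hb1 : ‖b‖ ≤ 1 := by simpa using hb
        rw [dist_eq_norm, H.iso _ _ (norm_pair_right ha1 hwn) (norm_pair_right hb1 hwn),
          ← dist_eq_norm]
        have : dist ((a, w) : Z × W) (b, w) = dist a b := by
          rw [Prod.dist_eq, dist_self]
          exact max_eq_left dist_nonneg
        rwa [this]
      have h2 : Continuous (fun z : Z => ((z, w) : Z × W)) := by fun_prop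
      exact h1.sub h2.continuousOn
    have hsub := ball_subset_of_extreme hCconv hCcl (fun z hz =>
      ⟨hz.1, sub_eq_zero.2 (hfix z hz)⟩)
    intro z hzn
    exact sub_eq_zero.1 (hsub (by simpa using hzn)).2
  -- assemble
  have h1 : ∀ z : Z, z ∈ (closedBall (0 : Z) 1).extremePoints ℝ → ∀ w : W, ‖w‖ ≤ 1 →
      τ (z, w) = (z, w) := fun z hzext =>
    hleft z (norm_of_extreme hzext) (hext z hzext)
  have h2 : ∀ w : W, ‖w‖ = 1 → ∀ z : Z, ‖z‖ ≤ 1 → τ (z, w) = (z, w) := fun w hwn =>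
    hright w hwn (fun z hzext => h1 z hzext w hwn.le)
  have h3 : ∀ z : Z, ‖z‖ = 1 → ∀ w : W, ‖w‖ ≤ 1 → τ (z, w) = (z, w) := fun z hzn =>
    hleft z hzn (fun w hwext => h2 w (norm_of_extreme hwext) z hzn.le)
  rintro ⟨z, w⟩ hx
  have hmax : ‖z‖ = 1 ∨ ‖w‖ = 1 := by
    rw [Prod.norm_mk] at hx
    rcases max_choice ‖z‖ ‖w‖ with h4 | h4
    · left
      rwa [h4] at hx
    · right
      rwa [h4] at hx
  have hzle : ‖z‖ ≤ 1 := by
    rw [Prod.norm_mk] at hx
    exact hx ▸ le_max_left _ _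
  have hwle : ‖w‖ ≤ 1 := by
    rw [Prod.norm_mk] at hx
    exact hx ▸ le_max_right _ _
  rcases hmax with h4 | h4
  · exact h3 z h4 w hwle
  · exact h2 w h4 z hzle

end Identity

section Main

variable [FiniteDimensional ℝ Z] [FiniteDimensional ℝ W] [FiniteDimensional ℝ Y]
  {g : Z × W → Y} {h : Y → Z × W}

/-- A linear map agreeing on the unit sphere with a sphere isometry is a linear isometry onto. -/
theorem exists_linearIsometryEquiv_of_agree {X : Type*} [NormedAddCommGroup X] [NormedSpace ℝ X]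
    {g : X → Y} {h : Y → X} (H : SphereIso g h) (T : X →ₗ[ℝ] Y)
    (hT : ∀ x, ‖x‖ = 1 → T x = g x) : ∃ T' : X ≃ₗᵢ[ℝ] Y, ∀ x, ‖x‖ = 1 → T' x = g x := by
  have hnorm : ∀ x, ‖T x‖ = ‖x‖ := by
    intro x
    by_cases hx : x = 0
    · simp [hx]
    · have hn : ‖x‖ ≠ 0 := norm_ne_zero_iff.2 hx
      have hu := unit_of_ne hx
      have h1 : x = ‖x‖ • (‖x‖⁻¹ • x) := by
        rw [smul_smul, mul_inv_cancel₀ hn, one_smul]
      have h2 : T x = ‖x‖ • g (‖x‖⁻¹ • x) := by
        conv_lhs => rw [h1, map_smul, hT _ hu]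
      rw [h2, norm_smul, H.map_g _ hu, norm_norm, mul_one]
  have hsurj : Function.Surjective T := by
    intro y
    by_cases hy : y = 0
    · exact ⟨0, by simp [hy]⟩
    · have hn : ‖y‖ ≠ 0 := norm_ne_zero_iff.2 hy
      have hu := unit_of_ne hy
      refine ⟨‖y‖ • h (‖y‖⁻¹ • y), ?_⟩
      rw [map_smul, hT _ (H.map_h _ hu), H.right _ hu, smul_smul, mul_inv_cancel₀ hn, one_smul]
  let Tᵢ : X →ₗᵢ[ℝ] Y := { toLinearMap := T, norm_map' := hnorm }
  refine ⟨LinearIsometryEquiv.ofSurjective Tᵢ hsurj, fun x hx => ?_⟩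
  rw [LinearIsometryEquiv.coe_ofSurjective]
  exact hT x hx

/-- **Theorem.** A sphere isometry from an `ℓ_∞`-sum extends to a linear isometry. -/
theorem linf_main [Nontrivial Z] [Nontrivial W] (H : SphereIso g h) :
    ∃ T : (Z × W) ≃ₗᵢ[ℝ] Y, ∀ x, ‖x‖ = 1 → T x = g x := by
  obtain ⟨hoddz, hoddw⟩ := axes_odd H
  have hτ := eq_id_of_fix_axes H.negConj
    (by
      intro z hz
      have hz' : ‖-z‖ = 1 := by rwa [norm_neg]
      show -h (-g (z, 0)) = (z, 0)
      rw [← hoddz z hz, H.left _ (norm_pair_left hz' (by simp))]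
      simp)
    (by
      intro w hw
      have hw' : ‖-w‖ = 1 := by rwa [norm_neg]
      show -h (-g (0, w)) = (0, w)
      rw [← hoddw w hw, H.left _ (norm_pair_right (by simp) hw')]
      simp)
  -- `g` is odd
  have hodd : ∀ x : Z × W, ‖x‖ = 1 → g (-x) = -g x := by
    intro x hx
    have h1 : -h (-g x) = x := hτ x hx
    have h2 : h (-g x) = -x := neg_eq_iff_eq_neg.1 h1
    have h3 : ‖-g x‖ = 1 := by
      rw [norm_neg]
      exact H.map_g x hx
    have h4 := congrArg g h2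
    rwa [H.right _ h3, eq_comm] at h4
  -- the decomposition at unit vectors
  have hdec : ∀ z : Z, ‖z‖ = 1 → ∀ w : W, ‖w‖ = 1 → g (z, w) = g (z, 0) + g (0, w) := by
    intro z hz w hw
    have hw' : ‖-w‖ = 1 := by rwa [norm_neg]
    have h1 := mid_left H hz hw.le
    have h2 := mid_right H hz.le hw
    have h3 : g (-z, w) = -g (z, -w) := by
      have := hodd (z, -w) (norm_pair_left hz hw'.le)
      simpa using this
    rw [h3] at h2
    have h4 : (2 : ℝ) • g (z, w) = (2 : ℝ) • (g (z, 0) + g (0, w)) := by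
      rw [smul_add, ← h1, ← h2, two_smul]
      abel
    exact smul_right_injective Y (by norm_num : (2 : ℝ) ≠ 0) h4
  -- radial extensions
  set H₁ : Z → Y := radial (fun z => g (z, 0)) with hH₁
  set H₂ : W → Y := radial (fun w => g (0, w)) with hH₂
  have hunit₁ : ∀ z : Z, ‖z‖ = 1 → H₁ z = g (z, 0) := fun z hz => radial_of_unit _ hz
  have hunit₂ : ∀ w : W, ‖w‖ = 1 → H₂ w = g (0, w) := fun w hw => radial_of_unit _ hw
  have hform₂ : ∀ z : Z, ‖z‖ = 1 → ∀ w : W, ‖w‖ ≤ 1 → g (z, w) = g (z, 0) + H₂ w := by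
    intro z hz w hw
    by_cases hw0 : w = 0
    · simp [hw0, hH₂, radial_zero]
    · have hn : ‖w‖ ≠ 0 := norm_ne_zero_iff.2 hw0
      have hu := unit_of_ne hw0
      have h1 := slice_left H hz (w₁ := 0) (w₂ := ‖w‖⁻¹ • w) (by simp) hu.le (norm_nonneg w) hw
      have h2 : (1 - ‖w‖) • (0 : W) + ‖w‖ • ‖w‖⁻¹ • w = w := by
        rw [smul_zero, zero_add, smul_smul, mul_inv_cancel₀ hn, one_smul]
      rw [h2, hdec z hz _ hu] at h1
      rw [h1, hH₂]
      simp only [radial]
      module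
  have hform₁ : ∀ w : W, ‖w‖ = 1 → ∀ z : Z, ‖z‖ ≤ 1 → g (z, w) = H₁ z + g (0, w) := by
    intro w hw z hz
    by_cases hz0 : z = 0
    · simp [hz0, hH₁, radial_zero]
    · have hn : ‖z‖ ≠ 0 := norm_ne_zero_iff.2 hz0
      have hu := unit_of_ne hz0
      have h1 := slice_right H (z₁ := 0) (z₂ := ‖z‖⁻¹ • z) (by simp) hu.le hw (norm_nonneg z) hz
      have h2 : (1 - ‖z‖) • (0 : Z) + ‖z‖ • ‖z‖⁻¹ • z = z := by
        rw [smul_zero, zero_add, smul_smul, mul_inv_cancel₀ hn, one_smul]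
      rw [h2, hdec _ hu w hw] at h1
      rw [h1, hH₁]
      simp only [radial]
      module
  obtain ⟨z₀, hz₀⟩ : ∃ z : Z, ‖z‖ = 1 := exists_norm_eq Z zero_le_one
  obtain ⟨w₀, hw₀⟩ : ∃ w : W, ‖w‖ = 1 := exists_norm_eq W zero_le_one
  -- additivity
  have hadd₂ : ∀ v v' : W, H₂ (v + v') = H₂ v + H₂ v' := by
    refine add_of_midpoint_ball H₂ (fun t ht v => radial_smul _ ht v) ?_
    intro v v' hv hv'
    have h1 := slice_left H hz₀ hv hv' (t := 1 / 2) (by norm_num) (by norm_num)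
    have h2 : (1 - (1 / 2 : ℝ)) • v + (1 / 2 : ℝ) • v' = (1 / 2 : ℝ) • (v + v') := by module
    have h3 : ‖(1 / 2 : ℝ) • (v + v')‖ ≤ 1 := by
      rw [norm_smul]
      have := norm_add_le v v'
      norm_num
      linarith
    rw [h2, hform₂ z₀ hz₀ _ h3, hform₂ z₀ hz₀ _ hv, hform₂ z₀ hz₀ _ hv'] at h1
    have h4 : g (z₀, 0) + H₂ ((1 / 2 : ℝ) • (v + v')) = g (z₀, 0) + (1 / 2 : ℝ) • (H₂ v + H₂ v') := by
      rw [h1]
      module
    exact add_left_cancel h4
  have hadd₁ : ∀ v v' : Z, H₁ (v + v') = H₁ v + H₁ v' := by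
    refine add_of_midpoint_ball H₁ (fun t ht v => radial_smul _ ht v) ?_
    intro v v' hv hv'
    have h1 := slice_right H hv hv' hw₀ (t := 1 / 2) (by norm_num) (by norm_num)
    have h2 : (1 - (1 / 2 : ℝ)) • v + (1 / 2 : ℝ) • v' = (1 / 2 : ℝ) • (v + v') := by module
    have h3 : ‖(1 / 2 : ℝ) • (v + v')‖ ≤ 1 := by
      rw [norm_smul]
      have := norm_add_le v v'
      norm_num
      linarith
    rw [h2, hform₁ w₀ hw₀ _ h3, hform₁ w₀ hw₀ _ hv, hform₁ w₀ hw₀ _ hv'] at h1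
    have h4 : H₁ ((1 / 2 : ℝ) • (v + v')) + g (0, w₀) = (1 / 2 : ℝ) • (H₁ v + H₁ v') + g (0, w₀) := by
      rw [h1]
      module
    exact add_right_cancel h4
  let L₁ : Z →ₗ[ℝ] Y := linearOfAdd H₁ hadd₁ (fun t ht v => radial_smul _ ht v)
    (radial_neg _ hoddz)
  let L₂ : W →ₗ[ℝ] Y := linearOfAdd H₂ hadd₂ (fun t ht v => radial_smul _ ht v)
    (radial_neg _ hoddw)
  refine exists_linearIsometryEquiv_of_agree H (L₁.coprod L₂) ?_
  rintro ⟨z, w⟩ hx
  have hmax : ‖z‖ = 1 ∨ ‖w‖ = 1 := by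
    rw [Prod.norm_mk] at hx
    rcases max_choice ‖z‖ ‖w‖ with h4 | h4
    · left
      rwa [h4] at hx
    · right
      rwa [h4] at hx
  have hzle : ‖z‖ ≤ 1 := by
    rw [Prod.norm_mk] at hx
    exact hx ▸ le_max_left _ _
  have hwle : ‖w‖ ≤ 1 := by
    rw [Prod.norm_mk] at hx
    exact hx ▸ le_max_right _ _
  have hT : (L₁.coprod L₂) (z, w) = H₁ z + H₂ w := rfl
  rw [hT]
  rcases hmax with h4 | h4
  · rw [hform₂ z h4 w hwle, hunit₁ z h4]
  · rw [hform₁ w h4 z hzle, hunit₂ w h4]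

end Main

/-- **Tingley's problem for `ℓ_∞`-sums.** -/
theorem linf_extends [FiniteDimensional ℝ Z] [FiniteDimensional ℝ W] [Nontrivial Z] [Nontrivial W]
    (f : sphere (0 : Z × W) 1 ≃ᵢ sphere (0 : Y) 1) :
    ∃ T : (Z × W) ≃ₗᵢ[ℝ] Y, ∀ x : sphere (0 : Z × W) 1, T x = f x := by
  have := finiteDimensional_of_sphere f
  obtain ⟨g, h, H, hg⟩ := exists_sphereIso f
  obtain ⟨T, hT⟩ := linf_main H
  refine ⟨T, fun x => ?_⟩
  rw [hT x (by simpa using x.2), hg]

end Vale.Agent.Lib.P084
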