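import Mathlib
import Vale.Agent.Lib.P084.Radial

/-! Tingley's theorem: a sphere isometry between finite-dimensional spaces is odd. -/

namespace Vale.Agent.Lib.P084

open Set Metric

section Smooth

variable {E : Type*} [NormedAddCommGroup E] [NormedSpace ℝ E]

/-- At a point of differentiability of the norm, the norming functional is unique. -/
lemma functional_eq_of_differentiableAt {x : E} (hx : DifferentiableAt ℝ (fun y : E => ‖y‖) x)
    {χ₁ χ₂ : StrongDual ℝ E} (h₁ : ‖χ₁‖ ≤ 1) (h₂ : ‖χ₂‖ ≤ 1) (hx₁ : χ₁ x = ‖x‖)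
    (hx₂ : χ₂ x = ‖x‖) : χ₁ = χ₂ := by
  have key : ∀ χ : StrongDual ℝ E, ‖χ‖ ≤ 1 → χ x = ‖x‖ → fderiv ℝ (fun y : E => ‖y‖) x = χ := by
    intro χ hχ hχx
    have hmin : IsLocalMin (fun y : E => ‖y‖ - χ y) x := by
      refine Filter.Eventually.of_forall fun y => ?_
      have h1 := (abs_le.1 (functional_le χ hχ (x := y))).2
      simp only
      rw [hχx, sub_self]
      linarith
    have hd : HasFDerivAt (fun y : E => ‖y‖ - χ y) (fderiv ℝ (fun y : E => ‖y‖) x - χ) x :=
      hx.hasFDerivAt.sub χ.hasFDerivAt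
    have := hmin.hasFDerivAt_eq_zero hd
    exact sub_eq_zero.1 this
  rw [← key χ₁ h₁ hx₁, ← key χ₂ h₂ hx₂]

/-- Caratheodory: in finite dimensions the convex hull of a compact set is compact. -/
theorem isCompact_convexHull_of_finiteDim [FiniteDimensional ℝ E] {K : Set E} (hK : IsCompact K) :
    IsCompact (convexHull ℝ K) := by
  rcases K.eq_empty_or_nonempty with rfl | ⟨k₀, hk₀⟩
  · simp
  set n := Module.finrank ℝ E + 1 with hn
  let Φ : (Fin n → ℝ) × (Fin n → E) → E := fun p => ∑ i, p.1 i • p.2 i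
  have hΦ : Continuous Φ := by
    refine continuous_finsetSum _ fun i _ => ?_
    exact ((continuous_apply i).comp continuous_fst).smul ((continuous_apply i).comp continuous_snd)
  have hS : IsCompact (stdSimplex ℝ (Fin n)) := isCompact_stdSimplex ℝ _
  have hT : IsCompact (Set.pi univ (fun _ : Fin n => K)) := isCompact_univ_pi fun _ => hK
  have hIm := (hS.prod hT).image hΦ
  convert hIm using 1
  apply Subset.antisymm
  · intro x hx
    obtain ⟨ι, _, z, w, hz, hai, hw, hw1, hwz⟩ := eq_pos_convex_span_of_mem_convexHull hx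
    have hcard : Fintype.card ι ≤ Fintype.card (Fin n) := by
      simpa [hn] using hai.card_le_finrank_succ.trans
        (Nat.succ_le_succ (Submodule.finrank_le _))
    obtain ⟨e⟩ := Function.Embedding.nonempty_of_card_le hcard
    let w' : Fin n → ℝ := Function.extend e w 0
    let z' : Fin n → E := Function.extend e z (fun _ => k₀)
    have hw'e : ∀ i, w' (e i) = w i := fun i => e.injective.extend_apply _ _ _
    have hz'e : ∀ i, z' (e i) = z i := fun i => e.injective.extend_apply _ _ _
    have hw'0 : ∀ j, j ∉ range e → w' j = 0 := fun j hj => by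
      simp only [w']
      rw [Function.extend_apply' _ _ _ (by simpa using hj)]
      rfl
    have hz'0 : ∀ j, j ∉ range e → z' j = k₀ := fun j hj => by
      simp only [z']
      rw [Function.extend_apply' _ _ _ (by simpa using hj)]
    refine ⟨(w', z'), ⟨⟨?_, ?_⟩, ?_⟩, ?_⟩
    · intro j
      change 0 ≤ w' j
      by_cases hj : j ∈ range e
      · obtain ⟨i, rfl⟩ := hj
        rw [hw'e]
        exact (hw i).le
      · rw [hw'0 j hj]
    · rw [← hw1]
      symm
      exact Fintype.sum_of_injective e e.injective _ _ (fun j hj => hw'0 j hj) (fun i => (hw'e i).symm)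
    · intro j _
      change z' j ∈ K
      by_cases hj : j ∈ range e
      · obtain ⟨i, rfl⟩ := hj
        rw [hz'e]
        exact hz ⟨i, rfl⟩
      · rw [hz'0 j hj]
        exact hk₀
    · rw [← hwz]
      symm
      refine Fintype.sum_of_injective e e.injective _ _ (fun j hj => ?_) (fun i => ?_)
      · simp [hw'0 j hj]
      · simp [hw'e, hz'e]
  · rintro _ ⟨⟨w, z⟩, ⟨⟨hw0, hw1⟩, hz⟩, rfl⟩
    exact (convex_convexHull ℝ K).sum_mem (fun i _ => hw0 i) hw1
      (fun i _ => subset_convexHull ℝ K (hz i (mem_univ i)))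

end Smooth

variable {X Y : Type*} [NormedAddCommGroup X] [NormedSpace ℝ X]
  [NormedAddCommGroup Y] [NormedSpace ℝ Y] {g : X → Y} {h : Y → X}

lemma norm_of_extreme' [Nontrivial X] {e : X} (he : e ∈ (closedBall (0 : X) 1).extremePoints ℝ) :
    ‖e‖ = 1 := by
  by_contra hne
  have hle : ‖e‖ ≤ 1 := by simpa using he.1
  have hlt : ‖e‖ < 1 := lt_of_le_of_ne hle hne
  obtain ⟨u, hu⟩ : ∃ u : X, ‖u‖ = 1 := exists_norm_eq X zero_le_one
  set ε : ℝ := 1 - ‖e‖ with hε
  have hεpos : 0 < ε := by linarith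
  have h1 : e + ε • u ∈ closedBall (0 : X) 1 := by
    rw [mem_closedBall_zero_iff]
    refine (norm_add_le _ _).trans ?_
    rw [norm_smul, hu, Real.norm_of_nonneg hεpos.le]
    linarith
  have h2 : e - ε • u ∈ closedBall (0 : X) 1 := by
    rw [mem_closedBall_zero_iff]
    refine (norm_sub_le _ _).trans ?_
    rw [norm_smul, hu, Real.norm_of_nonneg hεpos.le]
    linarith
  have h3 : e ∈ openSegment ℝ (e + ε • u) (e - ε • u) := by
    refine ⟨1 / 2, 1 / 2, by norm_num, by norm_num, by norm_num, ?_⟩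
    module
  have h4 := ((mem_extremePoints.1 he).2 _ h1 _ h2 h3).1
  have h5 : ε • u = 0 := by
    have : e + ε • u - e = 0 := by rw [h4]; abel
    simpa using this
  rcases smul_eq_zero.1 h5 with h6 | h6
  · linarith
  · rw [h6, norm_zero] at hu
    norm_num at hu

/-- The conjugate of the antipodal map. -/
def tau (g : X → Y) (h : Y → X) (x : X) : X := -h (-g x)

lemma tau_norm_add (H : SphereIso g h) {x : X} (hx : ‖x‖ = 1) : ‖tau g h x + x‖ = 2 := by
  have h1 : ‖-g x‖ = 1 := by
    rw [norm_neg]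
    exact H.map_g x hx
  have h2 := H.iso_h (-g x) (g x) h1 (H.map_g x hx)
  rw [H.left x hx] at h2
  have h3 : tau g h x + x = -(h (-g x) - x) := by
    simp only [tau]
    abel
  rw [h3, norm_neg, h2]
  have h4 : -g x - g x = (-2 : ℝ) • g x := by module
  rw [h4, norm_smul, H.map_g x hx]
  norm_num

lemma tau_iso (H : SphereIso g h) {a b : X} (ha : ‖a‖ = 1) (hb : ‖b‖ = 1) :
    ‖tau g h a - tau g h b‖ = ‖a - b‖ := H.negConj.iso a b ha hb

lemma tau_unit (H : SphereIso g h) {x : X} (hx : ‖x‖ = 1) : ‖tau g h x‖ = 1 :=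
  H.negConj.map_g x hx

/-- At a smooth point, the functional is one at the image under `tau`. -/
lemma tau_smooth (H : SphereIso g h) {p : X} (hp : p ≠ 0)
    (hd : DifferentiableAt ℝ (fun y : X => ‖y‖) p) {χ : StrongDual ℝ X} (hχ : ‖χ‖ ≤ 1)
    (hχp : χ p = ‖p‖) : χ (tau g h (‖p‖⁻¹ • p)) = 1 := by
  have hu := unit_of_ne hp
  have hn : ‖p‖ ≠ 0 := norm_ne_zero_iff.2 hp
  obtain ⟨χ', hχ', h1, h2⟩ := exists_functional_add (tau_unit H hu) hu (tau_norm_add H hu)
  have h3 : χ' p = ‖p‖ := by
    have h4 : p = ‖p‖ • (‖p‖⁻¹ • p) := by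
      rw [smul_smul, mul_inv_cancel₀ hn, one_smul]
    have h5 : χ' p = ‖p‖ * χ' (‖p‖⁻¹ • p) := by
      conv_lhs => rw [h4]
      rw [map_smul, smul_eq_mul]
    rw [h5, h2, mul_one]
  rw [functional_eq_of_differentiableAt hd hχ hχ' hχp h3, h1]

/-- The exposed points of the unit ball are fixed by `tau`. -/
theorem tau_exposed [FiniteDimensional ℝ X] (H : SphereIso g h) {x : X} (hx : ‖x‖ = 1)
    {φ : StrongDual ℝ X} (hφ : ‖φ‖ ≤ 1) (hφx : φ x = 1)
    (hexp : ∀ y : X, ‖y‖ = 1 → φ y = 1 → y = x) : tau g h x = x := by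
  by_contra hne
  set y : X := tau g h x with hy
  have hyn : ‖y‖ = 1 := tau_unit H hx
  have hφy1 : φ y ≤ 1 := by
    have := (abs_le.1 (functional_le φ hφ (x := y))).2
    rwa [hyn] at this
  have hφy : φ y ≠ 1 := fun h1 => hne (hexp y hyn h1)
  set c₀ : ℝ := 1 - φ y with hc₀
  have hc₀pos : 0 < c₀ := by
    rw [hc₀]
    have := lt_of_le_of_ne hφy1 hφy
    linarith
  have hc₀le : c₀ ≤ 2 := by
    have := (abs_le.1 (functional_le φ hφ (x := y))).1
    rw [hyn] at this
    rw [hc₀]
    linarith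
  set d : X := y - x with hd
  have hdn : ‖d‖ ≤ 2 := by
    refine (norm_sub_le _ _).trans ?_
    rw [hyn, hx]
    norm_num
  set s : ℝ := c₀ / 20 with hs
  have hspos : 0 < s := by positivity
  set p : X := x - s • d with hp
  have hφp : φ p = 1 + s * c₀ := by
    rw [hp, map_sub, map_smul, hd, map_sub, hφx, smul_eq_mul, hc₀]
    ring
  have hpn : 1 + s * c₀ ≤ ‖p‖ := by
    have := (abs_le.1 (functional_le φ hφ (x := p))).2
    rwa [hφp] at this
  set δ : ℝ := s * c₀ / 8 with hδ
  have hδpos : 0 < δ := by positivity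
  -- a nearby smooth point
  obtain ⟨p', hp'd, hp'⟩ := (dense_differentiableAt_norm (E := X)).exists_mem_open
    isOpen_ball (nonempty_ball.2 hδpos : (ball p δ).Nonempty)
  have hp'd' : DifferentiableAt ℝ (fun y : X => ‖y‖) p' := hp'd
  have hp'p : ‖p' - p‖ < δ := by
    rwa [mem_ball, dist_eq_norm] at hp'
  have hp'n : 1 + s * c₀ - δ ≤ ‖p'‖ := by
    have h1 : ‖p‖ ≤ ‖p'‖ + ‖p' - p‖ := by
      have := norm_add_le p' (p - p')
      rw [add_sub_cancel, norm_sub_rev p p'] at this
      exact this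
    linarith
  have hp'ne : p' ≠ 0 := by
    intro h0
    rw [h0, norm_zero] at hp'n
    have : s * c₀ - δ > 0 := by
      rw [hδ]
      nlinarith [mul_pos hspos hc₀pos]
    linarith
  obtain ⟨χ, hχ, hχp⟩ := exists_dual_vector'' ℝ p'
  have hχp' : χ p' = ‖p'‖ := by simpa using hχp
  have h1 := tau_smooth H hp'ne hp'd' hχ hχp'
  -- estimate of the functional at `y`
  have hχx : χ x ≤ 1 := by
    have := (abs_le.1 (functional_le χ hχ (x := x))).2
    rwa [hx] at this
  have hχe : χ (p' - p) ≤ δ := by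
    have := (abs_le.1 (functional_le χ hχ (x := p' - p))).2
    linarith
  have hχd : χ d ≤ -(3 / 4) * c₀ := by
    have h2 : χ p' = χ x - s * χ d + χ (p' - p) := by
      rw [hp]
      simp only [map_sub, map_smul, smul_eq_mul]
      ring
    have h3 : s * c₀ - 2 * δ ≤ -s * χ d := by
      rw [hχp'] at h2
      nlinarith
    have h4 : s * c₀ - 2 * δ = s * ((3 / 4) * c₀) := by
      rw [hδ]
      ring
    rw [h4] at h3
    have h5 : s * ((3 / 4) * c₀) ≤ s * (-χ d) := by
      nlinarith
    have h6 := le_of_mul_le_mul_left h5 hspos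
    linarith
  have hχy : χ y ≤ 1 - (3 / 4) * c₀ := by
    have : χ y = χ x + χ d := by
      rw [hd, map_sub]
      ring
    rw [this]
    linarith
  -- the point on the sphere
  set q : X := ‖p'‖⁻¹ • p' with hq
  have hqn : ‖q‖ = 1 := unit_of_ne hp'ne
  have hp'x : ‖p' - x‖ ≤ δ + s * 2 := by
    have h2 : p' - x = (p' - p) + -(s • d) := by
      rw [hp]
      abel
    rw [h2]
    refine (norm_add_le _ _).trans ?_
    rw [norm_neg, norm_smul, Real.norm_of_nonneg hspos.le]
    have := mul_le_mul_of_nonneg_left hdn hspos.le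
    linarith
  have hqp' : ‖q - p'‖ ≤ ‖p' - x‖ := by
    have hn : ‖p'‖ ≠ 0 := norm_ne_zero_iff.2 hp'ne
    have h2 : q - p' = (1 - ‖p'‖) • q := by
      have h3 : ‖p'‖ • q = p' := by
        rw [hq, smul_smul, mul_inv_cancel₀ hn, one_smul]
      rw [sub_smul, one_smul, h3]
    rw [h2, norm_smul, hqn, mul_one, Real.norm_eq_abs]
    have h4 := abs_norm_sub_norm_le x p'
    rw [hx, norm_sub_rev] at h4
    exact h4
  have hqx : ‖q - x‖ ≤ c₀ / 4 := by
    have h2 : q - x = (q - p') + (p' - x) := by abel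
    rw [h2]
    refine (norm_add_le _ _).trans ?_
    have h3 : δ ≤ s / 4 := by
      rw [hδ]
      nlinarith
    have h4 : s = c₀ / 20 := hs
    linarith
  have h2 : χ (tau g h q) ≤ χ y + ‖tau g h q - y‖ := by
    have h3 := (abs_le.1 (functional_le χ hχ (x := tau g h q - y))).2
    rw [map_sub] at h3
    linarith
  rw [hy, tau_iso H hqn hx, ← hy, h1] at h2
  linarith

/-- The set of exposed points of the unit ball. -/
def exposedSet (X : Type*) [NormedAddCommGroup X] [NormedSpace ℝ X] : Set X :=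
  {x | ‖x‖ = 1 ∧ ∃ φ : StrongDual ℝ X, ‖φ‖ ≤ 1 ∧ φ x = 1 ∧ ∀ y : X, ‖y‖ = 1 → φ y = 1 → y = x}

/-- Straszewicz-type theorem: the closed convex hull of the exposed points is the unit ball. -/
theorem ball_subset_closure_exposed [FiniteDimensional ℝ X] [Nontrivial X] :
    closedBall (0 : X) 1 ⊆ closure (convexHull ℝ (exposedSet X)) := by
  intro b hb
  by_contra hcon
  obtain ⟨f, u, hfb, hfu⟩ := geometric_hahn_banach_point_closed
    (convex_convexHull ℝ (exposedSet X)).closure isClosed_closure hcon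
  -- `ψ = -f` separates
  set ψ : StrongDual ℝ X := -f with hψ
  have hψb : (-u) < ψ b := by
    simp only [hψ, _root_.neg_apply]
    linarith
  have hψC : ∀ a ∈ closure (convexHull ℝ (exposedSet X)), ψ a < -u := by
    intro a ha
    simp only [hψ, _root_.neg_apply]
    have := hfu a ha
    linarith
  set η : ℝ := ψ b - (-u) with hη
  have hηpos : 0 < η := by
    rw [hη]
    linarith
  have hb1 : ‖b‖ ≤ 1 := by simpa using hb
  -- a nearby differentiability point of the dual norm
  obtain ⟨ψ', hψ'd, hψ'⟩ := (dense_differentiableAt_norm (E := StrongDual ℝ X)).exists_mem_open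
    isOpen_ball (nonempty_ball.2 (by positivity : 0 < η / 4) : (ball ψ (η / 4)).Nonempty)
  have hψ'd' : DifferentiableAt ℝ (fun ξ : StrongDual ℝ X => ‖ξ‖) ψ' := hψ'd
  have hψψ' : ‖ψ' - ψ‖ < η / 4 := by
    rwa [mem_ball, dist_eq_norm] at hψ'
  have happ : ∀ v : X, ‖v‖ ≤ 1 → |ψ' v - ψ v| ≤ η / 4 := by
    intro v hv
    have h1 := (ψ' - ψ).le_opNorm v
    rw [Real.norm_eq_abs] at h1
    have h2 : (ψ' - ψ) v = ψ' v - ψ v := rfl
    rw [h2] at h1
    have h3 : ‖ψ' - ψ‖ * ‖v‖ ≤ ‖ψ' - ψ‖ * 1 := mul_le_mul_of_nonneg_left hv (norm_nonneg _)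
    linarith
  -- maximize `ψ'` on the unit ball
  obtain ⟨x', hx'ball, hx'max⟩ := (isCompact_closedBall (0 : X) 1).exists_isMaxOn
    ⟨b, hb⟩ ψ'.continuous.continuousOn
  have hx'1 : ‖x'‖ ≤ 1 := by simpa using hx'ball
  have hmax : ∀ v : X, ‖v‖ ≤ 1 → ψ' v ≤ ψ' x' := fun v hv => hx'max (by simpa using hv)
  have hb' : ψ b - η / 4 ≤ ψ' x' := by
    have h1 := hmax b hb1
    have h2 := abs_le.1 (happ b hb1)
    linarith
  have hx'val : ψ' x' > -u + η / 2 := by
    rw [hη] at hb' ⊢
    linarith
  have hx'ψ : ψ x' > -u := by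
    have h2 := abs_le.1 (happ x' hx'1)
    linarith
  -- `ψ'` is nonzero since the norm is not differentiable at the origin
  have hψ'0 : ψ' ≠ 0 := by
    rintro rfl
    obtain ⟨v, hv⟩ : ∃ v : X, ‖v‖ = 1 := exists_norm_eq X zero_le_one
    obtain ⟨ξ, hξ, hξv⟩ := exists_dual_vector'' ℝ v
    have hξv' : ξ v = 1 := by simpa [hv] using hξv
    have hξ0 : ξ ≠ 0 := by
      rintro rfl
      simp at hξv'
    have : Nontrivial (StrongDual ℝ X) := ⟨⟨ξ, 0, hξ0⟩⟩
    exact not_differentiableAt_norm_zero (StrongDual ℝ X) hψ'd'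
  -- the maximal value is the norm of `ψ'`
  have h0 : 0 ≤ ψ' x' := by
    have := hmax 0 (by simp)
    simpa using this
  have hscale : ∀ v : X, ψ' v ≤ ψ' x' * ‖v‖ := by
    intro v
    by_cases hv : v = 0
    · simp [hv]
    · have hn : ‖v‖ ≠ 0 := norm_ne_zero_iff.2 hv
      have h1 := hmax _ (unit_of_ne hv).le
      rw [map_smul, smul_eq_mul, inv_mul_le_iff₀ (norm_pos_iff.2 hv)] at h1
      linarith
  have hnorm : ‖ψ'‖ = ψ' x' := by
    apply le_antisymm
    · refine ContinuousLinearMap.opNorm_le_bound _ h0 fun v => ?_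
      rw [Real.norm_eq_abs, abs_le]
      constructor
      · have := hscale (-v)
        rw [map_neg, norm_neg] at this
        linarith
      · exact hscale v
    · have := ψ'.le_opNorm x'
      rw [Real.norm_eq_abs] at this
      have h1 := mul_le_mul_of_nonneg_left hx'1 (norm_nonneg ψ')
      linarith [le_abs_self (ψ' x')]
  have hψ'pos : 0 < ‖ψ'‖ := norm_pos_iff.2 hψ'0
  have hx'n : ‖x'‖ = 1 := by
    apply le_antisymm hx'1
    have h1 := ψ'.le_opNorm x'
    rw [Real.norm_eq_abs, ← hnorm, abs_of_nonneg (by linarith)] at h1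
    have h2 : ‖ψ'‖ * 1 ≤ ‖ψ'‖ * ‖x'‖ := by linarith
    exact le_of_mul_le_mul_left h2 hψ'pos
  -- `x'` is an exposed point
  have hexp : x' ∈ exposedSet X := by
    refine ⟨hx'n, ‖ψ'‖⁻¹ • ψ', ?_, ?_, ?_⟩
    · rw [norm_smul, norm_inv, norm_norm, inv_mul_cancel₀ hψ'pos.ne']
    · simp only [_root_.smul_apply, smul_eq_mul]
      rw [← hnorm, inv_mul_cancel₀ hψ'pos.ne']
    · intro y hy hφy
      have hψy : ψ' y = ‖ψ'‖ := by
        simp only [_root_.smul_apply, smul_eq_mul] at hφy
        field_simp at hφy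
        exact hφy
      -- the evaluation functionals on the dual
      have hev : ∀ z : X, ‖z‖ = 1 → ‖ContinuousLinearMap.apply ℝ ℝ z‖ ≤ 1 := by
        intro z hz
        refine ContinuousLinearMap.opNorm_le_bound _ zero_le_one fun ξ => ?_
        have := ξ.le_opNorm z
        simpa [hz] using this
      have heq := functional_eq_of_differentiableAt hψ'd' (hev x' hx'n) (hev y hy)
        (by simpa using hnorm.symm) (by simpa using hψy)
      obtain ⟨ξ, hξ, hξv⟩ := exists_dual_vector'' ℝ (y - x')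
      have h1 : ξ x' = ξ y := by
        have := congrArg (fun e : StrongDual ℝ (StrongDual ℝ X) => e ξ) heq
        simpa using this
      have h2 : ‖y - x'‖ = 0 := by
        have h3 : ξ (y - x') = 0 := by
          rw [map_sub, h1, sub_self]
        have h4 : (‖y - x'‖ : ℝ) = ξ (y - x') := by simpa using hξv.symm
        rw [h4, h3]
      exact sub_eq_zero.1 (norm_eq_zero.1 h2)
  have := hψC x' (subset_closure (subset_convexHull ℝ _ hexp))
  linarith

/-- Every extreme point of the unit ball is a limit of exposed points. -/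
theorem extreme_subset_closure_exposed [FiniteDimensional ℝ X] [Nontrivial X] :
    (closedBall (0 : X) 1).extremePoints ℝ ⊆ closure (exposedSet X) := by
  intro e he
  have hsub : exposedSet X ⊆ closedBall (0 : X) 1 := by
    intro x hx
    simp [hx.1]
  have hKcomp : IsCompact (closure (exposedSet X)) :=
    (isCompact_closedBall (0 : X) 1).of_isClosed_subset isClosed_closure
      (closure_minimal hsub isClosed_closedBall)
  have hconvcomp : IsCompact (convexHull ℝ (closure (exposedSet X))) :=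
    isCompact_convexHull_of_finiteDim hKcomp
  have h1 : closure (convexHull ℝ (exposedSet X)) ⊆ convexHull ℝ (closure (exposedSet X)) :=
    closure_minimal (convexHull_mono subset_closure) hconvcomp.isClosed
  have h2 : e ∈ convexHull ℝ (closure (exposedSet X)) :=
    h1 (ball_subset_closure_exposed he.1)
  have h3 : convexHull ℝ (closure (exposedSet X)) ⊆ closedBall (0 : X) 1 :=
    convexHull_min (closure_minimal hsub isClosed_closedBall) (convex_closedBall _ _)
  have h4 : e ∈ (convexHull ℝ (closure (exposedSet X))).extremePoints ℝ :=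
    inter_extremePoints_subset_extremePoints_of_subset h3 ⟨h2, he⟩
  exact extremePoints_convexHull_subset h4

/-- `tau` fixes the extreme points of the unit ball. -/
theorem tau_extreme [FiniteDimensional ℝ X] [Nontrivial X] (H : SphereIso g h) {e : X}
    (he : e ∈ (closedBall (0 : X) 1).extremePoints ℝ) : tau g h e = e := by
  have hen : ‖e‖ = 1 := norm_of_extreme' he
  have hcl := extreme_subset_closure_exposed he
  have hfix : ∀ ε : ℝ, 0 < ε → ‖tau g h e - e‖ ≤ 2 * ε := by
    intro ε hε
    obtain ⟨p, hp, hpe⟩ := Metric.mem_closure_iff.1 hcl ε hε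
    obtain ⟨hpn, φ, hφ, hφp, hexp⟩ := hp
    have h1 := tau_exposed H hpn hφ hφp hexp
    have h2 := tau_iso H hen hpn
    rw [h1] at h2
    have h3 : tau g h e - e = (tau g h e - p) + (p - e) := by abel
    rw [h3]
    refine (norm_add_le _ _).trans ?_
    rw [h2, norm_sub_rev p e, ← dist_eq_norm]
    linarith
  have h0 : ‖tau g h e - e‖ ≤ 0 := by
    by_contra hcon
    push Not at hcon
    have := hfix (‖tau g h e - e‖ / 4) (by positivity)
    linarith
  exact sub_eq_zero.1 (norm_le_zero_iff.1 h0)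

/-- **Tingley's theorem**: `tau` is the identity on the sphere. -/
theorem tau_eq_self [FiniteDimensional ℝ X] [Nontrivial X] (H : SphereIso g h) {x : X}
    (hx : ‖x‖ = 1) : tau g h x = x := by
  -- a maximal face through `x`
  have hconv1 : Convex ℝ ({x} : Set X) := convex_singleton x
  obtain ⟨F, hxF, hF⟩ := exists_maxFace hconv1 (fun p hp => by rwa [mem_singleton_iff.1 hp])
  have hxF' : x ∈ F := hxF rfl
  obtain ⟨c, hc, φ, hφ, hφF, -⟩ := maxFace_facts hF ⟨x, hxF'⟩
  obtain ⟨⟨hconv, hsph⟩, hmax⟩ := hF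
  -- `F` is exactly the exposed face
  have hFeq : ∀ p : X, ‖p‖ = 1 → φ p = 1 → p ∈ F := by
    intro p hp hφp
    set F' : Set X := {q | ‖q‖ = 1 ∧ φ q = 1} with hF'
    have hF'conv : Convex ℝ F' := by
      intro u hu v hv α β hα hβ hαβ
      have h1 : φ (α • u + β • v) = 1 := by
        rw [map_add, map_smul, map_smul, hu.2, hv.2, smul_eq_mul, smul_eq_mul, mul_one, mul_one, hαβ]
      refine ⟨le_antisymm ?_ ?_, h1⟩
      · have := (convex_closedBall (0 : X) 1) (x := u) (y := v) (by simp [hu.1]) (by simp [hv.1])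
          hα hβ hαβ
        simpa using this
      · have h2 := (abs_le.1 (functional_le φ hφ (x := α • u + β • v))).2
        rw [h1] at h2
        exact h2
    have := hmax (y := F') ⟨hF'conv, fun q hq => hq.1⟩ (fun q hq => ⟨hsph q hq, hφF q hq⟩)
    exact this ⟨hp, hφp⟩
  have hFclosed : IsClosed F := by
    have h1 : F = {q | ‖q‖ = 1} ∩ {q | φ q = 1} := by
      ext q
      exact ⟨fun hq => ⟨hsph q hq, hφF q hq⟩, fun hq => hFeq q hq.1 hq.2⟩
    rw [h1]
    exact (isClosed_eq continuous_norm continuous_const).inter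
      (isClosed_eq φ.continuous continuous_const)
  have hFcomp : IsCompact F :=
    (isCompact_closedBall (0 : X) 1).of_isClosed_subset hFclosed
      (fun q hq => by simp [hsph q hq])
  -- the fixed points in `F`
  set C : Set X := F ∩ (fun p => tau g h p - p) ⁻¹' {0} with hC
  have hCconv : Convex ℝ C := by
    intro u hu v hv α β hα hβ hαβ
    have hu2 : tau g h u = u := sub_eq_zero.1 hu.2
    have hv2 : tau g h v = v := sub_eq_zero.1 hv.2
    refine ⟨hconv hu.1 hv.1 hα hβ hαβ, ?_⟩
    have hun := hsph u hu.1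
    have hvn := hsph v hv.1
    have hsum : ‖u + v‖ = 2 := by
      apply le_antisymm
      · refine (norm_add_le _ _).trans ?_
        rw [hun, hvn]
        norm_num
      · have := (abs_le.1 (functional_le φ hφ (x := u + v))).2
        rw [map_add, hφF u hu.1, hφF v hv.1] at this
        linarith
    have h1 := sphere_affine H.negConj hun hvn hsum (t := β) hβ (by linarith)
    have h2 : 1 - β = α := by linarith
    rw [h2] at h1
    have h3 : -h (-g u) = u := hu2
    have h4 : -h (-g v) = v := hv2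
    rw [h3, h4] at h1
    simp only [mem_preimage, mem_singleton_iff, sub_eq_zero]
    exact h1
  have hCclosed : IsClosed C := by
    refine ContinuousOn.preimage_isClosed_of_isClosed ?_ hFclosed isClosed_singleton
    refine ContinuousOn.sub ?_ continuousOn_id
    rw [Metric.continuousOn_iff]
    intro b hb ε hε
    refine ⟨ε, hε, fun a ha hab => ?_⟩
    rw [dist_eq_norm, tau_iso H (hsph a ha) (hsph b hb), ← dist_eq_norm]
    exact hab
  -- extreme points of `F` are extreme in the ball
  have hext : F.extremePoints ℝ ⊆ C := by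
    intro p hp
    have hpF : p ∈ F := hp.1
    refine ⟨hpF, ?_⟩
    have hpext : p ∈ (closedBall (0 : X) 1).extremePoints ℝ := by
      rw [mem_extremePoints]
      refine ⟨by simp [hsph p hpF], fun x₁ hx₁ x₂ hx₂ hseg => ?_⟩
      obtain ⟨a, b, ha, hb, hab, hcomb⟩ := hseg
      have hx₁n : ‖x₁‖ ≤ 1 := by simpa using hx₁
      have hx₂n : ‖x₂‖ ≤ 1 := by simpa using hx₂
      have h1 : φ x₁ ≤ ‖x₁‖ := (abs_le.1 (functional_le φ hφ (x := x₁))).2
      have h2 : φ x₂ ≤ ‖x₂‖ := (abs_le.1 (functional_le φ hφ (x := x₂))).2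
      have h3 : a * φ x₁ + b * φ x₂ = 1 := by
        have := hφF p hpF
        rw [← hcomb, map_add, map_smul, map_smul, smul_eq_mul, smul_eq_mul] at this
        exact this
      have h4 : φ x₁ = 1 := by nlinarith
      have h5 : φ x₂ = 1 := by nlinarith
      have h6 : x₁ ∈ F := hFeq x₁ (le_antisymm hx₁n (by linarith)) h4
      have h7 : x₂ ∈ F := hFeq x₂ (le_antisymm hx₂n (by linarith)) h5
      exact (mem_extremePoints.1 hp).2 x₁ h6 x₂ h7 ⟨a, b, ha, hb, hab, hcomb⟩
    simp only [mem_preimage, mem_singleton_iff, sub_eq_zero]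
    exact tau_extreme H hpext
  have hall : F ⊆ C := by
    have h1 := closure_convexHull_extremePoints hFcomp hconv
    rw [← h1]
    exact closure_minimal (convexHull_min hext hCconv) hCclosed
  exact sub_eq_zero.1 (hall hxF').2

/-- **Tingley's theorem**: a sphere isometry between finite-dimensional spaces is odd. -/
theorem sphere_odd [FiniteDimensional ℝ X] [Nontrivial X] (H : SphereIso g h) {x : X}
    (hx : ‖x‖ = 1) : g (-x) = -g x := by
  have h1 : -h (-g x) = x := tau_eq_self H hx
  have h2 : h (-g x) = -x := neg_eq_iff_eq_neg.1 h1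
  have h3 : ‖-g x‖ = 1 := by
    rw [norm_neg]
    exact H.map_g x hx
  have h4 := congrArg g h2
  rwa [H.right _ h3, eq_comm] at h4

end Vale.Agent.Lib.P084
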