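import Mathlib
import Vale.Agent.Lib.P084.LinfSum
import Vale.Agent.Lib.P084.Tingley
import Vale.Agent.Lib.P084.Interface

/-! Base-norm spaces: the unit ball is the convex hull of `F ∪ -F`, with `F` a convex subset of a
hyperplane at distance one.  Every sphere isometry from such a space extends linearly. -/

namespace Vale.Agent.Lib.P084

open Set Metric

variable {X Y : Type*} [NormedAddCommGroup X] [NormedSpace ℝ X]
  [NormedAddCommGroup Y] [NormedSpace ℝ Y] {g : X → Y} {h : Y → X}

/-- A point of an open segment of the sphere forces the endpoints to be at distance two from the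
antipode. -/
lemma norm_add_eq_two_of_segment {a b : X} (ha : ‖a‖ = 1) (hb : ‖b‖ = 1) {t : ℝ} (ht0 : 0 < t)
    (ht1 : t < 1) (hu : ‖(1 - t) • a + t • b‖ = 1) : ‖a + b‖ = 2 := by
  apply le_antisymm
  · refine (norm_add_le _ _).trans ?_
    rw [ha, hb]
    norm_num
  · by_contra hlt
    push Not at hlt
    rcases le_total t (1 / 2) with ht | ht
    · have h1 : (1 - t) • a + t • b = (1 - 2 * t) • a + t • (a + b) := by
        simp only [smul_add, sub_smul, mul_smul, one_smul, two_smul]
        abel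
      have h2 : ‖(1 - t) • a + t • b‖ ≤ (1 - 2 * t) * 1 + t * ‖a + b‖ := by
        rw [h1]
        refine (norm_add_le _ _).trans ?_
        rw [norm_smul, norm_smul, Real.norm_of_nonneg (by linarith : (0 : ℝ) ≤ 1 - 2 * t),
          Real.norm_of_nonneg ht0.le, ha]
      rw [hu] at h2
      nlinarith
    · have h1 : (1 - t) • a + t • b = (2 * t - 1) • b + (1 - t) • (a + b) := by
        simp only [smul_add, sub_smul, mul_smul, one_smul, two_smul]
        abel
      have h2 : ‖(1 - t) • a + t • b‖ ≤ (2 * t - 1) * 1 + (1 - t) * ‖a + b‖ := by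
        rw [h1]
        refine (norm_add_le _ _).trans ?_
        rw [norm_smul, norm_smul, Real.norm_of_nonneg (by linarith : (0 : ℝ) ≤ 2 * t - 1),
          Real.norm_of_nonneg (by linarith : (0 : ℝ) ≤ 1 - t), hb]
      rw [hu] at h2
      nlinarith

/-- A unit vector of the form `(1-t) p - t q`, with `p, q` unit: the sphere isometry respects the
combination. -/
lemma sphere_sub_combo [FiniteDimensional ℝ X] [FiniteDimensional ℝ Y] [Nontrivial X]
    (H : SphereIso g h) {p q : X} (hp : ‖p‖ = 1) (hq : ‖q‖ = 1) {t : ℝ} (ht0 : 0 ≤ t)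
    (ht1 : t ≤ 1) (hu : ‖(1 - t) • p - t • q‖ = 1) :
    g ((1 - t) • p - t • q) = (1 - t) • g p - t • g q := by
  rcases ht0.eq_or_lt with rfl | ht0
  · simp
  rcases ht1.eq_or_lt with rfl | ht1
  · simp only [sub_self, zero_smul, one_smul, zero_sub]
    exact sphere_odd H hq
  have hmq : ‖-q‖ = 1 := by rwa [norm_neg]
  have hu' : ‖(1 - t) • p + t • (-q)‖ = 1 := by
    rw [smul_neg, ← sub_eq_add_neg]
    exact hu
  have h2 := norm_add_eq_two_of_segment hp hmq ht0 ht1 hu'
  have h3 := sphere_affine H hp hmq h2 ht0.le ht1.le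
  rw [sphere_odd H hq, smul_neg, smul_neg, ← sub_eq_add_neg, ← sub_eq_add_neg] at h3
  exact h3

/-- **Theorem.**  Sphere isometries from base-norm spaces extend linearly. -/
theorem base_main [FiniteDimensional ℝ X] [FiniteDimensional ℝ Y] [Nontrivial X]
    (H : SphereIso g h) {F : Set X} (hFconv : Convex ℝ F) (hF1 : ∀ p ∈ F, ‖p‖ = 1)
    (hFsum : ∀ p ∈ F, ∀ q ∈ F, ‖p + q‖ = 2)
    (hB : ∀ x : X, ‖x‖ = 1 → ∃ p ∈ F, ∃ q ∈ F, ∃ t : ℝ, 0 ≤ t ∧ t ≤ 1 ∧ x = (1 - t) • p - t • q) :
    ∃ T : X ≃ₗᵢ[ℝ] Y, ∀ x, ‖x‖ = 1 → T x = g x := by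
  set ψ : X → Y := radial g with hψ
  have hψface : ∀ (a : ℝ), 0 ≤ a → ∀ p ∈ F, ψ (a • p) = a • g p := by
    intro a ha p hp
    rw [hψ, radial_smul g ha, radial_of_unit g (hF1 p hp)]
  -- the cone over `F` is closed under addition, and `g` respects the sum
  have hcone : ∀ (a c : ℝ), 0 ≤ a → 0 ≤ c → ∀ p ∈ F, ∀ p' ∈ F, ∃ A : ℝ, 0 ≤ A ∧ ∃ P ∈ F,
      a • p + c • p' = A • P ∧ A • g P = a • g p + c • g p' := by
    intro a c ha hc p hp p' hp'
    by_cases hac : a + c = 0
    · have ha0 : a = 0 := by linarith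
      have hc0 : c = 0 := by linarith
      exact ⟨0, le_rfl, p, hp, by simp [ha0, hc0], by simp [ha0, hc0]⟩
    · have hacpos : 0 < a + c := lt_of_le_of_ne (by linarith) (Ne.symm hac)
      set r : ℝ := c / (a + c) with hr
      have hr0 : 0 ≤ r := by positivity
      have hr1 : r ≤ 1 := by
        rw [hr, div_le_one hacpos]
        linarith
      have h1r : (1 - r) * (a + c) = a := by
        rw [hr]
        field_simp
        ring
      have hrc : r * (a + c) = c := by
        rw [hr]
        field_simp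
      refine ⟨a + c, hacpos.le, (1 - r) • p + r • p',
        hFconv hp hp' (by linarith) hr0 (by ring), ?_, ?_⟩
      · rw [smul_add, smul_smul, smul_smul, mul_comm, h1r, mul_comm (a + c), hrc]
      · rw [sphere_affine H (hF1 p hp) (hF1 p' hp') (hFsum p hp p' hp') hr0 hr1, smul_add,
          smul_smul, smul_smul, mul_comm, h1r, mul_comm (a + c), hrc]
  -- representation of every vector
  have hrep : ∀ x : X, ∃ a : ℝ, 0 ≤ a ∧ ∃ b : ℝ, 0 ≤ b ∧ ∃ p ∈ F, ∃ q ∈ F,
      x = a • p - b • q ∧ ψ x = a • g p - b • g q := by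
    intro x
    by_cases hx : x = 0
    · obtain ⟨e, he⟩ := exists_ne (0 : X)
      obtain ⟨p, hp, q, hq, -, -, -, -⟩ := hB _ (unit_of_ne he)
      exact ⟨0, le_rfl, 0, le_rfl, p, hp, q, hq, by simp [hx], by simp [hx, hψ, radial_zero]⟩
    · have hu := unit_of_ne hx
      have hn : ‖x‖ ≠ 0 := norm_ne_zero_iff.2 hx
      obtain ⟨p, hp, q, hq, t, ht0, ht1, hut⟩ := hB _ hu
      have h3 := sphere_sub_combo H (hF1 p hp) (hF1 q hq) ht0 ht1 (by rw [← hut]; exact hu)
      rw [← hut] at h3
      have hxeq : x = ‖x‖ • (‖x‖⁻¹ • x) := by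
        rw [smul_smul, mul_inv_cancel₀ hn, one_smul]
      refine ⟨‖x‖ * (1 - t), mul_nonneg (norm_nonneg _) (by linarith), ‖x‖ * t,
        mul_nonneg (norm_nonneg _) ht0, p, hp, q, hq, ?_, ?_⟩
      · rw [mul_smul, mul_smul, ← smul_sub, ← hut, smul_smul, mul_inv_cancel₀ hn, one_smul]
      · simp only [hψ, radial]
        rw [h3, mul_smul, mul_smul, smul_sub]
  -- any representation computes `ψ`
  have hany : ∀ (a b : ℝ), 0 ≤ a → 0 ≤ b → ∀ p ∈ F, ∀ q ∈ F,
      ψ (a • p - b • q) = a • g p - b • g q := by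
    intro a b ha hb p hp q hq
    obtain ⟨a', ha', b', hb', p', hp', q', hq', hx, hψx⟩ := hrep (a • p - b • q)
    rw [hψx]
    obtain ⟨A, hA, P, hP, h1, h2⟩ := hcone a b' ha hb' p hp q' hq'
    obtain ⟨A', hA', P', hP', h1', h2'⟩ := hcone a' b ha' hb p' hp' q hq
    have hnorm : A = A' := by
      have e1 : a • p + b' • q' = a' • p' + b • q := by
        have : a • p - b • q + (b • q + b' • q') = a' • p' - b' • q' + (b • q + b' • q') := by
          rw [← hx]
        calc a • p + b' • q' = a • p - b • q + (b • q + b' • q') := by abel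
          _ = a' • p' - b' • q' + (b • q + b' • q') := this
          _ = a' • p' + b • q := by abel
      have e2 : ‖A • P‖ = ‖A' • P'‖ := by rw [← h1, ← h1', e1]
      rw [norm_smul, norm_smul, hF1 P hP, hF1 P' hP', Real.norm_of_nonneg hA,
        Real.norm_of_nonneg hA', mul_one, mul_one] at e2
      exact e2
    have e1 : A • P = A' • P' := by
      rw [← h1, ← h1']
      have : a • p - b • q + (b • q + b' • q') = a' • p' - b' • q' + (b • q + b' • q') := by
        rw [← hx]
      calc a • p + b' • q' = a • p - b • q + (b • q + b' • q') := by abel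
        _ = a' • p' - b' • q' + (b • q + b' • q') := this
        _ = a' • p' + b • q := by abel
    have hPP : A • g P = A' • g P' := by
      by_cases hA0 : A = 0
      · rw [← hnorm, hA0]
        simp
      · have hP2 : P = P' := by
          rw [← hnorm] at e1
          exact smul_right_injective X hA0 e1
        rw [hnorm, hP2]
    have e3 : a • g p + b' • g q' = a' • g p' + b • g q := by rw [← h2, ← h2', hPP]
    symm
    calc a • g p - b • g q = a • g p + b' • g q' - (b • g q + b' • g q') := by abel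
      _ = a' • g p' + b • g q - (b • g q + b' • g q') := by rw [e3]
      _ = a' • g p' - b' • g q' := by abel
  have hadd : ∀ v v', ψ (v + v') = ψ v + ψ v' := by
    intro v v'
    obtain ⟨a, ha, b, hb, p, hp, q, hq, hv, hψv⟩ := hrep v
    obtain ⟨a', ha', b', hb', p', hp', q', hq', hv', hψv'⟩ := hrep v'
    obtain ⟨A, hA, P, hP, h1, h2⟩ := hcone a a' ha ha' p hp p' hp'
    obtain ⟨B, hB', Q, hQ, h1', h2'⟩ := hcone b b' hb hb' q hq q' hq'
    have e : v + v' = A • P - B • Q := by
      rw [hv, hv', ← h1, ← h1']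
      abel
    rw [e, hany A B hA hB' P hP Q hQ, hψv, hψv', h2, h2']
    abel
  have hhom : ∀ t : ℝ, 0 ≤ t → ∀ v, ψ (t • v) = t • ψ v := fun t ht v => radial_smul g ht v
  have hneg : ∀ v, ψ (-v) = -ψ v := radial_neg g (fun v hv => sphere_odd H hv)
  exact exists_linearIsometryEquiv_of_agree H (linearOfAdd ψ hadd hhom hneg)
    (fun x hx => radial_of_unit g hx)

/-- **Theorem.**  Sphere isometries from base-norm spaces extend linearly: `φ` is a linear
functional and the unit ball is the convex hull of `F ∪ G`, where `F` and `G` are the parts of the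
unit ball on the hyperplanes `φ = 1` and `φ = -1`. -/
theorem base_extends [FiniteDimensional ℝ X] [Nontrivial X] (φ : StrongDual ℝ X)
    (hB : closedBall (0 : X) 1 = convexHull ℝ
      ({x : X | ‖x‖ ≤ 1 ∧ φ x = 1} ∪ {x : X | ‖x‖ ≤ 1 ∧ φ x = -1}))
    (f : sphere (0 : X) 1 ≃ᵢ sphere (0 : Y) 1) :
    ∃ T : X ≃ₗᵢ[ℝ] Y, ∀ x : sphere (0 : X) 1, T x = f x := by
  obtain ⟨g, h, H, hgf⟩ := exists_sphereIso f
  haveI : FiniteDimensional ℝ Y := finiteDimensional_of_sphere f
  set F : Set X := {x : X | ‖x‖ ≤ 1 ∧ φ x = 1} with hF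
  set G : Set X := {x : X | ‖x‖ ≤ 1 ∧ φ x = -1} with hG
  -- `φ` has norm at most one
  have hφball : ∀ x : X, ‖x‖ ≤ 1 → |φ x| ≤ 1 := by
    intro x hx
    have hx' : x ∈ convexHull ℝ (F ∪ G) := by
      rw [← hB]
      simpa using hx
    have hconv : Convex ℝ {y : X | |φ y| ≤ 1} := by
      have : {y : X | |φ y| ≤ 1} = φ ⁻¹' (Icc (-1) 1) := by
        ext y
        simp [abs_le]
      rw [this]
      exact (convex_Icc _ _).linear_preimage φ.toLinearMap
    have hsub : F ∪ G ⊆ {y : X | |φ y| ≤ 1} := by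
      rintro y (⟨-, hy⟩ | ⟨-, hy⟩) <;> simp [hy]
    exact convexHull_min hsub hconv hx'
  have hφnorm : ‖φ‖ ≤ 1 := by
    refine φ.opNorm_le_of_unit_norm zero_le_one fun x hx => ?_
    rw [Real.norm_eq_abs]
    exact hφball x hx.le
  have hF1 : ∀ p ∈ F, ‖p‖ = 1 := by
    rintro p ⟨hp, hφp⟩
    apply le_antisymm hp
    have := functional_le φ hφnorm (x := p)
    rw [hφp] at this
    simpa using this
  have hFsum : ∀ p ∈ F, ∀ q ∈ F, ‖p + q‖ = 2 := by
    rintro p hp q hq
    apply le_antisymm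
    · refine (norm_add_le _ _).trans ?_
      rw [hF1 p hp, hF1 q hq]
      norm_num
    · have := (abs_le.1 (functional_le φ hφnorm (x := p + q))).2
      rw [map_add, hp.2, hq.2] at this
      linarith
  have hFconv : Convex ℝ F := by
    intro p hp q hq a b ha hb hab
    refine ⟨?_, ?_⟩
    · have := (convex_closedBall (0 : X) 1) (show p ∈ closedBall (0 : X) 1 by simpa using hp.1)
        (show q ∈ closedBall (0 : X) 1 by simpa using hq.1) ha hb hab
      simpa using this
    · rw [map_add, map_smul, map_smul, hp.2, hq.2]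
      simp [hab]
  have hGconv : Convex ℝ G := by
    intro p hp q hq a b ha hb hab
    refine ⟨?_, ?_⟩
    · have := (convex_closedBall (0 : X) 1) (show p ∈ closedBall (0 : X) 1 by simpa using hp.1)
        (show q ∈ closedBall (0 : X) 1 by simpa using hq.1) ha hb hab
      simpa using this
    · rw [map_add, map_smul, map_smul, hp.2, hq.2]
      simp only [smul_eq_mul, mul_neg, mul_one]
      linarith
  have hne : (F ∪ G).Nonempty := by
    by_contra hcon
    rw [Set.not_nonempty_iff_eq_empty] at hcon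
    rw [hcon, convexHull_empty] at hB
    have : (0 : X) ∈ closedBall (0 : X) 1 := by simp
    rw [hB] at this
    exact this
  have hFne : F.Nonempty := by
    obtain ⟨p, hp | hp⟩ := hne
    · exact ⟨p, hp⟩
    · exact ⟨-p, by simpa using hp.1, by simp [hp.2]⟩
  have hGne : G.Nonempty := by
    obtain ⟨p, hp⟩ := hFne
    exact ⟨-p, by simpa using hp.1, by simp [hp.2]⟩
  have hdec : ∀ x : X, ‖x‖ = 1 → ∃ p ∈ F, ∃ q ∈ F, ∃ t : ℝ, 0 ≤ t ∧ t ≤ 1 ∧
      x = (1 - t) • p - t • q := by
    intro x hx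
    have hx' : x ∈ convexHull ℝ (F ∪ G) := by
      rw [← hB]
      simp [hx]
    rw [convexHull_union hFne hGne, hFconv.convexHull_eq, hGconv.convexHull_eq] at hx'
    obtain ⟨p, hp, r, hr, a, b, ha, hb, hab, rfl⟩ := (mem_convexJoin.1 hx')
    refine ⟨p, hp, -r, ⟨by simpa using hr.1, by simp [hr.2]⟩, b, hb, by linarith, ?_⟩
    have : (1 - b) = a := by linarith
    rw [this]
    simp [sub_eq_add_neg]
  obtain ⟨T, hT⟩ := base_main H hFconv hF1 hFsum hdec
  refine ⟨T, fun x => ?_⟩
  rw [← hgf]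
  exact hT x (by simpa using x.2)

end Vale.Agent.Lib.P084
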