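import Mathlib

/-! A rigidity statement for cubic forms on a Euclidean space carrying a norm. -/

namespace Vale.Agent.Lib.P084

open Set Metric

section Cubic

variable {V : Type*} [NormedAddCommGroup V] [NormedSpace ℝ V] [FiniteDimensional ℝ V]

omit [FiniteDimensional ℝ V] in
/-- Euler's identity for the norm, at a point of differentiability. -/
lemma hasFDerivAt_norm_self {x : V} {f : V →L[ℝ] ℝ} (hf : HasFDerivAt (fun z : V => ‖z‖) f x) :
    f x = ‖x‖ := by
  have h1 : HasDerivAt (fun t : ℝ => ‖t • x‖) (f x) 1 := by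
    have h2 : HasDerivAt (fun t : ℝ => t • x) x 1 := by
      simpa using (hasDerivAt_id (1 : ℝ)).smul_const x
    have h3 : HasFDerivAt (fun z : V => ‖z‖) f ((1 : ℝ) • x) := by rwa [one_smul]
    exact h3.comp_hasDerivAt (1 : ℝ) h2
  have h4 : HasDerivAt (fun t : ℝ => t * ‖x‖) ‖x‖ 1 := by
    simpa using (hasDerivAt_id (1 : ℝ)).mul_const ‖x‖
  have h5 : (fun t : ℝ => ‖t • x‖) =ᶠ[nhds 1] fun t : ℝ => t * ‖x‖ := by
    filter_upwards [lt_mem_nhds (zero_lt_one : (0 : ℝ) < 1)] with t ht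
    rw [norm_smul, Real.norm_of_nonneg ht.le]
  exact (h1.congr_of_eventuallyEq h5.symm).unique h4

/-- Critical point of a cubic form on a subspace: polynomial inequality version. -/
lemma cubic_lagrange {lam p q r t f : ℝ} (hlam : 0 < lam)
    (hP : ∀ s : ℝ, (lam + 3 * s * q + 3 * s ^ 2 * t + s ^ 3 * f) ^ 2 ≤
      lam ^ 2 * (1 + 2 * s * p + s ^ 2 * r) ^ 3) : q = lam * p := by
  let P : ℝ → ℝ := fun s => lam ^ 2 * (1 + 2 * s * p + s ^ 2 * r) ^ 3 -
    (lam + 3 * s * q + 3 * s ^ 2 * t + s ^ 3 * f) ^ 2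
  have hmin : IsLocalMin P 0 := by
    refine Filter.Eventually.of_forall fun s => ?_
    have := hP s
    have h0 : P 0 = 0 := by simp [P]
    rw [h0]
    simp only [P]
    linarith
  have hder : HasDerivAt P (6 * lam ^ 2 * p - 6 * lam * q) 0 := by
    have h1 : HasDerivAt (fun s : ℝ => 1 + 2 * s * p + s ^ 2 * r) (2 * p) 0 := by
      have a1 : HasDerivAt (fun s : ℝ => 2 * s * p) (2 * p) 0 := by
        simpa using ((hasDerivAt_id (0 : ℝ)).const_mul (2 : ℝ)).mul_const p
      have a2 : HasDerivAt (fun s : ℝ => s ^ 2 * r) 0 0 := by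
        simpa using ((hasDerivAt_pow 2 (0 : ℝ))).mul_const r
      simpa using (a1.const_add (1 : ℝ)).fun_add a2
    have h2 : HasDerivAt (fun s : ℝ => lam + 3 * s * q + 3 * s ^ 2 * t + s ^ 3 * f) (3 * q) 0 := by
      have a1 : HasDerivAt (fun s : ℝ => 3 * s * q) (3 * q) 0 := by
        simpa using ((hasDerivAt_id (0 : ℝ)).const_mul (3 : ℝ)).mul_const q
      have a2 : HasDerivAt (fun s : ℝ => 3 * s ^ 2 * t) 0 0 := by
        simpa using ((hasDerivAt_pow 2 (0 : ℝ)).const_mul (3 : ℝ)).mul_const t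
      have a3 : HasDerivAt (fun s : ℝ => s ^ 3 * f) 0 0 := by
        simpa using ((hasDerivAt_pow 3 (0 : ℝ))).mul_const f
      simpa using ((a1.const_add lam).fun_add a2).fun_add a3
    have h3 := (h1.fun_pow 3).const_mul (lam ^ 2)
    have h4 := h2.fun_pow 2
    have h5 := h3.fun_sub h4
    refine HasDerivAt.congr_deriv h5 ?_
    norm_num
    ring
  have h0 := hmin.hasDerivAt_eq_zero hder
  have h6 : lam * (lam * p - q) = 0 := by linarith
  rcases mul_eq_zero.1 h6 with h7 | h7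
  · linarith
  · linarith

/-- Linear term of a nonnegative quadratic polynomial vanishing at the origin. -/
lemma quad_lagrange {A B : ℝ} (h : ∀ s : ℝ, 0 ≤ A * s ^ 2 + B * s) : B = 0 := by
  by_contra hB
  have hA : 0 < A ∨ A ≤ 0 := lt_or_ge 0 A
  rcases hA with hA | hA
  · have := h (-B / (2 * A))
    have h2 : A * (-B / (2 * A)) ^ 2 + B * (-B / (2 * A)) = -(B ^ 2 / (4 * A)) := by
      field_simp
      ring
    rw [h2] at this
    have h3 : 0 < B ^ 2 / (4 * A) := by positivity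
    linarith
  · have := h (-B)
    have h3 : 0 < B ^ 2 := by positivity
    nlinarith [sq_nonneg B, mul_nonneg (neg_nonneg.2 hA) (sq_nonneg (B))]

variable (h : V →L[ℝ] V →L[ℝ] ℝ) (C : V →L[ℝ] V →L[ℝ] V →L[ℝ] ℝ)

/-- Maximum of a cubic form on the unit quadric of a subspace. -/
lemma cubic_crit (hsym : ∀ a b, h a b = h b a) (hpos : ∀ a, a ≠ 0 → 0 < h a a)
    (hC1 : ∀ a b c, C a b c = C b a c) (hC2 : ∀ a b c, C a b c = C a c b)
    (W : Submodule ℝ V) (hex : ∃ v ∈ W, C v v v ≠ 0) :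
    ∃ b ∈ W, h b b = 1 ∧ 0 < C b b b ∧ ∀ c ∈ W, C b b c = C b b b * h b c := by
  classical
  obtain ⟨v₀, hv₀, hFv₀⟩ := hex
  have hv₀0 : v₀ ≠ 0 := by
    rintro rfl
    simp at hFv₀
  let R : V → ℝ := fun v => (C v v v) ^ 2 / (h v v) ^ 3
  have hWclosed : IsClosed (W : Set V) := W.closed_of_finiteDimensional
  let K : Set V := sphere (0 : V) 1 ∩ W
  have hKcomp : IsCompact K := (isCompact_sphere _ _).inter_right hWclosed
  have hKne : K.Nonempty := by
    refine ⟨‖v₀‖⁻¹ • v₀, ?_, W.smul_mem _ hv₀⟩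
    simp [norm_smul, norm_ne_zero_iff.2 hv₀0]
  have hne0 : ∀ v ∈ K, v ≠ 0 := by
    intro v hv hv0
    have : ‖v‖ = 1 := by simpa using hv.1
    rw [hv0] at this
    simp at this
  have hRcont : ContinuousOn R K := by
    refine ContinuousOn.div ?_ ?_ ?_
    · exact (Continuous.continuousOn (by fun_prop))
    · exact (Continuous.continuousOn (by fun_prop))
    · intro v hv
      exact pow_ne_zero 3 (hpos v (hne0 v hv)).ne'
  obtain ⟨b₀, hb₀K, hb₀max⟩ := hKcomp.exists_isMaxOn hKne hRcont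
  have hb₀0 := hne0 b₀ hb₀K
  have hhom : ∀ (s : ℝ) (v : V), s ≠ 0 → v ≠ 0 → R (s • v) = R v := by
    intro s v hs hv
    have hv' := (hpos v hv).ne'
    simp only [R, map_smul, _root_.smul_apply, smul_eq_mul]
    field_simp
  have hmaxall : ∀ v ∈ W, v ≠ 0 → R v ≤ R b₀ := by
    intro v hv hv0
    have hn : ‖v‖ ≠ 0 := norm_ne_zero_iff.2 hv0
    have hmem : ‖v‖⁻¹ • v ∈ K := by
      refine ⟨?_, W.smul_mem _ hv⟩
      simp [norm_smul, hn]
    have := hb₀max hmem
    rw [Set.mem_ofPred_eq, hhom _ _ (inv_ne_zero hn) hv0] at this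
    exact this
  have hRpos : 0 < R b₀ := by
    refine lt_of_lt_of_le ?_ (hmaxall v₀ hv₀ hv₀0)
    simp only [R]
    have := hpos v₀ hv₀0
    positivity
  have hFb₀ : C b₀ b₀ b₀ ≠ 0 := by
    intro h0
    simp only [R, h0] at hRpos
    norm_num at hRpos
  have hhb₀ := hpos b₀ hb₀0
  -- normalise
  set c₀ : ℝ := Real.sqrt (h b₀ b₀) with hc₀
  have hc₀pos : 0 < c₀ := Real.sqrt_pos.2 hhb₀
  have hc₀sq : c₀ ^ 2 = h b₀ b₀ := Real.sq_sqrt hhb₀.le
  obtain ⟨b, hbW, hbh, hbF, hbR⟩ : ∃ b ∈ W, h b b = 1 ∧ 0 < C b b b ∧ R b = R b₀ := by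
    have hb₁h : h (c₀⁻¹ • b₀) (c₀⁻¹ • b₀) = 1 := by
      simp only [map_smul, _root_.smul_apply, smul_eq_mul]
      rw [← hc₀sq]
      field_simp
    rcases lt_or_gt_of_ne hFb₀ with hneg | hpos'
    · refine ⟨(-c₀⁻¹) • b₀, W.smul_mem _ hb₀K.2, ?_, ?_, ?_⟩
      · simp only [map_smul, _root_.smul_apply, smul_eq_mul]
        rw [← hc₀sq]
        field_simp
      · simp only [map_smul, _root_.smul_apply, smul_eq_mul]
        have : (-c₀⁻¹) * ((-c₀⁻¹) * ((-c₀⁻¹) * C b₀ b₀ b₀)) = (c₀⁻¹) ^ 3 * (-C b₀ b₀ b₀) := by ring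
        rw [this]
        have h2 : 0 < -C b₀ b₀ b₀ := by linarith
        positivity
      · exact hhom _ _ (neg_ne_zero.2 (inv_ne_zero hc₀pos.ne')) hb₀0
    · refine ⟨c₀⁻¹ • b₀, W.smul_mem _ hb₀K.2, hb₁h, ?_, ?_⟩
      · simp only [map_smul, _root_.smul_apply, smul_eq_mul]
        have : c₀⁻¹ * (c₀⁻¹ * (c₀⁻¹ * C b₀ b₀ b₀)) = (c₀⁻¹) ^ 3 * (C b₀ b₀ b₀) := by ring
        rw [this]
        positivity
      · exact hhom _ _ (inv_ne_zero hc₀pos.ne') hb₀0
  refine ⟨b, hbW, hbh, hbF, fun c hc => ?_⟩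
  set lam := C b b b with hlam
  have hRb : R b = lam ^ 2 := by
    simp only [R, hbh]
    simp [hlam]
  -- the polynomial inequality
  have hineq : ∀ v ∈ W, (C v v v) ^ 2 ≤ lam ^ 2 * (h v v) ^ 3 := by
    intro v hv
    by_cases hv0 : v = 0
    · subst hv0
      simp
    · have h1 := hmaxall v hv hv0
      rw [← hbR, hRb] at h1
      have h2 := hpos v hv0
      simp only [R] at h1
      rwa [div_le_iff₀ (by positivity)] at h1
  refine cubic_lagrange (t := C b c c) (r := h c c) (f := C c c c) hbF fun s => ?_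
  have hmem : b + s • c ∈ W := W.add_mem hbW (W.smul_mem _ hc)
  have h1 := hineq _ hmem
  have h2 : C (b + s • c) (b + s • c) (b + s • c) =
      lam + 3 * s * C b b c + 3 * s ^ 2 * C b c c + s ^ 3 * C c c c := by
    simp only [map_add, map_smul, _root_.add_apply, _root_.smul_apply,
      smul_eq_mul]
    have e1 : C c b b = C b b c := by rw [hC1, hC2]
    have e2 : C b c b = C b b c := by rw [hC2]
    have e3 : C c b c = C b c c := by rw [hC1]
    have e4 : C c c b = C b c c := by rw [hC2, hC1]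
    simp only [e1, e2, e3, e4, ← hlam]
    ring
  have h3 : h (b + s • c) (b + s • c) = 1 + 2 * s * h b c + s ^ 2 * h c c := by
    simp only [map_add, map_smul, _root_.add_apply, _root_.smul_apply,
      smul_eq_mul]
    rw [hsym c b, hbh]
    ring
  rw [h2, h3] at h1
  exact h1

/-- Maximum of a quadratic form on the unit quadric of a subspace. -/
lemma quad_crit (q : V →L[ℝ] V →L[ℝ] ℝ) (hsym : ∀ a b, h a b = h b a)
    (hpos : ∀ a, a ≠ 0 → 0 < h a a) (hq : ∀ a b, q a b = q b a)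
    (W : Submodule ℝ V) (hex : ∃ v ∈ W, 0 < q v v) :
    ∃ u ∈ W, u ≠ 0 ∧ ∃ μ : ℝ, 0 < μ ∧ ∀ c ∈ W, q u c = μ * h u c := by
  classical
  obtain ⟨v₀, hv₀, hqv₀⟩ := hex
  have hv₀0 : v₀ ≠ 0 := by
    rintro rfl
    simp at hqv₀
  let R : V → ℝ := fun v => q v v / h v v
  have hWclosed : IsClosed (W : Set V) := W.closed_of_finiteDimensional
  let K : Set V := sphere (0 : V) 1 ∩ W
  have hKcomp : IsCompact K := (isCompact_sphere _ _).inter_right hWclosed
  have hKne : K.Nonempty := by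
    refine ⟨‖v₀‖⁻¹ • v₀, ?_, W.smul_mem _ hv₀⟩
    simp [norm_smul, norm_ne_zero_iff.2 hv₀0]
  have hne0 : ∀ v ∈ K, v ≠ 0 := by
    intro v hv hv0
    have : ‖v‖ = 1 := by simpa using hv.1
    rw [hv0] at this
    simp at this
  have hRcont : ContinuousOn R K := by
    refine ContinuousOn.div ?_ ?_ ?_
    · exact (Continuous.continuousOn (by fun_prop))
    · exact (Continuous.continuousOn (by fun_prop))
    · intro v hv
      exact (hpos v (hne0 v hv)).ne'
  obtain ⟨u, huK, humax⟩ := hKcomp.exists_isMaxOn hKne hRcont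
  have hu0 := hne0 u huK
  have hhu := hpos u hu0
  have hhom : ∀ (s : ℝ) (v : V), s ≠ 0 → v ≠ 0 → R (s • v) = R v := by
    intro s v hs hv
    have hv' := (hpos v hv).ne'
    simp only [R, map_smul, _root_.smul_apply, smul_eq_mul]
    field_simp
  have hmaxall : ∀ v ∈ W, v ≠ 0 → R v ≤ R u := by
    intro v hv hv0
    have hn : ‖v‖ ≠ 0 := norm_ne_zero_iff.2 hv0
    have hmem : ‖v‖⁻¹ • v ∈ K := by
      refine ⟨?_, W.smul_mem _ hv⟩
      simp [norm_smul, hn]
    have := humax hmem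
    rw [Set.mem_ofPred_eq, hhom _ _ (inv_ne_zero hn) hv0] at this
    exact this
  set μ := R u with hμ
  have hμpos : 0 < μ := by
    refine lt_of_lt_of_le ?_ (hmaxall v₀ hv₀ hv₀0)
    simp only [R]
    have := hpos v₀ hv₀0
    positivity
  have hqu : q u u = μ * h u u := by
    simp only [hμ, R]
    field_simp
  refine ⟨u, huK.2, hu0, μ, hμpos, fun c hc => ?_⟩
  have hineq : ∀ v ∈ W, q v v ≤ μ * h v v := by
    intro v hv
    by_cases hv0 : v = 0
    · subst hv0
      simp
    · have h1 := hmaxall v hv hv0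
      have h2 := hpos v hv0
      simp only [R] at h1
      rwa [div_le_iff₀ h2] at h1
  have key : ∀ s : ℝ, 0 ≤ (μ * h c c - q c c) * s ^ 2 + (2 * (μ * h u c - q u c)) * s := by
    intro s
    have h1 := hineq (u + s • c) (W.add_mem huK.2 (W.smul_mem _ hc))
    simp only [map_add, map_smul, _root_.add_apply, _root_.smul_apply,
      smul_eq_mul] at h1
    rw [hq c u, hsym c u] at h1
    nlinarith
  have := quad_lagrange key
  linarith

omit [FiniteDimensional ℝ V] in
/-- Polarisation for a symmetric trilinear form on a subspace. -/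
lemma cubic_polar (hC1 : ∀ a b c, C a b c = C b a c) (hC2 : ∀ a b c, C a b c = C a c b)
    (W : Submodule ℝ V) (hF : ∀ v ∈ W, C v v v = 0) :
    ∀ a ∈ W, ∀ b ∈ W, ∀ c ∈ W, C a b c = 0 := by
  have h1 : ∀ a ∈ W, ∀ c ∈ W, C a a c = 0 := by
    intro a ha c hc
    have e1 := hF (a + c) (W.add_mem ha hc)
    have e2 := hF (a - c) (W.sub_mem ha hc)
    have e3 := hF a ha
    have e4 := hF c hc
    simp only [map_add, map_sub, _root_.add_apply, _root_.sub_apply] at e1 e2
    have s1 : C c a a = C a a c := by rw [hC1, hC2]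
    have s2 : C a c a = C a a c := by rw [hC2]
    have s3 : C c a c = C a c c := by rw [hC1]
    have s4 : C c c a = C a c c := by rw [hC2, hC1]
    simp only [s1, s2, s3, s4, e3, e4] at e1 e2
    linarith
  intro a ha b hb c hc
  have e1 := h1 (a + b) (W.add_mem ha hb) c hc
  simp only [map_add, _root_.add_apply] at e1
  rw [h1 a ha c hc, h1 b hb c hc, hC1 b a c] at e1
  linarith

/-- **Rigidity lemma.**  A totally symmetric tensor `Δ` on a Euclidean space of dimension at least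
two vanishes if it satisfies `J u (Δ w u) = h w u * δ u`, with `J` the derivative of a norm. -/
theorem cubic_rigid (hdim : 2 ≤ Module.finrank ℝ V)
    (hsym : ∀ a b, h a b = h b a) (hpos : ∀ a, a ≠ 0 → 0 < h a a)
    (Δ : V →L[ℝ] V →L[ℝ] V) (hΔsym : ∀ a b, Δ a b = Δ b a)
    (hC : ∀ a b c, h (Δ a b) c = h (Δ a c) b)
    (J : V → V →L[ℝ] ℝ) (hJ : ∀ u, u ≠ 0 → HasFDerivAt (fun v : V => ‖v‖) (J u) u)
    (δ : V → ℝ) (hE : ∀ u, u ≠ 0 → ∀ w, J u (Δ w u) = h w u * δ u) : ∀ a b, Δ a b = 0 := by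
  classical
  let D : V →L[ℝ] V →L[ℝ] V →L[ℝ] ℝ := (ContinuousLinearMap.compL ℝ V V (V →L[ℝ] ℝ) h).comp Δ
  have hD : ∀ a b c, D a b c = h (Δ a b) c := fun a b c => rfl
  have hC1 : ∀ a b c, D a b c = D b a c := by
    intro a b c
    rw [hD, hD, hΔsym]
  have hC2 : ∀ a b c, D a b c = D a c b := by
    intro a b c
    rw [hD, hD, hC]
  have hzero : ∀ v : V, (∀ c, h v c = 0) → v = 0 := by
    intro v hv
    by_contra hne
    have := hpos v hne
    rw [hv v] at this
    exact lt_irrefl _ this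
  by_cases hF : ∀ v ∈ (⊤ : Submodule ℝ V), D v v v = 0
  · intro a b
    apply hzero
    intro c
    rw [← hD]
    exact cubic_polar D hC1 hC2 ⊤ hF a trivial b trivial c trivial
  exfalso
  push Not at hF
  obtain ⟨v₀, hv₀, hv₀F⟩ := hF
  obtain ⟨b, -, hbh, hbF, hbcrit⟩ := cubic_crit h D hsym hpos hC1 hC2 ⊤ ⟨v₀, hv₀, hv₀F⟩
  set lam : ℝ := D b b b with hlam
  have hbb : Δ b b = lam • b := by
    rw [← sub_eq_zero]
    apply hzero
    intro c
    simp only [map_sub, map_smul, _root_.sub_apply, _root_.smul_apply, smul_eq_mul]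
    have := hbcrit c trivial
    rw [hD] at this
    linarith
  -- the hyperplane orthogonal to `b`
  let W : Submodule ℝ V := LinearMap.ker (h b).toLinearMap
  have hW : ∀ u, u ∈ W ↔ h b u = 0 := fun u => LinearMap.mem_ker
  have hdec : ∀ c : V, c - h b c • b ∈ W := by
    intro c
    rw [hW]
    simp [hbh]
  have hb0 : b ≠ 0 := by
    rintro rfl
    simp at hbh
  -- quadratic step
  have hJself : ∀ u, u ≠ 0 → J u u = ‖u‖ := fun u hu => hasFDerivAt_norm_self (hJ u hu)
  have hbD : ∀ u ∈ W, D b u b = 0 := by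
    intro u hu
    rw [hC2, hbcrit u trivial, (hW u).1 hu, mul_zero]
  have hquad : ∀ ε : ℝ, ε ≠ 0 → ∀ v ∈ W, ¬ 0 < ε * D b v v := by
    intro ε hε v hv hvpos
    let q : V →L[ℝ] V →L[ℝ] ℝ := ε • D b
    have hq : ∀ a c, q a c = ε * D b a c := fun a c => rfl
    have hqsym : ∀ a c, q a c = q c a := by
      intro a c
      rw [hq, hq, hC2]
    obtain ⟨u, huW, hu0, μ, hμ, hcrit⟩ :=
      quad_crit h q hsym hpos hqsym W ⟨v, hv, by rw [hq]; exact hvpos⟩
    have huW' : h b u = 0 := (hW u).1 huW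
    have hkey : ∀ c, ε * D b u c = μ * h u c := by
      intro c
      have hc0 := hcrit _ (hdec c)
      simp only [hq, map_sub, map_smul, smul_eq_mul, hbD u huW] at hc0
      have e2 : h u b = 0 := by rw [hsym, huW']
      rw [e2] at hc0
      linarith
    have hbu : Δ b u = (μ / ε) • u := by
      rw [← sub_eq_zero]
      apply hzero
      intro c
      simp only [map_sub, map_smul, _root_.sub_apply, _root_.smul_apply, smul_eq_mul]
      rw [← hD]
      have := hkey c
      field_simp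
      linarith
    have h1 := hE u hu0 b
    rw [huW', zero_mul, hbu, map_smul, hJself u hu0, smul_eq_mul] at h1
    have h2 : 0 < ‖u‖ := norm_pos_iff.2 hu0
    have h3 : μ / ε ≠ 0 := div_ne_zero hμ.ne' hε
    exact (mul_ne_zero h3 h2.ne') h1
  have hDbvv : ∀ v ∈ W, D b v v = 0 := by
    intro v hv
    have h1 := hquad 1 one_ne_zero v hv
    have h2 := hquad (-1) (by norm_num) v hv
    push Not at h1 h2
    linarith
  have hbW : ∀ u ∈ W, ∀ c ∈ W, D b u c = 0 := by
    intro u hu c hc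
    have e1 := hDbvv (u + c) (W.add_mem hu hc)
    simp only [map_add, _root_.add_apply] at e1
    rw [hDbvv u hu, hDbvv c hc, hC2 b c u] at e1
    linarith
  have hbu0 : ∀ u ∈ W, Δ b u = 0 := by
    intro u hu
    apply hzero
    intro c
    rw [← hD]
    have e1 := hbW u hu _ (hdec c)
    simp only [map_sub, map_smul, smul_eq_mul, hbD u hu] at e1
    linarith
  -- cubic step on the hyperplane
  have hWF : ∀ v ∈ W, D v v v = 0 := by
    by_contra hne
    push Not at hne
    obtain ⟨v₁, hv₁, hv₁F⟩ := hne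
    obtain ⟨b', hb'W, hb'h, hb'F, hb'crit⟩ :=
      cubic_crit h D hsym hpos hC1 hC2 W ⟨v₁, hv₁, hv₁F⟩
    set lam' : ℝ := D b' b' b' with hlam'
    have hb'b : h b b' = 0 := (hW b').1 hb'W
    have hbb' : h b' b = 0 := by rw [hsym, hb'b]
    have hbb'0 : Δ b b' = 0 := hbu0 b' hb'W
    have hb'b0 : Δ b' b = 0 := by rw [hΔsym, hbb'0]
    have hb'b' : Δ b' b' = lam' • b' := by
      rw [← sub_eq_zero]
      apply hzero
      intro c
      simp only [map_sub, map_smul, _root_.sub_apply, _root_.smul_apply, smul_eq_mul]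
      rw [← hD]
      have e1 := hb'crit _ (hdec c)
      simp only [map_sub, map_smul, smul_eq_mul, hbb'] at e1
      have e2 : D b' b' b = 0 := by
        rw [hC2, hC1, hD, hbb'0]
        simp
      rw [e2] at e1
      linarith
    set u : V := lam • b - lam' • b' with hu
    set w : V := lam⁻¹ • b + lam'⁻¹ • b' with hw
    have hlam0 : lam ≠ 0 := hbF.ne'
    have hlam'0 : lam' ≠ 0 := hb'F.ne'
    have hu0 : u ≠ 0 := by
      intro hu0
      have : h b u = lam := by
        rw [hu]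
        simp [hbh, hb'b]
      rw [hu0] at this
      simp at this
      exact hlam0 this.symm
    have hwu : Δ w u = u := by
      simp only [hw, hu, map_add, map_sub, map_smul, _root_.add_apply, _root_.smul_apply, hbb,
        hbb'0, hb'b0, hb'b', smul_zero, sub_zero, zero_sub, smul_neg, smul_smul]
      rw [inv_mul_cancel₀ hlam'0]
      simp [inv_mul_cancel₀ hlam0]
    have hhwu : h w u = 0 := by
      simp only [hw, hu, map_add, map_sub, map_smul, _root_.add_apply, _root_.smul_apply,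
        smul_eq_mul, hbh, hb'h, hb'b, hbb']
      field_simp
      ring
    have e1 := hE u hu0 w
    rw [hwu, hhwu, zero_mul, hJself u hu0] at e1
    exact hu0 (norm_eq_zero.1 e1)
  have hWW := cubic_polar D hC1 hC2 W hWF
  have hWW0 : ∀ u ∈ W, ∀ v ∈ W, Δ u v = 0 := by
    intro u hu v hv
    apply hzero
    intro c
    rw [← hD]
    have e1 := hWW u hu v hv _ (hdec c)
    simp only [map_sub, map_smul, smul_eq_mul] at e1
    have e2 : D u v b = 0 := by
      rw [hC2, hC1]
      exact hbW u hu v hv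
    rw [e2] at e1
    linarith
  -- a direction orthogonal to `b`
  obtain ⟨y, hy⟩ := exists_linearIndependent_pair_of_one_lt_finrank (R := ℝ)
    (by omega : 1 < Module.finrank ℝ V) hb0
  set w₀ : V := y - h b y • b with hw₀
  have hw₀W : w₀ ∈ W := hdec y
  have hw₀0 : w₀ ≠ 0 := by
    intro h0
    have := (LinearIndependent.pair_iff.1 hy) (-(h b y)) 1 (by
      rw [hw₀] at h0
      simpa [sub_eq_add_neg, add_comm] using h0)
    norm_num at this
  have hw₀h : h w₀ b = 0 := by
    rw [hsym]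
    exact (hW w₀).1 hw₀W
  have hhw₀ := hpos w₀ hw₀0
  have hu0 : ∀ α : ℝ, α • b + w₀ ≠ 0 := by
    intro α hu
    have : h w₀ (α • b + w₀) = h w₀ w₀ := by
      simp [hw₀h]
    rw [hu] at this
    simp at this
    exact hhw₀.ne this
  have hderiv0 : ∀ α : ℝ, 0 < α → J (α • b + w₀) b = 0 := by
    intro α hα
    set u := α • b + w₀ with hu
    have e1 := hE u (hu0 α) w₀
    have e2 : Δ w₀ u = 0 := by
      simp only [hu, map_add, map_smul, hWW0 w₀ hw₀W w₀ hw₀W]
      rw [hΔsym w₀ b, hbu0 w₀ hw₀W]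
      simp
    have e3 : h w₀ u = h w₀ w₀ := by
      simp [hu, hw₀h]
    rw [e2, map_zero, e3] at e1
    have hδ : δ u = 0 := by
      rcases mul_eq_zero.1 e1.symm with h1 | h1
      · exact absurd h1 hhw₀.ne'
      · exact h1
    have e4 := hE u (hu0 α) b
    have e5 : Δ b u = (α * lam) • b := by
      simp only [hu, map_add, map_smul, hbb, hbu0 w₀ hw₀W, add_zero, smul_smul]
    rw [e5, map_smul, hδ, mul_zero, smul_eq_mul] at e4
    rcases mul_eq_zero.1 e4 with h1 | h1
    · exact absurd h1 (mul_pos hα hbF).ne'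
    · exact h1
  let φ : ℝ → ℝ := fun α => ‖α • b + w₀‖
  have hφcont : Continuous φ := by fun_prop
  have hφder : ∀ α : ℝ, 0 < α → HasDerivAt φ 0 α := by
    intro α hα
    have h1 : HasDerivAt (fun t : ℝ => t • b + w₀) b α := by
      simpa using ((hasDerivAt_id α).smul_const b).add_const w₀
    have h2 := (hJ _ (hu0 α)).comp_hasDerivAt α h1
    rw [hderiv0 α hα] at h2
    exact h2
  have hb1 : 0 < ‖b‖ := norm_pos_iff.2 hb0
  set T : ℝ := 1 + (φ 1 + ‖w₀‖ + 1) / ‖b‖ with hT
  have hφ1 : 0 ≤ φ 1 := norm_nonneg _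
  have hT1 : 1 ≤ T := by
    have : 0 ≤ (φ 1 + ‖w₀‖ + 1) / ‖b‖ := by positivity
    rw [hT]
    linarith
  have hconst := constant_of_has_deriv_right_zero (hφcont.continuousOn (s := Icc 1 T))
    (fun x hx => (hφder x (by linarith [hx.1])).hasDerivWithinAt) T ⟨hT1, le_rfl⟩
  have hlow : T * ‖b‖ - ‖w₀‖ ≤ φ T := by
    have h1 : ‖T • b‖ ≤ ‖T • b + w₀‖ + ‖w₀‖ := by
      have := norm_sub_le (T • b + w₀) w₀
      simpa using this
    rw [norm_smul, Real.norm_of_nonneg (by linarith)] at h1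
    simp only [φ]
    linarith
  have hTb : T * ‖b‖ = ‖b‖ + (φ 1 + ‖w₀‖ + 1) := by
    rw [hT]
    field_simp
  rw [hconst] at hlow
  linarith

end Cubic

end Vale.Agent.Lib.P084
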