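import Mathlib
import Vale.Agent.Lib.P084.BaseNorm

/-! Order-unit spaces: there is a unit vector `e` with `‖x + e‖ = 2` or `‖x - e‖ = 2` for every unit
vector `x`.  Every sphere isometry from such a space extends linearly. -/

namespace Vale.Agent.Lib.P084

open Set Metric

section Vertex

variable {X : Type*} [NormedAddCommGroup X] [NormedSpace ℝ X]

/-- The threshold beyond which `s • e + w` behaves linearly in `s`. -/
noncomputable def thr (w : X) : ℝ := 3 * ‖w‖ + 1

lemma thr_pos (w : X) : 0 < thr w := by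
  unfold thr
  positivity

lemma thr_neg (w : X) : thr (-w) = thr w := by
  simp [thr]

/-- Norm on a segment of the sphere. -/
lemma cone_norm {e z : X} (he : ‖e‖ = 1) (hz : ‖z‖ = 1) (hze : ‖z + e‖ = 2) {α β : ℝ} (hα : 0 ≤ α)
    (hβ : 0 ≤ β) : ‖α • z + β • e‖ = α + β := by
  obtain ⟨χ, hχ, hχz, hχe⟩ := exists_functional_add hz he hze
  apply le_antisymm
  · refine (norm_add_le _ _).trans ?_
    rw [norm_smul, norm_smul, hz, he, Real.norm_of_nonneg hα, Real.norm_of_nonneg hβ]
    simp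
  · have := (abs_le.1 (functional_le χ hχ (x := α • z + β • e))).2
    rw [map_add, map_smul, map_smul, hχz, hχe] at this
    simpa using this

variable {e : X}

/-- Beyond the threshold, the normalised vector is on a segment of the sphere through `e`. -/
lemma near_unit (he : ‖e‖ = 1) (hV : ∀ x : X, ‖x‖ = 1 → ‖x + e‖ = 2 ∨ ‖x - e‖ = 2) {w : X} {s : ℝ}
    (hs : thr w ≤ s) : 2 * ‖w‖ + 1 ≤ ‖s • e + w‖ ∧ ‖‖s • e + w‖⁻¹ • (s • e + w)‖ = 1 ∧
      ‖‖s • e + w‖⁻¹ • (s • e + w) + e‖ = 2 := by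
  have hs0 : 0 < s := lt_of_lt_of_le (thr_pos w) hs
  have hswe : ‖s • e‖ = s := by rw [norm_smul, he, Real.norm_of_nonneg hs0.le, mul_one]
  have hw0 := norm_nonneg w
  have hs' : 3 * ‖w‖ + 1 ≤ s := hs
  have hn : 2 * ‖w‖ + 1 ≤ ‖s • e + w‖ := by
    have h1 : ‖s • e‖ ≤ ‖s • e + w‖ + ‖w‖ := by
      have := norm_sub_le (s • e + w) w
      simpa using this
    rw [hswe] at h1
    linarith
  have hupper : ‖s • e + w‖ ≤ s + ‖w‖ := by
    refine (norm_add_le _ _).trans ?_
    rw [hswe]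
  have hlower : s - ‖w‖ ≤ ‖s • e + w‖ := by
    have h1 : ‖s • e‖ ≤ ‖s • e + w‖ + ‖w‖ := by
      have := norm_sub_le (s • e + w) w
      simpa using this
    rw [hswe] at h1
    linarith
  have hnpos : 0 < ‖s • e + w‖ := by linarith
  have hne : s • e + w ≠ 0 := norm_pos_iff.1 hnpos
  have hu := unit_of_ne hne
  set n := ‖s • e + w‖ with hndef
  have hclose : ‖n⁻¹ • (s • e + w) - e‖ < 2 := by
    have h1 : n⁻¹ • (s • e + w) - e = n⁻¹ • ((s - n) • e + w) := by
      rw [smul_add, smul_add, sub_smul, smul_sub, smul_smul, smul_smul, inv_mul_cancel₀ hnpos.ne',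
        one_smul]
      abel
    rw [h1, norm_smul, norm_inv, Real.norm_of_nonneg hnpos.le, inv_mul_lt_iff₀ hnpos]
    refine lt_of_le_of_lt (norm_add_le _ _) ?_
    rw [norm_smul, he, mul_one, Real.norm_eq_abs]
    have h2 : |s - n| ≤ ‖w‖ := by
      rw [abs_le]
      constructor <;> linarith
    linarith
  refine ⟨hn, hu, ?_⟩
  rcases hV _ hu with h | h
  · exact h
  · exact absurd h hclose.ne

/-- The asymptotic value `lim_s (‖s • e + w‖ - s)`, the maximum of `w` on the state space. -/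
noncomputable def lam (e w : X) : ℝ := ‖thr w • e + w‖ - thr w

lemma norm_add_smul (he : ‖e‖ = 1) (hV : ∀ x : X, ‖x‖ = 1 → ‖x + e‖ = 2 ∨ ‖x - e‖ = 2) {w : X}
    {s t : ℝ} (hs : thr w ≤ s) (ht : 0 ≤ t) : ‖(s + t) • e + w‖ = ‖s • e + w‖ + t := by
  obtain ⟨hn, hu, hz⟩ := near_unit he hV hs
  have hw0 := norm_nonneg w
  have hnpos : 0 < ‖s • e + w‖ := by linarith
  have h1 := cone_norm he hu hz hnpos.le ht
  have h2 : ‖s • e + w‖ • ‖s • e + w‖⁻¹ • (s • e + w) + t • e = (s + t) • e + w := by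
    rw [smul_smul, mul_inv_cancel₀ hnpos.ne', one_smul, add_smul]
    abel
  rwa [h2] at h1

/-- The defining property of `lam`. -/
lemma lam_spec (he : ‖e‖ = 1) (hV : ∀ x : X, ‖x‖ = 1 → ‖x + e‖ = 2 ∨ ‖x - e‖ = 2) {w : X} {s : ℝ}
    (hs : thr w ≤ s) : ‖s • e + w‖ = s + lam e w := by
  have h1 := norm_add_smul he hV (le_refl (thr w)) (sub_nonneg.2 hs)
  rw [add_sub_cancel] at h1
  rw [h1, lam]
  ring

lemma lam_eq_of (he : ‖e‖ = 1) (hV : ∀ x : X, ‖x‖ = 1 → ‖x + e‖ = 2 ∨ ‖x - e‖ = 2) {w : X} {s c : ℝ}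
    (hs : thr w ≤ s) (h : ‖s • e + w‖ = s + c) : lam e w = c := by
  have := lam_spec he hV hs
  linarith

lemma lam_le (he : ‖e‖ = 1) (hV : ∀ x : X, ‖x‖ = 1 → ‖x + e‖ = 2 ∨ ‖x - e‖ = 2) (w : X) :
    lam e w ≤ ‖w‖ := by
  have h1 := lam_spec he hV (le_refl (thr w))
  have h2 : ‖thr w • e + w‖ ≤ thr w + ‖w‖ := by
    refine (norm_add_le _ _).trans ?_
    rw [norm_smul, he, mul_one, Real.norm_of_nonneg (thr_pos w).le]
  linarith

lemma lam_translate (he : ‖e‖ = 1) (hV : ∀ x : X, ‖x‖ = 1 → ‖x + e‖ = 2 ∨ ‖x - e‖ = 2) (w : X)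
    (t : ℝ) : lam e (w + t • e) = lam e w + t := by
  set s : ℝ := thr (w + t • e) + thr w + |t| with hs
  have h0 := thr_pos (w + t • e)
  have h0' := thr_pos w
  have h1 : thr (w + t • e) ≤ s := by
    rw [hs]
    have := abs_nonneg t
    linarith
  have h2 : thr w ≤ s + t := by
    rw [hs]
    have := neg_abs_le t
    linarith
  have h3 := lam_spec he hV h2
  refine lam_eq_of he hV h1 ?_
  have h4 : ∀ s : ℝ, s • e + (w + t • e) = (s + t) • e + w := fun s => by
    rw [add_smul]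
    abel
  rw [h4, h3]
  ring

lemma lam_smul (he : ‖e‖ = 1) (hV : ∀ x : X, ‖x‖ = 1 → ‖x + e‖ = 2 ∨ ‖x - e‖ = 2) (w : X) {c : ℝ}
    (hc : 0 < c) : lam e (c • w) = c * lam e w := by
  set s : ℝ := thr (c • w) + c * thr w with hs
  have h0 := thr_pos (c • w)
  have h0' := thr_pos w
  have h1 : thr (c • w) ≤ s := by
    rw [hs]
    have := mul_pos hc h0'
    linarith
  have h2 : thr w ≤ s / c := by
    rw [hs, le_div_iff₀ hc]
    have := mul_pos hc h0'
    nlinarith
  have h3 := lam_spec he hV h2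
  refine lam_eq_of he hV h1 ?_
  have h4 : s • e + c • w = c • ((s / c) • e + w) := by
    rw [smul_add, smul_smul, mul_div_cancel₀ _ hc.ne']
  rw [h4, norm_smul, Real.norm_of_nonneg hc.le, h3]
  field_simp

/-- A unit vector with `‖x + e‖ = 2` has `lam = 1`, and conversely. -/
lemma lam_eq_one_of (he : ‖e‖ = 1) (hV : ∀ x : X, ‖x‖ = 1 → ‖x + e‖ = 2 ∨ ‖x - e‖ = 2) {x : X}
    (hx : ‖x‖ = 1) (hxe : ‖x + e‖ = 2) : lam e x = 1 := by
  have hth : thr x ≤ thr x := le_rfl
  refine lam_eq_of he hV hth ?_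
  have h1 := cone_norm he hx hxe (zero_le_one) (thr_pos x).le
  rw [one_smul, add_comm x] at h1
  rw [h1]
  ring

lemma norm_add_of_lam (he : ‖e‖ = 1) (hV : ∀ x : X, ‖x‖ = 1 → ‖x + e‖ = 2 ∨ ‖x - e‖ = 2) {x : X}
    (hx : ‖x‖ = 1) (hl : lam e x = 1) : ‖x + e‖ = 2 := by
  apply le_antisymm
  · refine (norm_add_le _ _).trans ?_
    rw [hx, he]
    norm_num
  · have hth : thr x = 4 := by
      unfold thr
      rw [hx]
      norm_num
    have h1 := lam_spec he hV (le_refl (thr x))
    rw [hth, hl] at h1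
    have h2 : ‖(4 : ℝ) • e + x‖ ≤ ‖x + e‖ + ‖(3 : ℝ) • e‖ := by
      have : (4 : ℝ) • e + x = (x + e) + (3 : ℝ) • e := by
        rw [show (4 : ℝ) = 3 + 1 by norm_num, add_smul, one_smul]
        abel
      rw [this]
      exact norm_add_le _ _
    rw [norm_smul, he] at h2
    norm_num at h2
    linarith

/-- The norm is the maximum of `lam w` and `lam (-w)`. -/
lemma norm_eq_max_lam (he : ‖e‖ = 1) (hV : ∀ x : X, ‖x‖ = 1 → ‖x + e‖ = 2 ∨ ‖x - e‖ = 2) (w : X) :
    ‖w‖ = max (lam e w) (lam e (-w)) := by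
  apply le_antisymm
  · by_cases hw : w = 0
    · subst hw
      have h1 : lam e (0 : X) = 0 := by
        refine lam_eq_of he hV (le_refl (thr (0 : X))) ?_
        rw [add_zero, norm_smul, he, mul_one, Real.norm_of_nonneg (thr_pos _).le]
        ring
      simp [h1]
    · have hn : 0 < ‖w‖ := norm_pos_iff.2 hw
      have hu := unit_of_ne hw
      rcases hV _ hu with h | h
      · have h1 := lam_eq_one_of he hV hu h
        rw [lam_smul he hV w (inv_pos.2 hn)] at h1
        have : lam e w = ‖w‖ := by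
          field_simp at h1
          exact h1
        rw [this]
        exact le_max_left _ _
      · have hu' : ‖-(‖w‖⁻¹ • w)‖ = 1 := by rwa [norm_neg]
        have h' : ‖-(‖w‖⁻¹ • w) + e‖ = 2 := by
          rw [← h, ← norm_neg]
          congr 1
          abel
        have h1 := lam_eq_one_of he hV hu' h'
        rw [← smul_neg, lam_smul he hV (-w) (inv_pos.2 hn)] at h1
        have : lam e (-w) = ‖w‖ := by
          field_simp at h1
          exact h1
        rw [this]
        exact le_max_right _ _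
  · refine max_le (lam_le he hV w) ?_
    have := lam_le he hV (-w)
    rwa [norm_neg] at this

end Vertex

section Map

variable {X Y : Type*} [NormedAddCommGroup X] [NormedSpace ℝ X]
  [NormedAddCommGroup Y] [NormedSpace ℝ Y] {g : X → Y} {h : Y → X} {e : X}

/-- The map at infinity: `radial g (s • e + w) = s • g e + xi g e w` for large `s`. -/
noncomputable def xi (g : X → Y) (e w : X) : Y := radial g (thr w • e + w) - thr w • g e

/-- The radial extension on a cone over a segment of the sphere through `e`. -/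
lemma radial_cone [FiniteDimensional ℝ X] [FiniteDimensional ℝ Y] (H : SphereIso g h)
    (he : ‖e‖ = 1) {z : X} (hz : ‖z‖ = 1) (hze : ‖z + e‖ = 2) {α β : ℝ} (hα : 0 ≤ α) (hβ : 0 ≤ β) :
    radial g (α • z + β • e) = α • g z + β • g e := by
  by_cases hab : α + β = 0
  · have h1 : α = 0 := by linarith
    have h2 : β = 0 := by linarith
    simp [h1, h2, radial_zero]
  · have hm : 0 < α + β := lt_of_le_of_ne (by linarith) (Ne.symm hab)
    set r : ℝ := β / (α + β) with hr
    have hr0 : 0 ≤ r := by positivity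
    have hr1 : r ≤ 1 := by
      rw [hr, div_le_one hm]
      linarith
    have h1r : (α + β) * (1 - r) = α := by
      rw [hr]
      field_simp
      ring
    have hrm : (α + β) * r = β := by
      rw [hr]
      field_simp
    have h1 : α • z + β • e = (α + β) • ((1 - r) • z + r • e) := by
      rw [smul_add, smul_smul, smul_smul, h1r, hrm]
    have hnorm : ‖(1 - r) • z + r • e‖ = 1 := by
      rw [cone_norm he hz hze (by linarith) hr0]
      ring
    rw [h1, radial_smul g hm.le, radial_of_unit g hnorm, sphere_affine H hz he hze hr0 hr1,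
      smul_add, smul_smul, smul_smul, h1r, hrm]

lemma xi_spec [FiniteDimensional ℝ X] [FiniteDimensional ℝ Y] (H : SphereIso g h) (he : ‖e‖ = 1)
    (hV : ∀ x : X, ‖x‖ = 1 → ‖x + e‖ = 2 ∨ ‖x - e‖ = 2) {w : X} {s : ℝ} (hs : thr w ≤ s) :
    radial g (s • e + w) = s • g e + xi g e w := by
  obtain ⟨hn, hu, hz⟩ := near_unit he hV (le_refl (thr w))
  have hw0 := norm_nonneg w
  have hnpos : 0 < ‖thr w • e + w‖ := by linarith
  set n := ‖thr w • e + w‖ with hndef
  have h0 : n • n⁻¹ • (thr w • e + w) = thr w • e + w := by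
    rw [smul_smul, mul_inv_cancel₀ hnpos.ne', one_smul]
  have h1 := radial_cone H he hu hz hnpos.le (sub_nonneg.2 hs)
  have h2 := radial_cone H he hu hz hnpos.le (le_refl (0 : ℝ))
  rw [h0] at h1 h2
  have h3 : thr w • e + w + (s - thr w) • e = s • e + w := by
    rw [sub_smul]
    abel
  rw [h3] at h1
  simp only [zero_smul, add_zero] at h2
  rw [h1, xi, h2, sub_smul]
  abel

lemma xi_translate [FiniteDimensional ℝ X] [FiniteDimensional ℝ Y] (H : SphereIso g h)
    (he : ‖e‖ = 1) (hV : ∀ x : X, ‖x‖ = 1 → ‖x + e‖ = 2 ∨ ‖x - e‖ = 2) (w : X) (t : ℝ) :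
    xi g e (w + t • e) = xi g e w + t • g e := by
  set s : ℝ := thr (w + t • e) + thr w + |t| with hs
  have h0 := thr_pos (w + t • e)
  have h0' := thr_pos w
  have h1 : thr (w + t • e) ≤ s := by
    rw [hs]
    have := abs_nonneg t
    linarith
  have h2 : thr w ≤ s + t := by
    rw [hs]
    have := neg_abs_le t
    linarith
  have h3 := xi_spec H he hV h2
  have h4 := xi_spec H he hV h1
  have h5 : ∀ s : ℝ, s • e + (w + t • e) = (s + t) • e + w := fun s => by
    rw [add_smul]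
    abel
  rw [h5, h3, add_smul] at h4
  have h6 : s • g e + xi g e (w + t • e) = s • g e + (xi g e w + t • g e) := by
    rw [← h4]
    abel
  exact add_left_cancel h6

lemma xi_zero [FiniteDimensional ℝ X] [FiniteDimensional ℝ Y] (H : SphereIso g h) (he : ‖e‖ = 1)
    (hV : ∀ x : X, ‖x‖ = 1 → ‖x + e‖ = 2 ∨ ‖x - e‖ = 2) : xi g e (0 : X) = 0 := by
  simp only [xi, add_zero]
  have h1 := thr_pos (0 : X)
  rw [radial_smul g h1.le, radial_of_unit g he, sub_self]

lemma xi_smul [FiniteDimensional ℝ X] [FiniteDimensional ℝ Y] (H : SphereIso g h) (he : ‖e‖ = 1)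
    (hV : ∀ x : X, ‖x‖ = 1 → ‖x + e‖ = 2 ∨ ‖x - e‖ = 2) (w : X) {c : ℝ} (hc : 0 ≤ c) :
    xi g e (c • w) = c • xi g e w := by
  rcases hc.eq_or_lt with rfl | hc
  · simp [xi_zero H he hV]
  set s : ℝ := thr (c • w) + c * thr w with hs
  have h0 := thr_pos (c • w)
  have h0' := thr_pos w
  have h1 : thr (c • w) ≤ s := by
    rw [hs]
    have := mul_pos hc h0'
    linarith
  have h2 : thr w ≤ s / c := by
    rw [hs, le_div_iff₀ hc]
    have := mul_pos hc h0'
    nlinarith
  have h3 := xi_spec H he hV h2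
  have h4 := xi_spec H he hV h1
  have h5 : s • e + c • w = c • ((s / c) • e + w) := by
    rw [smul_add, smul_smul, mul_div_cancel₀ _ hc.ne']
  rw [h5, radial_smul g hc.le, h3, smul_add, smul_smul, mul_div_cancel₀ _ hc.ne'] at h4
  exact (add_left_cancel h4).symm

/-- On unit vectors of the segment type, the map at infinity is `g`. -/
lemma xi_eq_of_unit [FiniteDimensional ℝ X] [FiniteDimensional ℝ Y] (H : SphereIso g h)
    (he : ‖e‖ = 1) (hV : ∀ x : X, ‖x‖ = 1 → ‖x + e‖ = 2 ∨ ‖x - e‖ = 2) {x : X} (hx : ‖x‖ = 1)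
    (hxe : ‖x + e‖ = 2) : xi g e x = g x := by
  have h1 := xi_spec H he hV (le_refl (thr x))
  have h2 := radial_cone H he hx hxe zero_le_one (thr_pos x).le
  rw [one_smul, one_smul, add_comm x, add_comm (g x)] at h2
  rw [h2] at h1
  exact (add_left_cancel h1).symm

end Map

section Main

variable {X Y : Type*} [NormedAddCommGroup X] [NormedSpace ℝ X]
  [NormedAddCommGroup Y] [NormedSpace ℝ Y] {g : X → Y} {h : Y → X} {e : X}

/-- `xi` is odd. -/
lemma xi_neg [FiniteDimensional ℝ X] [FiniteDimensional ℝ Y] [Nontrivial X] (H : SphereIso g h)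
    (he : ‖e‖ = 1) (hV : ∀ x : X, ‖x‖ = 1 → ‖x + e‖ = 2 ∨ ‖x - e‖ = 2) (w : X) :
    xi g e (-w) = -xi g e w := by
  set α : ℝ := (lam e w - lam e (-w)) / 2 with hα
  set b : X := w + (-α) • e with hb
  have hw : w = b + α • e := by
    rw [hb, add_assoc, ← add_smul]
    simp
  have hmw : -w = -b + (-α) • e := by
    rw [hw, neg_add, neg_smul]
  have hlb : lam e b = lam e w - α := by
    rw [hb, lam_translate he hV]
    ring
  have hlmb : lam e (-b) = lam e (-w) + α := by
    have : -b = -w + α • e := by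
      rw [hb, neg_add, neg_smul, neg_neg]
    rw [this, lam_translate he hV]
  have hbal : lam e b = lam e (-b) := by
    rw [hlb, hlmb, hα]
    ring
  have hnb : ‖b‖ = lam e b := by
    rw [norm_eq_max_lam he hV b, ← hbal, max_self]
  have key : xi g e (-b) = -xi g e b := by
    by_cases hb0 : b = 0
    · rw [hb0, neg_zero, xi_zero H he hV, neg_zero]
    · have hn : 0 < ‖b‖ := norm_pos_iff.2 hb0
      have hu := unit_of_ne hb0
      have hl1 : lam e (‖b‖⁻¹ • b) = 1 := by
        rw [lam_smul he hV b (inv_pos.2 hn), ← hnb]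
        exact inv_mul_cancel₀ hn.ne'
      have hl2 : lam e (-(‖b‖⁻¹ • b)) = 1 := by
        rw [← smul_neg, lam_smul he hV (-b) (inv_pos.2 hn), ← hbal, ← hnb]
        exact inv_mul_cancel₀ hn.ne'
      have hu' : ‖-(‖b‖⁻¹ • b)‖ = 1 := by rwa [norm_neg]
      have h1 := xi_eq_of_unit H he hV hu (norm_add_of_lam he hV hu hl1)
      have h2 := xi_eq_of_unit H he hV hu' (norm_add_of_lam he hV hu' hl2)
      rw [sphere_odd H hu, ← h1, ← smul_neg, xi_smul H he hV (-b) (inv_pos.2 hn).le,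
        xi_smul H he hV b (inv_pos.2 hn).le, ← smul_neg] at h2
      exact smul_right_injective Y (inv_pos.2 hn).ne' h2
  rw [hmw, xi_translate H he hV, key]
  conv_rhs => rw [hw, xi_translate H he hV]
  rw [neg_add, neg_smul]

/-- `radial g` preserves distances between vectors of the same norm. -/
lemma radial_iso_eq (H : SphereIso g h) {u u' : X} (hu : ‖u‖ = ‖u'‖) :
    ‖radial g u - radial g u'‖ = ‖u - u'‖ := by
  by_cases h0 : u = 0
  · have h0' : u' = 0 := by
      rw [h0, norm_zero] at hu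
      exact norm_eq_zero.1 hu.symm
    simp [h0, h0']
  · have h0' : u' ≠ 0 := by
      intro hc
      rw [hc, norm_zero] at hu
      exact h0 (norm_eq_zero.1 hu)
    have hn : ‖u‖ ≠ 0 := norm_ne_zero_iff.2 h0
    simp only [radial]
    rw [← hu, ← smul_sub, norm_smul, norm_norm,
      H.iso _ _ (unit_of_ne h0) (by rw [hu]; exact unit_of_ne h0')]
    have : u - u' = ‖u‖ • (‖u‖⁻¹ • u - ‖u‖⁻¹ • u') := by
      rw [smul_sub, smul_smul, smul_smul, mul_inv_cancel₀ hn, one_smul, one_smul]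
    conv_rhs => rw [this, norm_smul, norm_norm]

lemma radial_norm_add [FiniteDimensional ℝ X] [Nontrivial X] (H : SphereIso g h) {u u' : X}
    (hu : ‖u‖ = ‖u'‖) : ‖radial g u + radial g u'‖ = ‖u + u'‖ := by
  have h1 := radial_iso_eq H (u := u) (u' := -u') (by rwa [norm_neg])
  rw [radial_neg g (fun v hv => sphere_odd H hv), sub_neg_eq_add, sub_neg_eq_add] at h1
  exact h1

/-- The cross relation. -/
lemma lam_xi_cross [FiniteDimensional ℝ X] [FiniteDimensional ℝ Y] [Nontrivial X]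
    (H : SphereIso g h) (he : ‖e‖ = 1) (hV : ∀ x : X, ‖x‖ = 1 → ‖x + e‖ = 2 ∨ ‖x - e‖ = 2)
    (hV' : ∀ y : Y, ‖y‖ = 1 → ‖y + g e‖ = 2 ∨ ‖y - g e‖ = 2) (w w' : X) :
    lam (g e) (xi g e w + xi g e (-w')) = lam e (w - w') := by
  have hy : ‖g e‖ = 1 := H.map_g e he
  set A : Y := xi g e w + xi g e (-w') with hA
  set M : ℝ := 4 * ‖w‖ + 4 * ‖w'‖ + 3 * ‖A‖ + 1 with hM
  have hw0 := norm_nonneg w
  have hw'0 := norm_nonneg w'
  have hA0 := norm_nonneg A
  have hl1 := lam_le he hV w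
  have hl2 : lam e (-w') ≤ ‖w'‖ := by
    have := lam_le he hV (-w')
    rwa [norm_neg] at this
  set s : ℝ := M - lam e w with hs
  set s' : ℝ := M - lam e (-w') with hs'
  have h1 : thr w ≤ s := by
    simp only [thr, hs, hM]
    linarith
  have h2 : thr (-w') ≤ s' := by
    rw [thr_neg]
    simp only [thr, hs', hM]
    linarith
  have h3 : thr A ≤ s + s' := by
    simp only [thr, hs, hs', hM]
    linarith
  have h4 : thr (w - w') ≤ s + s' := by
    simp only [thr, hs, hs', hM]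
    have := norm_sub_le w w'
    linarith
  have hn1 := lam_spec he hV h1
  have hn2 := lam_spec he hV h2
  have hnorm : ‖s • e + w‖ = ‖s' • e + -w'‖ := by
    rw [hn1, hn2, hs, hs']
    ring
  have hadd := radial_norm_add H hnorm
  rw [xi_spec H he hV h1, xi_spec H he hV h2] at hadd
  have e1 : s • g e + xi g e w + (s' • g e + xi g e (-w')) = (s + s') • g e + A := by
    rw [hA, add_smul]
    abel
  have e2 : s • e + w + (s' • e + -w') = (s + s') • e + (w - w') := by
    rw [add_smul]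
    abel
  rw [e1, e2, lam_spec hy hV' h3, lam_spec he hV h4] at hadd
  linarith

/-- `xi` preserves distances. -/
lemma xi_iso [FiniteDimensional ℝ X] [FiniteDimensional ℝ Y] [Nontrivial X]
    (H : SphereIso g h) (he : ‖e‖ = 1) (hV : ∀ x : X, ‖x‖ = 1 → ‖x + e‖ = 2 ∨ ‖x - e‖ = 2)
    (hV' : ∀ y : Y, ‖y‖ = 1 → ‖y + g e‖ = 2 ∨ ‖y - g e‖ = 2) (w w' : X) :
    ‖xi g e w - xi g e w'‖ = ‖w - w'‖ := by
  have hy : ‖g e‖ = 1 := H.map_g e he
  have h1 := lam_xi_cross H he hV hV' w w'
  have h2 := lam_xi_cross H he hV hV' w' w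
  rw [xi_neg H he hV, ← sub_eq_add_neg] at h1 h2
  rw [norm_eq_max_lam hy hV', norm_eq_max_lam he hV, h1, neg_sub, neg_sub, h2]

lemma radial_symm (H : SphereIso g h) (u : X) : radial h (radial g u) = u := by
  by_cases h0 : u = 0
  · simp [h0, radial_zero]
  · have hu := unit_of_ne h0
    have hn : ‖u‖ ≠ 0 := norm_ne_zero_iff.2 h0
    have h1 : radial g u = ‖u‖ • g (‖u‖⁻¹ • u) := rfl
    rw [h1, radial_smul h (norm_nonneg u), radial_of_unit h (H.map_g _ hu), H.left _ hu,
      smul_smul, mul_inv_cancel₀ hn, one_smul]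

/-- The map at infinity of the inverse is the inverse of the map at infinity. -/
lemma xi_symm [FiniteDimensional ℝ X] [FiniteDimensional ℝ Y] (H : SphereIso g h) (he : ‖e‖ = 1)
    (hV : ∀ x : X, ‖x‖ = 1 → ‖x + e‖ = 2 ∨ ‖x - e‖ = 2)
    (hV' : ∀ y : Y, ‖y‖ = 1 → ‖y + g e‖ = 2 ∨ ‖y - g e‖ = 2) (w : X) :
    xi h (g e) (xi g e w) = w := by
  have hy : ‖g e‖ = 1 := H.map_g e he
  set s : ℝ := thr w + thr (xi g e w) with hs
  have h1 : thr w ≤ s := by
    have := thr_pos (xi g e w)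
    linarith
  have h2 : thr (xi g e w) ≤ s := by
    have := thr_pos w
    linarith
  have h3 := xi_spec H he hV h1
  have h4 := xi_spec H.symm hy hV' h2
  rw [← h3, radial_symm H, H.left e he] at h4
  exact (add_left_cancel h4).symm

/-- **Theorem.**  Sphere isometries from order-unit spaces extend linearly. -/
theorem vertex_main [FiniteDimensional ℝ X] [FiniteDimensional ℝ Y] [Nontrivial X]
    (H : SphereIso g h) (he : ‖e‖ = 1) (hV : ∀ x : X, ‖x‖ = 1 → ‖x + e‖ = 2 ∨ ‖x - e‖ = 2) :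
    ∃ T : X ≃ₗᵢ[ℝ] Y, ∀ x, ‖x‖ = 1 → T x = g x := by
  have hy : ‖g e‖ = 1 := H.map_g e he
  have hV' : ∀ y : Y, ‖y‖ = 1 → ‖y + g e‖ = 2 ∨ ‖y - g e‖ = 2 := by
    intro y hy1
    have hx := H.map_h y hy1
    have hme : ‖-e‖ = 1 := by rwa [norm_neg]
    rcases hV (h y) hx with h1 | h1
    · left
      have h2 := H.iso (h y) (-e) hx hme
      rw [H.right y hy1, sphere_odd H he, sub_neg_eq_add, sub_neg_eq_add, h1] at h2
      exact h2
    · right
      have h2 := H.iso (h y) e hx he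
      rw [H.right y hy1, h1] at h2
      exact h2
  have hheq : h (g e) = e := H.left e he
  have hVh : ∀ x : X, ‖x‖ = 1 → ‖x + h (g e)‖ = 2 ∨ ‖x - h (g e)‖ = 2 := by
    rwa [hheq]
  let Ξ : X ≃ᵢ Y :=
    { toFun := xi g e
      invFun := xi h (g e)
      left_inv := xi_symm H he hV hV'
      right_inv := by
        intro y
        have := xi_symm H.symm hy hV' hVh y
        rwa [hheq] at this
      isometry_toFun := by
        refine Isometry.of_dist_eq fun w w' => ?_
        rw [dist_eq_norm, dist_eq_norm]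
        exact xi_iso H he hV hV' w w' }
  have hΞ0 : Ξ 0 = 0 := xi_zero H he hV
  refine ⟨Ξ.toRealLinearIsometryEquivOfMapZero hΞ0, fun x hx => ?_⟩
  change xi g e x = g x
  rcases hV x hx with h1 | h1
  · exact xi_eq_of_unit H he hV hx h1
  · have hmx : ‖-x‖ = 1 := by rwa [norm_neg]
    have hmxe : ‖-x + e‖ = 2 := by
      rw [← h1, ← norm_neg]
      congr 1
      abel
    have h2 := xi_eq_of_unit H he hV hmx hmxe
    rw [xi_neg H he hV, sphere_odd H hx] at h2
    exact neg_injective h2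

/-- **Theorem.**  Sphere isometries from order-unit spaces extend linearly. -/
theorem vertex_extends [FiniteDimensional ℝ X] [Nontrivial X] {e : X} (he : ‖e‖ = 1)
    (hV : ∀ x : X, ‖x‖ = 1 → ‖x + e‖ = 2 ∨ ‖x - e‖ = 2)
    (f : sphere (0 : X) 1 ≃ᵢ sphere (0 : Y) 1) :
    ∃ T : X ≃ₗᵢ[ℝ] Y, ∀ x : sphere (0 : X) 1, T x = f x := by
  obtain ⟨g, h, H, hgf⟩ := exists_sphereIso f
  have : FiniteDimensional ℝ Y := finiteDimensional_of_sphere f
  obtain ⟨T, hT⟩ := vertex_main H he hV
  refine ⟨T, fun x => ?_⟩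
  rw [← hgf]
  exact hT x (by simpa using x.2)

end Main

end Vale.Agent.Lib.P084
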