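import Mathlib
import Vale.Agent.Lib.P084.Cubic
import Vale.Agent.Lib.P084.OrderUnit

/-! Calculus of a smooth norm: its first, second and third derivatives away from the origin. -/

namespace Vale.Agent.Lib.P084

open Set Metric Filter Topology

section NormCalc

variable {E : Type*} [NormedAddCommGroup E] [NormedSpace ℝ E]

/-- The derivative of the norm. -/
noncomputable def chi (x : E) : E →L[ℝ] ℝ := fderiv ℝ (fun z : E => ‖z‖) x

/-- The second derivative of the norm. -/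
noncomputable def hess (x : E) : E →L[ℝ] E →L[ℝ] ℝ := fderiv ℝ (chi : E → E →L[ℝ] ℝ) x

/-- The third derivative of the norm. -/
noncomputable def thd (x : E) : E →L[ℝ] E →L[ℝ] E →L[ℝ] ℝ :=
  fderiv ℝ (hess : E → E →L[ℝ] E →L[ℝ] ℝ) x

/-- The norm is `C^k` away from the origin. -/
def NormC (k : ℕ) (E : Type*) [NormedAddCommGroup E] [NormedSpace ℝ E] : Prop :=
  ∀ x : E, x ≠ 0 → ContDiffAt ℝ k (fun z : E => ‖z‖) x

lemma chi_smul {t : ℝ} (ht : 0 < t) (x : E) : chi (t • x) = chi x := fderiv_norm_smul_pos ht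

lemma chi_neg (x : E) : chi (-x) = -chi x := by
  have h := fderiv_norm_smul_neg (E := E) (t := -1) (x := x) (by norm_num)
  simpa [chi] using h

lemma chi_unit {x : E} (hx : x ≠ 0) : chi (‖x‖⁻¹ • x) = chi x :=
  chi_smul (inv_pos.2 (norm_pos_iff.2 hx)) x

lemma NormC.mono {k l : ℕ} (h : NormC l E) (hkl : k ≤ l) : NormC k E := fun x hx =>
  (h x hx).of_le (by exact_mod_cast hkl)

lemma NormC.hasFDerivAt {k : ℕ} (h : NormC k E) (hk : 1 ≤ k) {x : E} (hx : x ≠ 0) :
    HasFDerivAt (fun z : E => ‖z‖) (chi x) x :=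
  ((h x hx).differentiableAt (by
    have : k ≠ 0 := by omega
    exact_mod_cast this)).hasFDerivAt

lemma NormC.chi_contDiffAt {j : ℕ} (h : NormC (j + 1) E) {x : E} (hx : x ≠ 0) :
    ContDiffAt ℝ j (chi : E → E →L[ℝ] ℝ) x :=
  ContDiffAt.fderiv_right (m := j) (n := ((j + 1 : ℕ) : WithTop ℕ∞)) (h x hx) (by
    exact_mod_cast le_refl (j + 1))

lemma NormC.chi_self {k : ℕ} (h : NormC k E) (hk : 1 ≤ k) {x : E} (hx : x ≠ 0) :
    chi x x = ‖x‖ :=
  (h.hasFDerivAt hk hx).differentiableAt.fderiv_norm_self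

lemma chi_norm_le (x : E) : ‖chi x‖ ≤ 1 := by
  have := norm_fderiv_le_of_lipschitz ℝ (f := fun z : E => ‖z‖) (x₀ := x) lipschitzWith_one_norm
  simpa [chi] using this

lemma abs_chi_le (x v : E) : |chi x v| ≤ ‖v‖ := by
  have h1 := (chi x).le_opNorm v
  have h2 := chi_norm_le x
  rw [Real.norm_eq_abs] at h1
  have h3 := mul_le_mul_of_nonneg_right h2 (norm_nonneg v)
  linarith

lemma chi_le (x v : E) : chi x v ≤ ‖v‖ := (abs_le.1 (abs_chi_le x v)).2

lemma NormC.hess_hasFDerivAt {k : ℕ} (h : NormC k E) (hk : 2 ≤ k) {x : E} (hx : x ≠ 0) :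
    HasFDerivAt (chi : E → E →L[ℝ] ℝ) (hess x) x := by
  have h1 : NormC (1 + 1) E := h.mono hk
  have h2 := h1.chi_contDiffAt hx
  exact (h2.differentiableAt (by norm_num)).hasFDerivAt

lemma NormC.hess_contDiffAt {j : ℕ} (h : NormC (j + 2) E) {x : E} (hx : x ≠ 0) :
    ContDiffAt ℝ j (hess : E → E →L[ℝ] E →L[ℝ] ℝ) x := by
  have h1 : NormC ((j + 1) + 1) E := h
  exact ContDiffAt.fderiv_right (m := j) (n := ((j + 1 : ℕ) : WithTop ℕ∞))
    (h1.chi_contDiffAt hx) (by exact_mod_cast le_refl (j + 1))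

lemma NormC.thd_hasFDerivAt {k : ℕ} (h : NormC k E) (hk : 3 ≤ k) {x : E} (hx : x ≠ 0) :
    HasFDerivAt (hess : E → E →L[ℝ] E →L[ℝ] ℝ) (thd x) x := by
  have h1 : NormC (1 + 2) E := h.mono hk
  have h2 := h1.hess_contDiffAt hx
  exact (h2.differentiableAt (by norm_num)).hasFDerivAt

/-- Radial invariance of the derivative of the norm gives the radial vanishing of the Hessian. -/
lemma hess_self {k : ℕ} (h : NormC k E) (hk : 2 ≤ k) {x : E} (hx : x ≠ 0) : hess x x = 0 := by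
  have h1 : HasDerivAt (fun t : ℝ => t • x) x 1 := by
    simpa using (hasDerivAt_id (1 : ℝ)).smul_const x
  have h2 : HasFDerivAt (chi : E → E →L[ℝ] ℝ) (hess x) ((1 : ℝ) • x) := by
    rw [one_smul]
    exact h.hess_hasFDerivAt hk hx
  have h3 := h2.comp_hasDerivAt (1 : ℝ) h1
  have h4 : (chi ∘ fun t : ℝ => t • x) =ᶠ[𝓝 1] fun _ => chi x := by
    filter_upwards [lt_mem_nhds (zero_lt_one : (0 : ℝ) < 1)] with t ht
    exact chi_smul ht x
  have h5 : HasDerivAt (chi ∘ fun t : ℝ => t • x) 0 1 :=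
    (hasDerivAt_const (1 : ℝ) (chi x)).congr_of_eventuallyEq h4
  exact h3.unique h5

lemma hess_smul {k : ℕ} (h : NormC k E) (hk : 2 ≤ k) {x : E} (hx : x ≠ 0) {s : ℝ} (hs : 0 < s) :
    hess (s • x) = s⁻¹ • hess x := by
  have hsx : s • x ≠ 0 := smul_ne_zero hs.ne' hx
  have h1 := h.hess_hasFDerivAt hk hsx
  have h2 : HasFDerivAt (fun z : E => s • z) (s • ContinuousLinearMap.id ℝ E) x :=
    (hasFDerivAt_id x).const_smul s
  have h3 := h1.comp x h2
  have h4 : (chi ∘ fun z : E => s • z) =ᶠ[𝓝 x] chi := by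
    refine Eventually.of_forall fun z => ?_
    exact chi_smul hs z
  have h5 := (h.hess_hasFDerivAt hk hx).congr_of_eventuallyEq h4
  have h6 := h3.unique h5
  ext v w
  have h7 := congrArg (fun L => L v w) h6
  simp only [ContinuousLinearMap.comp_apply, _root_.smul_apply, ContinuousLinearMap.id_apply,
    map_smul, smul_eq_mul] at h7 ⊢
  rw [← h7]
  field_simp

lemma hess_symm {k : ℕ} (h : NormC k E) (hk : 2 ≤ k) {x : E} (hx : x ≠ 0) (v w : E) :
    hess x v w = hess x w v := by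
  have h1 : ContDiffAt ℝ 2 (fun z : E => ‖z‖) x := (h x hx).of_le (by exact_mod_cast hk)
  exact h1.isSymmSndFDerivAt (by simp) v w

lemma thd_symm₁ {k : ℕ} (h : NormC k E) (hk : 3 ≤ k) {x : E} (hx : x ≠ 0) (a b c : E) :
    thd x a b c = thd x b a c := by
  have h1 : NormC (2 + 1) E := h.mono hk
  have h2 : ContDiffAt ℝ 2 (chi : E → E →L[ℝ] ℝ) x := h1.chi_contDiffAt hx
  have h3 := h2.isSymmSndFDerivAt (by simp) a b
  exact congrArg (fun L => L c) h3

lemma thd_symm₂ {k : ℕ} (h : NormC k E) (hk : 3 ≤ k) {x : E} (hx : x ≠ 0) (a b c : E) :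
    thd x a b c = thd x a c b := by
  have h1 := h.thd_hasFDerivAt hk hx
  have h2 : HasFDerivAt (fun z : E => hess z b c) (((thd x).flip b).flip c) x :=
    (h1.clm_apply (hasFDerivAt_const b x)).clm_apply (hasFDerivAt_const c x) |>.congr_fderiv (by
      ext a
      simp)
  have h3 : HasFDerivAt (fun z : E => hess z c b) (((thd x).flip c).flip b) x :=
    (h1.clm_apply (hasFDerivAt_const c x)).clm_apply (hasFDerivAt_const b x) |>.congr_fderiv (by
      ext a
      simp)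
  have h4 : (fun z : E => hess z b c) =ᶠ[𝓝 x] fun z : E => hess z c b := by
    filter_upwards [isOpen_ne.mem_nhds hx] with z hz
    exact hess_symm h (by omega) hz b c
  have h5 := (h3.congr_of_eventuallyEq h4).unique h2
  have h6 := congrArg (fun L => L a) h5
  simpa using h6.symm

/-- Chain rule of order two for the norm along a curve. -/
lemma norm_curve {k : ℕ} (h : NormC k E) (hk : 2 ≤ k) {c c' : ℝ → E} {a : E}
    (hc0 : c 0 ≠ 0) (hc1 : ∀ᶠ t in 𝓝 (0 : ℝ), HasDerivAt c (c' t) t)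
    (hc2 : HasDerivAt c' a 0) :
    (∀ᶠ t in 𝓝 (0 : ℝ), HasDerivAt (fun s => ‖c s‖) (chi (c t) (c' t)) t) ∧
      HasDerivAt (fun t => chi (c t) (c' t)) (hess (c 0) (c' 0) (c' 0) + chi (c 0) a) 0 := by
  have hcont : ContinuousAt c 0 := hc1.self_of_nhds.continuousAt
  have hne : ∀ᶠ t in 𝓝 (0 : ℝ), c t ≠ 0 := hcont.eventually_ne hc0
  constructor
  · filter_upwards [hc1, hne] with t ht1 ht2
    exact (h.hasFDerivAt (by omega) ht2).comp_hasDerivAt t ht1
  · have h1 := (h.hess_hasFDerivAt hk hc0).comp_hasDerivAt (0 : ℝ) hc1.self_of_nhds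
    exact h1.clm_apply hc2

end NormCalc

end Vale.Agent.Lib.P084
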