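import Mathlib
import Vale.Agent.Lib.P084.NormCalc

/-! Unique continuation for isometries of spheres: a map that is linear on an open piece of the
sphere is linear, as soon as the smooth exposed directions are dense. -/

namespace Vale.Agent.Lib.P084

open Set Metric Filter Topology

section Propagate

variable {X Y : Type*} [NormedAddCommGroup X] [NormedSpace ℝ X]
  [NormedAddCommGroup Y] [NormedSpace ℝ Y]

/-- The open set of points near which `g` agrees with `L` on the unit sphere. -/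
def LinSet (g : X → Y) (L : X →L[ℝ] Y) : Set X :=
  {z | ∃ ε > 0, ∀ y : X, ‖y‖ = 1 → ‖y - z‖ < ε → g y = L y}

lemma isOpen_linSet (g : X → Y) (L : X →L[ℝ] Y) : IsOpen (LinSet g L) := by
  rw [Metric.isOpen_iff]
  rintro z ⟨ε, hε, hz⟩
  refine ⟨ε / 2, by positivity, fun z' hz' => ⟨ε / 2, by positivity, fun y hy hd => hz y hy ?_⟩⟩
  rw [mem_ball, dist_eq_norm] at hz'
  have h1 : y - z = (y - z') + (z' - z) := by abel
  rw [h1]
  calc ‖(y - z') + (z' - z)‖ ≤ ‖y - z'‖ + ‖z' - z‖ := norm_add_le _ _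
    _ < ε := by linarith

lemma linSet_apply {g : X → Y} {L : X →L[ℝ] Y} {z : X} (hz : z ∈ LinSet g L) (hu : ‖z‖ = 1) :
    g z = L z := by
  obtain ⟨ε, hε, h⟩ := hz
  exact h z hu (by simpa using hε)

/-- Smooth exposed directions of the unit ball. -/
def GoodDir (w : X) : Prop :=
  DifferentiableAt ℝ (fun z : X => ‖z‖) w ∧
    ∀ w' : X, ‖w'‖ = ‖w‖ → chi w w' = ‖w‖ → w' = w

lemma GoodDir.smul {w : X} (hw : GoodDir w) {s : ℝ} (hs : 0 < s) : GoodDir (s • w) := by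
  refine ⟨(hw.1.hasFDerivAt.hasFDerivAt_norm_smul_pos hs).differentiableAt, fun w' h1 h2 => ?_⟩
  rw [chi_smul hs] at h2
  rw [norm_smul, Real.norm_of_nonneg hs.le] at h1 h2
  have h3 : s⁻¹ • w' = w := by
    refine hw.2 _ ?_ ?_
    · rw [norm_smul, norm_inv, Real.norm_of_nonneg hs.le, h1]
      field_simp
    · rw [map_smul, h2, smul_eq_mul]
      field_simp
  rw [← h3, smul_smul, mul_inv_cancel₀ hs.ne', one_smul]

/-- Comparison of normalisations. -/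
lemma normalize_dist {v v₀ : X} (hv : v ≠ 0) :
    ‖‖v‖⁻¹ • v - ‖v₀‖⁻¹ • v₀‖ ≤ 2 * ‖v - v₀‖ / ‖v‖ := by
  by_cases hv₀ : v₀ = 0
  · subst hv₀
    have hn : 0 < ‖v‖ := norm_pos_iff.2 hv
    simp only [norm_zero, inv_zero, smul_zero, sub_zero, norm_smul, norm_inv, norm_norm]
    rw [inv_mul_cancel₀ hn.ne']
    rw [le_div_iff₀ hn]
    linarith
  have hn : 0 < ‖v‖ := norm_pos_iff.2 hv
  have hn₀ : 0 < ‖v₀‖ := norm_pos_iff.2 hv₀
  have e : ‖v‖⁻¹ • v - ‖v₀‖⁻¹ • v₀ = ‖v‖⁻¹ • (v - v₀) + (‖v‖⁻¹ - ‖v₀‖⁻¹) • v₀ := by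
    simp only [smul_sub, sub_smul]
    abel
  rw [e]
  have h1 : ‖‖v‖⁻¹ • (v - v₀)‖ = ‖v - v₀‖ / ‖v‖ := by
    rw [norm_smul, norm_inv, norm_norm]
    field_simp
  have h2 : ‖(‖v‖⁻¹ - ‖v₀‖⁻¹) • v₀‖ ≤ ‖v - v₀‖ / ‖v‖ := by
    have e2 : (‖v‖⁻¹ - ‖v₀‖⁻¹) * ‖v₀‖ = (‖v₀‖ - ‖v‖) / ‖v‖ := by
      field_simp
    rw [norm_smul, Real.norm_eq_abs]
    have e3 : |‖v‖⁻¹ - ‖v₀‖⁻¹| * ‖v₀‖ = |(‖v‖⁻¹ - ‖v₀‖⁻¹) * ‖v₀‖| := by
      rw [abs_mul, abs_of_pos hn₀]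
    rw [e3, e2, abs_div, abs_of_pos hn]
    refine div_le_div_of_nonneg_right ?_ hn.le
    rw [abs_sub_comm]
    exact abs_norm_sub_norm_le _ _
  calc ‖‖v‖⁻¹ • (v - v₀) + (‖v‖⁻¹ - ‖v₀‖⁻¹) • v₀‖
      ≤ ‖‖v‖⁻¹ • (v - v₀)‖ + ‖(‖v‖⁻¹ - ‖v₀‖⁻¹) • v₀‖ := norm_add_le _ _
    _ ≤ ‖v - v₀‖ / ‖v‖ + ‖v - v₀‖ / ‖v‖ := by rw [h1]; gcongr
    _ = 2 * ‖v - v₀‖ / ‖v‖ := by ring

/-- The parameters of a chord of prescribed level in the direction `z`. -/
lemma chord_times {b z d p : X} (hb : ‖b‖ = 1) (hbd : b + d = p) (hp : ‖p‖ = 1)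
    {μ s₀ ε M τ : ℝ} (hs₀ : s₀ ∈ Ioo (0 : ℝ) 1) (hμ1 : μ < 1) (hμpos : 0 < μ)
    (hlow : ‖b + s₀ • d‖ + ε ≤ μ) (hεpos : 0 < ε) (hε2 : ε ≤ (1 - μ) / 2)
    (hz : ‖z - d‖ < ε) (hzM : ‖z‖ ≤ M) (hMpos : 0 < M) (hτM : τ * (2 * M) = 1 - μ) :
    ∃ t₁ t₂ : ℝ, t₁ < t₂ ∧ τ ≤ t₁ ∧ t₂ ≤ 1 - τ ∧ ‖b + t₁ • z‖ = μ ∧ ‖b + t₂ • z‖ = μ := by
  let f : ℝ → ℝ := fun t => ‖b + t • z‖
  have hfc : Continuous f := by fun_prop
  have hf0 : f 0 = 1 := by simp [f, hb]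
  have hfs₀ : f s₀ < μ := by
    have h1 : b + s₀ • z = (b + s₀ • d) + s₀ • (z - d) := by module
    have h2 : ‖s₀ • (z - d)‖ ≤ ‖z - d‖ := by
      rw [norm_smul, Real.norm_of_nonneg hs₀.1.le]
      have := norm_nonneg (z - d)
      nlinarith [hs₀.2]
    have h3 : f s₀ ≤ ‖b + s₀ • d‖ + ‖s₀ • (z - d)‖ := by
      simp only [f]
      rw [h1]
      exact norm_add_le _ _
    linarith
  have hf1 : 1 - ε ≤ f 1 := by
    have h1 : b + (1 : ℝ) • z = p + (z - d) := by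
      rw [one_smul, ← hbd]
      abel
    have h2 : ‖p‖ ≤ ‖p + (z - d)‖ + ‖z - d‖ := by
      simpa using norm_sub_le (p + (z - d)) (z - d)
    simp only [f]
    rw [h1]
    linarith
  have hf1μ : μ < f 1 := by linarith
  obtain ⟨t₁, ht₁, hft₁⟩ := intermediate_value_Icc' hs₀.1.le hfc.continuousOn
    (show μ ∈ Icc (f s₀) (f 0) from ⟨hfs₀.le, by rw [hf0]; exact hμ1.le⟩)
  obtain ⟨t₂, ht₂, hft₂⟩ := intermediate_value_Icc hs₀.2.le hfc.continuousOn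
    (show μ ∈ Icc (f s₀) (f 1) from ⟨hfs₀.le, hf1μ.le⟩)
  have ht₁lt : t₁ < s₀ := by
    refine lt_of_le_of_ne ht₁.2 ?_
    rintro rfl
    linarith
  have ht₂gt : s₀ < t₂ := by
    refine lt_of_le_of_ne ht₂.1 ?_
    rintro rfl
    linarith
  have ht₁0 : τ ≤ t₁ := by
    have h1 : ‖b‖ ≤ ‖b + t₁ • z‖ + ‖t₁ • z‖ := by
      simpa using norm_sub_le (b + t₁ • z) (t₁ • z)
    rw [norm_smul, Real.norm_of_nonneg ht₁.1, hb] at h1
    have h2 : ‖b + t₁ • z‖ = μ := hft₁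
    rw [h2] at h1
    have h3 : t₁ * ‖z‖ ≤ t₁ * M := mul_le_mul_of_nonneg_left hzM ht₁.1
    by_contra hc
    push Not at hc
    have h4 : t₁ * M ≤ τ * M := mul_le_mul_of_nonneg_right hc.le hMpos.le
    nlinarith
  have ht₂1 : t₂ ≤ 1 - τ := by
    have h1 : b + z = (b + t₂ • z) + (1 - t₂) • z := by module
    have h2 : ‖b + z‖ ≤ ‖b + t₂ • z‖ + ‖(1 - t₂) • z‖ := by
      rw [h1]
      exact norm_add_le _ _
    have h5 : 0 ≤ 1 - t₂ := by linarith [ht₂.2]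
    rw [norm_smul, Real.norm_of_nonneg h5] at h2
    have h3 : ‖b + t₂ • z‖ = μ := hft₂
    have h4 : 1 - ε ≤ ‖b + z‖ := by
      have := hf1
      simpa [f] using this
    have h6 : (1 - t₂) * ‖z‖ ≤ (1 - t₂) * M := mul_le_mul_of_nonneg_left hzM h5
    by_contra hc
    push Not at hc
    have h7 : (1 - t₂) * M ≤ τ * M := mul_le_mul_of_nonneg_right (by linarith) hMpos.le
    nlinarith
  exact ⟨t₁, t₂, ht₁lt.trans ht₂gt, ht₁0, ht₂1, hft₁, hft₂⟩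

/-- The points of the chord are close to the arc. -/
lemma chord_point {g : X → Y} {L : X →L[ℝ] Y} {b z d : X} {K : Set X} {μ τ δ ε t : ℝ}
    (hμpos : 0 < μ) (hτpos : 0 < τ)
    (hK : ∀ s ∈ Icc τ (1 - τ), ‖b + s • d‖⁻¹ • (b + s • d) ∈ K)
    (hthick : thickening δ K ⊆ LinSet g L) (hδ : 0 < δ) (hε4 : ε ≤ δ * μ / 4)
    (hz : ‖z - d‖ < ε) (ht : t ∈ Icc τ (1 - τ)) (hn : ‖b + t • z‖ = μ) :
    ‖(μ⁻¹ • (b + t • z) : X)‖ = 1 ∧ μ⁻¹ • (b + t • z) ∈ LinSet g L := by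
  have hne' : b + t • z ≠ 0 := by
    rw [← norm_pos_iff, hn]
    exact hμpos
  have hu : ‖(μ⁻¹ • (b + t • z) : X)‖ = 1 := by
    rw [norm_smul, norm_inv, Real.norm_of_nonneg hμpos.le, hn, inv_mul_cancel₀ hμpos.ne']
  refine ⟨hu, hthick ?_⟩
  rw [Metric.mem_thickening_iff]
  refine ⟨_, hK t ht, ?_⟩
  rw [dist_eq_norm]
  have h1 := normalize_dist (v₀ := b + t • d) hne'
  rw [hn] at h1
  have h2 : (b + t • z) - (b + t • d) = t • (z - d) := by module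
  rw [h2, norm_smul, Real.norm_of_nonneg (by linarith [ht.1] : (0 : ℝ) ≤ t)] at h1
  have h3 : t * ‖z - d‖ ≤ ε := by
    have h4 : t ≤ 1 := by linarith [ht.2]
    have h5 : 0 ≤ t := by linarith [ht.1]
    have := norm_nonneg (z - d)
    nlinarith
  have h6 : 2 * (t * ‖z - d‖) / μ ≤ 2 * (δ * μ / 4) / μ := by
    refine div_le_div_of_nonneg_right ?_ hμpos.le
    linarith
  have h7 : 2 * (δ * μ / 4) / μ = δ / 2 := by
    field_simp
    ring
  have h8 : ‖μ⁻¹ • (b + t • z) - ‖b + t • d‖⁻¹ • (b + t • d)‖ ≤ δ / 2 := by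
    linarith
  linarith

/-- The two norms agree on the directions close to a chord of the linear piece. -/
lemma chord_agree {g : X → Y} {L : X →L[ℝ] Y}
    (hiso : ∀ a b : X, ‖a‖ = 1 → ‖b‖ = 1 → ‖g a - g b‖ = ‖a - b‖)
    {p b : X} (hp : ‖p‖ = 1) (hb : ‖b‖ = 1)
    (hpath : ∀ s ∈ Ioo (0 : ℝ) 1, ‖b + s • (p - b)‖⁻¹ • (b + s • (p - b)) ∈ LinSet g L)
    (hne : ∀ s ∈ Ioo (0 : ℝ) 1, b + s • (p - b) ≠ 0)
    {s₀ : ℝ} (hs₀ : s₀ ∈ Ioo (0 : ℝ) 1) (hlt : ‖b + s₀ • (p - b)‖ < 1) :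
    ∃ ε > 0, ∀ z : X, ‖z - (p - b)‖ < ε → ‖L z‖ = ‖z‖ := by
  obtain ⟨d, hd⟩ : ∃ d : X, d = p - b := ⟨_, rfl⟩
  rw [← hd] at hpath hne hlt ⊢
  have hbd : b + d = p := by rw [hd]; abel
  obtain ⟨m₀, hm₀⟩ : ∃ m₀ : ℝ, m₀ = ‖b + s₀ • d‖ := ⟨_, rfl⟩
  rw [← hm₀] at hlt
  have hm₀0 : 0 ≤ m₀ := by rw [hm₀]; exact norm_nonneg _
  obtain ⟨μ, hμ⟩ : ∃ μ : ℝ, μ = (m₀ + 1) / 2 := ⟨_, rfl⟩
  have hμ1 : μ < 1 := by rw [hμ]; linarith
  have hμ0 : m₀ < μ := by rw [hμ]; linarith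
  have hμpos : 0 < μ := by linarith
  obtain ⟨M, hM⟩ : ∃ M : ℝ, M = ‖d‖ + 1 := ⟨_, rfl⟩
  have hMpos : 0 < M := by rw [hM]; positivity
  have hM1 : 1 ≤ M := by
    rw [hM]
    linarith [norm_nonneg d]
  obtain ⟨τ, hτ⟩ : ∃ τ : ℝ, τ = (1 - μ) / (2 * M) := ⟨_, rfl⟩
  have hτpos : 0 < τ := by
    rw [hτ]
    exact div_pos (by linarith) (by positivity)
  have hτM : τ * (2 * M) = 1 - μ := by
    rw [hτ]
    field_simp
  have hτ12 : τ < 1 / 2 := by nlinarith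
  -- the compact part of the arc
  let γ : ℝ → X := fun s => ‖b + s • d‖⁻¹ • (b + s • d)
  have hsub : Icc τ (1 - τ) ⊆ Ioo (0 : ℝ) 1 := by
    intro s hs
    exact ⟨by linarith [hs.1], by linarith [hs.2]⟩
  have hγc : ContinuousOn γ (Icc τ (1 - τ)) := by
    intro s hs
    have h1 : ContinuousAt (fun s : ℝ => b + s • d) s := by fun_prop
    have h2 : ‖b + s • d‖ ≠ 0 := norm_ne_zero_iff.2 (hne s (hsub hs))
    exact ((h1.norm.inv₀ h2).smul h1).continuousWithinAt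
  have hKc : IsCompact (γ '' Icc τ (1 - τ)) := isCompact_Icc.image_of_continuousOn hγc
  have hKW : γ '' Icc τ (1 - τ) ⊆ LinSet g L := by
    rintro _ ⟨s, hs, rfl⟩
    exact hpath s (hsub hs)
  obtain ⟨δ, hδ, hthick⟩ := hKc.exists_thickening_subset_open (isOpen_linSet g L) hKW
  -- the size of the neighbourhood
  obtain ⟨ε, hε⟩ : ∃ ε : ℝ, ε = min 1 (min ((1 - μ) / 2) (min (μ - m₀) (δ * μ / 4))) := ⟨_, rfl⟩
  have hεpos : 0 < ε := by
    rw [hε]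
    refine lt_min one_pos (lt_min (by linarith) (lt_min (by linarith) (by positivity)))
  have hε1 : ε ≤ 1 := by rw [hε]; exact min_le_left _ _
  have hε2 : ε ≤ (1 - μ) / 2 := by
    rw [hε]; exact (min_le_right _ _).trans (min_le_left _ _)
  have hε3 : ε ≤ μ - m₀ := by
    rw [hε]; exact (min_le_right _ _).trans ((min_le_right _ _).trans (min_le_left _ _))
  have hε4 : ε ≤ δ * μ / 4 := by
    rw [hε]; exact (min_le_right _ _).trans ((min_le_right _ _).trans (min_le_right _ _))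
  refine ⟨ε, hεpos, fun z hz => ?_⟩
  have hzM : ‖z‖ ≤ M := by
    have h1 : ‖z‖ ≤ ‖z - d‖ + ‖d‖ := by
      simpa using norm_add_le (z - d) d
    rw [hM]
    linarith
  obtain ⟨t₁, t₂, h12, ht₁, ht₂, hn₁, hn₂⟩ := chord_times hb hbd hp hs₀ hμ1 hμpos
    (by rw [← hm₀]; linarith) hεpos hε2 hz hzM hMpos hτM
  have hK : ∀ s ∈ Icc τ (1 - τ), ‖b + s • d‖⁻¹ • (b + s • d) ∈ γ '' Icc τ (1 - τ) :=
    fun s hs => ⟨s, hs, rfl⟩
  obtain ⟨hu₁, hW₁⟩ := chord_point hμpos hτpos hK hthick hδ hε4 hz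
    (show t₁ ∈ Icc τ (1 - τ) from ⟨ht₁, by linarith⟩) hn₁
  obtain ⟨hu₂, hW₂⟩ := chord_point hμpos hτpos hK hthick hδ hε4 hz
    (show t₂ ∈ Icc τ (1 - τ) from ⟨by linarith, ht₂⟩) hn₂
  have hg₁ := linSet_apply hW₁ hu₁
  have hg₂ := linSet_apply hW₂ hu₂
  have h1 := hiso _ _ hu₂ hu₁
  rw [hg₁, hg₂, ← map_sub] at h1
  have e1 : μ⁻¹ • (b + t₂ • z) - μ⁻¹ • (b + t₁ • z) = (μ⁻¹ * (t₂ - t₁)) • z := by module
  rw [e1, map_smul, norm_smul, norm_smul] at h1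
  have hκ : 0 < μ⁻¹ * (t₂ - t₁) := mul_pos (inv_pos.2 hμpos) (by linarith)
  have h2 : ‖μ⁻¹ * (t₂ - t₁)‖ ≠ 0 := norm_ne_zero_iff.2 hκ.ne'
  exact mul_left_cancel₀ h2 h1

/-- The first-order inequality at a point of the linear piece. -/
lemma theta_ineq {g : X → Y} {L : X →L[ℝ] Y}
    (hiso : ∀ a b : X, ‖a‖ = 1 → ‖b‖ = 1 → ‖g a - g b‖ = ‖a - b‖)
    {x y : X} (hx : ‖x‖ = 1) (hy : ‖y‖ = 1) {ρ : ℝ} (hρ : 0 < ρ)
    (hball : ball x ρ ⊆ LinSet g L) (hd : DifferentiableAt ℝ (fun z : X => ‖z‖) (x - y))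
    {ζ : Y →L[ℝ] ℝ} (hζ : ‖ζ‖ ≤ 1) (hζv : ζ (g x - g y) = ‖x - y‖)
    (a : X) {η : ℝ} (hη : 0 < η) :
    ∃ ε₀ > 0, ∀ ε : ℝ, 0 < ε → ε < ε₀ →
      (1 - ‖x + ε • a‖) * ((ζ.comp L - chi (x - y)) x) +
        ε * ((ζ.comp L - chi (x - y)) a) ≤ η * ε := by
  set θ : X →L[ℝ] ℝ := ζ.comp L - chi (x - y) with hθ
  set A : ℝ := ‖a‖ + 1 with hA
  have hApos : 0 < A := by positivity
  set η' : ℝ := η / (4 * A) with hη'
  have hη'pos : 0 < η' := by positivity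
  have hd' : HasFDerivAt (fun z : X => ‖z‖) (chi (x - y)) (x - y) := hd.hasFDerivAt
  have h1 := hd'.isLittleO.def hη'pos
  obtain ⟨δ, hδ, hball'⟩ := Metric.eventually_nhds_iff.1 h1
  refine ⟨min (1 / (2 * A)) (min ρ δ / (4 * A)), by positivity, fun ε hε hεlt => ?_⟩
  have hε1 : ε * (2 * A) < 1 := by
    have := hεlt.trans_le (min_le_left _ _)
    rwa [lt_div_iff₀ (by positivity)] at this
  have hε2 : ε * (4 * A) < min ρ δ := by
    have := hεlt.trans_le (min_le_right _ _)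
    rwa [lt_div_iff₀ (by positivity)] at this
  have hεa : ε * ‖a‖ ≤ ε * A := by
    rw [hA]
    nlinarith
  set u : X := x + ε • a with hu
  set μ : ℝ := ‖u‖ with hμ
  have hux : ‖u - x‖ = ε * ‖a‖ := by
    rw [hu, add_sub_cancel_left, norm_smul, Real.norm_of_nonneg hε.le]
  have hμ1 : |μ - 1| ≤ ε * ‖a‖ := by
    have := abs_norm_sub_norm_le u x
    rwa [hx, hux] at this
  have hμlow : 1 / 2 ≤ μ := by
    have := (abs_le.1 hμ1).1
    linarith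
  have hμpos : 0 < μ := by linarith
  have hu0 : u ≠ 0 := by
    rw [← norm_pos_iff]
    exact hμpos
  set x₁ : X := μ⁻¹ • u with hx₁
  have hx₁u : ‖x₁‖ = 1 := by
    rw [hx₁, norm_smul, norm_inv, Real.norm_of_nonneg hμpos.le, ← hμ, inv_mul_cancel₀ hμpos.ne']
  set v : X := x₁ - x with hv
  have hvn : ‖v‖ ≤ 2 * (ε * ‖a‖) / μ := by
    have h2 := normalize_dist (v₀ := x) hu0
    rw [hx, inv_one, one_smul, ← hμ, hux] at h2
    exact h2
  have hvn2 : ‖v‖ ≤ ε * (4 * A) := by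
    refine hvn.trans ?_
    rw [div_le_iff₀ hμpos]
    have h3 : 0 ≤ ε * ‖a‖ := by positivity
    nlinarith
  have hvρ : ‖v‖ < ρ := lt_of_le_of_lt hvn2 (hε2.trans_le (min_le_left _ _))
  have hvδ : ‖v‖ < δ := lt_of_le_of_lt hvn2 (hε2.trans_le (min_le_right _ _))
  have hx₁W : x₁ ∈ LinSet g L := hball (by
    rw [mem_ball, dist_eq_norm]
    exact hvρ)
  have hxW : x ∈ LinSet g L := hball (mem_ball_self hρ)
  have hgx₁ := linSet_apply hx₁W hx₁u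
  have hgx := linSet_apply hxW hx
  have h2 : ζ (g x₁ - g y) ≤ ‖x₁ - y‖ := by
    have h3 := ζ.le_opNorm (g x₁ - g y)
    rw [hiso _ _ hx₁u hy, Real.norm_eq_abs] at h3
    have h4 := mul_le_mul_of_nonneg_right hζ (norm_nonneg (x₁ - y))
    linarith [le_abs_self (ζ (g x₁ - g y))]
  have h3 : ‖x₁ - y‖ ≤ ‖x - y‖ + chi (x - y) v + η' * ‖v‖ := by
    have h4 := hball' (y := x₁ - y) (by
      rw [dist_eq_norm]
      have e : x₁ - y - (x - y) = v := by rw [hv]; abel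
      rw [e]
      exact hvδ)
    have e : x₁ - y - (x - y) = v := by rw [hv]; abel
    rw [e, Real.norm_eq_abs] at h4
    have := (abs_le.1 h4).2
    linarith
  have h4 : θ v ≤ η' * ‖v‖ := by
    have e0 : (g x₁ - g y) - (g x - g y) = L v := by
      rw [hgx₁, hgx, hv, map_sub]
      abel
    have e1 : ζ (g x₁ - g y) - ζ (g x - g y) = ζ (L v) := by
      rw [← map_sub, e0]
    have e2 : θ v = ζ (L v) - chi (x - y) v := rfl
    rw [e2, ← e1, hζv]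
    linarith
  have hvform : v = μ⁻¹ • ((1 - μ) • x + ε • a) := by
    have e : u - μ • x = (1 - μ) • x + ε • a := by
      rw [hu]
      module
    rw [← e, smul_sub, smul_smul, inv_mul_cancel₀ hμpos.ne', one_smul, hv]
  have h5 : θ v = μ⁻¹ * ((1 - μ) * θ x + ε * θ a) := by
    rw [hvform, map_smul, map_add, map_smul, map_smul]
    simp only [smul_eq_mul]
  have h6 : (1 - μ) * θ x + ε * θ a = μ * θ v := by
    rw [h5]
    field_simp
  rw [h6]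
  have h7 : μ * θ v ≤ μ * (η' * ‖v‖) := mul_le_mul_of_nonneg_left h4 hμpos.le
  have h8 : μ * (η' * ‖v‖) ≤ η' * (2 * (ε * ‖a‖)) := by
    have h9 : μ * ‖v‖ ≤ 2 * (ε * ‖a‖) := by
      have := mul_le_mul_of_nonneg_left hvn hμpos.le
      have e : μ * (2 * (ε * ‖a‖) / μ) = 2 * (ε * ‖a‖) := by
        field_simp
      rwa [e] at this
    have := mul_le_mul_of_nonneg_left h9 hη'pos.le
    linarith
  have h9 : η' * (2 * (ε * ‖a‖)) ≤ η * ε := by
    have e : η' * (4 * A) = η := by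
      rw [hη']
      field_simp
    have h10 : 2 * (ε * ‖a‖) ≤ ε * (4 * A) := by nlinarith
    have := mul_le_mul_of_nonneg_left h10 hη'pos.le
    calc η' * (2 * (ε * ‖a‖)) ≤ η' * (ε * (4 * A)) := this
      _ = (η' * (4 * A)) * ε := by ring
      _ = η * ε := by rw [e]
  linarith

lemma theta_c_le {c t κ : ℝ} {μ : ℝ → ℝ} (hκ : 0 < κ)
    (hμ : ∀ ε : ℝ, 0 < ε → ε ≤ 1 / 2 → μ ε ≤ 1 - ε * κ) (ht : 0 ≤ t)
    (hI : ∀ η : ℝ, 0 < η → ∃ ε₀ > 0, ∀ ε : ℝ, 0 < ε → ε < ε₀ → (1 - μ ε) * c + ε * t ≤ η * ε) :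
    c ≤ 0 := by
  by_contra hcpos
  push Not at hcpos
  obtain ⟨ε₀, hε₀, h1⟩ := hI (κ * c / 2) (by positivity)
  have hεpos : 0 < min (ε₀ / 2) (1 / 2) := by positivity
  have h2 := h1 _ hεpos ((min_le_left _ _).trans_lt (by linarith))
  have h3 := hμ _ hεpos (min_le_right _ _)
  generalize min (ε₀ / 2) (1 / 2) = ε at hεpos h2 h3
  have h5 : ε * κ * c ≤ (1 - μ ε) * c := mul_le_mul_of_nonneg_right (by linarith) hcpos.le
  have h6 : 0 ≤ ε * t := by positivity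
  have h7 : 0 < ε * (κ * c / 2) := by positivity
  have e : κ * c / 2 * ε = ε * (κ * c / 2) := by ring
  have e2 : ε * κ * c = 2 * (ε * (κ * c / 2)) := by ring
  linarith

lemma theta_c_ge {c t κ : ℝ} {μ : ℝ → ℝ} (hκ : 0 < κ)
    (hμ : ∀ ε : ℝ, 0 < ε → 1 + ε * κ ≤ μ ε) (ht : 0 ≤ t)
    (hI : ∀ η : ℝ, 0 < η → ∃ ε₀ > 0, ∀ ε : ℝ, 0 < ε → ε < ε₀ → (1 - μ ε) * c + ε * t ≤ η * ε) :
    0 ≤ c := by
  by_contra hcneg
  push Not at hcneg
  have hc' : 0 < -c := by linarith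
  obtain ⟨ε₀, hε₀, h1⟩ := hI (κ * (-c) / 2) (by positivity)
  have hεpos : 0 < ε₀ / 2 := by positivity
  have h2 := h1 _ hεpos (by linarith)
  have h3 := hμ _ hεpos
  generalize ε₀ / 2 = ε at hεpos h2 h3
  have h5 : ε * κ * (-c) ≤ (μ ε - 1) * (-c) := mul_le_mul_of_nonneg_right (by linarith) hc'.le
  have h6 : 0 ≤ ε * t := by positivity
  have h7 : 0 < ε * (κ * (-c) / 2) := by positivity
  have e : κ * (-c) / 2 * ε = ε * (κ * (-c) / 2) := by ring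
  have e2 : ε * κ * (-c) = 2 * (ε * (κ * (-c) / 2)) := by ring
  have e3 : (1 - μ ε) * c = (μ ε - 1) * (-c) := by ring
  linarith

/-- The core of the propagation: the comparison at one chord. -/
lemma step_core {g : X → Y} {L : X →L[ℝ] Y}
    (hiso : ∀ a b : X, ‖a‖ = 1 → ‖b‖ = 1 → ‖g a - g b‖ = ‖a - b‖)
    {x y y' : X} (hx : ‖x‖ = 1) (hy : ‖y‖ = 1) (hyL : L y' = g y) {ρ : ℝ} (hρ : 0 < ρ)
    (hball : ball x ρ ⊆ LinSet g L) (hgood : GoodDir (x - y))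
    (hLw : ‖L (x - y)‖ = ‖x - y‖) (hLw' : ‖L (x - y')‖ = ‖x - y'‖)
    {κ : ℝ} (hκ : 0 < κ) (hmid : ‖(1 / 2 : ℝ) • (x + y)‖ ≤ 1 - κ / 2)
    (hyy : ‖y' - y‖ ≤ κ / 2) : y' = y := by
  have hgx : g x = L x := linSet_apply (hball (mem_ball_self hρ)) hx
  set w : X := x - y with hw
  set w' : X := x - y' with hw'
  have hLw'e : L w' = g x - g y := by
    rw [hw', map_sub, hyL, hgx]
  have hnw : ‖g x - g y‖ = ‖w‖ := hiso _ _ hx hy
  have hnw' : ‖w'‖ = ‖w‖ := by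
    rw [← hLw', hLw'e, hnw]
  obtain ⟨ζ, hζ, hζv⟩ := exists_dual_vector'' ℝ (g x - g y)
  have hζv' : ζ (g x - g y) = ‖w‖ := by
    rw [hζv, hnw]
    simp
  set θ : X →L[ℝ] ℝ := ζ.comp L - chi w with hθ
  have hselfw : chi w w = ‖w‖ := hgood.1.fderiv_norm_self
  have hF1 : θ w ≤ 0 := by
    have h1 : ζ (L w) ≤ ‖L w‖ := by
      have h2 := ζ.le_opNorm (L w)
      rw [Real.norm_eq_abs] at h2
      have h3 := mul_le_mul_of_nonneg_right hζ (norm_nonneg (L w))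
      linarith [le_abs_self (ζ (L w))]
    have e : θ w = ζ (L w) - chi w w := rfl
    rw [e, hselfw, ← hLw]
    linarith
  have hF2 : 0 ≤ θ w' := by
    have e : θ w' = ζ (L w') - chi w w' := rfl
    rw [e, hLw'e, hζv']
    have := chi_le w w'
    rw [hnw'] at this
    linarith
  obtain ⟨ψ, hψ, hψv⟩ := exists_dual_vector'' ℝ x
  have hψx : ψ x = 1 := by
    rw [hψv, hx]
    simp
  have hψle : ∀ v, ψ v ≤ ‖v‖ := fun v => by
    have h2 := ψ.le_opNorm v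
    rw [Real.norm_eq_abs] at h2
    have h3 := mul_le_mul_of_nonneg_right hψ (norm_nonneg v)
    linarith [le_abs_self (ψ v)]
  have hψy : ψ y ≤ 1 - κ := by
    have h1 := hψle ((1 / 2 : ℝ) • (x + y))
    rw [map_smul, map_add, hψx, smul_eq_mul] at h1
    linarith
  have hψw' : κ / 2 ≤ ψ w' := by
    have h1 : ψ (y' - y) ≤ κ / 2 := (hψle _).trans hyy
    rw [map_sub] at h1
    rw [hw', map_sub, hψx]
    linarith
  set c : ℝ := θ x with hc
  have hineq := fun (a : X) (η : ℝ) (hη : 0 < η) =>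
    theta_ineq hiso hx hy hρ hball hgood.1 hζ hζv' a hη
  have hc1 : c ≤ 0 := by
    refine theta_c_le (μ := fun ε => ‖x + ε • (y - x)‖) (t := θ (y - x)) hκ ?_ ?_ ?_
    · intro ε hεpos hε12
      have e1 : x + ε • (y - x) = (1 - 2 * ε) • x + (2 * ε) • ((1 / 2 : ℝ) • (x + y)) := by module
      rw [e1]
      refine (norm_add_le _ _).trans ?_
      rw [norm_smul, norm_smul, hx, Real.norm_of_nonneg (by linarith : (0 : ℝ) ≤ 1 - 2 * ε),
        Real.norm_of_nonneg (by positivity : (0 : ℝ) ≤ 2 * ε)]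
      nlinarith
    · have h4 : θ (y - x) = -θ w := by
        rw [hw, ← map_neg, neg_sub]
      rw [h4]
      linarith
    · exact fun η hη => hineq (y - x) η hη
  have hc2 : 0 ≤ c := by
    refine theta_c_ge (μ := fun ε => ‖x + ε • w'‖) (κ := κ / 2) (t := θ w') (by positivity) ?_ hF2
      (fun η hη => hineq w' η hη)
    intro ε hεpos
    have h4 := hψle (x + ε • w')
    rw [map_add, map_smul, hψx, smul_eq_mul] at h4
    nlinarith
  have hc0 : c = 0 := le_antisymm hc1 hc2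
  have hle : ∀ a, θ a ≤ 0 := by
    intro a
    by_contra hpos
    push Not at hpos
    obtain ⟨ε₀, hε₀, h1⟩ := hineq a (θ a / 2) (by positivity)
    have h2 := h1 (ε₀ / 2) (by positivity) (by linarith)
    rw [← hc, hc0, mul_zero, zero_add] at h2
    have h3 : 0 < ε₀ / 2 * θ a := by positivity
    nlinarith
  have hzero : θ w' = 0 := le_antisymm (hle _) hF2
  have h1 : chi w w' = ‖w‖ := by
    have e : θ w' = ζ (L w') - chi w w' := rfl
    rw [e, hLw'e, hζv'] at hzero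
    linarith
  have h2 := hgood.2 w' hnw' h1
  have h3 : x - y' = x - y := h2
  have h4 : y' = y := by
    have := sub_right_injective h3
    exact this
  exact h4

/-- Construction of a point of the linear piece whose chord to `y` has a good direction. -/
lemma exists_good_chord (hE : Dense {w : X | GoodDir w}) {x₀ y : X} (hx₀ : ‖x₀‖ = 1)
    (hy : ‖y‖ = 1) {κ ε₁ : ℝ} (hκ : 0 < κ) (hε₁ : 0 < ε₁)
    (hmid : ‖(1 / 2 : ℝ) • (x₀ + y)‖ ≤ 1 - κ / 2) :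
    ∃ x : X, ‖x‖ = 1 ∧ ‖x - x₀‖ < ε₁ ∧ GoodDir (x - y) := by
  obtain ⟨ψ₀, hψ, hψv⟩ := exists_dual_vector'' ℝ x₀
  have hψx : ψ₀ x₀ = 1 := by
    rw [hψv, hx₀]
    simp
  have hψle : ∀ v, ψ₀ v ≤ ‖v‖ := fun v => by
    have h2 := ψ₀.le_opNorm v
    rw [Real.norm_eq_abs] at h2
    have h3 := mul_le_mul_of_nonneg_right hψ (norm_nonneg v)
    linarith [le_abs_self (ψ₀ v)]
  have hψy : ψ₀ y ≤ 1 - κ := by
    have h1 := hψle ((1 / 2 : ℝ) • (x₀ + y))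
    rw [map_smul, map_add, hψx, smul_eq_mul] at h1
    linarith
  set η' : ℝ := min (1 / 2) (ε₁ / 8) with hη'
  have hη'pos : 0 < η' := by positivity
  have hη'12 : η' ≤ 1 / 2 := min_le_left _ _
  have hη'8 : η' ≤ ε₁ / 8 := min_le_right _ _
  set η₂ : ℝ := min (η' * κ / 4) (ε₁ / 8) with hη₂
  have hη₂pos : 0 < η₂ := by positivity
  have hη₂1 : η₂ ≤ η' * κ / 4 := min_le_left _ _
  have hη₂2 : η₂ ≤ ε₁ / 8 := min_le_right _ _
  set d₀ : X := x₀ - y with hd₀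
  obtain ⟨d₂, hd₂E, hd₂⟩ := hE.exists_dist_lt d₀ hη₂pos
  rw [dist_eq_norm, norm_sub_rev] at hd₂
  have hd₀n : ‖d₀‖ ≤ 2 := by
    have := norm_sub_le x₀ y
    rw [hx₀, hy] at this
    rw [hd₀]
    linarith
  let f : ℝ → ℝ := fun τ => ‖y + τ • d₂‖
  have hfc : Continuous f := by fun_prop
  have hclose : ∀ τ : ℝ, 0 ≤ τ → τ ≤ 3 / 2 → ‖(y + τ • d₂) - (y + τ • d₀)‖ ≤ 3 / 2 * η₂ := by
    intro τ h0 h1
    have e : (y + τ • d₂) - (y + τ • d₀) = τ • (d₂ - d₀) := by module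
    rw [e, norm_smul, Real.norm_of_nonneg h0]
    have := norm_nonneg (d₂ - d₀)
    nlinarith
  have hlow : f (1 - η') < 1 := by
    have e1 : y + (1 - η') • d₀ = (1 - 2 * η') • x₀ + (2 * η') • ((1 / 2 : ℝ) • (x₀ + y)) := by
      rw [hd₀]
      module
    have h1 : ‖y + (1 - η') • d₀‖ ≤ 1 - η' * κ := by
      rw [e1]
      refine (norm_add_le _ _).trans ?_
      rw [norm_smul, norm_smul, hx₀, Real.norm_of_nonneg (by linarith : (0 : ℝ) ≤ 1 - 2 * η'),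
        Real.norm_of_nonneg (by positivity : (0 : ℝ) ≤ 2 * η')]
      nlinarith
    have h2 := hclose (1 - η') (by linarith) (by linarith)
    have h3 : f (1 - η') ≤ ‖y + (1 - η') • d₀‖ + ‖(y + (1 - η') • d₂) - (y + (1 - η') • d₀)‖ := by
      simpa [f] using norm_le_insert' (y + (1 - η') • d₂) (y + (1 - η') • d₀)
    have h4 : 0 < η' * κ := by positivity
    linarith
  have hhigh : 1 < f (1 + η') := by
    have e1 : y + (1 + η') • d₀ = x₀ + η' • (x₀ - y) := by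
      rw [hd₀]
      module
    have h1 : 1 + η' * κ ≤ ‖y + (1 + η') • d₀‖ := by
      rw [e1]
      have h2 := hψle (x₀ + η' • (x₀ - y))
      rw [map_add, map_smul, map_sub, hψx, smul_eq_mul] at h2
      nlinarith
    have h2 := hclose (1 + η') (by linarith) (by linarith)
    have h3 : ‖y + (1 + η') • d₀‖ ≤ f (1 + η') + ‖(y + (1 + η') • d₂) - (y + (1 + η') • d₀)‖ := by
      have h5 := norm_le_insert (y + (1 + η') • d₂) (y + (1 + η') • d₀)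
      rw [norm_sub_rev] at h5
      have h6 := norm_le_insert' (y + (1 + η') • d₀) (y + (1 + η') • d₂)
      rw [norm_sub_rev] at h6
      simpa [f] using h6
    have h4 : 0 < η' * κ := by positivity
    linarith
  obtain ⟨τ, hτ, hfτ⟩ := intermediate_value_Icc (by linarith : 1 - η' ≤ 1 + η') hfc.continuousOn
    (show (1 : ℝ) ∈ Icc (f (1 - η')) (f (1 + η')) from ⟨hlow.le, hhigh.le⟩)
  have hτpos : 0 < τ := by linarith [hτ.1]
  refine ⟨y + τ • d₂, hfτ, ?_, ?_⟩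
  · have e : y + τ • d₂ - x₀ = τ • (d₂ - d₀) + (τ - 1) • d₀ := by
      rw [hd₀]
      module
    rw [e]
    have h1 : ‖τ • (d₂ - d₀)‖ ≤ 3 / 2 * η₂ := by
      rw [norm_smul, Real.norm_of_nonneg hτpos.le]
      have := norm_nonneg (d₂ - d₀)
      have h2 : τ ≤ 3 / 2 := by linarith [hτ.2]
      nlinarith
    have h2 : ‖(τ - 1) • d₀‖ ≤ η' * 2 := by
      rw [norm_smul, Real.norm_eq_abs]
      have h3 : |τ - 1| ≤ η' := abs_le.2 ⟨by linarith [hτ.1], by linarith [hτ.2]⟩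
      exact mul_le_mul h3 hd₀n (norm_nonneg _) hη'pos.le
    have h3 := norm_add_le (τ • (d₂ - d₀)) ((τ - 1) • d₀)
    linarith
  · have e : y + τ • d₂ - y = τ • d₂ := by abel
    rw [e]
    exact GoodDir.smul hd₂E hτpos

/-- One step of the propagation across a boundary point. -/
lemma prop_step {g : X → Y} {L : X ≃L[ℝ] Y}
    (hiso : ∀ a b : X, ‖a‖ = 1 → ‖b‖ = 1 → ‖g a - g b‖ = ‖a - b‖)
    (hE : Dense {w : X | GoodDir w}) {x₀ b : X} (hx₀ : ‖x₀‖ = 1) (hb : ‖b‖ = 1)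
    (hx₀W : x₀ ∈ LinSet g (L : X →L[ℝ] Y)) (hκ : ‖(1 / 2 : ℝ) • (x₀ + b)‖ < 1)
    (hgb : g b = L b) {εN : ℝ} (hεN : 0 < εN)
    (hN : ∀ z : X, ‖z - (x₀ - b)‖ < εN → ‖L z‖ = ‖z‖) :
    b ∈ LinSet g (L : X →L[ℝ] Y) := by
  obtain ⟨κ, hκdef⟩ : ∃ κ : ℝ, κ = 1 - ‖(1 / 2 : ℝ) • (x₀ + b)‖ := ⟨_, rfl⟩
  have hκpos : 0 < κ := by rw [hκdef]; linarith
  obtain ⟨ρ₀, hρ₀, hρ₀W⟩ := Metric.isOpen_iff.1 (isOpen_linSet g (L : X →L[ℝ] Y)) x₀ hx₀W
  obtain ⟨C, hC⟩ : ∃ C : ℝ, C = ‖(L.symm : Y →L[ℝ] X)‖ + 1 := ⟨_, rfl⟩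
  have hC1 : 1 ≤ C := by
    rw [hC]
    linarith [norm_nonneg (L.symm : Y →L[ℝ] X)]
  have hCpos : 0 < C := by linarith
  obtain ⟨ε₁, hε₁⟩ : ∃ ε₁ : ℝ, ε₁ = min (ρ₀ / 2) (min (εN / 2) (κ / 4)) := ⟨_, rfl⟩
  have hε₁pos : 0 < ε₁ := by rw [hε₁]; positivity
  have hε₁a : ε₁ ≤ ρ₀ / 2 := by rw [hε₁]; exact min_le_left _ _
  have hε₁b : ε₁ ≤ εN / 2 := by
    rw [hε₁]; exact (min_le_right _ _).trans (min_le_left _ _)
  have hε₁c : ε₁ ≤ κ / 4 := by
    rw [hε₁]; exact (min_le_right _ _).trans (min_le_right _ _)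
  obtain ⟨ε, hε⟩ : ∃ ε : ℝ, ε = min (εN / (4 * C)) (κ / (4 * C)) := ⟨_, rfl⟩
  have hεpos : 0 < ε := by rw [hε]; positivity
  have hεa : ε * (4 * C) ≤ εN := by
    have : ε ≤ εN / (4 * C) := by rw [hε]; exact min_le_left _ _
    rwa [le_div_iff₀ (by positivity)] at this
  have hεb : ε * (4 * C) ≤ κ := by
    have : ε ≤ κ / (4 * C) := by rw [hε]; exact min_le_right _ _
    rwa [le_div_iff₀ (by positivity)] at this
  have hεC : ε ≤ ε * C := by nlinarith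
  refine ⟨ε, hεpos, fun y hy hyb => ?_⟩
  have hyn : ‖y - b‖ * C ≤ ε * C := mul_le_mul_of_nonneg_right hyb.le hCpos.le
  -- the preimage of `g y`
  obtain ⟨y', hy'⟩ : ∃ y' : X, y' = L.symm (g y) := ⟨_, rfl⟩
  have hLy' : L y' = g y := by rw [hy']; simp
  have hy'b : ‖y' - b‖ ≤ ε * C := by
    have e : y' - b = (L.symm : Y →L[ℝ] X) (g y - g b) := by
      rw [map_sub, hgb]
      simp [hy']
    rw [e]
    have h1 := (L.symm : Y →L[ℝ] X).le_opNorm (g y - g b)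
    rw [hiso _ _ hy hb] at h1
    have h2 : ‖(L.symm : Y →L[ℝ] X)‖ * ‖y - b‖ ≤ C * ‖y - b‖ :=
      mul_le_mul_of_nonneg_right (by rw [hC]; linarith) (norm_nonneg _)
    linarith
  have hyy : ‖y' - y‖ ≤ κ / 2 := by
    have h1 : y' - y = (y' - b) - (y - b) := by abel
    rw [h1]
    have h2 := norm_sub_le (y' - b) (y - b)
    nlinarith
  have hmid₀ : ‖(1 / 2 : ℝ) • (x₀ + y)‖ ≤ 1 - κ / 2 := by
    have e : (1 / 2 : ℝ) • (x₀ + y) = (1 / 2 : ℝ) • (x₀ + b) + (1 / 2 : ℝ) • (y - b) := by module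
    rw [e]
    refine (norm_add_le _ _).trans ?_
    have h1 : ‖(1 / 2 : ℝ) • (y - b)‖ = 1 / 2 * ‖y - b‖ := by
      rw [norm_smul]
      norm_num
    rw [h1]
    nlinarith
  obtain ⟨x, hxu, hxx₀, hgood⟩ := exists_good_chord hE hx₀ hy hκpos hε₁pos hmid₀
  have hball : ball x (ρ₀ / 2) ⊆ LinSet g (L : X →L[ℝ] Y) := by
    intro z hz
    apply hρ₀W
    rw [mem_ball, dist_eq_norm] at hz ⊢
    have h1 : z - x₀ = (z - x) + (x - x₀) := by abel
    rw [h1]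
    have h2 := norm_add_le (z - x) (x - x₀)
    linarith
  have hNw : ‖L (x - y)‖ = ‖x - y‖ := by
    refine hN _ ?_
    have e : x - y - (x₀ - b) = (x - x₀) - (y - b) := by abel
    rw [e]
    have h1 := norm_sub_le (x - x₀) (y - b)
    nlinarith
  have hNw' : ‖L (x - y')‖ = ‖x - y'‖ := by
    refine hN _ ?_
    have e : x - y' - (x₀ - b) = (x - x₀) - (y' - b) := by abel
    rw [e]
    have h1 := norm_sub_le (x - x₀) (y' - b)
    nlinarith
  have hmid : ‖(1 / 2 : ℝ) • (x + y)‖ ≤ 1 - κ / 2 := by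
    have e : (1 / 2 : ℝ) • (x + y) = (1 / 2 : ℝ) • (x₀ + b) + (1 / 2 : ℝ) • ((x - x₀) + (y - b)) := by
      module
    rw [e]
    refine (norm_add_le _ _).trans ?_
    have h1 : ‖(1 / 2 : ℝ) • ((x - x₀) + (y - b))‖ = 1 / 2 * ‖(x - x₀) + (y - b)‖ := by
      rw [norm_smul]
      norm_num
    rw [h1]
    have h2 := norm_add_le (x - x₀) (y - b)
    nlinarith
  have hcore := step_core (L := (L : X →L[ℝ] Y)) (y' := y') hiso hxu hy hLy' (by positivity) hball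
    hgood hNw hNw' hκpos hmid hyy
  rw [← hLy', hcore]
  rfl

lemma linSet_neg {g : X → Y} {L : X →L[ℝ] Y} (hodd : ∀ x : X, ‖x‖ = 1 → g (-x) = -g x) {z : X}
    (hz : z ∈ LinSet g L) : -z ∈ LinSet g L := by
  obtain ⟨ε, hε, h⟩ := hz
  refine ⟨ε, hε, fun y hy hd => ?_⟩
  have h1 : ‖-y - z‖ < ε := by
    have e : -y - z = -(y - -z) := by abel
    rwa [e, norm_neg]
  have h2 := h (-y) (by rwa [norm_neg]) h1
  rw [hodd y hy, map_neg] at h2
  exact neg_injective h2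

/-- **Unique continuation.**  If the smooth exposed directions are dense, an isometry of the unit
sphere that agrees with an invertible linear map near a smooth exposed point agrees with it
everywhere. -/
theorem propagate {g : X → Y} {L : X ≃L[ℝ] Y}
    (hiso : ∀ a b : X, ‖a‖ = 1 → ‖b‖ = 1 → ‖g a - g b‖ = ‖a - b‖)
    (hodd : ∀ x : X, ‖x‖ = 1 → g (-x) = -g x)
    (hE : Dense {w : X | GoodDir w}) {x₀ : X} (hx₀ : ‖x₀‖ = 1) (hgood : GoodDir x₀)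
    (hW : x₀ ∈ LinSet g (L : X →L[ℝ] Y)) : ∀ y : X, ‖y‖ = 1 → g y = L y := by
  by_contra hcon
  push Not at hcon
  obtain ⟨y₁, hy₁, hne⟩ := hcon
  have hy₁W : y₁ ∉ LinSet g (L : X →L[ℝ] Y) := fun h => hne (linSet_apply h hy₁)
  have hy₁neg : y₁ ≠ -x₀ := by
    rintro rfl
    exact hy₁W (linSet_neg hodd hW)
  set v : X := y₁ - x₀ with hv
  have hne0 : ∀ t ∈ Icc (0 : ℝ) 1, x₀ + t • v ≠ 0 := by
    intro t ht h0
    have e : x₀ + t • v = (1 - t) • x₀ + t • y₁ := by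
      rw [hv]
      module
    rw [e] at h0
    have h1 : t • y₁ = -((1 - t) • x₀) := eq_neg_of_add_eq_zero_right h0
    have h2 := congrArg norm h1
    rw [norm_neg, norm_smul, norm_smul, hy₁, hx₀, Real.norm_of_nonneg ht.1,
      Real.norm_of_nonneg (by linarith [ht.2]), mul_one, mul_one] at h2
    have ht2 : t = 1 / 2 := by linarith
    rw [ht2] at h1
    have h3 : (1 / 2 : ℝ) • y₁ = (1 / 2 : ℝ) • (-x₀) := by
      rw [h1, smul_neg]
      norm_num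
    exact hy₁neg (smul_right_injective X (by norm_num : (1 / 2 : ℝ) ≠ 0) h3)
  let γ : ℝ → X := fun t => ‖x₀ + t • v‖⁻¹ • (x₀ + t • v)
  have hγc : ContinuousOn γ (Icc (0 : ℝ) 1) := by
    intro t ht
    have h1 : ContinuousAt (fun s : ℝ => x₀ + s • v) t := by fun_prop
    have h2 : ‖x₀ + t • v‖ ≠ 0 := norm_ne_zero_iff.2 (hne0 t ht)
    exact ((h1.norm.inv₀ h2).smul h1).continuousWithinAt
  have hγ0 : γ 0 = x₀ := by simp [γ, hx₀]
  have hγ1 : γ 1 = y₁ := by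
    have e : x₀ + (1 : ℝ) • v = y₁ := by
      rw [hv, one_smul]
      abel
    simp only [γ]
    rw [e, hy₁]
    simp
  let A : Set ℝ := Icc (0 : ℝ) 1 ∩ γ ⁻¹' (LinSet g (L : X →L[ℝ] Y))ᶜ
  have hAc : IsClosed A :=
    hγc.preimage_isClosed_of_isClosed isClosed_Icc (isOpen_linSet _ _).isClosed_compl
  have hAcomp : IsCompact A := isCompact_Icc.of_isClosed_subset hAc inter_subset_left
  have hAne : A.Nonempty := ⟨1, ⟨by norm_num, by norm_num⟩, by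
    simp only [mem_preimage, mem_compl_iff, hγ1]
    exact hy₁W⟩
  have htb := hAcomp.sInf_mem hAne
  set tb : ℝ := sInf A with htbdef
  have hlow : ∀ t ∈ A, tb ≤ t := fun t ht => csInf_le hAcomp.bddBelow ht
  have htb0 : 0 < tb := by
    refine lt_of_le_of_ne htb.1.1 ?_
    intro h0
    have h1 := htb.2
    rw [← h0, mem_preimage, hγ0] at h1
    exact h1 hW
  have hbefore : ∀ t, 0 ≤ t → t < tb → γ t ∈ LinSet g (L : X →L[ℝ] Y) := by
    intro t h0 hlt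
    by_contra hc
    have h1 : t ∈ A := ⟨⟨h0, by linarith [htb.1.2]⟩, hc⟩
    linarith [hlow t h1]
  set c : ℝ := ‖x₀ + tb • v‖ with hc
  have hcpos : 0 < c := norm_pos_iff.2 (hne0 tb htb.1)
  set b : X := c⁻¹ • (x₀ + tb • v) with hb
  have hbγ : b = γ tb := rfl
  have hbu : ‖b‖ = 1 := by
    rw [hb, norm_smul, norm_inv, norm_norm, inv_mul_cancel₀ hcpos.ne']
  have hbW : b ∉ LinSet g (L : X →L[ℝ] Y) := htb.2
  have hbx₀ : b ≠ x₀ := fun h => hbW (by rw [h]; exact hW)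
  -- the arc from `b` to `x₀`
  have hform : ∀ s ∈ Ioo (0 : ℝ) 1, ∃ κ t : ℝ, 0 < κ ∧ 0 ≤ t ∧ t < tb ∧
      b + s • (x₀ - b) = κ • (x₀ + t • v) := by
    intro s hs
    have hκ : 0 < (1 - s) * c⁻¹ + s := by
      have h1 : 0 < 1 - s := by linarith [hs.2]
      have h2 : 0 < c⁻¹ := inv_pos.2 hcpos
      have h3 := hs.1
      positivity
    refine ⟨(1 - s) * c⁻¹ + s, (1 - s) * c⁻¹ * tb / ((1 - s) * c⁻¹ + s), hκ, ?_, ?_, ?_⟩
    · have h1 : 0 < 1 - s := by linarith [hs.2]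
      have h2 : 0 < c⁻¹ := inv_pos.2 hcpos
      positivity
    · rw [div_lt_iff₀ hκ]
      have := hs.1
      nlinarith
    · have e : ((1 - s) * c⁻¹ + s) * ((1 - s) * c⁻¹ * tb / ((1 - s) * c⁻¹ + s)) =
          (1 - s) * c⁻¹ * tb := mul_div_cancel₀ _ hκ.ne'
      rw [smul_add, smul_smul, e, hb]
      module
  have hpathne : ∀ s ∈ Ioo (0 : ℝ) 1, b + s • (x₀ - b) ≠ 0 := by
    intro s hs
    obtain ⟨κ, t, hκ, ht0, ht, e⟩ := hform s hs
    rw [e]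
    exact smul_ne_zero hκ.ne' (hne0 t ⟨ht0, by linarith [htb.1.2]⟩)
  have hpath : ∀ s ∈ Ioo (0 : ℝ) 1, ‖b + s • (x₀ - b)‖⁻¹ • (b + s • (x₀ - b)) ∈
      LinSet g (L : X →L[ℝ] Y) := by
    intro s hs
    obtain ⟨κ, t, hκ, ht0, ht, e⟩ := hform s hs
    have h1 := hbefore t ht0 ht
    have hn : ‖x₀ + t • v‖ ≠ 0 := norm_ne_zero_iff.2 (hne0 t ⟨ht0, by linarith [htb.1.2]⟩)
    have e2 : ‖κ • (x₀ + t • v)‖⁻¹ • κ • (x₀ + t • v) = γ t := by
      simp only [γ]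
      rw [norm_smul, Real.norm_of_nonneg hκ.le, smul_smul]
      congr 1
      field_simp
    rw [e, e2]
    exact h1
  -- the chord is not contained in the sphere
  have hκ : ‖(1 / 2 : ℝ) • (x₀ + b)‖ < 1 := by
    by_contra hge
    push Not at hge
    obtain ⟨ψ, hψ, hψv⟩ := exists_dual_vector'' ℝ (x₀ + b)
    have hψle : ∀ w, ψ w ≤ ‖w‖ := fun w => by
      have h2 := ψ.le_opNorm w
      rw [Real.norm_eq_abs] at h2
      have h3 := mul_le_mul_of_nonneg_right hψ (norm_nonneg w)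
      linarith [le_abs_self (ψ w)]
    have h1 : ψ x₀ + ψ b = ‖x₀ + b‖ := by
      rw [← map_add, hψv]
      simp
    have h2 : 2 ≤ ‖x₀ + b‖ := by
      rw [norm_smul] at hge
      norm_num at hge
      linarith
    have h3 := hψle x₀
    have h4 := hψle b
    rw [hx₀] at h3
    rw [hbu] at h4
    have h5 : ψ = chi x₀ := functional_eq_of_differentiableAt hgood.1 hψ (chi_norm_le x₀)
      (by rw [hx₀]; linarith) hgood.1.fderiv_norm_self
    have h6 : chi x₀ b = ‖x₀‖ := by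
      rw [← h5, hx₀]
      linarith
    exact hbx₀ (hgood.2 b (by rw [hbu, hx₀]) h6)
  have hs₀ : (1 / 2 : ℝ) ∈ Ioo (0 : ℝ) 1 := by
    constructor <;> norm_num
  obtain ⟨εN, hεN, hN⟩ := chord_agree (L := (L : X →L[ℝ] Y)) hiso hx₀ hbu hpath hpathne hs₀ (by
    have e : b + (1 / 2 : ℝ) • (x₀ - b) = (1 / 2 : ℝ) • (x₀ + b) := by module
    rw [e]
    exact hκ)
  -- agreement at the boundary point
  have hgb : g b = L b := by
    by_contra hcon
    have hD : 0 < ‖g b - L b‖ := norm_pos_iff.2 (sub_ne_zero.2 hcon)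
    set D : ℝ := ‖g b - L b‖ with hDdef
    set M : ℝ := 1 + ‖(L : X →L[ℝ] Y)‖ with hM
    have hMpos : 0 < M := by positivity
    set s : ℝ := min (1 / 4) (D / (16 * M)) with hs
    have hspos : 0 < s := by positivity
    have hs14 : s ≤ 1 / 4 := min_le_left _ _
    have hsD : s * (16 * M) ≤ D := by
      have : s ≤ D / (16 * M) := min_le_right _ _
      rwa [le_div_iff₀ (by positivity)] at this
    have hsI : s ∈ Ioo (0 : ℝ) 1 := ⟨hspos, by linarith⟩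
    set w : X := b + s • (x₀ - b) with hw
    have hw0 : w ≠ 0 := hpathne s hsI
    have hwb : ‖w - b‖ ≤ 2 * s := by
      have e : w - b = s • (x₀ - b) := by rw [hw]; abel
      have h1 := norm_sub_le x₀ b
      rw [hx₀, hbu] at h1
      rw [e, norm_smul, Real.norm_of_nonneg hspos.le]
      nlinarith
    have hwn : 1 / 2 ≤ ‖w‖ := by
      have h1 := norm_sub_le b (b - w)
      have e : b - (b - w) = w := by abel
      rw [e, norm_sub_rev b w, hbu] at h1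
      have h2 := abs_norm_sub_norm_le w b
      rw [hbu] at h2
      have h3 := (abs_le.1 h2).1
      linarith
    set a : X := ‖w‖⁻¹ • w with ha
    have hau : ‖a‖ = 1 := by
      rw [ha, norm_smul, norm_inv, norm_norm, inv_mul_cancel₀ (by linarith)]
    have hab : ‖a - b‖ ≤ 8 * s := by
      have h1 := normalize_dist (v₀ := b) hw0
      rw [hbu, inv_one, one_smul] at h1
      refine h1.trans ?_
      rw [div_le_iff₀ (by linarith)]
      nlinarith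
    have hga : g a = L a := linSet_apply (hpath s hsI) hau
    have e : g b - L b = (g b - g a) + (L a - L b) := by
      rw [hga]
      abel
    have h1 : ‖g b - g a‖ = ‖a - b‖ := by
      rw [hiso _ _ hbu hau, norm_sub_rev]
    have h2 : ‖L a - L b‖ ≤ ‖(L : X →L[ℝ] Y)‖ * ‖a - b‖ := by
      rw [← map_sub]
      exact (L : X →L[ℝ] Y).le_opNorm (a - b)
    have h3 : D ≤ ‖g b - g a‖ + ‖L a - L b‖ := by
      rw [hDdef, e]
      exact norm_add_le _ _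
    have h4 : D ≤ M * ‖a - b‖ := by
      rw [hM]
      linarith
    have h5 : M * ‖a - b‖ ≤ M * (8 * s) := mul_le_mul_of_nonneg_left hab hMpos.le
    nlinarith
  exact hbW (prop_step hiso hE hx₀ hbu hW hκ hgb hεN hN)

end Propagate

end Vale.Agent.Lib.P084
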