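import Mathlib
import Vale.Agent.Lib.P084.NormCalc

/-! Distance coordinates on a smooth normed space. -/

namespace Vale.Agent.Lib.P084

open Set Metric Filter Topology

universe u

/-- From a family of functionals with trivial joint kernel, extract a coordinate system. -/
lemma exists_coords {F : Type u} [NormedAddCommGroup F] [NormedSpace ℝ F] [FiniteDimensional ℝ F]
    (S : Set (F →L[ℝ] ℝ)) (hS : ∀ v : F, (∀ ξ ∈ S, ξ v = 0) → v = 0) :
    ∃ (ι : Type u) (_ : Fintype ι) (c : ι → F →L[ℝ] ℝ) (Λ : F ≃L[ℝ] (ι → ℝ)),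
      (∀ i, c i ∈ S) ∧ ∀ v i, Λ v i = c i v := by
  classical
  let S' : Set (Module.Dual ℝ F) := (fun ξ : F →L[ℝ] ℝ => (ξ : F →ₗ[ℝ] ℝ)) '' S
  obtain ⟨b, hbS, hspan, hli⟩ := exists_linearIndependent ℝ S'
  have htop : Submodule.span ℝ S' = ⊤ := by
    by_contra hne
    obtain ⟨f, hf0, hf⟩ := Submodule.exists_le_ker_of_lt_top _ (lt_top_iff_ne_top.2 hne)
    obtain ⟨v, rfl⟩ := (Module.evalEquiv ℝ F).surjective f
    apply hf0
    have hv : v = 0 := by
      refine hS v fun ξ hξ => ?_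
      have h1 : ((ξ : F →ₗ[ℝ] ℝ) : Module.Dual ℝ F) ∈ Submodule.span ℝ S' :=
        Submodule.subset_span ⟨ξ, hξ, rfl⟩
      have h2 := hf h1
      simpa using h2
    subst hv
    simp
  have hfin : b.Finite := hli.setFinite
  let _ : Fintype b := hfin.fintype
  let Λ₀ : F →ₗ[ℝ] (b → ℝ) := LinearMap.pi fun i => (i : Module.Dual ℝ F)
  have hΛ₀ : ∀ v i, Λ₀ v i = (i : Module.Dual ℝ F) v := fun v i => rfl
  have hinj : Function.Injective Λ₀ := by
    rw [← LinearMap.ker_eq_bot, LinearMap.ker_eq_bot']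
    intro v hv
    have hker : Submodule.span ℝ b ≤ LinearMap.ker (Module.Dual.eval ℝ F v) := by
      rw [Submodule.span_le]
      intro i hi
      have := congrFun hv ⟨i, hi⟩
      simpa [hΛ₀] using this
    rw [hspan, htop] at hker
    rw [← Module.forall_dual_apply_eq_zero_iff ℝ]
    intro f
    have := hker (Submodule.mem_top (x := f))
    simpa using this
  have hdim : Module.finrank ℝ F = Module.finrank ℝ (b → ℝ) := by
    have h1 := finrank_span_set_eq_card (R := ℝ) (s := b) (by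
      simpa [LinearIndepOn] using hli)
    rw [hspan, htop, finrank_top, Subspace.dual_finrank_eq] at h1
    rw [Module.finrank_pi, h1]
    simp
  let Λ₁ : F ≃ₗ[ℝ] (b → ℝ) := LinearMap.linearEquivOfInjective Λ₀ hinj hdim
  have hc : ∀ i : b, ∃ ξ ∈ S, (ξ : F →ₗ[ℝ] ℝ) = (i : Module.Dual ℝ F) := fun i => hbS i.2
  choose c hcS hcb using hc
  refine ⟨b, inferInstance, c, Λ₁.toContinuousLinearEquiv, hcS, fun v i => ?_⟩
  change Λ₀ v i = c i v
  rw [hΛ₀, ← hcb i]
  rfl

section Chords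

variable {F : Type*} [NormedAddCommGroup F] [NormedSpace ℝ F]

/-- The functionals attached to the chords through a unit vector have trivial joint kernel. -/
lemma chord_functionals (hF : NormC 1 F) {y₁ : F} (hy₁ : ‖y₁‖ = 1) {v : F}
    (hv : ∀ e : F, ‖e‖ = 1 → e ≠ y₁ → chi (y₁ - e) (v - chi y₁ v • e) = 0) : v = 0 := by
  have hy0 : y₁ ≠ 0 := by
    rintro rfl
    simp at hy₁
  have hself : chi y₁ y₁ = 1 := by rw [hF.chi_self le_rfl hy0, hy₁]
  -- first step: `chi y₁ v = 0`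
  have hχ : chi y₁ v = 0 := by
    have h1 := hv (-y₁) (by rwa [norm_neg]) (by
      intro h
      have h2 : (2 : ℝ) • y₁ = 0 := by
        rw [two_smul]
        calc y₁ + y₁ = -y₁ + y₁ := by rw [h]
          _ = 0 := by simp
      exact hy0 ((smul_eq_zero.1 h2).resolve_left (by norm_num)))
    have h2 : y₁ - -y₁ = (2 : ℝ) • y₁ := by
      rw [two_smul, sub_neg_eq_add]
    rw [h2, chi_smul (by norm_num)] at h1
    simp only [map_sub, map_smul, map_neg, hself, smul_eq_mul] at h1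
    linarith
  -- second step
  have hdir : ∀ ε : ℝ, chi (y₁ + ε • v) v = 0 := by
    intro ε
    set dir := y₁ + ε • v with hdirdef
    have hdir1 : chi y₁ dir = 1 := by
      simp [hdirdef, hself, hχ]
    have hdirnorm : 1 ≤ ‖dir‖ := by
      have := chi_le y₁ dir
      rwa [hdir1] at this
    have hdir0 : dir ≠ 0 := by
      rintro h
      rw [h, map_zero] at hdir1
      exact zero_ne_one hdir1
    let ψ : ℝ → ℝ := fun t => ‖y₁ - t • dir‖
    have hψcont : Continuous ψ := by fun_prop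
    have hψder : HasDerivAt ψ (-1) 0 := by
      have h1 : HasDerivAt (fun t : ℝ => y₁ - t • dir) (-dir) 0 := by
        simpa using ((hasDerivAt_id (0 : ℝ)).smul_const dir).const_sub y₁
      have h2 : HasFDerivAt (fun z : F => ‖z‖) (chi y₁) (y₁ - (0 : ℝ) • dir) := by
        simpa using hF.hasFDerivAt le_rfl hy0
      have h3 : HasDerivAt ψ (chi y₁ (-dir)) 0 := h2.comp_hasDerivAt (0 : ℝ) h1
      simpa [hdir1] using h3
    have hsmall : ∃ t₀ : ℝ, 0 < t₀ ∧ t₀ ≤ 2 ∧ ψ t₀ < 1 := by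
      have h1 := hψder.isLittleO.def (c := 1 / 2) (by norm_num)
      have h2 : ∀ᶠ t in 𝓝[>] (0 : ℝ), ‖ψ t - ψ 0 - (t - 0) • (-1 : ℝ)‖ ≤ 1 / 2 * ‖t - 0‖ :=
        h1.filter_mono nhdsWithin_le_nhds
      have h3 : ∀ᶠ t in 𝓝[>] (0 : ℝ), t < 2 :=
        (Iio_mem_nhds (by norm_num : (0 : ℝ) < 2)) |> fun h => nhdsWithin_le_nhds h
      obtain ⟨t, ⟨ht1, ht2⟩, ht3⟩ := (h2.and h3 |>.and self_mem_nhdsWithin).exists
      have ht3' : 0 < t := ht3
      refine ⟨t, ht3', ht2.le, ?_⟩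
      have h4 : ψ 0 = 1 := by simp [ψ, hy₁]
      rw [h4] at ht1
      simp only [sub_zero, smul_eq_mul, Real.norm_eq_abs, abs_of_pos ht3'] at ht1
      have := (abs_le.1 ht1).2
      linarith
    obtain ⟨t₀, ht₀, ht₀2, hψt₀⟩ := hsmall
    have hψ2 : 1 ≤ ψ 2 := by
      have h1 : ‖(2 : ℝ) • dir‖ ≤ ‖y₁ - (2 : ℝ) • dir‖ + ‖y₁‖ := by
        have := norm_sub_le (y₁ - (2 : ℝ) • dir) y₁
        simpa using this
      rw [norm_smul, hy₁] at h1
      norm_num at h1
      simp only [ψ]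
      linarith
    obtain ⟨t, ⟨ht1, -⟩, htψ⟩ := intermediate_value_Icc ht₀2 hψcont.continuousOn
      (show (1 : ℝ) ∈ Icc (ψ t₀) (ψ 2) from ⟨hψt₀.le, hψ2⟩)
    have htpos : 0 < t := by linarith
    have h5 := hv (y₁ - t • dir) htψ (by
      intro h
      have h6 : t • dir = 0 := by
        have : y₁ - (y₁ - t • dir) = 0 := by rw [h]; simp
        simpa using this
      exact (smul_ne_zero htpos.ne' hdir0) h6)
    have h6 : y₁ - (y₁ - t • dir) = t • dir := by abel
    rw [h6, chi_smul htpos, hχ, zero_smul, sub_zero] at h5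
    exact h5
  -- third step
  have hne : ∀ ε : ℝ, y₁ + ε • v ≠ 0 := by
    intro ε h
    have h1 : chi y₁ (y₁ + ε • v) = 1 := by
      simp [hself, hχ]
    rw [h, map_zero] at h1
    exact zero_ne_one h1
  have hder : ∀ ε : ℝ, HasDerivAt (fun t : ℝ => ‖y₁ + t • v‖) 0 ε := by
    intro ε
    have h1 : HasDerivAt (fun t : ℝ => y₁ + t • v) v ε := by
      simpa using ((hasDerivAt_id ε).smul_const v).const_add y₁
    have h2 := (hF.hasFDerivAt le_rfl (hne ε)).comp_hasDerivAt ε h1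
    rw [hdir ε] at h2
    exact h2
  have hconst : ∀ ε : ℝ, ‖y₁ + ε • v‖ = 1 := by
    intro ε
    have h1 := is_const_of_deriv_eq_zero (fun t => (hder t).differentiableAt)
      (fun t => (hder t).deriv) ε 0
    simpa [hy₁] using h1
  by_contra hv0
  have hn : 0 < ‖v‖ := norm_pos_iff.2 hv0
  have h1 := hconst (3 / ‖v‖)
  have h2 : ‖(3 / ‖v‖) • v‖ ≤ ‖y₁ + (3 / ‖v‖) • v‖ + ‖y₁‖ := by
    have := norm_sub_le (y₁ + (3 / ‖v‖) • v) y₁
    simpa using this
  rw [h1, hy₁, norm_smul, Real.norm_of_nonneg (by positivity)] at h2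
  have h3 : 3 / ‖v‖ * ‖v‖ = 3 := by field_simp
  rw [h3] at h2
  linarith

end Chords

end Vale.Agent.Lib.P084
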