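import Mathlib
import Vale.Agent.Lib.P084.Propagate

/-! Unique continuation for isometries of spheres from one open piece of smooth exposed directions:
the chords parallel to the directions of the piece carry the linearity over the whole sphere. -/

namespace Vale.Agent.Lib.P084

open Set Metric Filter Topology

section Propagate3

variable {X Y : Type*} [NormedAddCommGroup X] [NormedSpace ℝ X]
  [NormedAddCommGroup Y] [NormedSpace ℝ Y]

/-- A boundary point joined to the linear piece by a chord in a good direction is in the linear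
piece. -/
lemma capture {g : X → Y} {L : X ≃L[ℝ] Y}
    (hiso : ∀ a b : X, ‖a‖ = 1 → ‖b‖ = 1 → ‖g a - g b‖ = ‖a - b‖)
    {G : Set X} (hGo : IsOpen G) (hGd : ∀ z ∈ G, GoodDir z) (hGn : ∀ z ∈ G, ‖L z‖ = ‖z‖)
    {x b : X} (hx : ‖x‖ = 1) (hb : ‖b‖ = 1)
    (hxW : x ∈ LinSet g (L : X →L[ℝ] Y)) (hgb : g b = L b)
    (hmid : ‖(1 / 2 : ℝ) • (x + b)‖ < 1) (hxb : x - b ∈ G) :
    b ∈ LinSet g (L : X →L[ℝ] Y) := by
  obtain ⟨κ, hκdef⟩ : ∃ κ : ℝ, κ = 1 - ‖(1 / 2 : ℝ) • (x + b)‖ := ⟨_, rfl⟩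
  have hκpos : 0 < κ := by rw [hκdef]; linarith
  obtain ⟨ρ₀, hρ₀, hρ₀W⟩ := Metric.isOpen_iff.1 (isOpen_linSet g (L : X →L[ℝ] Y)) x hxW
  obtain ⟨εG, hεG, hεGb⟩ := Metric.isOpen_iff.1 hGo _ hxb
  obtain ⟨C, hC⟩ : ∃ C : ℝ, C = ‖(L.symm : Y →L[ℝ] X)‖ + 1 := ⟨_, rfl⟩
  have hC1 : 1 ≤ C := by
    rw [hC]
    linarith [norm_nonneg (L.symm : Y →L[ℝ] X)]
  have hCpos : 0 < C := by linarith
  obtain ⟨ε, hε⟩ : ∃ ε : ℝ, ε = min (εG / (4 * C)) (κ / (4 * C)) := ⟨_, rfl⟩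
  have hεpos : 0 < ε := by rw [hε]; positivity
  have hεa : ε * (4 * C) ≤ εG := by
    have : ε ≤ εG / (4 * C) := by rw [hε]; exact min_le_left _ _
    rwa [le_div_iff₀ (by positivity)] at this
  have hεb : ε * (4 * C) ≤ κ := by
    have : ε ≤ κ / (4 * C) := by rw [hε]; exact min_le_right _ _
    rwa [le_div_iff₀ (by positivity)] at this
  have hεC : ε ≤ ε * C := by nlinarith
  refine ⟨ε, hεpos, fun y hy hyb => ?_⟩
  have hyn : ‖y - b‖ * C ≤ ε * C := mul_le_mul_of_nonneg_right hyb.le hCpos.le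
  obtain ⟨y', hy'⟩ : ∃ y' : X, y' = L.symm (g y) := ⟨_, rfl⟩
  have hLy' : L y' = g y := by rw [hy']; simp
  have hy'b : ‖y' - b‖ ≤ ε * C := by
    have e : y' - b = (L.symm : Y →L[ℝ] X) (g y - g b) := by
      rw [map_sub, hgb]
      simp [hy']
    rw [e]
    have h1 := (L.symm : Y →L[ℝ] X).le_opNorm (g y - g b)
    rw [hiso _ _ hy hb] at h1
    have h2 : ‖(L.symm : Y →L[ℝ] X)‖ * ‖y - b‖ ≤ C * ‖y - b‖ :=
      mul_le_mul_of_nonneg_right (by rw [hC]; linarith) (norm_nonneg _)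
    linarith
  have hyy : ‖y' - y‖ ≤ κ / 2 := by
    have h1 : y' - y = (y' - b) - (y - b) := by abel
    rw [h1]
    have h2 := norm_sub_le (y' - b) (y - b)
    nlinarith
  have hG1 : x - y ∈ G := by
    apply hεGb
    rw [mem_ball, dist_eq_norm]
    have e : x - y - (x - b) = -(y - b) := by abel
    rw [e, norm_neg]
    nlinarith
  have hG2 : x - y' ∈ G := by
    apply hεGb
    rw [mem_ball, dist_eq_norm]
    have e : x - y' - (x - b) = -(y' - b) := by abel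
    rw [e, norm_neg]
    nlinarith
  have hmid' : ‖(1 / 2 : ℝ) • (x + y)‖ ≤ 1 - κ / 2 := by
    have e : (1 / 2 : ℝ) • (x + y) = (1 / 2 : ℝ) • (x + b) + (1 / 2 : ℝ) • (y - b) := by module
    rw [e]
    refine (norm_add_le _ _).trans ?_
    have h1 : ‖(1 / 2 : ℝ) • (y - b)‖ = 1 / 2 * ‖y - b‖ := by
      rw [norm_smul]
      norm_num
    rw [h1]
    nlinarith
  have hcore := step_core (L := (L : X →L[ℝ] Y)) (y' := y') hiso hx hy hLy' hρ₀ hρ₀W
    (hGd _ hG1) (hGn _ hG1) (hGn _ hG2) hκpos hmid' hyy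
  rw [← hLy', hcore]
  rfl

/-- The upper end of the chord of direction `d` through `τ • y`. -/
noncomputable def upperT (y d : X) (τ : ℝ) : ℝ := sSup {t : ℝ | ‖τ • y + t • d‖ ≤ 1}

lemma upperT_bdd {d : X} (hd : ‖d‖ = 1) (y : X) (τ : ℝ) :
    BddAbove {t : ℝ | ‖τ • y + t • d‖ ≤ 1} := by
  refine ⟨1 + ‖τ • y‖, fun t ht => ?_⟩
  have h1 : ‖t • d‖ ≤ ‖τ • y + t • d‖ + ‖τ • y‖ := by
    have := norm_sub_le (τ • y + t • d) (τ • y)
    simpa using this
  rw [norm_smul, hd, mul_one, Real.norm_eq_abs] at h1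
  have h2 := le_abs_self t
  have h3 : ‖τ • y + t • d‖ ≤ 1 := ht
  linarith

/-- Convexity of the norm along a line. -/
lemma line_lt {p d : X} {a b t : ℝ} (h1 : ‖p + a • d‖ < 1) (h2 : ‖p + b • d‖ ≤ 1) (hat : a ≤ t)
    (htb : t < b) : ‖p + t • d‖ < 1 := by
  have hab : 0 < b - a := by linarith
  have e : p + t • d = ((b - t) / (b - a)) • (p + a • d) + ((t - a) / (b - a)) • (p + b • d) := by
    have e1 : (b - t) / (b - a) + (t - a) / (b - a) = 1 := by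
      field_simp
      ring
    have e2 : (b - t) / (b - a) * a + (t - a) / (b - a) * b = t := by
      field_simp
      ring
    calc p + t • d = ((b - t) / (b - a) + (t - a) / (b - a)) • p +
          ((b - t) / (b - a) * a + (t - a) / (b - a) * b) • d := by rw [e1, e2, one_smul]
      _ = _ := by module
  have hw1 : 0 < (b - t) / (b - a) := div_pos (by linarith) hab
  have hw2 : 0 ≤ (t - a) / (b - a) := div_nonneg (by linarith) hab.le
  have e1 : (b - t) / (b - a) + (t - a) / (b - a) = 1 := by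
    field_simp
    ring
  rw [e]
  refine (norm_add_le _ _).trans_lt ?_
  rw [norm_smul, norm_smul, Real.norm_of_nonneg hw1.le, Real.norm_of_nonneg hw2]
  nlinarith [mul_le_mul_of_nonneg_left h2 hw2, mul_lt_mul_of_pos_left h1 hw1]

/-- The properties of the upper end of a chord. -/
lemma upperT_spec {d : X} (hd : ‖d‖ = 1) (y : X) (τ : ℝ) {t₁ : ℝ} (h : ‖τ • y + t₁ • d‖ < 1) :
    t₁ < upperT y d τ ∧ ‖τ • y + upperT y d τ • d‖ = 1 ∧
      (∀ t, upperT y d τ < t → 1 < ‖τ • y + t • d‖) ∧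
      ∀ t, t₁ ≤ t → t < upperT y d τ → ‖τ • y + t • d‖ < 1 := by
  have hbdd := upperT_bdd hd y τ
  have hlip : ∀ (t δ : ℝ), 0 ≤ δ → ‖τ • y + (t + δ) • d‖ ≤ ‖τ • y + t • d‖ + δ := by
    intro t δ hδ
    have e : τ • y + (t + δ) • d = (τ • y + t • d) + δ • d := by module
    rw [e]
    refine (norm_add_le _ _).trans ?_
    rw [norm_smul, hd, mul_one, Real.norm_of_nonneg hδ]
  have hclosed : IsClosed {t : ℝ | ‖τ • y + t • d‖ ≤ 1} :=
    isClosed_le (by fun_prop) continuous_const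
  have hne : {t : ℝ | ‖τ • y + t • d‖ ≤ 1}.Nonempty := ⟨t₁, h.le⟩
  have hmem : upperT y d τ ∈ {t : ℝ | ‖τ • y + t • d‖ ≤ 1} := hclosed.csSup_mem hne hbdd
  have hmem' : ‖τ • y + upperT y d τ • d‖ ≤ 1 := hmem
  have hgt : ∀ t, upperT y d τ < t → 1 < ‖τ • y + t • d‖ := by
    intro t ht
    by_contra hc
    have : t ≤ upperT y d τ := le_csSup hbdd (not_lt.1 hc)
    linarith
  have h1 : t₁ < upperT y d τ := by
    obtain ⟨δ, hδ⟩ : ∃ δ : ℝ, δ = (1 - ‖τ • y + t₁ • d‖) / 2 := ⟨_, rfl⟩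
    have hδpos : 0 < δ := by rw [hδ]; linarith
    have h2 := hlip t₁ δ hδpos.le
    have h3 : t₁ + δ ≤ upperT y d τ := le_csSup hbdd (by
      change ‖τ • y + (t₁ + δ) • d‖ ≤ 1
      rw [hδ] at h2 ⊢
      linarith)
    linarith
  have h2 : ‖τ • y + upperT y d τ • d‖ = 1 := by
    refine le_antisymm hmem' ?_
    by_contra hc
    push Not at hc
    obtain ⟨δ, hδ⟩ : ∃ δ : ℝ, δ = (1 - ‖τ • y + upperT y d τ • d‖) / 2 := ⟨_, rfl⟩
    have hδpos : 0 < δ := by rw [hδ]; linarith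
    have h3 := hlip (upperT y d τ) δ hδpos.le
    have h4 := hgt (upperT y d τ + δ) (by linarith)
    rw [hδ] at h3 h4
    linarith
  exact ⟨h1, h2, hgt, fun t ht1 ht2 => line_lt h hmem' ht1 ht2⟩

/-- Continuity of the upper end of a chord. -/
lemma upperT_continuousAt {d : X} (hd : ‖d‖ = 1) (y : X) {τ₀ t₁ : ℝ}
    (h : ‖τ₀ • y + t₁ • d‖ < 1) : ContinuousAt (upperT y d) τ₀ := by
  obtain ⟨h1, h2, h3, h4⟩ := upperT_spec hd y τ₀ h
  obtain ⟨u₀, hu₀⟩ : ∃ u₀ : ℝ, u₀ = upperT y d τ₀ := ⟨_, rfl⟩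
  rw [← hu₀] at h1 h2 h3 h4
  rw [Metric.continuousAt_iff]
  intro ε hε
  obtain ⟨ε', hε'⟩ : ∃ ε' : ℝ, ε' = min (ε / 2) ((u₀ - t₁) / 2) := ⟨_, rfl⟩
  have hε'pos : 0 < ε' := by
    rw [hε']
    exact lt_min (by positivity) (by linarith)
  have hε'1 : ε' ≤ ε / 2 := by rw [hε']; exact min_le_left _ _
  have hε'2 : ε' ≤ (u₀ - t₁) / 2 := by rw [hε']; exact min_le_right _ _
  have hlow := h4 (u₀ - ε') (by linarith) (by linarith)
  have hhigh := h3 (u₀ + ε') (by linarith)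
  obtain ⟨η, hη⟩ : ∃ η : ℝ, η = min (1 - ‖τ₀ • y + (u₀ - ε') • d‖)
      (‖τ₀ • y + (u₀ + ε') • d‖ - 1) := ⟨_, rfl⟩
  have hηpos : 0 < η := by
    rw [hη]
    exact lt_min (by linarith) (by linarith)
  have hη1 : η ≤ 1 - ‖τ₀ • y + (u₀ - ε') • d‖ := by rw [hη]; exact min_le_left _ _
  have hη2 : η ≤ ‖τ₀ • y + (u₀ + ε') • d‖ - 1 := by rw [hη]; exact min_le_right _ _
  refine ⟨η / (‖y‖ + 1), by positivity, fun τ hτ => ?_⟩
  rw [Real.dist_eq] at hτ
  have hclose : ∀ t : ℝ, |‖τ • y + t • d‖ - ‖τ₀ • y + t • d‖| < η := by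
    intro t
    refine (abs_norm_sub_norm_le _ _).trans_lt ?_
    have e : τ • y + t • d - (τ₀ • y + t • d) = (τ - τ₀) • y := by module
    rw [e, norm_smul, Real.norm_eq_abs]
    rw [lt_div_iff₀ (by positivity)] at hτ
    have : |τ - τ₀| * ‖y‖ ≤ |τ - τ₀| * (‖y‖ + 1) :=
      mul_le_mul_of_nonneg_left (by linarith) (abs_nonneg _)
    linarith
  have hlowτ : ‖τ • y + (u₀ - ε') • d‖ < 1 := by
    have := (abs_lt.1 (hclose (u₀ - ε'))).2
    linarith
  have hhighτ : 1 < ‖τ • y + (u₀ + ε') • d‖ := by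
    have := (abs_lt.1 (hclose (u₀ + ε'))).1
    linarith
  obtain ⟨h5, _, _, h8⟩ := upperT_spec hd y τ hlowτ
  have h9 : upperT y d τ ≤ u₀ + ε' := by
    by_contra hc
    push Not at hc
    have := h8 (u₀ + ε') (by linarith) hc
    linarith
  rw [Real.dist_eq, ← hu₀, abs_lt]
  constructor <;> linarith

end Propagate3

end Vale.Agent.Lib.P084
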