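import Mathlib
import Vale.Agent.Lib.P084.Propagate3

/-! Unique continuation for isometries of spheres: the exit-time argument along the chords of a
fixed direction, and the propagation of linearity over the whole sphere. -/

namespace Vale.Agent.Lib.P084

open Set Metric Filter Topology

section Propagate4

variable {X Y : Type*} [NormedAddCommGroup X] [NormedSpace ℝ X]
  [NormedAddCommGroup Y] [NormedSpace ℝ Y]

/-- Passing to the limit: if two curves on the sphere lie in the linear piece before time `m` and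
their limits are joined by a chord in a good direction, then the limit of the second curve is in
the linear piece. -/
lemma limit_capture {g : X → Y} {L : X ≃L[ℝ] Y}
    (hiso : ∀ a b : X, ‖a‖ = 1 → ‖b‖ = 1 → ‖g a - g b‖ = ‖a - b‖)
    {G : Set X} (hGo : IsOpen G) (hGd : ∀ z ∈ G, GoodDir z) (hGn : ∀ z ∈ G, ‖L z‖ = ‖z‖)
    {φ ψ : ℝ → X} {m : ℝ} (hm : 0 < m)
    (hφc : ContinuousWithinAt φ (Iio m) m) (hψc : ContinuousWithinAt ψ (Iio m) m)
    (hφ1 : ∀ t ∈ Ioo 0 m, ‖φ t‖ = 1) (hψ1 : ∀ t ∈ Ioo 0 m, ‖ψ t‖ = 1)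
    (hφW : ∀ t ∈ Ioo 0 m, φ t ∈ LinSet g (L : X →L[ℝ] Y))
    (hψW : ∀ t ∈ Ioo 0 m, ψ t ∈ LinSet g (L : X →L[ℝ] Y))
    (hψm1 : ‖ψ m‖ = 1)
    (hmid : ‖(1 / 2 : ℝ) • (φ m + ψ m)‖ < 1) (hdiff : φ m - ψ m ∈ G) :
    ψ m ∈ LinSet g (L : X →L[ℝ] Y) := by
  have hmem : ∀ᶠ t in 𝓝[<] m, t ∈ Ioo 0 m := Ioo_mem_nhdsLT hm
  have hψt : Tendsto ψ (𝓝[<] m) (𝓝 (ψ m)) := hψc
  have hφt : Tendsto φ (𝓝[<] m) (𝓝 (φ m)) := hφc
  have hg1 : Tendsto (fun t => g (ψ t)) (𝓝[<] m) (𝓝 (g (ψ m))) := by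
    rw [tendsto_iff_norm_sub_tendsto_zero]
    have h0 : Tendsto (fun t => ‖ψ t - ψ m‖) (𝓝[<] m) (𝓝 0) :=
      tendsto_iff_norm_sub_tendsto_zero.1 hψt
    refine h0.congr' ?_
    filter_upwards [hmem] with t ht
    rw [hiso _ _ (hψ1 t ht) hψm1]
  have hg2 : Tendsto (fun t => g (ψ t)) (𝓝[<] m) (𝓝 (L (ψ m))) := by
    have h0 : Tendsto (fun t => L (ψ t)) (𝓝[<] m) (𝓝 (L (ψ m))) :=
      L.continuous.continuousAt.tendsto.comp hψt
    refine h0.congr' ?_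
    filter_upwards [hmem] with t ht
    exact (linSet_apply (hψW t ht) (hψ1 t ht)).symm
  have hgm : g (ψ m) = L (ψ m) := tendsto_nhds_unique hg1 hg2
  have hev1 : ∀ᶠ t in 𝓝[<] m, φ t - ψ m ∈ G :=
    (hφt.sub_const (ψ m)).eventually (hGo.mem_nhds hdiff)
  have hev2 : ∀ᶠ t in 𝓝[<] m, ‖(1 / 2 : ℝ) • (φ t + ψ m)‖ < 1 := by
    have h0 : Tendsto (fun t => ‖(1 / 2 : ℝ) • (φ t + ψ m)‖) (𝓝[<] m)
        (𝓝 ‖(1 / 2 : ℝ) • (φ m + ψ m)‖) := ((hφt.add_const (ψ m)).const_smul _).norm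
    exact h0.eventually (gt_mem_nhds hmid)
  obtain ⟨t, ht, h1, h2⟩ := (hmem.and (hev1.and hev2)).exists
  exact capture hiso hGo hGd hGn (hφ1 t ht) hψm1 (hφW t ht) hgm h2 h1

/-- The two ends of a chord lie on both sides of an interior point of the chord, so the midpoint of
the chord is interior. -/
lemma chord_mid {d : X} (hd : ‖d‖ = 1) (y : X) {m t₁ : ℝ} (h : ‖m • y + t₁ • d‖ < 1) :
    0 < upperT y d m + upperT y d (-m) ∧
    ‖(1 / 2 : ℝ) • ((m • y + upperT y d m • d) + -((-m) • y + upperT y d (-m) • d))‖ < 1 := by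
  have h' : ‖(-m) • y + (-t₁) • d‖ < 1 := by
    have e : (-m) • y + (-t₁) • d = -(m • y + t₁ • d) := by module
    rwa [e, norm_neg]
  obtain ⟨a1, -, -, a4⟩ := upperT_spec hd y m h
  obtain ⟨b1, -, -, b4⟩ := upperT_spec hd y (-m) h'
  refine ⟨by linarith, ?_⟩
  obtain ⟨u, hu⟩ : ∃ u, u = upperT y d m := ⟨_, rfl⟩
  obtain ⟨v, hv⟩ : ∃ v, v = upperT y d (-m) := ⟨_, rfl⟩
  rw [← hu] at a1 a4 ⊢
  rw [← hv] at b1 b4 ⊢
  have e : (1 / 2 : ℝ) • ((m • y + u • d) + -((-m) • y + v • d)) =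
      m • y + ((u - v) / 2) • d := by module
  rw [e]
  by_cases hc : t₁ ≤ (u - v) / 2
  · exact a4 _ hc (by linarith)
  · push Not at hc
    have h2 := b4 (-((u - v) / 2)) (by linarith) (by linarith)
    have e2 : (-m) • y + (-((u - v) / 2)) • d = -(m • y + ((u - v) / 2) • d) := by module
    rwa [e2, norm_neg] at h2

/-- The exit step: if all the upper ends of chords at levels below `m` lie in the linear piece, so
do those at the levels `m` and `-m`. -/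
lemma exit_step {g : X → Y} {L : X ≃L[ℝ] Y}
    (hiso : ∀ a b : X, ‖a‖ = 1 → ‖b‖ = 1 → ‖g a - g b‖ = ‖a - b‖)
    (hodd : ∀ x : X, ‖x‖ = 1 → g (-x) = -g x)
    {G : Set X} (hGo : IsOpen G) (hGc : ∀ z ∈ G, ∀ s : ℝ, s ≠ 0 → s • z ∈ G)
    (hGd : ∀ z ∈ G, GoodDir z) (hGn : ∀ z ∈ G, ‖L z‖ = ‖z‖)
    {d : X} (hd : ‖d‖ = 1) (hdG : d ∈ G) {y : X} {γ : ℝ → X}
    (hγ : γ = fun τ => τ • y + upperT y d τ • d) {m : ℝ} (hm : 0 < m) (hm1 : m ≤ 1)
    (hγ1 : ∀ τ : ℝ, |τ| ≤ 1 → ‖γ τ‖ = 1) (hγc : ∀ τ : ℝ, |τ| ≤ 1 → ContinuousAt γ τ)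
    {t₁ : ℝ} (hin : ‖m • y + t₁ • d‖ < 1)
    (hbefore : ∀ τ : ℝ, |τ| < m → γ τ ∈ LinSet g (L : X →L[ℝ] Y)) :
    γ m ∈ LinSet g (L : X →L[ℝ] Y) ∧ γ (-m) ∈ LinSet g (L : X →L[ℝ] Y) := by
  obtain ⟨hpos, hmid⟩ := chord_mid hd y hin
  have hφm : γ m = m • y + upperT y d m • d := by rw [hγ]
  have hψm : γ (-m) = (-m) • y + upperT y d (-m) • d := by rw [hγ]
  rw [← hφm, ← hψm] at hmid
  have habsm : |m| ≤ 1 := by rwa [abs_of_pos hm]
  have habsm' : |-m| ≤ 1 := by rwa [abs_neg]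
  have hφc : ContinuousWithinAt γ (Iio m) m := (hγc m habsm).continuousWithinAt
  have hψc : ContinuousWithinAt (fun t => -γ (-t)) (Iio m) m := by
    have h1 : ContinuousAt (fun t : ℝ => γ (-t)) m :=
      ContinuousAt.comp (f := fun t : ℝ => -t) (g := γ) (hγc (-m) habsm') continuous_neg.continuousAt
    exact h1.neg.continuousWithinAt
  have habs : ∀ t ∈ Ioo 0 m, |t| < m := fun t ht => by rw [abs_of_pos ht.1]; exact ht.2
  have habs' : ∀ t ∈ Ioo 0 m, |-t| < m := fun t ht => by rw [abs_neg]; exact habs t ht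
  have hφ1 : ∀ t ∈ Ioo 0 m, ‖γ t‖ = 1 := fun t ht => hγ1 t ((habs t ht).le.trans hm1)
  have hψ1 : ∀ t ∈ Ioo 0 m, ‖-γ (-t)‖ = 1 := fun t ht => by
    rw [norm_neg]
    exact hγ1 _ ((habs' t ht).le.trans hm1)
  have hφW : ∀ t ∈ Ioo 0 m, γ t ∈ LinSet g (L : X →L[ℝ] Y) := fun t ht => hbefore t (habs t ht)
  have hψW : ∀ t ∈ Ioo 0 m, -γ (-t) ∈ LinSet g (L : X →L[ℝ] Y) := fun t ht =>
    linSet_neg hodd (hbefore _ (habs' t ht))
  obtain ⟨s, hs⟩ : ∃ s : ℝ, s = upperT y d m + upperT y d (-m) := ⟨_, rfl⟩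
  rw [← hs] at hpos
  have hdiff : γ m - -γ (-m) = s • d := by
    rw [hφm, hψm, hs]
    module
  have hG1 : γ m - -γ (-m) ∈ G := by
    rw [hdiff]
    exact hGc d hdG s hpos.ne'
  have hG2 : -γ (-m) - γ m ∈ G := by
    have e : -γ (-m) - γ m = (-s) • d := by
      rw [hφm, hψm, hs]
      module
    rw [e]
    exact hGc d hdG (-s) (neg_ne_zero.2 hpos.ne')
  have hmid' : ‖(1 / 2 : ℝ) • (-γ (-m) + γ m)‖ < 1 := by rwa [add_comm]
  have hA : -γ (-m) ∈ LinSet g (L : X →L[ℝ] Y) :=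
    limit_capture hiso hGo hGd hGn hm hφc hψc hφ1 hψ1 hφW hψW (by rw [norm_neg]; exact hγ1 _ habsm')
      hmid hG1
  have hB : γ m ∈ LinSet g (L : X →L[ℝ] Y) :=
    limit_capture hiso hGo hGd hGn hm hψc hφc hψ1 hφ1 hψW hφW (hγ1 _ habsm) hmid' hG2
  refine ⟨hB, ?_⟩
  have hC := linSet_neg hodd hA
  rwa [neg_neg] at hC

/-- Linearity spreads from a direction `d` of the good cone over the whole half sphere seen from
`-d` along chords parallel to `d`. -/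
lemma propagate_line {g : X → Y} {L : X ≃L[ℝ] Y}
    (hiso : ∀ a b : X, ‖a‖ = 1 → ‖b‖ = 1 → ‖g a - g b‖ = ‖a - b‖)
    (hodd : ∀ x : X, ‖x‖ = 1 → g (-x) = -g x)
    {G : Set X} (hGo : IsOpen G) (hGc : ∀ z ∈ G, ∀ s : ℝ, s ≠ 0 → s • z ∈ G)
    (hGd : ∀ z ∈ G, GoodDir z) (hGn : ∀ z ∈ G, ‖L z‖ = ‖z‖)
    {d : X} (hd : ‖d‖ = 1) (hdG : d ∈ G) (hdW : d ∈ LinSet g (L : X →L[ℝ] Y))
    {y : X} (hy : ‖y‖ = 1) {c : ℝ} (hc : c < 0) (hline : ‖y + c • d‖ < 1) :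
    g y = L y := by
  obtain ⟨γ, hγ⟩ : ∃ γ : ℝ → X, γ = fun τ => τ • y + upperT y d τ • d := ⟨_, rfl⟩
  have hin : ∀ τ : ℝ, |τ| ≤ 1 → ‖τ • y + (τ * c) • d‖ < 1 := by
    intro τ hτ
    have e : τ • y + (τ * c) • d = τ • (y + c • d) := by module
    rw [e, norm_smul, Real.norm_eq_abs]
    calc |τ| * ‖y + c • d‖ ≤ 1 * ‖y + c • d‖ := mul_le_mul_of_nonneg_right hτ (norm_nonneg _)
      _ < 1 := by linarith
  have hγ1 : ∀ τ : ℝ, |τ| ≤ 1 → ‖γ τ‖ = 1 := fun τ hτ => by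
    rw [hγ]
    exact (upperT_spec hd y τ (hin τ hτ)).2.1
  have hγc : ∀ τ : ℝ, |τ| ≤ 1 → ContinuousAt γ τ := by
    intro τ hτ
    rw [hγ]
    have h1 := upperT_continuousAt hd y (hin τ hτ)
    exact (continuousAt_id.smul continuousAt_const).add (h1.smul continuousAt_const)
  have hγ0 : γ 0 = d := by
    obtain ⟨h1, h2, -, -⟩ := upperT_spec hd y 0 (hin 0 (by simp))
    have hγe : γ 0 = upperT y d 0 • d := by
      rw [hγ]
      simp
    rw [hγe]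
    have h3 : ‖(0 : ℝ) • y + upperT y d 0 • d‖ = |upperT y d 0| := by
      rw [zero_smul, zero_add, norm_smul, hd, mul_one, Real.norm_eq_abs]
    rw [h3] at h2
    simp only [zero_mul] at h1
    rw [abs_of_pos h1] at h2
    rw [h2, one_smul]
  have hγ2 : γ 1 = y := by
    obtain ⟨h1, h2, h3, h4⟩ := upperT_spec hd y 1 (hin 1 (by simp))
    have hu : upperT y d 1 = 0 := by
      rcases lt_trichotomy (upperT y d 1) 0 with hlt | heq | hgt
      · have h5 := h3 0 hlt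
        simp only [one_smul, zero_smul, add_zero] at h5
        linarith
      · exact heq
      · have h5 := h4 0 (by linarith) hgt
        simp only [one_smul, zero_smul, add_zero] at h5
        linarith
    rw [hγ]
    simp [hu]
  suffices hW : y ∈ LinSet g (L : X →L[ℝ] Y) from linSet_apply hW hy
  by_contra hyW
  have hAcl : IsClosed (Icc (-1 : ℝ) 1 ∩ γ ⁻¹' (LinSet g (L : X →L[ℝ] Y))ᶜ) := by
    refine ContinuousOn.preimage_isClosed_of_isClosed ?_ isClosed_Icc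
      (isOpen_linSet g (L : X →L[ℝ] Y)).isClosed_compl
    intro τ hτ
    exact (hγc τ (abs_le.2 hτ)).continuousWithinAt
  have hAc : IsCompact (Icc (-1 : ℝ) 1 ∩ γ ⁻¹' (LinSet g (L : X →L[ℝ] Y))ᶜ) :=
    isCompact_Icc.of_isClosed_subset hAcl inter_subset_left
  have hAne : (Icc (-1 : ℝ) 1 ∩ γ ⁻¹' (LinSet g (L : X →L[ℝ] Y))ᶜ).Nonempty :=
    ⟨1, ⟨by norm_num, by norm_num⟩, by
      change γ 1 ∉ LinSet g (L : X →L[ℝ] Y)
      rwa [hγ2]⟩
  obtain ⟨τs, hτs, hmin⟩ := hAc.exists_isMinOn hAne continuous_abs.continuousOn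
  have hτs0 : τs ≠ 0 := by
    rintro rfl
    exact hτs.2 (by rw [hγ0]; exact hdW)
  have hm : 0 < |τs| := abs_pos.2 hτs0
  have hm1 : |τs| ≤ 1 := abs_le.2 hτs.1
  have hbefore : ∀ τ : ℝ, |τ| < |τs| → γ τ ∈ LinSet g (L : X →L[ℝ] Y) := by
    intro τ hτ
    by_contra hc'
    have h1 : τ ∈ Icc (-1 : ℝ) 1 ∩ γ ⁻¹' (LinSet g (L : X →L[ℝ] Y))ᶜ :=
      ⟨abs_le.1 (hτ.le.trans hm1), hc'⟩
    have h2 := hmin h1
    have h2' : |τs| ≤ |τ| := h2
    linarith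
  obtain ⟨h3, h4⟩ := exit_step hiso hodd hGo hGc hGd hGn hd hdG hγ hm hm1 hγ1 hγc
    (hin |τs| (by rwa [abs_abs])) hbefore
  apply hτs.2
  rcases abs_choice τs with h5 | h5
  · rw [h5] at h3
    exact h3
  · rw [h5, neg_neg] at h4
    exact h4

/-- For a smooth unit vector `y`, the open cone contains a unit vector on which the derivative of
the norm at `y` is positive. -/
lemma exists_dir_of_cone {G : Set X} (hGo : IsOpen G) (hGc : ∀ z ∈ G, ∀ s : ℝ, s ≠ 0 → s • z ∈ G)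
    {x₁ : X} (hx₁ : x₁ ∈ G) {y : X} (hy : ‖y‖ = 1)
    (hyd : DifferentiableAt ℝ (fun z : X => ‖z‖) y) :
    ∃ d ∈ G, ‖d‖ = 1 ∧ 0 < chi y d := by
  have hyy : chi y y = 1 := by
    have h1 : chi y y = ‖y‖ := hyd.fderiv_norm_self
    rw [h1, hy]
  obtain ⟨ε, hε, hball⟩ := Metric.isOpen_iff.1 hGo _ hx₁
  have hmem : ∀ s : ℝ, 0 ≤ s → s < ε → x₁ + s • y ∈ G := by
    intro s hs hsε
    apply hball
    rw [mem_ball, dist_eq_norm, add_sub_cancel_left, norm_smul, hy, mul_one,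
      Real.norm_of_nonneg hs]
    exact hsε
  obtain ⟨z, hzG, hz⟩ : ∃ z ∈ G, chi y z ≠ 0 := by
    by_cases h0 : chi y x₁ = 0
    · refine ⟨x₁ + (ε / 2) • y, hmem _ (by positivity) (by linarith), ?_⟩
      rw [map_add, map_smul, h0, hyy, smul_eq_mul]
      have : ε / 2 > 0 := by positivity
      intro h
      linarith
    · exact ⟨x₁, hx₁, h0⟩
  have hz0 : z ≠ 0 := by
    rintro rfl
    simp at hz
  have hzn : 0 < ‖z‖ := norm_pos_iff.2 hz0
  rcases lt_or_gt_of_ne hz with hneg | hpos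
  · refine ⟨(-‖z‖⁻¹) • z, hGc z hzG _ (neg_ne_zero.2 (inv_pos.2 hzn).ne'), ?_, ?_⟩
    · rw [norm_smul, norm_neg, norm_inv, norm_norm, inv_mul_cancel₀ hzn.ne']
    · rw [map_smul, smul_eq_mul]
      exact mul_pos_of_neg_of_neg (neg_lt_zero.2 (inv_pos.2 hzn)) hneg
  · refine ⟨‖z‖⁻¹ • z, hGc z hzG _ (inv_pos.2 hzn).ne', ?_, ?_⟩
    · rw [norm_smul, norm_inv, norm_norm, inv_mul_cancel₀ hzn.ne']
    · rw [map_smul, smul_eq_mul]
      exact mul_pos (inv_pos.2 hzn) hpos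

/-- Moving from a smooth unit vector backwards along a direction on which the derivative of the
norm is positive enters the open ball. -/
lemma exists_back_step {y d : X} (hy : ‖y‖ = 1)
    (hyd : DifferentiableAt ℝ (fun z : X => ‖z‖) y) (hpos : 0 < chi y d) :
    ∃ c : ℝ, c < 0 ∧ ‖y + c • d‖ < 1 := by
  have hd0 : d ≠ 0 := by
    rintro rfl
    simp at hpos
  have hdn : 0 < ‖d‖ := norm_pos_iff.2 hd0
  have hη : 0 < chi y d / (2 * ‖d‖) := by positivity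
  have h1 := hyd.hasFDerivAt.isLittleO.def hη
  obtain ⟨δ, hδ, hball⟩ := Metric.eventually_nhds_iff.1 h1
  obtain ⟨c, hc⟩ : ∃ c : ℝ, c = -(δ / (2 * ‖d‖)) := ⟨_, rfl⟩
  have hcneg : c < 0 := by
    rw [hc]
    have : 0 < δ / (2 * ‖d‖) := by positivity
    linarith
  have hcn : |c| * ‖d‖ = δ / 2 := by
    rw [abs_of_neg hcneg, hc, neg_neg]
    field_simp
  refine ⟨c, hcneg, ?_⟩
  have h2 := hball (y := y + c • d) (by
    rw [dist_eq_norm, add_sub_cancel_left, norm_smul, Real.norm_eq_abs, hcn]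
    linarith)
  rw [add_sub_cancel_left, norm_smul, Real.norm_eq_abs c] at h2
  have h3 : chi y d / (2 * ‖d‖) * (|c| * ‖d‖) = chi y d / 2 * |c| := by
    field_simp
  rw [h3, Real.norm_eq_abs, abs_of_neg hcneg] at h2
  have h4 := (abs_le.1 h2).2
  rw [hy] at h4
  have h5 : fderiv ℝ (fun z : X => ‖z‖) y (c • d) = c * chi y d := by
    rw [map_smul, smul_eq_mul]
    rfl
  rw [h5] at h4
  nlinarith

/-- **Unique continuation.** An odd isometry of unit spheres which agrees with a linear map on an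
open piece of exposed smooth directions is that linear map on the whole sphere. -/
theorem sphere_eq_of_patch {g : X → Y} {L : X ≃L[ℝ] Y}
    (hiso : ∀ a b : X, ‖a‖ = 1 → ‖b‖ = 1 → ‖g a - g b‖ = ‖a - b‖)
    (hodd : ∀ x : X, ‖x‖ = 1 → g (-x) = -g x)
    (hSm : Dense {z : X | DifferentiableAt ℝ (fun z : X => ‖z‖) z})
    {G : Set X} (hGo : IsOpen G) (hGc : ∀ z ∈ G, ∀ s : ℝ, s ≠ 0 → s • z ∈ G)
    (hGd : ∀ z ∈ G, GoodDir z) (hGL : ∀ z ∈ G, ‖z‖ = 1 → g z = L z)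
    {x₁ : X} (hx₁ : x₁ ∈ G) :
    ∀ y : X, ‖y‖ = 1 → g y = L y := by
  have hgn : ∀ a : X, ‖a‖ = 1 → ‖g a‖ = 1 := by
    intro a ha
    have h1 := hiso a (-a) ha (by rwa [norm_neg])
    rw [hodd a ha, sub_neg_eq_add, sub_neg_eq_add, ← two_smul ℝ (g a), ← two_smul ℝ a, norm_smul,
      norm_smul, ha] at h1
    have h2 : (2 : ℝ) * ‖g a‖ = 2 * 1 := by simpa using h1
    linarith
  have hGn : ∀ z ∈ G, ‖L z‖ = ‖z‖ := by
    intro z hz
    by_cases hz0 : z = 0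
    · simp [hz0]
    have hzn : 0 < ‖z‖ := norm_pos_iff.2 hz0
    have h1 : ‖z‖⁻¹ • z ∈ G := hGc z hz _ (inv_pos.2 hzn).ne'
    have h2 : ‖‖z‖⁻¹ • z‖ = 1 := by
      rw [norm_smul, norm_inv, norm_norm, inv_mul_cancel₀ hzn.ne']
    have h4 := hgn _ h2
    rw [hGL _ h1 h2, map_smul, norm_smul, norm_inv, norm_norm, inv_mul_eq_div,
      div_eq_one_iff_eq hzn.ne'] at h4
    exact h4
  have hWG : ∀ d ∈ G, ‖d‖ = 1 → d ∈ LinSet g (L : X →L[ℝ] Y) := by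
    intro d hd hd1
    obtain ⟨ε, hε, hb⟩ := Metric.isOpen_iff.1 hGo _ hd
    exact ⟨ε, hε, fun y hy hyd => hGL y (hb (by rw [mem_ball, dist_eq_norm]; exact hyd)) hy⟩
  have hsm : ∀ y : X, ‖y‖ = 1 → DifferentiableAt ℝ (fun z : X => ‖z‖) y → g y = L y := by
    intro y hy hyd
    obtain ⟨d, hdG, hd1, hpos⟩ := exists_dir_of_cone hGo hGc hx₁ hy hyd
    obtain ⟨c, hc, hline⟩ := exists_back_step hy hyd hpos
    exact propagate_line hiso hodd hGo hGc hGd hGn hd1 hdG (hWG d hdG hd1) hy hc hline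
  intro y hy
  have hsmall : ∀ ε : ℝ, 0 < ε → ‖g y - L y‖ ≤ (1 + ‖(L : X →L[ℝ] Y)‖) * ε := by
    intro ε hε
    obtain ⟨w', hw'b, hw'S⟩ := Metric.dense_iff.1 hSm y (min (ε / 4) (1 / 2)) (by positivity)
    rw [mem_ball, dist_eq_norm] at hw'b
    have h1 : ‖w' - y‖ < ε / 4 := hw'b.trans_le (min_le_left _ _)
    have h2 : ‖w' - y‖ < 1 / 2 := hw'b.trans_le (min_le_right _ _)
    have h3 : 1 / 2 ≤ ‖w'‖ := by
      have h0 := norm_sub_le w' (w' - y)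
      rw [sub_sub_cancel, hy] at h0
      linarith
    have hw'n : 0 < ‖w'‖ := by linarith
    have hw'0 : w' ≠ 0 := norm_pos_iff.1 hw'n
    obtain ⟨w, hw⟩ : ∃ w : X, w = ‖w'‖⁻¹ • w' := ⟨_, rfl⟩
    have hw1 : ‖w‖ = 1 := by
      rw [hw, norm_smul, norm_inv, norm_norm, inv_mul_cancel₀ hw'n.ne']
    have hws : DifferentiableAt ℝ (fun z : X => ‖z‖) w := by
      rw [hw]
      exact (differentiableAt_norm_smul (inv_pos.2 hw'n).ne').1 hw'S
    have hgw := hsm w hw1 hws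
    have hwy : ‖w - y‖ ≤ ε := by
      have h4 := normalize_dist (v₀ := y) hw'0
      rw [hy, inv_one, one_smul, ← hw] at h4
      refine h4.trans ?_
      rw [div_le_iff₀ hw'n]
      nlinarith
    have e : g y - L y = (g y - g w) + (L.toContinuousLinearMap (w - y)) := by
      rw [hgw]
      simp
    rw [e]
    refine (norm_add_le _ _).trans ?_
    rw [hiso _ _ hy hw1, norm_sub_rev y w]
    have h5 := (L.toContinuousLinearMap).le_opNorm (w - y)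
    have h6 : ‖L.toContinuousLinearMap‖ * ‖w - y‖ ≤ ‖L.toContinuousLinearMap‖ * ε :=
      mul_le_mul_of_nonneg_left hwy (norm_nonneg _)
    have h7 : ‖(L : X →L[ℝ] Y)‖ = ‖L.toContinuousLinearMap‖ := rfl
    rw [h7]
    nlinarith
  have hz : ‖g y - L y‖ = 0 := by
    by_contra hne
    have hp : 0 < ‖g y - L y‖ := lt_of_le_of_ne (norm_nonneg _) (Ne.symm hne)
    have hA : 0 < 1 + ‖(L : X →L[ℝ] Y)‖ := by positivity
    have h8 := hsmall (‖g y - L y‖ / (2 * (1 + ‖(L : X →L[ℝ] Y)‖))) (by positivity)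
    have h9 : (1 + ‖(L : X →L[ℝ] Y)‖) * (‖g y - L y‖ / (2 * (1 + ‖(L : X →L[ℝ] Y)‖))) =
        ‖g y - L y‖ / 2 := by
      field_simp
    rw [h9] at h8
    linarith
  exact sub_eq_zero.1 (norm_eq_zero.1 hz)

end Propagate4

end Vale.Agent.Lib.P084
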