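import Mathlib
import Vale.Agent.Lib.P084.Coords

/-! Regularity of the radial extension of a sphere isometry between smooth spaces. -/

namespace Vale.Agent.Lib.P084

open Set Metric Filter Topology

section DistCoord

variable {E : Type*} [NormedAddCommGroup E] [NormedSpace ℝ E]

/-- Distance from `y` to the point of direction `e` on the sphere through `y`. -/
noncomputable def dc (e y : E) : ℝ := ‖y - ‖y‖ • e‖

/-- The derivative of `dc e`. -/
noncomputable def dcD (e y : E) : E →L[ℝ] ℝ :=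
  (chi (y - ‖y‖ • e)).comp (ContinuousLinearMap.id ℝ E - (chi y).smulRight e)

lemma dcD_apply (e y v : E) : dcD e y v = chi (y - ‖y‖ • e) (v - chi y v • e) := rfl

lemma dc_contDiffAt {k : ℕ} (hE : NormC k E) {e y : E} (hy : y ≠ 0) (hye : y - ‖y‖ • e ≠ 0) :
    ContDiffAt ℝ k (dc e) y := by
  have h1 : ContDiffAt ℝ k (fun z : E => z - ‖z‖ • e) y :=
    contDiffAt_id.sub ((hE y hy).smul contDiffAt_const)
  exact (hE _ hye).comp y h1

lemma dc_hasFDerivAt {k : ℕ} (hE : NormC k E) (hk : 1 ≤ k) {e y : E} (hy : y ≠ 0)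
    (hye : y - ‖y‖ • e ≠ 0) : HasFDerivAt (dc e) (dcD e y) y := by
  have h1 : HasFDerivAt (fun z : E => z - ‖z‖ • e)
      (ContinuousLinearMap.id ℝ E - (chi y).smulRight e) y :=
    (hasFDerivAt_id y).sub ((hE.hasFDerivAt hk hy).smul_const e)
  exact (hE.hasFDerivAt hk hye).comp y h1

end DistCoord

section Radial

variable {X Y : Type*} [NormedAddCommGroup X] [NormedSpace ℝ X]
  [NormedAddCommGroup Y] [NormedSpace ℝ Y] {g : X → Y} {h : Y → X}

lemma radial_norm (H : SphereIso g h) (x : X) : ‖radial g x‖ = ‖x‖ := by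
  by_cases hx : x = 0
  · simp [hx, radial_zero]
  · simp only [radial]
    rw [norm_smul, H.map_g _ (unit_of_ne hx), norm_norm, mul_one]

lemma radial_ne_zero (H : SphereIso g h) {x : X} (hx : x ≠ 0) : radial g x ≠ 0 := by
  rw [← norm_pos_iff, radial_norm H]
  exact norm_pos_iff.2 hx

lemma dc_radial (H : SphereIso g h) {a : X} (ha : ‖a‖ = 1) (z : X) :
    dc (g a) (radial g z) = dc a z := by
  simp only [dc, radial_norm H]
  by_cases hz : z = 0
  · simp [hz, radial_zero]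
  · have hn : ‖z‖ ≠ 0 := norm_ne_zero_iff.2 hz
    have hu := unit_of_ne hz
    have e1 : radial g z = ‖z‖ • g (‖z‖⁻¹ • z) := rfl
    rw [e1, ← smul_sub, norm_smul, H.iso _ _ hu ha, norm_norm]
    have e2 : z - ‖z‖ • a = ‖z‖ • (‖z‖⁻¹ • z - a) := by
      rw [smul_sub, smul_smul, mul_inv_cancel₀ hn, one_smul]
    rw [e2, norm_smul, norm_norm]

lemma radial_continuousAt (H : SphereIso g h) {z₀ : X} (hz₀ : z₀ ≠ 0) :
    ContinuousAt (radial g) z₀ := by
  have h1 : ContinuousAt (fun z : X => ‖z‖⁻¹ • z) z₀ :=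
    ((continuous_norm.continuousAt).inv₀ (norm_ne_zero_iff.2 hz₀)).smul continuousAt_id
  have h2 : ContinuousAt (fun z : X => g (‖z‖⁻¹ • z)) z₀ := by
    rw [ContinuousAt, tendsto_iff_norm_sub_tendsto_zero]
    have h3 : Tendsto (fun z : X => ‖‖z‖⁻¹ • z - ‖z₀‖⁻¹ • z₀‖) (𝓝 z₀) (𝓝 0) :=
      tendsto_iff_norm_sub_tendsto_zero.1 h1
    refine h3.congr' ?_
    filter_upwards [isOpen_ne.mem_nhds hz₀] with z hz
    exact (H.iso _ _ (unit_of_ne hz) (unit_of_ne hz₀)).symm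
  exact continuous_norm.continuousAt.smul h2

/-- **Regularity.**  Between `C^k` norms, the radial extension is `C^k` away from the origin. -/
theorem radial_contDiffAt [FiniteDimensional ℝ Y] (H : SphereIso g h) {k : ℕ} (hk : 1 ≤ k)
    (hX : NormC k X) (hY : NormC k Y) {z₀ : X} (hz₀ : z₀ ≠ 0) :
    ContDiffAt ℝ k (radial g) z₀ := by
  classical
  set s : ℝ := ‖z₀‖ with hs
  have hspos : 0 < s := norm_pos_iff.2 hz₀
  set z₁ : X := s⁻¹ • z₀ with hz₁
  have hz₁u : ‖z₁‖ = 1 := unit_of_ne hz₀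
  have hz₀eq : z₀ = s • z₁ := by
    rw [hz₁, smul_smul, mul_inv_cancel₀ hspos.ne', one_smul]
  set y₁ : Y := g z₁ with hy₁
  have hy₁u : ‖y₁‖ = 1 := H.map_g _ hz₁u
  set y₀ : Y := radial g z₀ with hy₀
  have hy₀eq : y₀ = s • y₁ := rfl
  have hy₀n : ‖y₀‖ = s := radial_norm H z₀
  have hy₀ne : y₀ ≠ 0 := radial_ne_zero H hz₀
  have hk1 : NormC 1 Y := hY.mono hk
  have hchi0 : chi y₀ = chi y₁ := by rw [hy₀eq, chi_smul hspos]
  have hsub : ∀ e : Y, y₀ - ‖y₀‖ • e = s • (y₁ - e) := by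
    intro e
    rw [hy₀n, hy₀eq, smul_sub]
  -- the coordinate functionals
  let S : Set (Y →L[ℝ] ℝ) := {ξ | ∃ e : Y, ‖e‖ = 1 ∧ e ≠ y₁ ∧ ξ = dcD e y₀}
  have hS : ∀ v : Y, (∀ ξ ∈ S, ξ v = 0) → v = 0 := by
    intro v hv
    refine chord_functionals hk1 hy₁u fun e he hne => ?_
    have := hv _ ⟨e, he, hne, rfl⟩
    rwa [dcD_apply, hsub, chi_smul hspos, hchi0] at this
  obtain ⟨ι, _, c, Λ, hcS, hΛ⟩ := exists_coords S hS
  choose e he1 he2 hc using hcS
  have hne : ∀ i, y₀ - ‖y₀‖ • e i ≠ 0 := by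
    intro i
    rw [hsub]
    exact smul_ne_zero hspos.ne' (sub_ne_zero.2 (he2 i).symm)
  let Ξ' : Y → (ι → ℝ) := fun y i => dc (e i) y
  let Ξ : X → (ι → ℝ) := fun z i => dc (h (e i)) z
  have hΞrel : ∀ z, Ξ' (radial g z) = Ξ z := by
    intro z
    funext i
    have := dc_radial H (H.map_h _ (he1 i)) z
    rwa [H.right _ (he1 i)] at this
  have hkne : (k : WithTop ℕ∞) ≠ 0 := by
    have : k ≠ 0 := by omega
    exact_mod_cast this
  have hΞ'C : ContDiffAt ℝ k Ξ' y₀ :=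
    contDiffAt_pi.2 fun i => dc_contDiffAt hY hy₀ne (hne i)
  have hΞ'D : HasFDerivAt Ξ' (Λ : Y →L[ℝ] (ι → ℝ)) y₀ := by
    refine hasFDerivAt_pi'.2 fun i => ?_
    have h1 := dc_hasFDerivAt hY hk hy₀ne (hne i)
    have e1 : (ContinuousLinearMap.proj (R := ℝ) (φ := fun _ : ι => ℝ) i).comp
        (Λ : Y →L[ℝ] (ι → ℝ)) = dcD (e i) y₀ := by
      ext v
      have : (Λ : Y →L[ℝ] (ι → ℝ)) v i = c i v := hΛ v i
      simp only [ContinuousLinearMap.comp_apply, ContinuousLinearMap.proj_apply]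
      rw [this, hc i]
    rw [e1]
    exact h1
  have hΞC : ContDiffAt ℝ k Ξ z₀ := by
    refine contDiffAt_pi.2 fun i => dc_contDiffAt hX hz₀ ?_
    have h1 : z₀ - s • h (e i) = s • (z₁ - h (e i)) := by
      rw [smul_sub, ← hz₀eq]
    rw [h1]
    refine smul_ne_zero hspos.ne' (sub_ne_zero.2 fun h2 => he2 i ?_)
    rw [hy₁, h2, H.right _ (he1 i)]
  have hinv := hΞ'C.to_localInverse hΞ'D hkne
  have hleft : ∀ᶠ y in 𝓝 y₀, hΞ'C.localInverse hΞ'D hkne (Ξ' y) = y :=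
    (hΞ'C.hasStrictFDerivAt' hΞ'D hkne).eventually_left_inverse
  have hΞz₀ : Ξ z₀ = Ξ' y₀ := (hΞrel z₀).symm
  have hcomp : ContDiffAt ℝ k (hΞ'C.localInverse hΞ'D hkne ∘ Ξ) z₀ :=
    ContDiffAt.comp z₀ (by rw [hΞz₀]; exact hinv) hΞC
  refine hcomp.congr_of_eventuallyEq ?_
  have hcont := radial_continuousAt H hz₀
  filter_upwards [hcont.eventually hleft] with z hz
  simp only [Function.comp_apply]
  rw [← hΞrel z, hz]

end Radial

end Vale.Agent.Lib.P084
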