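import Mathlib
import Vale.Agent.Lib.P084.Regular
import Vale.Agent.Lib.P084.Annihilate

/-! The first and second derivatives of the radial extension of a sphere isometry. -/

namespace Vale.Agent.Lib.P084

open Set Metric Filter Topology

section Curve

variable {E F : Type*} [NormedAddCommGroup E] [NormedSpace ℝ E]
  [NormedAddCommGroup F] [NormedSpace ℝ F]

lemma norm_deriv_eq {f : ℝ → E} {f' : E} {k : ℝ → F} {k' : F}
    (hf : HasDerivAt f f' 0) (hk : HasDerivAt k k' 0)
    (h : ∀ᶠ t in 𝓝 (0 : ℝ), ‖k t - k 0‖ = ‖f t - f 0‖) : ‖k'‖ = ‖f'‖ := by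
  have h1 := (hf.tendsto_slope_zero).norm
  have h2 := (hk.tendsto_slope_zero).norm
  refine tendsto_nhds_unique (h2.congr' ?_) h1
  have h3 : ∀ᶠ t in 𝓝[≠] (0 : ℝ), ‖k t - k 0‖ = ‖f t - f 0‖ := h.filter_mono nhdsWithin_le_nhds
  filter_upwards [h3] with t ht
  simp only [zero_add, norm_smul, ht]

lemma deriv2_unique {φ₁ φ₂ φ₁' φ₂' : ℝ → ℝ} {a b : ℝ}
    (h : φ₁ =ᶠ[𝓝 0] φ₂) (h1 : ∀ᶠ t in 𝓝 (0 : ℝ), HasDerivAt φ₁ (φ₁' t) t)
    (h2 : ∀ᶠ t in 𝓝 (0 : ℝ), HasDerivAt φ₂ (φ₂' t) t)
    (ha : HasDerivAt φ₁' a 0) (hb : HasDerivAt φ₂' b 0) : a = b := by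
  have h3 : φ₁' =ᶠ[𝓝 0] φ₂' := by
    filter_upwards [h.eventuallyEq_nhds, h1, h2] with t ht h1t h2t
    exact (h1t.congr_of_eventuallyEq ht.symm).unique h2t
  exact (ha.congr_of_eventuallyEq h3.symm).unique hb

lemma curve_data {c : ℝ → E} (hc : ContDiffAt ℝ 2 c 0) :
    ∃ (c' : ℝ → E) (a : E), (∀ᶠ t in 𝓝 (0 : ℝ), HasDerivAt c (c' t) t) ∧ HasDerivAt c' a 0 := by
  refine ⟨fun t => fderiv ℝ c t 1, fderiv ℝ (fderiv ℝ c) 0 1 1, ?_, ?_⟩
  · have h0 := hc.eventually (by simp)
    filter_upwards [h0] with t ht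
    exact ((ht.differentiableAt (by norm_num)).hasFDerivAt).hasDerivAt
  · have h1 : ContDiffAt ℝ 1 (fderiv ℝ c) 0 := hc.fderiv_right (m := 1) (by norm_num)
    have h2 := (h1.differentiableAt (by norm_num)).hasFDerivAt
    have h3 := (h2.clm_apply (hasFDerivAt_const (1 : ℝ) (0 : ℝ))).hasDerivAt
    simpa using h3

lemma sphere_second {k : ℕ} (hE : NormC k E) (hk : 2 ≤ k) {c c' : ℝ → E} {a : E}
    (hc1 : ∀ᶠ t in 𝓝 (0 : ℝ), HasDerivAt c (c' t) t) (hc2 : HasDerivAt c' a 0)
    (hn : ∀ᶠ t in 𝓝 (0 : ℝ), ‖c t‖ = 1) :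
    (∀ᶠ t in 𝓝 (0 : ℝ), HasDerivAt (fun s => ‖c 0 + c s‖) (chi (c 0 + c t) (c' t)) t) ∧
      HasDerivAt (fun t => chi (c 0 + c t) (c' t)) (-(1 / 2) * hess (c 0) (c' 0) (c' 0)) 0 := by
  have hc0 : ‖c 0‖ = 1 := hn.self_of_nhds
  have hc0ne : c 0 ≠ 0 := by
    rw [← norm_pos_iff, hc0]
    norm_num
  obtain ⟨h1, h2⟩ := norm_curve hE hk hc0ne hc1 hc2
  have h3 : (fun t => chi (c t) (c' t)) =ᶠ[𝓝 0] fun _ => (0 : ℝ) := by
    filter_upwards [h1, hn.eventually_nhds] with t ht1 ht2
    have h4 : (fun s => ‖c s‖) =ᶠ[𝓝 t] fun _ => (1 : ℝ) := ht2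
    exact ht1.unique ((hasDerivAt_const t (1 : ℝ)).congr_of_eventuallyEq h4)
  have h5 : hess (c 0) (c' 0) (c' 0) + chi (c 0) a = 0 :=
    h2.unique ((hasDerivAt_const (0 : ℝ) (0 : ℝ)).congr_of_eventuallyEq h3)
  have hc1' : ∀ᶠ t in 𝓝 (0 : ℝ), HasDerivAt (fun s => c 0 + c s) (c' t) t := by
    filter_upwards [hc1] with t ht
    exact ht.const_add (c 0)
  have h2x : c 0 + c 0 = (2 : ℝ) • c 0 := by rw [two_smul]
  have hne2 : (fun s => c 0 + c s) 0 ≠ 0 := by
    simp only
    rw [h2x]
    exact smul_ne_zero two_ne_zero hc0ne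
  obtain ⟨h6, h7⟩ := norm_curve hE hk hne2 hc1' hc2
  refine ⟨h6, ?_⟩
  convert h7 using 1
  simp only [h2x]
  rw [hess_smul hE hk hc0ne two_pos, chi_smul two_pos]
  simp only [_root_.smul_apply, smul_eq_mul]
  linarith

/-- The normalised line through `x` with direction `u`. -/
noncomputable def ncurve (x u : E) (t : ℝ) : E := ‖x + t • u‖⁻¹ • (x + t • u)

lemma ncurve_zero {x : E} (hx : ‖x‖ = 1) (u : E) : ncurve x u 0 = x := by
  simp [ncurve, hx]

lemma ncurve_unit {x : E} (hx : ‖x‖ = 1) (u : E) : ∀ᶠ t in 𝓝 (0 : ℝ), ‖ncurve x u t‖ = 1 := by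
  have h1 : ContinuousAt (fun t : ℝ => x + t • u) 0 := by fun_prop
  have h2 : x + (0 : ℝ) • u ≠ 0 := by
    rw [zero_smul, add_zero, ← norm_pos_iff, hx]
    norm_num
  filter_upwards [h1.eventually_ne h2] with t ht
  exact unit_of_ne ht

lemma ncurve_contDiffAt {k : ℕ} (hE : NormC k E) {x : E} (hx : ‖x‖ = 1) (u : E) :
    ContDiffAt ℝ k (ncurve x u) 0 := by
  have h2 : x + (0 : ℝ) • u ≠ 0 := by
    rw [zero_smul, add_zero, ← norm_pos_iff, hx]
    norm_num
  have h1 : ContDiffAt ℝ k (fun t : ℝ => x + t • u) 0 := by fun_prop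
  have h3 : ContDiffAt ℝ k (fun t : ℝ => ‖x + t • u‖) 0 := (hE _ h2).comp (0 : ℝ) h1
  have h4 : ‖x + (0 : ℝ) • u‖ ≠ 0 := norm_ne_zero_iff.2 h2
  exact (h3.inv h4).smul h1

lemma ncurve_hasDerivAt {k : ℕ} (hE : NormC k E) (hk : 1 ≤ k) {x u : E} (hx : ‖x‖ = 1)
    (hu : chi x u = 0) : HasDerivAt (ncurve x u) u 0 := by
  have h2 : x + (0 : ℝ) • u ≠ 0 := by
    rw [zero_smul, add_zero, ← norm_pos_iff, hx]
    norm_num
  have hx0 : x ≠ 0 := by
    rw [← norm_pos_iff, hx]
    norm_num
  have h1 : HasDerivAt (fun t : ℝ => x + t • u) u 0 := by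
    simpa using ((hasDerivAt_id (0 : ℝ)).smul_const u).const_add x
  have h0 : x + (0 : ℝ) • u = x := by simp
  have h3 : HasDerivAt (fun t : ℝ => ‖x + t • u‖) 0 0 := by
    have h5 : HasFDerivAt (fun z : E => ‖z‖) (chi x) (x + (0 : ℝ) • u) := by
      rw [h0]
      exact hE.hasFDerivAt hk hx0
    have h6 := h5.comp_hasDerivAt (0 : ℝ) h1
    rw [hu] at h6
    exact h6
  have h4 : ‖x + (0 : ℝ) • u‖ ≠ 0 := norm_ne_zero_iff.2 h2
  have h7 := (h3.inv h4).smul h1
  refine h7.congr_deriv ?_
  simp [hx]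

end Curve

section Structure

variable {X Y : Type*} [NormedAddCommGroup X] [NormedSpace ℝ X]
  [NormedAddCommGroup Y] [NormedSpace ℝ Y] {g : X → Y} {h : Y → X}

/-- The first derivative of the radial extension. -/
noncomputable def radA (g : X → Y) (x : X) : X →L[ℝ] Y := fderiv ℝ (radial g) x

/-- The second derivative of the radial extension. -/
noncomputable def radB (g : X → Y) (x : X) : X →L[ℝ] X →L[ℝ] Y := fderiv ℝ (radA g) x

variable [FiniteDimensional ℝ X] [FiniteDimensional ℝ Y] [Nontrivial X]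

section
variable (H : SphereIso g h) (hX : NormC 2 X) (hY : NormC 2 Y)
include H hX hY

lemma radial_C2 {x : X} (hx : x ≠ 0) : ContDiffAt ℝ 2 (radial g) x :=
  radial_contDiffAt H (by norm_num) hX hY hx

lemma radA_hasFDerivAt {x : X} (hx : x ≠ 0) : HasFDerivAt (radial g) (radA g x) x :=
  ((radial_C2 H hX hY hx).differentiableAt (by norm_num)).hasFDerivAt

lemma radA_contDiffAt {x : X} (hx : x ≠ 0) : ContDiffAt ℝ 1 (radA g) x :=
  (radial_C2 H hX hY hx).fderiv_right (m := 1) (by norm_num)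

lemma radB_hasFDerivAt {x : X} (hx : x ≠ 0) : HasFDerivAt (radA g) (radB g x) x :=
  ((radA_contDiffAt H hX hY hx).differentiableAt (by norm_num)).hasFDerivAt

lemma radB_continuousAt {x : X} (hx : x ≠ 0) : ContinuousAt (radB g) x :=
  ((radA_contDiffAt H hX hY hx).fderiv_right (m := 0) (by norm_num)).continuousAt

lemma radB_symm {x : X} (hx : x ≠ 0) (a b : X) : radB g x a b = radB g x b a := by
  exact (radial_C2 H hX hY hx).isSymmSndFDerivAt (by simp) a b

lemma radA_self {x : X} (hx : x ≠ 0) : radA g x x = radial g x := by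
  have h1 : HasDerivAt (fun t : ℝ => t • x) x 1 := by
    simpa using (hasDerivAt_id (1 : ℝ)).smul_const x
  have h2 : HasFDerivAt (radial g) (radA g x) ((1 : ℝ) • x) := by
    rw [one_smul]
    exact radA_hasFDerivAt H hX hY hx
  have h3 := h2.comp_hasDerivAt (1 : ℝ) h1
  have h4 : (radial g ∘ fun t : ℝ => t • x) =ᶠ[𝓝 1] fun t => t • radial g x := by
    filter_upwards [lt_mem_nhds (zero_lt_one : (0 : ℝ) < 1)] with t ht
    exact radial_smul g ht.le x
  have h5 : HasDerivAt (fun t : ℝ => t • radial g x) (radial g x) 1 := by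
    simpa using (hasDerivAt_id (1 : ℝ)).smul_const (radial g x)
  exact h3.unique (h5.congr_of_eventuallyEq h4)

lemma radA_smul {x : X} (hx : x ≠ 0) {s : ℝ} (hs : 0 < s) : radA g (s • x) = radA g x := by
  have hsx : s • x ≠ 0 := smul_ne_zero hs.ne' hx
  have h1 := radA_hasFDerivAt H hX hY hsx
  have h2 : HasFDerivAt (fun z : X => s • z) (s • ContinuousLinearMap.id ℝ X) x :=
    (hasFDerivAt_id x).const_smul s
  have h3 := h1.comp x h2
  have h4 : (radial g ∘ fun z : X => s • z) = fun z => s • radial g z := by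
    funext z
    exact radial_smul g hs.le z
  rw [h4] at h3
  have h5 := (radA_hasFDerivAt H hX hY hx).const_smul s
  have h6 := h3.unique h5
  ext v
  have h7 := congrArg (fun L => L v) h6
  simp only [ContinuousLinearMap.comp_apply, _root_.smul_apply, ContinuousLinearMap.id_apply,
    map_smul] at h7
  exact smul_right_injective Y hs.ne' h7

lemma radB_self {x : X} (hx : x ≠ 0) : radB g x x = 0 := by
  have h1 : HasDerivAt (fun t : ℝ => t • x) x 1 := by
    simpa using (hasDerivAt_id (1 : ℝ)).smul_const x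
  have h2 : HasFDerivAt (radA g) (radB g x) ((1 : ℝ) • x) := by
    rw [one_smul]
    exact radB_hasFDerivAt H hX hY hx
  have h3 := h2.comp_hasDerivAt (1 : ℝ) h1
  have h4 : (radA g ∘ fun t : ℝ => t • x) =ᶠ[𝓝 1] fun _ => radA g x := by
    filter_upwards [lt_mem_nhds (zero_lt_one : (0 : ℝ) < 1)] with t ht
    exact radA_smul H hX hY hx ht
  exact h3.unique ((hasDerivAt_const (1 : ℝ) (radA g x)).congr_of_eventuallyEq h4)

lemma chi_radA {x : X} (hx : x ≠ 0) : (chi (radial g x)).comp (radA g x) = chi x := by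
  have h1 := (hY.hasFDerivAt (by norm_num) (radial_ne_zero H hx)).comp x
    (radA_hasFDerivAt H hX hY hx)
  have h2 : ((fun z : Y => ‖z‖) ∘ radial g) = fun z : X => ‖z‖ := by
    funext z
    exact radial_norm H z
  rw [h2] at h1
  exact h1.unique (hX.hasFDerivAt (by norm_num) hx)

lemma tangent_norm {x u : X} (hx : x ≠ 0) (hu : chi x u = 0) : ‖radA g x u‖ = ‖u‖ := by
  set s : ℝ := ‖x‖ with hs
  have hspos : 0 < s := norm_pos_iff.2 hx
  set x₁ : X := s⁻¹ • x with hx₁
  have hx₁u : ‖x₁‖ = 1 := unit_of_ne hx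
  have hx₁0 : x₁ ≠ 0 := by
    rw [← norm_pos_iff, hx₁u]
    norm_num
  have e1 : radA g x = radA g x₁ := (radA_smul H hX hY hx (inv_pos.2 hspos)).symm
  have hu₁ : chi x₁ u = 0 := by
    rw [hx₁, chi_smul (inv_pos.2 hspos)]
    exact hu
  rw [e1]
  have hc := ncurve_hasDerivAt hX (by norm_num) hx₁u hu₁
  have hc0 := ncurve_zero hx₁u u
  have h1 : HasFDerivAt (radial g) (radA g x₁) (ncurve x₁ u 0) := by
    rw [hc0]
    exact radA_hasFDerivAt H hX hY hx₁0
  have h2 := h1.comp_hasDerivAt (0 : ℝ) hc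
  refine norm_deriv_eq hc h2 ?_
  filter_upwards [ncurve_unit hx₁u u] with t ht
  simp only [Function.comp_apply]
  refine radial_iso_eq H ?_
  rw [ht, hc0, hx₁u]

lemma hess_tangent {x u : X} (hx : ‖x‖ = 1) (hu : chi x u = 0) :
    hess (radial g x) (radA g x u) (radA g x u) = hess x u u := by
  have hx0 : x ≠ 0 := by
    rw [← norm_pos_iff, hx]
    norm_num
  have hc0 := ncurve_zero hx u
  have hcC : ContDiffAt ℝ 2 (ncurve x u) 0 := ncurve_contDiffAt (hX.mono (by norm_num)) hx u
  have hTC : ContDiffAt ℝ 2 (radial g) (ncurve x u 0) := by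
    rw [hc0]
    exact (radial_C2 H hX hY hx0).of_le (by norm_num)
  have hkC : ContDiffAt ℝ 2 (radial g ∘ ncurve x u) 0 := hTC.comp (0 : ℝ) hcC
  obtain ⟨c', a, hc1, hc2⟩ := curve_data hcC
  obtain ⟨k', b, hk1, hk2⟩ := curve_data hkC
  have hun := ncurve_unit hx u
  have hkun : ∀ᶠ t in 𝓝 (0 : ℝ), ‖(radial g ∘ ncurve x u) t‖ = 1 := by
    filter_upwards [hun] with t ht
    simp only [Function.comp_apply]
    rw [radial_norm H, ht]
  obtain ⟨h1, h2⟩ := sphere_second hX (by norm_num) hc1 hc2 hun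
  obtain ⟨h3, h4⟩ := sphere_second hY (by norm_num) hk1 hk2 hkun
  have h5 : (fun s => ‖ncurve x u 0 + ncurve x u s‖) =ᶠ[𝓝 0]
      fun s => ‖(radial g ∘ ncurve x u) 0 + (radial g ∘ ncurve x u) s‖ := by
    filter_upwards [hun] with t ht
    simp only [Function.comp_apply]
    refine (radial_norm_add H ?_).symm
    rw [ht, hc0, hx]
  have h6 := deriv2_unique h5 h1 h3 h2 h4
  have hc'0 : c' 0 = u := hc1.self_of_nhds.unique (ncurve_hasDerivAt hX (by norm_num) hx hu)
  have hk'0 : k' 0 = radA g x u := by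
    have h7 : HasFDerivAt (radial g) (radA g x) (ncurve x u 0) := by
      rw [hc0]
      exact radA_hasFDerivAt H hX hY hx0
    exact hk1.self_of_nhds.unique (h7.comp_hasDerivAt (0 : ℝ) hc1.self_of_nhds |>.congr_deriv (by
      rw [hc'0]))
  rw [hc'0, hc0, hk'0] at h6
  simp only [Function.comp_apply] at h6
  rw [hc0] at h6
  linarith

lemma hess_tangent₂ {x u v : X} (hx : ‖x‖ = 1) (hu : chi x u = 0) (hv : chi x v = 0) :
    hess (radial g x) (radA g x u) (radA g x v) = hess x u v := by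
  have hx0 : x ≠ 0 := by
    rw [← norm_pos_iff, hx]
    norm_num
  have hTx : radial g x ≠ 0 := radial_ne_zero H hx0
  have h1 := hess_tangent H hX hY hx hu
  have h2 := hess_tangent H hX hY hx hv
  have h3 := hess_tangent H hX hY hx (u := u + v) (by rw [map_add, hu, hv, add_zero])
  simp only [map_add, _root_.add_apply] at h3
  rw [hess_symm hY (by norm_num) hTx (radA g x v) (radA g x u),
    hess_symm hX (by norm_num) hx0 v u] at h3
  linarith

lemma hess_pull {x : X} (hx0 : x ≠ 0) (a b : X) :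
    hess (radial g x) (radA g x a) (radA g x b) = hess x a b := by
  have main : ∀ {x : X} (hx : ‖x‖ = 1) (a b : X),
      hess (radial g x) (radA g x a) (radA g x b) = hess x a b := by
    intro x hx a b
    have hx0 : x ≠ 0 := by
      rw [← norm_pos_iff, hx]
      norm_num
    have hTx : radial g x ≠ 0 := radial_ne_zero H hx0
    have hcx : chi x x = 1 := by rw [hX.chi_self (by norm_num) hx0, hx]
    have ha : chi x (a - chi x a • x) = 0 := by
      simp [hcx]
    have hb : chi x (b - chi x b • x) = 0 := by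
      simp [hcx]
    have h1 := hess_tangent₂ H hX hY hx ha hb
    have hA := radA_self H hX hY hx0
    have hs1 := hess_self hX (by norm_num) hx0
    have hs2 := hess_self hY (by norm_num) hTx
    have hs3 : ∀ v, hess x v x = 0 := fun v => by
      rw [hess_symm hX (by norm_num) hx0 v x, hs1]
      rfl
    have hs4 : ∀ v, hess (radial g x) v (radial g x) = 0 := fun v => by
      rw [hess_symm hY (by norm_num) hTx v _, hs2]
      rfl
    simp only [map_sub, map_smul, _root_.sub_apply, _root_.smul_apply, hA, hs1, hs2, hs3, hs4]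
      at h1
    simpa using h1
  set s : ℝ := ‖x‖ with hs
  have hspos : 0 < s := norm_pos_iff.2 hx0
  set x₁ : X := s⁻¹ • x with hx₁
  have hx₁u : ‖x₁‖ = 1 := unit_of_ne hx0
  have hx₁0 : x₁ ≠ 0 := by
    rw [← norm_pos_iff, hx₁u]
    norm_num
  have hxe : x = s • x₁ := by
    rw [hx₁, smul_smul, mul_inv_cancel₀ hspos.ne', one_smul]
  have e1 : radA g x = radA g x₁ := (radA_smul H hX hY hx0 (inv_pos.2 hspos)).symm
  have e2 : hess x = s⁻¹ • hess x₁ := by
    rw [hxe]
    exact hess_smul hX (by norm_num) hx₁0 hspos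
  have e3 : hess (radial g x) = s⁻¹ • hess (radial g x₁) := by
    rw [hxe, radial_smul g hspos.le]
    exact hess_smul hY (by norm_num) (radial_ne_zero H hx₁0) hspos
  rw [e1, e2, e3]
  simp only [_root_.smul_apply, main hx₁u a b]

lemma radA_apply_hasFDerivAt {x : X} (hx : x ≠ 0) (b : X) :
    HasFDerivAt (fun z => radA g z b) ((radB g x).flip b) x :=
  ((radB_hasFDerivAt H hX hY hx).clm_apply (hasFDerivAt_const b x)).congr_fderiv (by
    ext a
    simp)

lemma chi_radB {x : X} (hx : x ≠ 0) (a b : X) : chi (radial g x) (radB g x a b) = 0 := by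
  have hT := radA_hasFDerivAt H hX hY hx
  have h1 : HasFDerivAt (fun z => chi (radial g z)) ((hess (radial g x)).comp (radA g x)) x :=
    (hY.hess_hasFDerivAt (by norm_num) (radial_ne_zero H hx)).comp x hT
  have h2 := radA_apply_hasFDerivAt H hX hY hx b
  have h3 := h1.clm_apply h2
  have h4 : HasFDerivAt (fun z => chi z b) ((hess x).flip b) x :=
    ((hX.hess_hasFDerivAt (by norm_num) hx).clm_apply (hasFDerivAt_const b x)).congr_fderiv (by
      ext a
      simp)
  have h5 : (fun z => chi (radial g z) (radA g z b)) =ᶠ[𝓝 x] fun z => chi z b := by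
    filter_upwards [isOpen_ne.mem_nhds hx] with z hz
    exact congrArg (fun L => L b) (chi_radA H hX hY hz)
  have h6 := h3.unique (h4.congr_of_eventuallyEq h5)
  have h7 := congrArg (fun L => L a) h6
  simp only [_root_.add_apply, ContinuousLinearMap.comp_apply, ContinuousLinearMap.flip_apply]
    at h7
  rw [hess_pull H hX hY hx a b] at h7
  linarith

lemma radB_total {x : X} (hx : x ≠ 0) (w a b : X) :
    hess (radial g x) (radB g x w a) (radA g x b) =
      hess (radial g x) (radB g x w b) (radA g x a) := by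
  have hTx := radial_ne_zero H hx
  have key : ∀ p₁ p₂ c : X, hess (radial g x) (radB g x p₂ c) (radA g x p₁) =
      hess (radial g x) (radB g x p₁ c) (radA g x p₂) := by
    intro p₁ p₂ c
    have hT := radA_hasFDerivAt H hX hY hx
    have hk : HasFDerivAt (fun z => chi (radial g z)) ((hess (radial g x)).comp (radA g x)) x :=
      (hY.hess_hasFDerivAt (by norm_num) hTx).comp x hT
    have hu : ∀ᶠ z in 𝓝 x, HasFDerivAt (fun z => radA g z c) ((radB g z).flip c) z := by
      filter_upwards [isOpen_ne.mem_nhds hx] with z hz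
      exact radA_apply_hasFDerivAt H hX hY hz c
    have hu' : ContinuousAt (fun z => (radB g z).flip c) x := by
      have h1 : ContinuousAt (fun z => ContinuousLinearMap.flipₗᵢ ℝ X X Y (radB g z)) x :=
        (ContinuousLinearMap.flipₗᵢ ℝ X X Y).continuous.continuousAt.comp
          (radB_continuousAt H hX hY hx)
      exact h1.clm_apply continuousAt_const
    have hann : ∀ᶠ z in 𝓝 x, ∀ v, chi (radial g z) ((radB g z).flip c v) = 0 := by
      filter_upwards [isOpen_ne.mem_nhds hx] with z hz v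
      exact chi_radB H hX hY hz v c
    have h1 := annihilate_symm hu hu' hk hann p₁ p₂
    simp only [ContinuousLinearMap.comp_apply, ContinuousLinearMap.flip_apply] at h1
    rw [hess_symm hY (by norm_num) hTx _ (radB g x p₂ c),
      hess_symm hY (by norm_num) hTx _ (radB g x p₁ c)] at h1
    exact h1
  calc hess (radial g x) (radB g x w a) (radA g x b)
      = hess (radial g x) (radB g x b a) (radA g x w) := key b w a
    _ = hess (radial g x) (radB g x a b) (radA g x w) := by rw [radB_symm H hX hY hx b a]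
    _ = hess (radial g x) (radB g x w b) (radA g x a) := key w a b

lemma chi_tangent_A {x u v : X} (hx : x ≠ 0) (hu : chi x u = 0) (hv : chi x v = 0) (hu0 : u ≠ 0) :
    chi (radA g x u) (radA g x v) = chi u v := by
  have hAu : radA g x u ≠ 0 := by
    rw [← norm_pos_iff, tangent_norm H hX hY hx hu]
    exact norm_pos_iff.2 hu0
  have h1 : HasDerivAt (fun t : ℝ => u + t • v) v 0 := by
    simpa using ((hasDerivAt_id (0 : ℝ)).smul_const v).const_add u
  have h0 : u + (0 : ℝ) • v = u := by simp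
  have h2 : HasFDerivAt (fun z : X => ‖z‖) (chi u) (u + (0 : ℝ) • v) := by
    rw [h0]
    exact hX.hasFDerivAt (by norm_num) hu0
  have h3 := h2.comp_hasDerivAt (0 : ℝ) h1
  have h4 : HasDerivAt (fun t : ℝ => radA g x (u + t • v)) (radA g x v) 0 :=
    (radA g x).hasFDerivAt.comp_hasDerivAt (0 : ℝ) h1
  have h5 : HasFDerivAt (fun z : Y => ‖z‖) (chi (radA g x u)) (radA g x (u + (0 : ℝ) • v)) := by
    rw [h0]
    exact hY.hasFDerivAt (by norm_num) hAu
  have h6 := h5.comp_hasDerivAt (0 : ℝ) h4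
  have h7 : ((fun z : Y => ‖z‖) ∘ fun t : ℝ => radA g x (u + t • v)) =
      (fun z : X => ‖z‖) ∘ fun t : ℝ => u + t • v := by
    funext t
    refine tangent_norm H hX hY hx ?_
    simp [hu, hv]
  rw [h7] at h6
  exact h6.unique h3

lemma chi_tangent_B {x u : X} (hx : ‖x‖ = 1) (hu : chi x u = 0) (hu0 : u ≠ 0) (w : X) :
    chi (radA g x u) (radB g x w u) =
      hess x w u * (chi (radA g x u) (radial g x) - chi u x) := by
  have hx0 : x ≠ 0 := by
    rw [← norm_pos_iff, hx]
    norm_num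
  have hAu : radA g x u ≠ 0 := by
    rw [← norm_pos_iff, tangent_norm H hX hY hx0 hu]
    exact norm_pos_iff.2 hu0
  let n : X → X := fun z => ‖z‖⁻¹ • z
  have hnx : n x = x := by simp [n, hx]
  have hnC : ContDiffAt ℝ 1 n x := by
    have h1 : ContDiffAt ℝ 1 (fun z : X => ‖z‖) x := (hX x hx0).of_le (by norm_num)
    have h2 : ‖x‖ ≠ 0 := norm_ne_zero_iff.2 hx0
    exact (h1.inv h2).smul contDiffAt_id
  obtain ⟨n', hn⟩ : ∃ n', HasFDerivAt n n' x :=
    ⟨_, (hnC.differentiableAt (by norm_num)).hasFDerivAt⟩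
  have hs : HasFDerivAt (fun z => chi z u) ((hess x).flip u) x :=
    ((hX.hess_hasFDerivAt (by norm_num) hx0).clm_apply (hasFDerivAt_const u x)).congr_fderiv (by
      ext a
      simp)
  let p : X → X := fun z => u - chi z u • n z
  have hpx : p x = u := by simp [p, hu]
  have hp : HasFDerivAt p (-(chi x u • n' + ((hess x).flip u).smulRight (n x))) x :=
    (hs.smul hn).const_sub u
  have hp' : ∀ a, (-(chi x u • n' + ((hess x).flip u).smulRight (n x))) a =
      -(hess x a u • x) := by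
    intro a
    simp [hu, hnx]
  have hG := (radB_hasFDerivAt H hX hY hx0).clm_apply hp
  rw [hpx] at hG
  have hN := (hX.hasFDerivAt (by norm_num) hu0)
  have hN' : HasFDerivAt (fun z : X => ‖z‖) (chi u) (p x) := by
    rw [hpx]
    exact hN
  have hN2 := hN'.comp x hp
  have hM' : HasFDerivAt (fun z : Y => ‖z‖) (chi (radA g x u)) (radA g x (p x)) := by
    rw [hpx]
    exact hY.hasFDerivAt (by norm_num) hAu
  have hM2 := hM'.comp x hG
  have heq : ((fun z : Y => ‖z‖) ∘ fun z => radA g z (p z)) =ᶠ[𝓝 x]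
      (fun z : X => ‖z‖) ∘ p := by
    filter_upwards [isOpen_ne.mem_nhds hx0] with z hz
    simp only [Function.comp_apply]
    refine tangent_norm H hX hY hz ?_
    have hzn : chi z z = ‖z‖ := hX.chi_self (by norm_num) hz
    have hz' : ‖z‖ ≠ 0 := norm_ne_zero_iff.2 hz
    simp only [p, n, map_sub, map_smul, smul_eq_mul, hzn]
    field_simp
    ring
  have h6 := hM2.unique (hN2.congr_of_eventuallyEq heq)
  have h7 := congrArg (fun L => L w) h6
  simp only [ContinuousLinearMap.comp_apply, _root_.add_apply, ContinuousLinearMap.flip_apply]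
    at h7
  rw [hp' w] at h7
  simp only [map_add, map_neg, map_smul, radA_self H hX hY hx0, smul_eq_mul] at h7
  rw [mul_sub]
  linarith

lemma exists_radA_inverse {x : X} (hx : x ≠ 0) : ∃ L : Y →L[ℝ] X,
    (∀ v, L (radA g x v) = v) ∧ ∀ y, radA g x (L y) = y := by
  have hTx := radial_ne_zero H hx
  have hR : ContDiffAt ℝ 2 (radial h) (radial g x) :=
    radial_contDiffAt H.symm (by norm_num) hY hX hTx
  have hR' := (hR.differentiableAt (by norm_num)).hasFDerivAt
  have hT := radA_hasFDerivAt H hX hY hx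
  refine ⟨fderiv ℝ (radial h) (radial g x), ?_, ?_⟩
  · have h1 := hR'.comp x hT
    have h2 : (radial h ∘ radial g) = id := by
      funext z
      exact radial_symm H z
    rw [h2] at h1
    intro v
    have h3 := h1.unique (hasFDerivAt_id x)
    exact congrArg (fun L => L v) h3
  · have hT' : HasFDerivAt (radial g) (radA g x) (radial h (radial g x)) := by
      rw [radial_symm H]
      exact hT
    have h1 := hT'.comp (radial g x) hR'
    have h2 : (radial g ∘ radial h) = id := by
      funext z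
      exact radial_symm H.symm z
    rw [h2] at h1
    intro v
    have h3 := h1.unique (hasFDerivAt_id (radial g x))
    exact congrArg (fun L => L v) h3

/-- **Pointwise rigidity.**  At a point where the Hessian is positive on the tangent space, the
radial extension has vanishing second derivative, provided the dimension is at least three. -/
theorem radB_eq_zero_of_pos (hdim : 3 ≤ Module.finrank ℝ X) {x : X} (hx : ‖x‖ = 1)
    (hpos : ∀ u, u ≠ 0 → chi x u = 0 → 0 < hess x u u) : radB g x = 0 := by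
  classical
  have hx0 : x ≠ 0 := by
    rw [← norm_pos_iff, hx]
    norm_num
  have hcx : chi x x = 1 := by rw [hX.chi_self (by norm_num) hx0, hx]
  obtain ⟨L, hL1, hL2⟩ := exists_radA_inverse H hX hY hx0
  let V : Submodule ℝ X := LinearMap.ker ((chi x : X →L[ℝ] ℝ) : X →ₗ[ℝ] ℝ)
  have hV : ∀ v : V, chi x (v : X) = 0 := fun v => v.2
  have hmem : ∀ v : X, chi x v = 0 → v ∈ V := fun v hv => hv
  have hdimV : 2 ≤ Module.finrank ℝ V := by
    have hne : ((chi x : X →L[ℝ] ℝ) : X →ₗ[ℝ] ℝ) ≠ 0 := by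
      intro h0
      have := congrArg (fun f : X →ₗ[ℝ] ℝ => f x) h0
      simp [hcx] at this
    have : Module.finrank ℝ V + 1 = Module.finrank ℝ X :=
      Module.Dual.finrank_ker_add_one_of_ne_zero hne
    omega
  have hCA : ∀ v, chi (radial g x) (radA g x v) = chi x v := fun v =>
    congrArg (fun L => L v) (chi_radA H hX hY hx0)
  have hΔmem : ∀ a b, L (radB g x a b) ∈ V := by
    intro a b
    refine hmem _ ?_
    rw [← hCA, hL2, chi_radB H hX hY hx0]
  let Δ1 : V → V →L[ℝ] V := fun a =>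
    ((L.comp (radB g x a)).comp V.subtypeL).codRestrict V (fun b => hΔmem a b)
  let Δ2 : V →ₗ[ℝ] V →L[ℝ] V :=
    { toFun := Δ1
      map_add' := by
        intro a a'
        ext b
        simp [Δ1]
        rfl
      map_smul' := by
        intro r a
        ext b
        simp [Δ1]
        rfl }
  let Δ : V →L[ℝ] V →L[ℝ] V := LinearMap.toContinuousLinearMap Δ2
  have hΔ : ∀ a b : V, ((Δ a b : V) : X) = L (radB g x a b) := fun a b => rfl
  let h' : V →L[ℝ] V →L[ℝ] ℝ := (hess x).bilinearComp V.subtypeL V.subtypeL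
  have hh' : ∀ a b : V, h' a b = hess x a b := fun a b => rfl
  have key : ∀ a b, Δ a b = 0 := by
    refine cubic_rigid (h := h') hdimV ?_ ?_ Δ ?_ ?_
      (fun u => (chi (u : X)).comp V.subtypeL) ?_
      (fun u => chi (radA g x u) (radial g x) - chi (u : X) x) ?_
    · intro a b
      rw [hh', hh']
      exact hess_symm hX (by norm_num) hx0 _ _
    · intro a ha
      rw [hh']
      exact hpos a (by simpa using ha) (hV a)
    · intro a b
      apply Subtype.ext
      rw [hΔ, hΔ, radB_symm H hX hY hx0]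
    · intro a b c
      rw [hh', hh', hΔ, hΔ, ← hess_pull H hX hY hx0, ← hess_pull H hX hY hx0, hL2, hL2]
      exact radB_total H hX hY hx0 _ _ _
    · intro u hu
      have hu' : (u : X) ≠ 0 := by simpa using hu
      exact (hX.hasFDerivAt (by norm_num) hu').comp u V.subtypeL.hasFDerivAt
    · intro u hu w
      have hu' : (u : X) ≠ 0 := by simpa using hu
      simp only [ContinuousLinearMap.comp_apply]
      have e1 : (V.subtypeL (Δ w u) : X) = L (radB g x w u) := hΔ w u
      rw [e1, hh']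
      have h1 := chi_tangent_A H hX hY hx0 (hV u) (hV (Δ w u)) hu'
      rw [hΔ, hL2] at h1
      rw [← h1]
      exact chi_tangent_B H hX hY hx (hV u) hu' _
  have hVV : ∀ a b : X, chi x a = 0 → chi x b = 0 → radB g x a b = 0 := by
    intro a b ha hb
    have h1 := key ⟨a, hmem a ha⟩ ⟨b, hmem b hb⟩
    have h2 := congrArg (fun v : V => (v : X)) h1
    simp only [hΔ, ZeroMemClass.coe_zero] at h2
    rw [← hL2 (radB g x a b), h2, map_zero]
  have hself := radB_self H hX hY hx0
  have hself' : ∀ a, radB g x a x = 0 := fun a => by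
    rw [radB_symm H hX hY hx0, hself]
    rfl
  ext a b
  have ha : chi x (a - chi x a • x) = 0 := by simp [hcx]
  have hb : chi x (b - chi x b • x) = 0 := by simp [hcx]
  have h1 := hVV _ _ ha hb
  simp only [map_sub, map_smul, _root_.sub_apply, _root_.smul_apply, hself, hself'] at h1
  simpa using h1

end

end Structure

end Vale.Agent.Lib.P084
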