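import Mathlib
import Vale.Agent.Lib.P084.LinfSum

/-! Sphere isometries of `ℓ_1`-sums of two nontrivial finite-dimensional spaces extend linearly. -/

namespace Vale.Agent.Lib.P084

open Set Metric

variable {Z W Y : Type*} [NormedAddCommGroup Z] [NormedSpace ℝ Z]
  [NormedAddCommGroup W] [NormedSpace ℝ W] [NormedAddCommGroup Y] [NormedSpace ℝ Y]

/-- The point `(z, w)` of the `ℓ_1`-sum. -/
def mk₁ (z : Z) (w : W) : WithLp 1 (Z × W) := WithLp.toLp 1 (z, w)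

lemma norm_mk₁ (z : Z) (w : W) : ‖mk₁ z w‖ = ‖z‖ + ‖w‖ := by
  rw [WithLp.prod_norm_eq_of_L1]
  rfl

lemma eta₁ (x : WithLp 1 (Z × W)) : mk₁ x.fst x.snd = x := rfl

lemma mk₁_add (z z' : Z) (w w' : W) : mk₁ z w + mk₁ z' w' = mk₁ (z + z') (w + w') := rfl

lemma mk₁_sub (z z' : Z) (w w' : W) : mk₁ z w - mk₁ z' w' = mk₁ (z - z') (w - w') := rfl

lemma mk₁_smul (t : ℝ) (z : Z) (w : W) : t • mk₁ z w = mk₁ (t • z) (t • w) := rfl

section Main

variable [FiniteDimensional ℝ Z] [FiniteDimensional ℝ W] [FiniteDimensional ℝ Y]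
  {g : WithLp 1 (Z × W) → Y} {h : Y → WithLp 1 (Z × W)}

/-- The radial extensions on the two summands. -/
noncomputable def rad₁ (g : WithLp 1 (Z × W) → Y) : Z → Y := radial fun a => g (mk₁ a 0)

noncomputable def rad₂ (g : WithLp 1 (Z × W) → Y) : W → Y := radial fun b => g (mk₁ 0 b)

/-- `g` is the sum of the radial extensions on the unit sphere. -/
lemma g_eq_rad (H : SphereIso g h) {v : Z} {w : W} (hvw : ‖v‖ + ‖w‖ = 1) :
    g (mk₁ v w) = rad₁ g v + rad₂ g w := by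
  by_cases hv : v = 0
  · subst hv
    have hw : ‖w‖ = 1 := by simpa using hvw
    simp only [rad₁, rad₂, radial_zero, zero_add]
    rw [radial_of_unit _ hw]
  by_cases hw : w = 0
  · subst hw
    have hv' : ‖v‖ = 1 := by simpa using hvw
    simp only [rad₁, rad₂, radial_zero, add_zero]
    rw [radial_of_unit _ hv']
  have hnv : ‖v‖ ≠ 0 := norm_ne_zero_iff.2 hv
  have hnw : ‖w‖ ≠ 0 := norm_ne_zero_iff.2 hw
  have ha := unit_of_ne hv
  have hb := unit_of_ne hw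
  have h1 : ‖mk₁ (0 : Z) (‖w‖⁻¹ • w)‖ = 1 := by
    rw [norm_mk₁, norm_zero, zero_add, hb]
  have h2 : ‖mk₁ (‖v‖⁻¹ • v) (0 : W)‖ = 1 := by
    rw [norm_mk₁, norm_zero, add_zero, ha]
  have h3 : ‖mk₁ (0 : Z) (‖w‖⁻¹ • w) + mk₁ (‖v‖⁻¹ • v) (0 : W)‖ = 2 := by
    rw [mk₁_add, norm_mk₁, zero_add, add_zero, ha, hb]
    norm_num
  have h4 := sphere_affine H h1 h2 h3 (t := ‖v‖) (norm_nonneg v) (by linarith [norm_nonneg w])
  have h5 : (1 - ‖v‖) = ‖w‖ := by linarith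
  rw [h5] at h4
  have h6 : ‖w‖ • mk₁ (0 : Z) (‖w‖⁻¹ • w) + ‖v‖ • mk₁ (‖v‖⁻¹ • v) (0 : W) = mk₁ v w := by
    rw [mk₁_smul, mk₁_smul, mk₁_add, smul_zero, smul_zero, zero_add, add_zero, smul_smul, smul_smul,
      mul_inv_cancel₀ hnv, mul_inv_cancel₀ hnw, one_smul, one_smul]
  rw [h6] at h4
  rw [h4, add_comm]
  rfl

lemma rad₁_smul {t : ℝ} (ht : 0 ≤ t) (v : Z) : rad₁ g (t • v) = t • rad₁ g v :=
  radial_smul _ ht v

lemma rad₂_smul {t : ℝ} (ht : 0 ≤ t) (w : W) : rad₂ g (t • w) = t • rad₂ g w :=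
  radial_smul _ ht w

/-- The norm of the sum of radial extensions. -/
lemma rad_norm (H : SphereIso g h) (v : Z) (w : W) : ‖rad₁ g v + rad₂ g w‖ = ‖v‖ + ‖w‖ := by
  set R : ℝ := ‖v‖ + ‖w‖ with hR
  by_cases hR0 : R = 0
  · have hv : ‖v‖ = 0 := by linarith [norm_nonneg v, norm_nonneg w]
    have hw : ‖w‖ = 0 := by linarith [norm_nonneg v, norm_nonneg w]
    have hv' : v = 0 := norm_eq_zero.1 hv
    have hw' : w = 0 := norm_eq_zero.1 hw
    subst hv' hw'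
    simp [rad₁, rad₂, radial_zero, hR]
  have hRpos : 0 < R := lt_of_le_of_ne (by positivity) (Ne.symm hR0)
  have h1 : ‖R⁻¹ • v‖ + ‖R⁻¹ • w‖ = 1 := by
    rw [norm_smul, norm_smul, norm_inv, Real.norm_of_nonneg hRpos.le, ← mul_add, ← hR,
      inv_mul_cancel₀ hR0]
  have h2 := g_eq_rad H h1
  have h3 : ‖mk₁ (R⁻¹ • v) (R⁻¹ • w)‖ = 1 := by rw [norm_mk₁, h1]
  have h4 := H.map_g _ h3
  rw [h2, rad₁_smul (inv_nonneg.2 hRpos.le), rad₂_smul (inv_nonneg.2 hRpos.le), ← smul_add,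
    norm_smul, norm_inv, Real.norm_of_nonneg hRpos.le] at h4
  field_simp at h4
  linarith

/-- The isometry property at equal norm levels. -/
lemma rad_iso (H : SphereIso g h) {v v' : Z} {w w' : W} {R : ℝ} (hR : 0 < R)
    (h1 : ‖v‖ + ‖w‖ = R) (h2 : ‖v'‖ + ‖w'‖ = R) :
    ‖(rad₁ g v + rad₂ g w) - (rad₁ g v' + rad₂ g w')‖ = ‖v - v'‖ + ‖w - w'‖ := by
  have hR0 : R ≠ 0 := hR.ne'
  have h3 : ‖R⁻¹ • v‖ + ‖R⁻¹ • w‖ = 1 := by
    rw [norm_smul, norm_smul, norm_inv, Real.norm_of_nonneg hR.le, ← mul_add, h1,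
      inv_mul_cancel₀ hR0]
  have h4 : ‖R⁻¹ • v'‖ + ‖R⁻¹ • w'‖ = 1 := by
    rw [norm_smul, norm_smul, norm_inv, Real.norm_of_nonneg hR.le, ← mul_add, h2,
      inv_mul_cancel₀ hR0]
  have h5 := H.iso (mk₁ (R⁻¹ • v) (R⁻¹ • w)) (mk₁ (R⁻¹ • v') (R⁻¹ • w'))
    (by rw [norm_mk₁, h3]) (by rw [norm_mk₁, h4])
  rw [g_eq_rad H h3, g_eq_rad H h4, rad₁_smul (inv_nonneg.2 hR.le),
    rad₂_smul (inv_nonneg.2 hR.le), rad₁_smul (inv_nonneg.2 hR.le),
    rad₂_smul (inv_nonneg.2 hR.le), ← smul_add, ← smul_add, ← smul_sub, norm_smul, norm_inv,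
    Real.norm_of_nonneg hR.le, mk₁_sub, norm_mk₁, ← smul_sub, ← smul_sub, norm_smul, norm_smul,
    norm_inv, Real.norm_of_nonneg hR.le, ← mul_add] at h5
  have h6 := mul_left_cancel₀ (inv_ne_zero hR0) h5
  exact h6

/-- Surjectivity of the sum of radial extensions. -/
lemma rad_surj (H : SphereIso g h) (y : Y) : ∃ (p : Z) (r : W), rad₁ g p + rad₂ g r = y := by
  by_cases hy : y = 0
  · refine ⟨0, 0, ?_⟩
    simp [rad₁, rad₂, radial_zero, hy]
  · have hn : ‖y‖ ≠ 0 := norm_ne_zero_iff.2 hy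
    have hu := unit_of_ne hy
    set x := h (‖y‖⁻¹ • y) with hx
    have hxn : ‖x‖ = 1 := H.map_h _ hu
    have hxeta : mk₁ x.fst x.snd = x := eta₁ x
    have h1 : ‖x.fst‖ + ‖x.snd‖ = 1 := by
      rw [← norm_mk₁, hxeta, hxn]
    have h2 : g x = rad₁ g x.fst + rad₂ g x.snd := by
      have := g_eq_rad H h1
      rwa [hxeta] at this
    have h3 : g x = ‖y‖⁻¹ • y := H.right _ hu
    refine ⟨‖y‖ • x.fst, ‖y‖ • x.snd, ?_⟩
    rw [rad₁_smul (norm_nonneg y), rad₂_smul (norm_nonneg y), ← smul_add, ← h2, h3, smul_smul,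
      mul_inv_cancel₀ hn, one_smul]

/-- The antipode on the first summand stays on the first summand. -/
lemma antipode₁ (H : SphereIso g h) {a : Z} (ha : ‖a‖ = 1) :
    ∃ a' : Z, ‖a'‖ = 1 ∧ g (mk₁ a' 0) = -g (mk₁ a 0) ∧ ‖a - a'‖ = 2 := by
  have hx : ‖mk₁ a (0 : W)‖ = 1 := by
    rw [norm_mk₁, norm_zero, add_zero, ha]
  have hgx := H.map_g _ hx
  set y : Y := -g (mk₁ a 0) with hy
  have hyn : ‖y‖ = 1 := by rw [hy, norm_neg, hgx]
  set x' := h y with hx'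
  have hx'n : ‖x'‖ = 1 := H.map_h _ hyn
  have hxeta : mk₁ x'.fst x'.snd = x' := eta₁ x'
  have hsum : ‖x'.fst‖ + ‖x'.snd‖ = 1 := by
    rw [← norm_mk₁, hxeta, hx'n]
  have hgx' : g x' = y := H.right _ hyn
  have hw0 : x'.snd = 0 := by
    by_contra hne
    have hnw : ‖x'.snd‖ ≠ 0 := norm_ne_zero_iff.2 hne
    have hposw : 0 < ‖x'.snd‖ := norm_pos_iff.2 hne
    set b : W := ‖x'.snd‖⁻¹ • x'.snd with hb
    have hbn : ‖b‖ = 1 := unit_of_ne hne
    have hx₂ : ‖mk₁ (0 : Z) b‖ = 1 := by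
      rw [norm_mk₁, norm_zero, zero_add, hbn]
    have h1 : ‖mk₁ a (0 : W) + mk₁ (0 : Z) b‖ = 2 := by
      rw [mk₁_add, norm_mk₁, add_zero, zero_add, ha, hbn]
      norm_num
    have h2 := sphere_norm_add H hx hx₂ h1
    have h3 : g (mk₁ a 0) + g (mk₁ 0 b) = g (mk₁ 0 b) - g x' := by
      rw [hgx', hy]
      abel
    rw [h3, H.iso _ _ hx₂ hx'n] at h2
    have h4 : mk₁ (0 : Z) b - x' = mk₁ (-x'.fst) (b - x'.snd) := by
      conv_lhs => rw [← hxeta, mk₁_sub, zero_sub]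
    have h5 : b - x'.snd = (1 - ‖x'.snd‖) • b := by
      have h6 : x'.snd = ‖x'.snd‖ • b := by
        rw [hb, smul_smul, mul_inv_cancel₀ hnw, one_smul]
      conv_lhs => rw [h6]
      rw [sub_smul, one_smul, ← h6]
    rw [h4, norm_mk₁, norm_neg, h5, norm_smul, hbn, mul_one] at h2
    have h7 : ‖x'.snd‖ ≤ 1 := by linarith [norm_nonneg x'.fst]
    rw [Real.norm_of_nonneg (by linarith)] at h2
    linarith
  have hfn : ‖x'.fst‖ = 1 := by
    rw [hw0, norm_zero, add_zero] at hsum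
    exact hsum
  have hx'eq : mk₁ x'.fst 0 = x' := by
    rw [← hw0]
    exact hxeta
  refine ⟨x'.fst, hfn, ?_, ?_⟩
  · rw [hx'eq, hgx']
  · have h1 := H.iso (mk₁ a 0) (mk₁ x'.fst 0) hx (by rw [hx'eq]; exact hx'n)
    rw [hx'eq, hgx', hy, sub_neg_eq_add, ← two_smul ℝ, norm_smul, hgx, ← hx'eq, mk₁_sub, norm_mk₁,
      sub_zero, norm_zero, add_zero] at h1
    norm_num at h1
    rw [← h1]

/-- The norm of a difference of two points with a common separating functional. -/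
lemma norm_sub_of_antipodal {a a' : Z} (ha : ‖a‖ = 1) (ha' : ‖a'‖ = 1) (haa : ‖a - a'‖ = 2)
    {s t : ℝ} (hs : 0 ≤ s) (ht : 0 ≤ t) : ‖s • a - t • a'‖ = s + t := by
  obtain ⟨φ, hφ, h1, h2⟩ := exists_functional_sub ha ha' haa
  apply le_antisymm
  · refine (norm_sub_le _ _).trans ?_
    rw [norm_smul, norm_smul, ha, ha', Real.norm_of_nonneg hs, Real.norm_of_nonneg ht]
    linarith
  · have := (abs_le.1 (functional_le φ hφ (x := s • a - t • a'))).2
    rw [map_sub, map_smul, map_smul, h1, h2] at this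
    simp only [smul_eq_mul] at this
    linarith

/-- The key computation: the radial extension on the second summand has its differences in its own
range, with the correct norm. -/
theorem diff_in_range [Nontrivial Z] (H : SphereIso g h) (w w' : W) :
    ∃ r : W, rad₂ g w - rad₂ g w' = rad₂ g r ∧ ‖r‖ = ‖w - w'‖ := by
  set A : Y := rad₂ g w - rad₂ g w' with hA
  set ρ : ℝ := ‖w - w'‖ with hρ
  -- the two-sided formula
  have hstar : ∀ a : Z, ‖a‖ = 1 → ∀ a' : Z, ‖a'‖ = 1 → g (mk₁ a' 0) = -g (mk₁ a 0) →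
      ‖a - a'‖ = 2 → ∀ s : ℝ, ‖w‖ + ‖w'‖ + 1 ≤ s → ‖A + s • g (mk₁ a 0)‖ = s + ρ := by
    intro a ha a' ha' hgaa haa s hs
    have hw := norm_nonneg w
    have hw' := norm_nonneg w'
    set τ₁ : ℝ := (s + ‖w'‖ - ‖w‖) / 2 with hτ₁
    set τ₂ : ℝ := (s + ‖w‖ - ‖w'‖) / 2 with hτ₂
    have hτ₁0 : 0 ≤ τ₁ := by
      rw [hτ₁]
      linarith
    have hτ₂0 : 0 ≤ τ₂ := by
      rw [hτ₂]
      linarith
    have hsum : τ₁ + τ₂ = s := by
      rw [hτ₁, hτ₂]
      ring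
    set R : ℝ := (s + ‖w‖ + ‖w'‖) / 2 with hR
    have hRpos : 0 < R := by
      rw [hR]
      linarith
    have h1 : ‖τ₁ • a‖ + ‖w‖ = R := by
      rw [norm_smul, ha, mul_one, Real.norm_of_nonneg hτ₁0, hτ₁, hR]
      ring
    have h2 : ‖τ₂ • a'‖ + ‖w'‖ = R := by
      rw [norm_smul, ha', mul_one, Real.norm_of_nonneg hτ₂0, hτ₂, hR]
      ring
    have h3 := rad_iso H hRpos h1 h2
    rw [rad₁_smul hτ₁0, rad₁_smul hτ₂0, norm_sub_of_antipodal ha ha' haa hτ₁0 hτ₂0, hsum] at h3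
    have e1 : rad₁ g a = g (mk₁ a 0) := radial_of_unit _ ha
    have e2 : rad₁ g a' = g (mk₁ a' 0) := radial_of_unit _ ha'
    rw [e1, e2, hgaa] at h3
    have h4 : τ₁ • g (mk₁ a 0) + rad₂ g w - (τ₂ • -g (mk₁ a 0) + rad₂ g w')
        = A + s • g (mk₁ a 0) := by
      rw [hA, ← hsum]
      module
    rw [h4] at h3
    exact h3
  obtain ⟨p, r, hpr⟩ := rad_surj H A
  -- `p` must vanish
  have hp0 : p = 0 := by
    by_contra hne
    have hn : ‖p‖ ≠ 0 := norm_ne_zero_iff.2 hne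
    set a : Z := ‖p‖⁻¹ • p with ha
    have han : ‖a‖ = 1 := unit_of_ne hne
    obtain ⟨a', han', hgaa, haa⟩ := antipode₁ H han
    have hp : rad₁ g p = ‖p‖ • g (mk₁ a 0) := rfl
    set s : ℝ := ‖w‖ + ‖w'‖ + 1 + ‖p‖ with hs
    have hs1 : ‖w‖ + ‖w'‖ + 1 ≤ s := by
      rw [hs]
      linarith [norm_nonneg p]
    have hsp : 0 ≤ s - ‖p‖ := by
      rw [hs]
      linarith [norm_nonneg w, norm_nonneg w']
    -- first estimate
    have h1 := hstar a han a' han' hgaa haa s hs1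
    have e1 : rad₁ g a = g (mk₁ a 0) := radial_of_unit _ han
    have e2 : rad₁ g a' = g (mk₁ a' 0) := radial_of_unit _ han'
    have h2 : A + s • g (mk₁ a 0) = rad₁ g ((‖p‖ + s) • a) + rad₂ g r := by
      rw [rad₁_smul (by positivity), e1, ← hpr, hp]
      module
    rw [h2, rad_norm H, norm_smul, han, mul_one, Real.norm_of_nonneg (by positivity)] at h1
    -- second estimate
    have haa' : ‖a' - a‖ = 2 := by rwa [norm_sub_rev]
    have h3 := hstar a' han' a han (by rw [hgaa, neg_neg]) haa' s hs1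
    have h4 : A + s • g (mk₁ a' 0) = rad₁ g ((s - ‖p‖) • a') + rad₂ g r := by
      rw [rad₁_smul hsp, e2, ← hpr, hp, hgaa]
      module
    rw [h4, rad_norm H, norm_smul, han', mul_one, Real.norm_of_nonneg hsp] at h3
    have h5 : 0 < ‖p‖ := norm_pos_iff.2 hne
    linarith
  obtain ⟨a, han⟩ : ∃ a : Z, ‖a‖ = 1 := exists_norm_eq Z zero_le_one
  obtain ⟨a', han', hgaa, haa⟩ := antipode₁ H han
  have hA' : A = rad₂ g r := by
    rw [← hpr, hp0]
    simp [rad₁, radial_zero]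
  refine ⟨r, hA', ?_⟩
  set s : ℝ := ‖w‖ + ‖w'‖ + 1 with hs
  have hs0 : 0 ≤ s := by positivity
  have h1 := hstar a han a' han' hgaa haa s le_rfl
  have e1 : rad₁ g a = g (mk₁ a 0) := radial_of_unit _ han
  have h2 : A + s • g (mk₁ a 0) = rad₁ g (s • a) + rad₂ g r := by
    rw [rad₁_smul hs0, e1, hA']
    abel
  rw [h2, rad_norm H, norm_smul, han, mul_one, Real.norm_of_nonneg hs0] at h1
  linarith

/-- The radial extension on the second summand is linear. -/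
theorem exists_linear₂ [Nontrivial Z] (H : SphereIso g h) :
    ∃ L : W →ₗ[ℝ] Y, ∀ w, L w = rad₂ g w := by
  have hd := diff_in_range H
  have hzero : rad₂ g (0 : W) = 0 := radial_zero _
  have hnorm : ∀ r : W, ‖rad₂ g r‖ = ‖r‖ := by
    intro r
    have := rad_norm H (0 : Z) r
    simpa [rad₁, radial_zero] using this
  have hneg : ∀ w : W, ∃ r : W, -rad₂ g w = rad₂ g r := by
    intro w
    obtain ⟨r, hr, -⟩ := hd 0 w
    refine ⟨r, ?_⟩
    rw [← hr, hzero, zero_sub]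
  let S : Submodule ℝ Y :=
    { carrier := range (rad₂ g)
      add_mem' := by
        rintro _ _ ⟨w, rfl⟩ ⟨w', rfl⟩
        obtain ⟨r', hr'⟩ := hneg w'
        obtain ⟨r, hr, -⟩ := hd w r'
        refine ⟨r, ?_⟩
        rw [← hr, ← hr']
        abel
      zero_mem' := ⟨0, hzero⟩
      smul_mem' := by
        rintro c _ ⟨w, rfl⟩
        rcases le_total 0 c with hc | hc
        · exact ⟨c • w, rad₂_smul hc w⟩
        · obtain ⟨r, hr⟩ := hneg w
          refine ⟨(-c) • r, ?_⟩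
          rw [rad₂_smul (by linarith), ← hr]
          simp }
  let F : W → S := fun w => ⟨rad₂ g w, w, rfl⟩
  have hFiso : Isometry F := by
    apply Isometry.of_dist_eq
    intro a b
    rw [Subtype.dist_eq, dist_eq_norm, dist_eq_norm]
    obtain ⟨r, hr, hrn⟩ := hd a b
    show ‖rad₂ g a - rad₂ g b‖ = ‖a - b‖
    rw [hr, hnorm, hrn]
  have hFsurj : Function.Surjective F := by
    rintro ⟨_, w, rfl⟩
    exact ⟨w, rfl⟩
  let E : W ≃ᵢ S := IsometryEquiv.mk' F (fun y => (Classical.choose (hFsurj y)))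
    (fun y => Classical.choose_spec (hFsurj y)) hFiso
  have hE0 : E 0 = 0 := Subtype.ext hzero
  let L := E.toRealLinearIsometryEquivOfMapZero hE0
  refine ⟨S.subtype ∘ₗ L.toLinearEquiv.toLinearMap, fun w => rfl⟩

end Main

section Swap

variable [FiniteDimensional ℝ Z] [FiniteDimensional ℝ W] [FiniteDimensional ℝ Y]
  {g : WithLp 1 (Z × W) → Y} {h : Y → WithLp 1 (Z × W)}

/-- The swap of the two summands. -/
def swap₁ (x : WithLp 1 (W × Z)) : WithLp 1 (Z × W) := mk₁ x.snd x.fst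

def swap₁' (x : WithLp 1 (Z × W)) : WithLp 1 (W × Z) := mk₁ x.snd x.fst

lemma SphereIso.swap (H : SphereIso g h) :
    SphereIso (fun x : WithLp 1 (W × Z) => g (swap₁ x)) (fun y => swap₁' (h y)) := by
  have hn : ∀ x : WithLp 1 (W × Z), ‖swap₁ x‖ = ‖x‖ := by
    intro x
    rw [swap₁, norm_mk₁, add_comm, ← norm_mk₁ x.fst x.snd, eta₁]
  have hn' : ∀ x : WithLp 1 (Z × W), ‖swap₁' x‖ = ‖x‖ := by
    intro x
    rw [swap₁', norm_mk₁, add_comm, ← norm_mk₁ x.fst x.snd, eta₁]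
  refine ⟨?_, ?_, ?_, ?_, ?_⟩
  · intro x hx
    exact H.map_g _ (by rw [hn, hx])
  · intro y hy
    rw [hn']
    exact H.map_h y hy
  · intro x hx
    show swap₁' (h (g (swap₁ x))) = x
    rw [H.left _ (by rw [hn, hx])]
    rfl
  · intro y hy
    show g (swap₁ (swap₁' (h y))) = y
    have : swap₁ (swap₁' (h y)) = h y := rfl
    rw [this, H.right y hy]
  · intro a b ha hb
    show ‖g (swap₁ a) - g (swap₁ b)‖ = ‖a - b‖
    rw [H.iso _ _ (by rw [hn, ha]) (by rw [hn, hb])]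
    have : swap₁ a - swap₁ b = swap₁ (a - b) := rfl
    rw [this, hn]

/-- **Theorem.** A sphere isometry from an `ℓ_1`-sum extends to a linear isometry. -/
theorem l1_main [Nontrivial Z] [Nontrivial W] (H : SphereIso g h) :
    ∃ T : WithLp 1 (Z × W) ≃ₗᵢ[ℝ] Y, ∀ x, ‖x‖ = 1 → T x = g x := by
  obtain ⟨L₂, hL₂⟩ := exists_linear₂ H
  obtain ⟨L₁, hL₁⟩ := exists_linear₂ H.swap
  have hL₁' : ∀ z : Z, L₁ z = rad₁ g z := by
    intro z
    rw [hL₁ z]
    rfl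
  refine exists_linearIsometryEquiv_of_agree H
    ((L₁.coprod L₂) ∘ₗ (WithLp.linearEquiv 1 ℝ (Z × W)).toLinearMap) ?_
  intro x hx
  have hxeta : mk₁ x.fst x.snd = x := eta₁ x
  have h1 : ‖x.fst‖ + ‖x.snd‖ = 1 := by
    rw [← norm_mk₁, hxeta, hx]
  have h2 := g_eq_rad H h1
  rw [hxeta] at h2
  rw [h2, ← hL₁', ← hL₂]
  rfl

end Swap

/-- **Tingley's problem for `ℓ_1`-sums.** -/
theorem l1_extends [FiniteDimensional ℝ Z] [FiniteDimensional ℝ W] [Nontrivial Z] [Nontrivial W]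
    (f : sphere (0 : WithLp 1 (Z × W)) 1 ≃ᵢ sphere (0 : Y) 1) :
    ∃ T : WithLp 1 (Z × W) ≃ₗᵢ[ℝ] Y, ∀ x : sphere (0 : WithLp 1 (Z × W)) 1, T x = f x := by
  have := finiteDimensional_of_sphere f
  obtain ⟨g, h, H, hg⟩ := exists_sphereIso f
  obtain ⟨T, hT⟩ := l1_main H
  refine ⟨T, fun x => ?_⟩
  rw [hT x (by simpa using x.2), hg]

end Vale.Agent.Lib.P084
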