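import Mathlib
import Vale.Agent.Lib.P084.Propagate

/-! Unique continuation for isometries of spheres without exposed directions: it is enough that
no open piece of the sphere is ruled by parallel segments. -/

namespace Vale.Agent.Lib.P084

open Set Metric Filter Topology

section Propagate2

variable {X Y : Type*} [NormedAddCommGroup X] [NormedSpace ℝ X]
  [NormedAddCommGroup Y] [NormedSpace ℝ Y]

/-- The core of the propagation: the comparison at one chord. -/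
lemma step_core' {g : X → Y} {L : X →L[ℝ] Y}
    (hiso : ∀ a b : X, ‖a‖ = 1 → ‖b‖ = 1 → ‖g a - g b‖ = ‖a - b‖)
    {x y y' : X} (hx : ‖x‖ = 1) (hy : ‖y‖ = 1) (hyL : L y' = g y) {ρ : ℝ} (hρ : 0 < ρ)
    (hball : ball x ρ ⊆ LinSet g L) (hd : DifferentiableAt ℝ (fun z : X => ‖z‖) (x - y))
    (hLw : ‖L (x - y)‖ = ‖x - y‖) (hLw' : ‖L (x - y')‖ = ‖x - y'‖)
    {κ : ℝ} (hκ : 0 < κ) (hmid : ‖(1 / 2 : ℝ) • (x + y)‖ ≤ 1 - κ / 2)
    (hyy : ‖y' - y‖ ≤ κ / 2) : ‖x - y'‖ = ‖x - y‖ ∧ chi (x - y) (x - y') = ‖x - y‖ := by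
  have hgx : g x = L x := linSet_apply (hball (mem_ball_self hρ)) hx
  set w : X := x - y with hw
  set w' : X := x - y' with hw'
  have hLw'e : L w' = g x - g y := by
    rw [hw', map_sub, hyL, hgx]
  have hnw : ‖g x - g y‖ = ‖w‖ := hiso _ _ hx hy
  have hnw' : ‖w'‖ = ‖w‖ := by
    rw [← hLw', hLw'e, hnw]
  obtain ⟨ζ, hζ, hζv⟩ := exists_dual_vector'' ℝ (g x - g y)
  have hζv' : ζ (g x - g y) = ‖w‖ := by
    rw [hζv, hnw]
    simp
  set θ : X →L[ℝ] ℝ := ζ.comp L - chi w with hθ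
  have hselfw : chi w w = ‖w‖ := hd.fderiv_norm_self
  have hF1 : θ w ≤ 0 := by
    have h1 : ζ (L w) ≤ ‖L w‖ := by
      have h2 := ζ.le_opNorm (L w)
      rw [Real.norm_eq_abs] at h2
      have h3 := mul_le_mul_of_nonneg_right hζ (norm_nonneg (L w))
      linarith [le_abs_self (ζ (L w))]
    have e : θ w = ζ (L w) - chi w w := rfl
    rw [e, hselfw, ← hLw]
    linarith
  have hF2 : 0 ≤ θ w' := by
    have e : θ w' = ζ (L w') - chi w w' := rfl
    rw [e, hLw'e, hζv']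
    have := chi_le w w'
    rw [hnw'] at this
    linarith
  obtain ⟨ψ, hψ, hψv⟩ := exists_dual_vector'' ℝ x
  have hψx : ψ x = 1 := by
    rw [hψv, hx]
    simp
  have hψle : ∀ v, ψ v ≤ ‖v‖ := fun v => by
    have h2 := ψ.le_opNorm v
    rw [Real.norm_eq_abs] at h2
    have h3 := mul_le_mul_of_nonneg_right hψ (norm_nonneg v)
    linarith [le_abs_self (ψ v)]
  have hψy : ψ y ≤ 1 - κ := by
    have h1 := hψle ((1 / 2 : ℝ) • (x + y))
    rw [map_smul, map_add, hψx, smul_eq_mul] at h1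
    linarith
  have hψw' : κ / 2 ≤ ψ w' := by
    have h1 : ψ (y' - y) ≤ κ / 2 := (hψle _).trans hyy
    rw [map_sub] at h1
    rw [hw', map_sub, hψx]
    linarith
  set c : ℝ := θ x with hc
  have hineq := fun (a : X) (η : ℝ) (hη : 0 < η) =>
    theta_ineq hiso hx hy hρ hball hd hζ hζv' a hη
  have hc1 : c ≤ 0 := by
    refine theta_c_le (μ := fun ε => ‖x + ε • (y - x)‖) (t := θ (y - x)) hκ ?_ ?_ ?_
    · intro ε hεpos hε12
      have e1 : x + ε • (y - x) = (1 - 2 * ε) • x + (2 * ε) • ((1 / 2 : ℝ) • (x + y)) := by module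
      rw [e1]
      refine (norm_add_le _ _).trans ?_
      rw [norm_smul, norm_smul, hx, Real.norm_of_nonneg (by linarith : (0 : ℝ) ≤ 1 - 2 * ε),
        Real.norm_of_nonneg (by positivity : (0 : ℝ) ≤ 2 * ε)]
      nlinarith
    · have h4 : θ (y - x) = -θ w := by
        rw [hw, ← map_neg, neg_sub]
      rw [h4]
      linarith
    · exact fun η hη => hineq (y - x) η hη
  have hc2 : 0 ≤ c := by
    refine theta_c_ge (μ := fun ε => ‖x + ε • w'‖) (κ := κ / 2) (t := θ w') (by positivity) ?_ hF2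
      (fun η hη => hineq w' η hη)
    intro ε hεpos
    have h4 := hψle (x + ε • w')
    rw [map_add, map_smul, hψx, smul_eq_mul] at h4
    nlinarith
  have hc0 : c = 0 := le_antisymm hc1 hc2
  have hle : ∀ a, θ a ≤ 0 := by
    intro a
    by_contra hpos
    push Not at hpos
    obtain ⟨ε₀, hε₀, h1⟩ := hineq a (θ a / 2) (by positivity)
    have h2 := h1 (ε₀ / 2) (by positivity) (by linarith)
    rw [← hc, hc0, mul_zero, zero_add] at h2
    have h3 : 0 < ε₀ / 2 * θ a := by positivity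
    nlinarith
  have hzero : θ w' = 0 := le_antisymm (hle _) hF2
  have h1 : chi w w' = ‖w‖ := by
    have e : θ w' = ζ (L w') - chi w w' := rfl
    rw [e, hLw'e, hζv'] at hzero
    linarith
  exact ⟨hnw', h1⟩

/-- A line through `y` in a direction close to that of `x₀ - y` meets the sphere close to `x₀`. -/
lemma exists_chord_dir {x₀ y : X} (hx₀ : ‖x₀‖ = 1)
    (hy : ‖y‖ = 1) {κ ε₁ : ℝ} (hκ : 0 < κ) (hε₁ : 0 < ε₁)
    (hmid : ‖(1 / 2 : ℝ) • (x₀ + y)‖ ≤ 1 - κ / 2) :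
    ∃ η₂ > 0, ∀ d₂ : X, ‖d₂ - (x₀ - y)‖ < η₂ →
      ∃ τ : ℝ, 0 < τ ∧ ‖y + τ • d₂‖ = 1 ∧ ‖y + τ • d₂ - x₀‖ < ε₁ := by
  obtain ⟨ψ₀, hψ, hψv⟩ := exists_dual_vector'' ℝ x₀
  have hψx : ψ₀ x₀ = 1 := by
    rw [hψv, hx₀]
    simp
  have hψle : ∀ v, ψ₀ v ≤ ‖v‖ := fun v => by
    have h2 := ψ₀.le_opNorm v
    rw [Real.norm_eq_abs] at h2
    have h3 := mul_le_mul_of_nonneg_right hψ (norm_nonneg v)
    linarith [le_abs_self (ψ₀ v)]
  have hψy : ψ₀ y ≤ 1 - κ := by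
    have h1 := hψle ((1 / 2 : ℝ) • (x₀ + y))
    rw [map_smul, map_add, hψx, smul_eq_mul] at h1
    linarith
  set η' : ℝ := min (1 / 2) (ε₁ / 8) with hη'
  have hη'pos : 0 < η' := by positivity
  have hη'12 : η' ≤ 1 / 2 := min_le_left _ _
  have hη'8 : η' ≤ ε₁ / 8 := min_le_right _ _
  set η₂ : ℝ := min (η' * κ / 4) (ε₁ / 8) with hη₂
  have hη₂pos : 0 < η₂ := by positivity
  have hη₂1 : η₂ ≤ η' * κ / 4 := min_le_left _ _
  have hη₂2 : η₂ ≤ ε₁ / 8 := min_le_right _ _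
  set d₀ : X := x₀ - y with hd₀
  refine ⟨η₂, hη₂pos, fun d₂ hd₂ => ?_⟩
  have hd₀n : ‖d₀‖ ≤ 2 := by
    have := norm_sub_le x₀ y
    rw [hx₀, hy] at this
    rw [hd₀]
    linarith
  let f : ℝ → ℝ := fun τ => ‖y + τ • d₂‖
  have hfc : Continuous f := by fun_prop
  have hclose : ∀ τ : ℝ, 0 ≤ τ → τ ≤ 3 / 2 → ‖(y + τ • d₂) - (y + τ • d₀)‖ ≤ 3 / 2 * η₂ := by
    intro τ h0 h1
    have e : (y + τ • d₂) - (y + τ • d₀) = τ • (d₂ - d₀) := by module
    rw [e, norm_smul, Real.norm_of_nonneg h0]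
    have := norm_nonneg (d₂ - d₀)
    nlinarith
  have hlow : f (1 - η') < 1 := by
    have e1 : y + (1 - η') • d₀ = (1 - 2 * η') • x₀ + (2 * η') • ((1 / 2 : ℝ) • (x₀ + y)) := by
      rw [hd₀]
      module
    have h1 : ‖y + (1 - η') • d₀‖ ≤ 1 - η' * κ := by
      rw [e1]
      refine (norm_add_le _ _).trans ?_
      rw [norm_smul, norm_smul, hx₀, Real.norm_of_nonneg (by linarith : (0 : ℝ) ≤ 1 - 2 * η'),
        Real.norm_of_nonneg (by positivity : (0 : ℝ) ≤ 2 * η')]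
      nlinarith
    have h2 := hclose (1 - η') (by linarith) (by linarith)
    have h3 : f (1 - η') ≤ ‖y + (1 - η') • d₀‖ + ‖(y + (1 - η') • d₂) - (y + (1 - η') • d₀)‖ := by
      simpa [f] using norm_le_insert' (y + (1 - η') • d₂) (y + (1 - η') • d₀)
    have h4 : 0 < η' * κ := by positivity
    linarith
  have hhigh : 1 < f (1 + η') := by
    have e1 : y + (1 + η') • d₀ = x₀ + η' • (x₀ - y) := by
      rw [hd₀]
      module
    have h1 : 1 + η' * κ ≤ ‖y + (1 + η') • d₀‖ := by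
      rw [e1]
      have h2 := hψle (x₀ + η' • (x₀ - y))
      rw [map_add, map_smul, map_sub, hψx, smul_eq_mul] at h2
      nlinarith
    have h2 := hclose (1 + η') (by linarith) (by linarith)
    have h3 : ‖y + (1 + η') • d₀‖ ≤ f (1 + η') + ‖(y + (1 + η') • d₂) - (y + (1 + η') • d₀)‖ := by
      have h5 := norm_le_insert (y + (1 + η') • d₂) (y + (1 + η') • d₀)
      rw [norm_sub_rev] at h5
      have h6 := norm_le_insert' (y + (1 + η') • d₀) (y + (1 + η') • d₂)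
      rw [norm_sub_rev] at h6
      simpa [f] using h6
    have h4 : 0 < η' * κ := by positivity
    linarith
  obtain ⟨τ, hτ, hfτ⟩ := intermediate_value_Icc (by linarith : 1 - η' ≤ 1 + η') hfc.continuousOn
    (show (1 : ℝ) ∈ Icc (f (1 - η')) (f (1 + η')) from ⟨hlow.le, hhigh.le⟩)
  have hτpos : 0 < τ := by linarith [hτ.1]
  refine ⟨τ, hτpos, hfτ, ?_⟩
  have e : y + τ • d₂ - x₀ = τ • (d₂ - d₀) + (τ - 1) • d₀ := by
    rw [hd₀]
    module
  rw [e]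
  have h1 : ‖τ • (d₂ - d₀)‖ ≤ 3 / 2 * η₂ := by
    rw [norm_smul, Real.norm_of_nonneg hτpos.le]
    have := norm_nonneg (d₂ - d₀)
    have h2 : τ ≤ 3 / 2 := by linarith [hτ.2]
    nlinarith
  have h2 : ‖(τ - 1) • d₀‖ ≤ η' * 2 := by
    rw [norm_smul, Real.norm_eq_abs]
    have h3 : |τ - 1| ≤ η' := abs_le.2 ⟨by linarith [hτ.1], by linarith [hτ.2]⟩
    exact mul_le_mul h3 hd₀n (norm_nonneg _) hη'pos.le
  have h3 := norm_add_le (τ • (d₂ - d₀)) ((τ - 1) • d₀)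
  linarith

/-- Two points at the same distance seen by the derivative span a segment of the sphere. -/
lemma segment_of_chi {w k : X} (hd : DifferentiableAt ℝ (fun z : X => ‖z‖) w)
    (h1 : ‖w - k‖ = ‖w‖) (h2 : chi w (w - k) = ‖w‖) {t : ℝ} (ht : t ∈ Icc (0 : ℝ) 1) :
    ‖w - t • k‖ = ‖w‖ := by
  have e : w - t • k = (1 - t) • w + t • (w - k) := by module
  have h0 : 0 ≤ 1 - t := by linarith [ht.2]
  refine le_antisymm ?_ ?_
  · rw [e]
    refine (norm_add_le _ _).trans ?_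
    rw [norm_smul, norm_smul, h1, Real.norm_of_nonneg h0, Real.norm_of_nonneg ht.1]
    nlinarith
  · have h3 := chi_le w (w - t • k)
    have hself : chi w w = ‖w‖ := hd.fderiv_norm_self
    rw [e, map_add, map_smul, map_smul, h2, hself, smul_eq_mul, smul_eq_mul] at h3
    rw [e]
    nlinarith

/-- The normalised form of the previous lemma. -/
lemma unit_segment {w k : X} (hd : DifferentiableAt ℝ (fun z : X => ‖z‖) w) (hw0 : w ≠ 0)
    (h1 : ‖w - k‖ = ‖w‖) (h2 : chi w (w - k) = ‖w‖) (hc : ‖w‖ ≤ 2) {s : ℝ}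
    (hs : s ∈ Icc (0 : ℝ) 1) : ‖‖w‖⁻¹ • w - s • ((1 / 2 : ℝ) • k)‖ = 1 := by
  have hn : 0 < ‖w‖ := norm_pos_iff.2 hw0
  have ht : s * ‖w‖ / 2 ∈ Icc (0 : ℝ) 1 := by
    refine ⟨by have := hs.1; positivity, ?_⟩
    have h3 : s * ‖w‖ ≤ 1 * 2 := mul_le_mul hs.2 hc hn.le (by norm_num)
    linarith
  have e : ‖w‖⁻¹ • w - s • ((1 / 2 : ℝ) • k) = ‖w‖⁻¹ • (w - (s * ‖w‖ / 2) • k) := by
    rw [smul_sub, smul_smul, smul_smul]
    congr 2
    field_simp
  rw [e, norm_smul, norm_inv, norm_norm, segment_of_chi hd h1 h2 ht, inv_mul_cancel₀ hn.ne']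

/-- No open piece of the unit sphere is ruled by parallel segments. -/
def NoCylinder (X : Type*) [NormedAddCommGroup X] [NormedSpace ℝ X] : Prop :=
  ∀ k : X, k ≠ 0 → ∀ w₀ : X, ‖w₀‖ = 1 → ∀ ε > 0, ∃ w : X, ‖w‖ = 1 ∧ ‖w - w₀‖ < ε ∧
    ∃ t ∈ Icc (0 : ℝ) 1, ‖w - t • k‖ ≠ 1

omit [NormedAddCommGroup Y] [NormedSpace ℝ Y] in
/-- If the normalised differentiability directions near `d₀` all carry segments parallel to `k`,
then `k` vanishes. -/
lemma noCylinder_contra (hSm : Dense {w : X | DifferentiableAt ℝ (fun z : X => ‖z‖) w})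
    (hNC : NoCylinder X) {k d₀ : X} {η₂ : ℝ} (hη₂ : 0 < η₂) (hd₀ : d₀ ≠ 0)
    (key : ∀ d₂ : X, DifferentiableAt ℝ (fun z : X => ‖z‖) d₂ → ‖d₂ - d₀‖ < η₂ →
      ∀ t ∈ Icc (0 : ℝ) 1, ‖‖d₂‖⁻¹ • d₂ - t • k‖ = 1) : k = 0 := by
  by_contra hk
  have hn : 0 < ‖d₀‖ := norm_pos_iff.2 hd₀
  obtain ⟨w, hw, hww₀, t, ht, hne⟩ := hNC k hk (‖d₀‖⁻¹ • d₀) (unit_of_ne hd₀) (η₂ / (2 * ‖d₀‖))
    (by positivity)
  obtain ⟨v₀, hv₀⟩ : ∃ v₀ : X, v₀ = ‖d₀‖ • w := ⟨_, rfl⟩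
  have hv₀n : ‖v₀‖ = ‖d₀‖ := by
    rw [hv₀, norm_smul, norm_norm, hw, mul_one]
  have hv₀w : ‖v₀‖⁻¹ • v₀ = w := by
    rw [hv₀n, hv₀, smul_smul, inv_mul_cancel₀ hn.ne', one_smul]
  have hv₀d : ‖v₀ - d₀‖ < η₂ / 2 := by
    have e : v₀ - d₀ = ‖d₀‖ • (w - ‖d₀‖⁻¹ • d₀) := by
      rw [hv₀, smul_sub, smul_smul, mul_inv_cancel₀ hn.ne', one_smul]
    rw [e, norm_smul, norm_norm]
    rw [lt_div_iff₀ (by positivity)] at hww₀
    nlinarith
  have hgap : 0 < |‖w - t • k‖ - 1| := abs_pos.2 (sub_ne_zero.2 hne)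
  obtain ⟨gap, hgapdef⟩ : ∃ gap : ℝ, gap = |‖w - t • k‖ - 1| := ⟨_, rfl⟩
  rw [← hgapdef] at hgap
  obtain ⟨r, hr⟩ : ∃ r : ℝ, r = min (η₂ / 2) (min (‖d₀‖ / 2) (gap * ‖d₀‖ / 4)) := ⟨_, rfl⟩
  have hrpos : 0 < r := by
    rw [hr]
    positivity
  have hr1 : r ≤ η₂ / 2 := by rw [hr]; exact min_le_left _ _
  have hr2 : r ≤ ‖d₀‖ / 2 := by rw [hr]; exact (min_le_right _ _).trans (min_le_left _ _)
  have hr3 : r ≤ gap * ‖d₀‖ / 4 := by rw [hr]; exact (min_le_right _ _).trans (min_le_right _ _)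
  obtain ⟨d₂, hd₂S, hd₂⟩ := hSm.exists_dist_lt v₀ hrpos
  rw [dist_eq_norm, norm_sub_rev] at hd₂
  have hd₂d : ‖d₂ - d₀‖ < η₂ := by
    have e : d₂ - d₀ = (d₂ - v₀) + (v₀ - d₀) := by abel
    rw [e]
    have := norm_add_le (d₂ - v₀) (v₀ - d₀)
    linarith
  have hd₂low : ‖d₀‖ / 2 ≤ ‖d₂‖ := by
    have h1 := norm_sub_norm_le v₀ d₂
    rw [norm_sub_rev v₀ d₂, hv₀n] at h1
    linarith
  have hd₂0 : d₂ ≠ 0 := by
    rw [← norm_pos_iff]
    linarith
  have h1 := normalize_dist (v₀ := v₀) hd₂0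
  rw [hv₀w] at h1
  have h2 : 2 * ‖d₂ - v₀‖ / ‖d₂‖ < gap := by
    rw [div_lt_iff₀ (by linarith)]
    have h3 : gap * (‖d₀‖ / 2) ≤ gap * ‖d₂‖ := mul_le_mul_of_nonneg_left hd₂low hgap.le
    nlinarith
  have h4 := key d₂ hd₂S hd₂d t ht
  have h5 := abs_norm_sub_norm_le (w - t • k) (‖d₂‖⁻¹ • d₂ - t • k)
  rw [h4] at h5
  have e : w - t • k - (‖d₂‖⁻¹ • d₂ - t • k) = -(‖d₂‖⁻¹ • d₂ - w) := by abel
  rw [e, norm_neg, ← hgapdef] at h5
  linarith

/-- One step of the propagation across a boundary point. -/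
lemma prop_step' {g : X → Y} {L : X ≃L[ℝ] Y}
    (hiso : ∀ a b : X, ‖a‖ = 1 → ‖b‖ = 1 → ‖g a - g b‖ = ‖a - b‖)
    (hSm : Dense {w : X | DifferentiableAt ℝ (fun z : X => ‖z‖) w}) (hNC : NoCylinder X)
    {x₀ b : X} (hx₀ : ‖x₀‖ = 1) (hb : ‖b‖ = 1)
    (hx₀W : x₀ ∈ LinSet g (L : X →L[ℝ] Y)) (hκ : ‖(1 / 2 : ℝ) • (x₀ + b)‖ < 1)
    (hgb : g b = L b) {εN : ℝ} (hεN : 0 < εN)
    (hN : ∀ z : X, ‖z - (x₀ - b)‖ < εN → ‖L z‖ = ‖z‖) :
    b ∈ LinSet g (L : X →L[ℝ] Y) := by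
  obtain ⟨κ, hκdef⟩ : ∃ κ : ℝ, κ = 1 - ‖(1 / 2 : ℝ) • (x₀ + b)‖ := ⟨_, rfl⟩
  have hκpos : 0 < κ := by rw [hκdef]; linarith
  obtain ⟨ρ₀, hρ₀, hρ₀W⟩ := Metric.isOpen_iff.1 (isOpen_linSet g (L : X →L[ℝ] Y)) x₀ hx₀W
  obtain ⟨C, hC⟩ : ∃ C : ℝ, C = ‖(L.symm : Y →L[ℝ] X)‖ + 1 := ⟨_, rfl⟩
  have hC1 : 1 ≤ C := by
    rw [hC]
    linarith [norm_nonneg (L.symm : Y →L[ℝ] X)]
  have hCpos : 0 < C := by linarith
  obtain ⟨ε₁, hε₁⟩ : ∃ ε₁ : ℝ, ε₁ = min (ρ₀ / 2) (min (εN / 2) (κ / 4)) := ⟨_, rfl⟩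
  have hε₁pos : 0 < ε₁ := by rw [hε₁]; positivity
  have hε₁a : ε₁ ≤ ρ₀ / 2 := by rw [hε₁]; exact min_le_left _ _
  have hε₁b : ε₁ ≤ εN / 2 := by
    rw [hε₁]; exact (min_le_right _ _).trans (min_le_left _ _)
  have hε₁c : ε₁ ≤ κ / 4 := by
    rw [hε₁]; exact (min_le_right _ _).trans (min_le_right _ _)
  obtain ⟨ε, hε⟩ : ∃ ε : ℝ, ε = min (εN / (4 * C)) (κ / (4 * C)) := ⟨_, rfl⟩
  have hεpos : 0 < ε := by rw [hε]; positivity
  have hεa : ε * (4 * C) ≤ εN := by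
    have : ε ≤ εN / (4 * C) := by rw [hε]; exact min_le_left _ _
    rwa [le_div_iff₀ (by positivity)] at this
  have hεb : ε * (4 * C) ≤ κ := by
    have : ε ≤ κ / (4 * C) := by rw [hε]; exact min_le_right _ _
    rwa [le_div_iff₀ (by positivity)] at this
  have hεC : ε ≤ ε * C := by nlinarith
  refine ⟨ε, hεpos, fun y hy hyb => ?_⟩
  have hyn : ‖y - b‖ * C ≤ ε * C := mul_le_mul_of_nonneg_right hyb.le hCpos.le
  -- the preimage of `g y`
  obtain ⟨y', hy'⟩ : ∃ y' : X, y' = L.symm (g y) := ⟨_, rfl⟩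
  have hLy' : L y' = g y := by rw [hy']; simp
  have hy'b : ‖y' - b‖ ≤ ε * C := by
    have e : y' - b = (L.symm : Y →L[ℝ] X) (g y - g b) := by
      rw [map_sub, hgb]
      simp [hy']
    rw [e]
    have h1 := (L.symm : Y →L[ℝ] X).le_opNorm (g y - g b)
    rw [hiso _ _ hy hb] at h1
    have h2 : ‖(L.symm : Y →L[ℝ] X)‖ * ‖y - b‖ ≤ C * ‖y - b‖ :=
      mul_le_mul_of_nonneg_right (by rw [hC]; linarith) (norm_nonneg _)
    linarith
  have hyy : ‖y' - y‖ ≤ κ / 2 := by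
    have h1 : y' - y = (y' - b) - (y - b) := by abel
    rw [h1]
    have h2 := norm_sub_le (y' - b) (y - b)
    nlinarith
  have hmid₀ : ‖(1 / 2 : ℝ) • (x₀ + y)‖ ≤ 1 - κ / 2 := by
    have e : (1 / 2 : ℝ) • (x₀ + y) = (1 / 2 : ℝ) • (x₀ + b) + (1 / 2 : ℝ) • (y - b) := by module
    rw [e]
    refine (norm_add_le _ _).trans ?_
    have h1 : ‖(1 / 2 : ℝ) • (y - b)‖ = 1 / 2 * ‖y - b‖ := by
      rw [norm_smul]
      norm_num
    rw [h1]
    nlinarith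
  have : Nontrivial X := ⟨⟨x₀, 0, by
    rw [← norm_pos_iff, hx₀]
    norm_num⟩⟩
  obtain ⟨η₂, hη₂, hchord⟩ := exists_chord_dir hx₀ hy hκpos hε₁pos hmid₀
  have hd₀ : x₀ - y ≠ 0 := by
    intro h0
    have h1 : x₀ = y := sub_eq_zero.1 h0
    rw [h1] at hmid₀
    have e : (1 / 2 : ℝ) • (y + y) = y := by module
    rw [e, hy] at hmid₀
    linarith
  have hkey : ∀ d₂ : X, DifferentiableAt ℝ (fun z : X => ‖z‖) d₂ → ‖d₂ - (x₀ - y)‖ < η₂ →
      ∀ t ∈ Icc (0 : ℝ) 1, ‖‖d₂‖⁻¹ • d₂ - t • ((1 / 2 : ℝ) • (y' - y))‖ = 1 := by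
    intro d₂ hd₂ hd₂near t ht
    obtain ⟨τ, hτ, hxu, hxx₀⟩ := hchord d₂ hd₂near
    obtain ⟨x, hx⟩ : ∃ x : X, x = y + τ • d₂ := ⟨_, rfl⟩
    rw [← hx] at hxu hxx₀
    have hball : ball x (ρ₀ / 2) ⊆ LinSet g (L : X →L[ℝ] Y) := by
      intro z hz
      apply hρ₀W
      rw [mem_ball, dist_eq_norm] at hz ⊢
      have h1 : z - x₀ = (z - x) + (x - x₀) := by abel
      rw [h1]
      have h2 := norm_add_le (z - x) (x - x₀)
      linarith
    have hNw : ‖L (x - y)‖ = ‖x - y‖ := by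
      refine hN _ ?_
      have e : x - y - (x₀ - b) = (x - x₀) - (y - b) := by abel
      rw [e]
      have h1 := norm_sub_le (x - x₀) (y - b)
      nlinarith
    have hNw' : ‖L (x - y')‖ = ‖x - y'‖ := by
      refine hN _ ?_
      have e : x - y' - (x₀ - b) = (x - x₀) - (y' - b) := by abel
      rw [e]
      have h1 := norm_sub_le (x - x₀) (y' - b)
      nlinarith
    have hmid : ‖(1 / 2 : ℝ) • (x + y)‖ ≤ 1 - κ / 2 := by
      have e : (1 / 2 : ℝ) • (x + y) = (1 / 2 : ℝ) • (x₀ + b) + (1 / 2 : ℝ) • ((x - x₀) + (y - b)) := by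
        module
      rw [e]
      refine (norm_add_le _ _).trans ?_
      have h1 : ‖(1 / 2 : ℝ) • ((x - x₀) + (y - b))‖ = 1 / 2 * ‖(x - x₀) + (y - b)‖ := by
        rw [norm_smul]
        norm_num
      rw [h1]
      have h2 := norm_add_le (x - x₀) (y - b)
      nlinarith
    have e0 : x - y = τ • d₂ := by
      rw [hx]
      abel
    have hsm : DifferentiableAt ℝ (fun z : X => ‖z‖) (x - y) := by
      rw [e0]
      exact (hd₂.hasFDerivAt.hasFDerivAt_norm_smul_pos hτ).differentiableAt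
    obtain ⟨h1, h2⟩ := step_core' (L := (L : X →L[ℝ] Y)) (y' := y') hiso hxu hy hLy'
      (by positivity) hball hsm hNw hNw' hκpos hmid hyy
    have hd₂0 : d₂ ≠ 0 := by
      rintro rfl
      exact not_differentiableAt_norm_zero X hd₂
    have hw0 : x - y ≠ 0 := by
      rw [e0]
      exact smul_ne_zero hτ.ne' hd₂0
    have hcn : ‖x - y‖ ≤ 2 := by
      have := norm_sub_le x y
      rw [hxu, hy] at this
      linarith
    have e1 : x - y' = (x - y) - (y' - y) := by abel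
    rw [e1] at h1 h2
    have h3 := unit_segment hsm hw0 h1 h2 hcn ht
    have e2 : ‖x - y‖⁻¹ • (x - y) = ‖d₂‖⁻¹ • d₂ := by
      rw [e0, norm_smul, Real.norm_of_nonneg hτ.le, smul_smul]
      congr 1
      have : ‖d₂‖ ≠ 0 := norm_ne_zero_iff.2 hd₂0
      field_simp
    rwa [e2] at h3
  have hk := noCylinder_contra hSm hNC hη₂ hd₀ hkey
  have hcore : y' = y := by
    have h1 : y' - y = 0 := by
      have := smul_eq_zero.1 hk
      rcases this with h2 | h2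
      · norm_num at h2
      · exact h2
    exact sub_eq_zero.1 h1
  rw [← hLy', hcore]
  rfl

/-- **Unique continuation.**  If no open piece of the sphere is ruled by parallel segments, an
isometry of the unit sphere that agrees with an invertible linear map near a smooth exposed point
agrees with it everywhere. -/
theorem propagate' {g : X → Y} {L : X ≃L[ℝ] Y}
    (hiso : ∀ a b : X, ‖a‖ = 1 → ‖b‖ = 1 → ‖g a - g b‖ = ‖a - b‖)
    (hodd : ∀ x : X, ‖x‖ = 1 → g (-x) = -g x)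
    (hSm : Dense {w : X | DifferentiableAt ℝ (fun z : X => ‖z‖) w}) (hNC : NoCylinder X)
    {x₀ : X} (hx₀ : ‖x₀‖ = 1) (hgood : GoodDir x₀)
    (hW : x₀ ∈ LinSet g (L : X →L[ℝ] Y)) : ∀ y : X, ‖y‖ = 1 → g y = L y := by
  by_contra hcon
  push Not at hcon
  obtain ⟨y₁, hy₁, hne⟩ := hcon
  have hy₁W : y₁ ∉ LinSet g (L : X →L[ℝ] Y) := fun h => hne (linSet_apply h hy₁)
  have hy₁neg : y₁ ≠ -x₀ := by
    rintro rfl
    exact hy₁W (linSet_neg hodd hW)
  set v : X := y₁ - x₀ with hv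
  have hne0 : ∀ t ∈ Icc (0 : ℝ) 1, x₀ + t • v ≠ 0 := by
    intro t ht h0
    have e : x₀ + t • v = (1 - t) • x₀ + t • y₁ := by
      rw [hv]
      module
    rw [e] at h0
    have h1 : t • y₁ = -((1 - t) • x₀) := eq_neg_of_add_eq_zero_right h0
    have h2 := congrArg norm h1
    rw [norm_neg, norm_smul, norm_smul, hy₁, hx₀, Real.norm_of_nonneg ht.1,
      Real.norm_of_nonneg (by linarith [ht.2]), mul_one, mul_one] at h2
    have ht2 : t = 1 / 2 := by linarith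
    rw [ht2] at h1
    have h3 : (1 / 2 : ℝ) • y₁ = (1 / 2 : ℝ) • (-x₀) := by
      rw [h1, smul_neg]
      norm_num
    exact hy₁neg (smul_right_injective X (by norm_num : (1 / 2 : ℝ) ≠ 0) h3)
  let γ : ℝ → X := fun t => ‖x₀ + t • v‖⁻¹ • (x₀ + t • v)
  have hγc : ContinuousOn γ (Icc (0 : ℝ) 1) := by
    intro t ht
    have h1 : ContinuousAt (fun s : ℝ => x₀ + s • v) t := by fun_prop
    have h2 : ‖x₀ + t • v‖ ≠ 0 := norm_ne_zero_iff.2 (hne0 t ht)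
    exact ((h1.norm.inv₀ h2).smul h1).continuousWithinAt
  have hγ0 : γ 0 = x₀ := by simp [γ, hx₀]
  have hγ1 : γ 1 = y₁ := by
    have e : x₀ + (1 : ℝ) • v = y₁ := by
      rw [hv, one_smul]
      abel
    simp only [γ]
    rw [e, hy₁]
    simp
  let A : Set ℝ := Icc (0 : ℝ) 1 ∩ γ ⁻¹' (LinSet g (L : X →L[ℝ] Y))ᶜ
  have hAc : IsClosed A :=
    hγc.preimage_isClosed_of_isClosed isClosed_Icc (isOpen_linSet _ _).isClosed_compl
  have hAcomp : IsCompact A := isCompact_Icc.of_isClosed_subset hAc inter_subset_left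
  have hAne : A.Nonempty := ⟨1, ⟨by norm_num, by norm_num⟩, by
    simp only [mem_preimage, mem_compl_iff, hγ1]
    exact hy₁W⟩
  have htb := hAcomp.sInf_mem hAne
  set tb : ℝ := sInf A with htbdef
  have hlow : ∀ t ∈ A, tb ≤ t := fun t ht => csInf_le hAcomp.bddBelow ht
  have htb0 : 0 < tb := by
    refine lt_of_le_of_ne htb.1.1 ?_
    intro h0
    have h1 := htb.2
    rw [← h0, mem_preimage, hγ0] at h1
    exact h1 hW
  have hbefore : ∀ t, 0 ≤ t → t < tb → γ t ∈ LinSet g (L : X →L[ℝ] Y) := by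
    intro t h0 hlt
    by_contra hc
    have h1 : t ∈ A := ⟨⟨h0, by linarith [htb.1.2]⟩, hc⟩
    linarith [hlow t h1]
  set c : ℝ := ‖x₀ + tb • v‖ with hc
  have hcpos : 0 < c := norm_pos_iff.2 (hne0 tb htb.1)
  set b : X := c⁻¹ • (x₀ + tb • v) with hb
  have hbγ : b = γ tb := rfl
  have hbu : ‖b‖ = 1 := by
    rw [hb, norm_smul, norm_inv, norm_norm, inv_mul_cancel₀ hcpos.ne']
  have hbW : b ∉ LinSet g (L : X →L[ℝ] Y) := htb.2
  have hbx₀ : b ≠ x₀ := fun h => hbW (by rw [h]; exact hW)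
  -- the arc from `b` to `x₀`
  have hform : ∀ s ∈ Ioo (0 : ℝ) 1, ∃ κ t : ℝ, 0 < κ ∧ 0 ≤ t ∧ t < tb ∧
      b + s • (x₀ - b) = κ • (x₀ + t • v) := by
    intro s hs
    have hκ : 0 < (1 - s) * c⁻¹ + s := by
      have h1 : 0 < 1 - s := by linarith [hs.2]
      have h2 : 0 < c⁻¹ := inv_pos.2 hcpos
      have h3 := hs.1
      positivity
    refine ⟨(1 - s) * c⁻¹ + s, (1 - s) * c⁻¹ * tb / ((1 - s) * c⁻¹ + s), hκ, ?_, ?_, ?_⟩
    · have h1 : 0 < 1 - s := by linarith [hs.2]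
      have h2 : 0 < c⁻¹ := inv_pos.2 hcpos
      positivity
    · rw [div_lt_iff₀ hκ]
      have := hs.1
      nlinarith
    · have e : ((1 - s) * c⁻¹ + s) * ((1 - s) * c⁻¹ * tb / ((1 - s) * c⁻¹ + s)) =
          (1 - s) * c⁻¹ * tb := mul_div_cancel₀ _ hκ.ne'
      rw [smul_add, smul_smul, e, hb]
      module
  have hpathne : ∀ s ∈ Ioo (0 : ℝ) 1, b + s • (x₀ - b) ≠ 0 := by
    intro s hs
    obtain ⟨κ, t, hκ, ht0, ht, e⟩ := hform s hs
    rw [e]
    exact smul_ne_zero hκ.ne' (hne0 t ⟨ht0, by linarith [htb.1.2]⟩)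
  have hpath : ∀ s ∈ Ioo (0 : ℝ) 1, ‖b + s • (x₀ - b)‖⁻¹ • (b + s • (x₀ - b)) ∈
      LinSet g (L : X →L[ℝ] Y) := by
    intro s hs
    obtain ⟨κ, t, hκ, ht0, ht, e⟩ := hform s hs
    have h1 := hbefore t ht0 ht
    have hn : ‖x₀ + t • v‖ ≠ 0 := norm_ne_zero_iff.2 (hne0 t ⟨ht0, by linarith [htb.1.2]⟩)
    have e2 : ‖κ • (x₀ + t • v)‖⁻¹ • κ • (x₀ + t • v) = γ t := by
      simp only [γ]
      rw [norm_smul, Real.norm_of_nonneg hκ.le, smul_smul]
      congr 1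
      field_simp
    rw [e, e2]
    exact h1
  -- the chord is not contained in the sphere
  have hκ : ‖(1 / 2 : ℝ) • (x₀ + b)‖ < 1 := by
    by_contra hge
    push Not at hge
    obtain ⟨ψ, hψ, hψv⟩ := exists_dual_vector'' ℝ (x₀ + b)
    have hψle : ∀ w, ψ w ≤ ‖w‖ := fun w => by
      have h2 := ψ.le_opNorm w
      rw [Real.norm_eq_abs] at h2
      have h3 := mul_le_mul_of_nonneg_right hψ (norm_nonneg w)
      linarith [le_abs_self (ψ w)]
    have h1 : ψ x₀ + ψ b = ‖x₀ + b‖ := by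
      rw [← map_add, hψv]
      simp
    have h2 : 2 ≤ ‖x₀ + b‖ := by
      rw [norm_smul] at hge
      norm_num at hge
      linarith
    have h3 := hψle x₀
    have h4 := hψle b
    rw [hx₀] at h3
    rw [hbu] at h4
    have h5 : ψ = chi x₀ := functional_eq_of_differentiableAt hgood.1 hψ (chi_norm_le x₀)
      (by rw [hx₀]; linarith) hgood.1.fderiv_norm_self
    have h6 : chi x₀ b = ‖x₀‖ := by
      rw [← h5, hx₀]
      linarith
    exact hbx₀ (hgood.2 b (by rw [hbu, hx₀]) h6)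
  have hs₀ : (1 / 2 : ℝ) ∈ Ioo (0 : ℝ) 1 := by
    constructor <;> norm_num
  obtain ⟨εN, hεN, hN⟩ := chord_agree (L := (L : X →L[ℝ] Y)) hiso hx₀ hbu hpath hpathne hs₀ (by
    have e : b + (1 / 2 : ℝ) • (x₀ - b) = (1 / 2 : ℝ) • (x₀ + b) := by module
    rw [e]
    exact hκ)
  -- agreement at the boundary point
  have hgb : g b = L b := by
    by_contra hcon
    have hD : 0 < ‖g b - L b‖ := norm_pos_iff.2 (sub_ne_zero.2 hcon)
    set D : ℝ := ‖g b - L b‖ with hDdef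
    set M : ℝ := 1 + ‖(L : X →L[ℝ] Y)‖ with hM
    have hMpos : 0 < M := by positivity
    set s : ℝ := min (1 / 4) (D / (16 * M)) with hs
    have hspos : 0 < s := by positivity
    have hs14 : s ≤ 1 / 4 := min_le_left _ _
    have hsD : s * (16 * M) ≤ D := by
      have : s ≤ D / (16 * M) := min_le_right _ _
      rwa [le_div_iff₀ (by positivity)] at this
    have hsI : s ∈ Ioo (0 : ℝ) 1 := ⟨hspos, by linarith⟩
    set w : X := b + s • (x₀ - b) with hw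
    have hw0 : w ≠ 0 := hpathne s hsI
    have hwb : ‖w - b‖ ≤ 2 * s := by
      have e : w - b = s • (x₀ - b) := by rw [hw]; abel
      have h1 := norm_sub_le x₀ b
      rw [hx₀, hbu] at h1
      rw [e, norm_smul, Real.norm_of_nonneg hspos.le]
      nlinarith
    have hwn : 1 / 2 ≤ ‖w‖ := by
      have h1 := norm_sub_le b (b - w)
      have e : b - (b - w) = w := by abel
      rw [e, norm_sub_rev b w, hbu] at h1
      have h2 := abs_norm_sub_norm_le w b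
      rw [hbu] at h2
      have h3 := (abs_le.1 h2).1
      linarith
    set a : X := ‖w‖⁻¹ • w with ha
    have hau : ‖a‖ = 1 := by
      rw [ha, norm_smul, norm_inv, norm_norm, inv_mul_cancel₀ (by linarith)]
    have hab : ‖a - b‖ ≤ 8 * s := by
      have h1 := normalize_dist (v₀ := b) hw0
      rw [hbu, inv_one, one_smul] at h1
      refine h1.trans ?_
      rw [div_le_iff₀ (by linarith)]
      nlinarith
    have hga : g a = L a := linSet_apply (hpath s hsI) hau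
    have e : g b - L b = (g b - g a) + (L a - L b) := by
      rw [hga]
      abel
    have h1 : ‖g b - g a‖ = ‖a - b‖ := by
      rw [hiso _ _ hbu hau, norm_sub_rev]
    have h2 : ‖L a - L b‖ ≤ ‖(L : X →L[ℝ] Y)‖ * ‖a - b‖ := by
      rw [← map_sub]
      exact (L : X →L[ℝ] Y).le_opNorm (a - b)
    have h3 : D ≤ ‖g b - g a‖ + ‖L a - L b‖ := by
      rw [hDdef, e]
      exact norm_add_le _ _
    have h4 : D ≤ M * ‖a - b‖ := by
      rw [hM]
      linarith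
    have h5 : M * ‖a - b‖ ≤ M * (8 * s) := mul_le_mul_of_nonneg_left hab hMpos.le
    nlinarith
  exact hbW (prop_step' hiso hSm hNC hx₀ hbu hW hκ hgb hεN hN)

end Propagate2

end Vale.Agent.Lib.P084
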