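import Mathlib
import Vale.Agent.Lib.P084.Structure
import Vale.Agent.Lib.P084.LinfSum

/-! From the pointwise rigidity to the linear extension. -/

namespace Vale.Agent.Lib.P084

open Set Metric Filter Topology

section

variable {X Y : Type*} [NormedAddCommGroup X] [NormedSpace ℝ X]
  [NormedAddCommGroup Y] [NormedSpace ℝ Y] {g : X → Y} {h : Y → X}
  [FiniteDimensional ℝ X] [FiniteDimensional ℝ Y] [Nontrivial X]

/-- Extension when both norms are `C^3` and the first is strongly convex on a dense set. -/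
theorem smooth_extends_core (H : SphereIso g h) (hX : NormC 2 X) (hY : NormC 2 Y)
    (hdim : 3 ≤ Module.finrank ℝ X)
    (hconv : Dense {x : X | ∀ u, u ≠ 0 → chi x u = 0 → 0 < hess x u u}) :
    ∃ T' : X ≃ₗᵢ[ℝ] Y, ∀ x, ‖x‖ = 1 → T' x = g x := by
  -- good points
  have hgood : ∀ x : X, x ≠ 0 → (∀ u, u ≠ 0 → chi x u = 0 → 0 < hess x u u) → radB g x = 0 := by
    intro x hx hpos
    set s : ℝ := ‖x‖ with hs
    have hspos : 0 < s := norm_pos_iff.2 hx
    set x₁ : X := s⁻¹ • x with hx₁
    have hx₁u : ‖x₁‖ = 1 := unit_of_ne hx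
    have hx₁0 : x₁ ≠ 0 := by
      rw [← norm_pos_iff, hx₁u]
      norm_num
    have hxe : x = s • x₁ := by
      rw [hx₁, smul_smul, mul_inv_cancel₀ hspos.ne', one_smul]
    have h0 : radB g x₁ = 0 := by
      refine radB_eq_zero_of_pos H hX hY hdim hx₁u fun u hu hcu => ?_
      have e1 : chi x₁ = chi x := chi_smul (inv_pos.2 hspos) x
      have e2 : hess x₁ = s • hess x := by
        rw [hx₁, hess_smul hX (by norm_num) hx (inv_pos.2 hspos), inv_inv]
      rw [e1] at hcu
      rw [e2]
      simp only [_root_.smul_apply, smul_eq_mul]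
      exact mul_pos hspos (hpos u hu hcu)
    -- homogeneity
    have h1 := radB_hasFDerivAt H hX hY hx
    have h2 : HasFDerivAt (fun z : X => s • z) (s • ContinuousLinearMap.id ℝ X) x₁ :=
      (hasFDerivAt_id x₁).const_smul s
    have h3 : HasFDerivAt (radA g) (radB g x) (s • x₁) := by
      rw [← hxe]
      exact h1
    have h4 := h3.comp x₁ h2
    have h5 : (radA g ∘ fun z : X => s • z) =ᶠ[𝓝 x₁] radA g := by
      filter_upwards [isOpen_ne.mem_nhds hx₁0] with z hz
      exact radA_smul H hX hY hz hspos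
    have h6 := (radB_hasFDerivAt H hX hY hx₁0).congr_of_eventuallyEq h5
    have h7 := h4.unique h6
    rw [h0] at h7
    ext a b
    have h8 := congrArg (fun L => L a b) h7
    simp only [ContinuousLinearMap.comp_apply, _root_.smul_apply, ContinuousLinearMap.id_apply,
      map_smul] at h8
    have h9 : s • radB g x a b = 0 := by
      simpa using h8
    simpa [hspos.ne'] using h9
  -- everywhere by continuity
  have hall : ∀ x : X, x ≠ 0 → radB g x = 0 := by
    intro x hx
    by_contra hne
    have h1 := (radB_continuousAt H hX hY hx).eventually_ne hne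
    have h2 : ∀ᶠ z in 𝓝 x, z ≠ 0 := isOpen_ne.mem_nhds hx
    obtain ⟨U, hU, hUo, hxU⟩ := _root_.eventually_nhds_iff.1 (h1.and h2)
    obtain ⟨z, hzU, hzD⟩ := hconv.inter_open_nonempty U hUo ⟨x, hxU⟩
    exact (hU z hzU).1 (hgood z (hU z hzU).2 hzD)
  -- the derivative is constant
  have hopen : IsOpen ({0}ᶜ : Set X) := isOpen_compl_singleton
  have hrank : 1 < Module.rank ℝ X := by
    have h1 : (1 : ℕ) < Module.finrank ℝ X := by omega
    exact Module.lt_rank_of_lt_finrank h1
  have hconn : IsPreconnected ({0}ᶜ : Set X) :=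
    (isConnected_compl_singleton_of_one_lt_rank hrank 0).isPreconnected
  have hdiff : DifferentiableOn ℝ (radA g) ({0}ᶜ : Set X) := fun z hz =>
    (radB_hasFDerivAt H hX hY hz).differentiableAt.differentiableWithinAt
  have hzero : EqOn (fderiv ℝ (radA g)) 0 ({0}ᶜ : Set X) := fun z hz => hall z hz
  obtain ⟨L, hL⟩ := hopen.exists_is_const_of_fderiv_eq_zero hconn hdiff hzero
  refine exists_linearIsometryEquiv_of_agree H (L : X →ₗ[ℝ] Y) fun x hx => ?_
  have hx0 : x ≠ 0 := by
    rw [← norm_pos_iff, hx]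
    norm_num
  have h1 := radA_self H hX hY hx0
  rw [hL x hx0, radial_of_unit g hx] at h1
  exact h1

end

end Vale.Agent.Lib.P084
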