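import Mathlib
import Vale.Agent.Lib.P084.Regular

/-! Transfer of the smoothness of the norm through a sphere isometry. -/

namespace Vale.Agent.Lib.P084

open Set Metric Filter Topology

section Second

variable {E : Type*} [NormedAddCommGroup E] [NormedSpace ℝ E]

/-- A Lipschitz derivative on the sphere gives the quadratic bound on the midpoint defect. -/
lemma midpoint_defect {k : ℕ} (hE : NormC k E) (hk : 1 ≤ k) {M : ℝ}
    (hM : ∀ a b : E, ‖a‖ = 1 → ‖b‖ = 1 → ‖chi a - chi b‖ ≤ M * ‖a - b‖) {a b : E}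
    (ha : ‖a‖ = 1) (hb : ‖b‖ = 1) : 2 - ‖a + b‖ ≤ M / 2 * ‖a - b‖ ^ 2 := by
  have ha0 : a ≠ 0 := by
    rw [← norm_pos_iff, ha]
    norm_num
  have hb0 : b ≠ 0 := by
    rw [← norm_pos_iff, hb]
    norm_num
  have h1 : chi a a = 1 := by rw [hE.chi_self hk ha0, ha]
  have h2 : chi b b = 1 := by rw [hE.chi_self hk hb0, hb]
  have h3 : chi a (a + b) ≤ ‖a + b‖ := chi_le a _
  have h4 : chi b (a + b) ≤ ‖a + b‖ := chi_le b _
  rw [map_add, h1] at h3
  rw [map_add, h2] at h4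
  have h5 : (chi a - chi b) (a - b) ≤ ‖chi a - chi b‖ * ‖a - b‖ := by
    have := (chi a - chi b).le_opNorm (a - b)
    rw [Real.norm_eq_abs] at this
    exact (le_abs_self _).trans this
  have h6 := mul_le_mul_of_nonneg_right (hM a b ha hb) (norm_nonneg (a - b))
  have h7 : (chi a - chi b) (a - b) = chi a a - chi a b - chi b a + chi b b := by
    simp only [_root_.sub_apply, map_sub]
    ring
  rw [h7, h1, h2] at h5
  have h8 : M * ‖a - b‖ * ‖a - b‖ = M * ‖a - b‖ ^ 2 := by ring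
  have h9 : M / 2 * ‖a - b‖ ^ 2 = M * ‖a - b‖ ^ 2 / 2 := by ring
  rw [h9]
  linarith

/-- The elementary second-order estimate. -/
lemma sum_bound {K : ℝ} (hK : 0 ≤ K)
    (hdef : ∀ a b : E, ‖a‖ = 1 → ‖b‖ = 1 → 2 - ‖a + b‖ ≤ K * ‖a - b‖ ^ 2) {y v : E}
    (hy : ‖y‖ = 1) (hv : ‖v‖ ≤ 1 / 2) :
    ‖y + v‖ + ‖y - v‖ - 2 ≤ (144 * K + 12) * ‖v‖ ^ 2 := by
  set r : ℝ := ‖v‖ with hr
  have hr0 : 0 ≤ r := norm_nonneg v
  set P : ℝ := ‖y + v‖ with hP
  set Q : ℝ := ‖y - v‖ with hQ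
  have hP1 : |P - 1| ≤ r := by
    have := abs_norm_sub_norm_le (y + v) y
    rwa [hy, add_sub_cancel_left] at this
  have hQ1 : |Q - 1| ≤ r := by
    have := abs_norm_sub_norm_le (y - v) y
    rwa [hy, sub_sub_cancel_left, norm_neg] at this
  have hPQ : |P - Q| ≤ 2 * r := by
    have := abs_norm_sub_norm_le (y + v) (y - v)
    have e : y + v - (y - v) = (2 : ℝ) • v := by
      rw [two_smul]
      abel
    rw [e, norm_smul] at this
    simpa using this
  obtain ⟨hP2, hP3⟩ := abs_le.1 hP1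
  obtain ⟨hQ2, hQ3⟩ := abs_le.1 hQ1
  have hPpos : 1 / 2 ≤ P := by linarith
  have hQpos : 1 / 2 ≤ Q := by linarith
  have hP0 : 0 < P := by linarith
  have hQ0 : 0 < Q := by linarith
  set α : ℝ := P⁻¹ with hα
  set β : ℝ := Q⁻¹ with hβ
  have hαP : α * P = 1 := inv_mul_cancel₀ hP0.ne'
  have hβQ : β * Q = 1 := inv_mul_cancel₀ hQ0.ne'
  have hα0 : 0 < α := inv_pos.2 hP0
  have hβ0 : 0 < β := inv_pos.2 hQ0
  have hα2 : α ≤ 2 := by
    by_contra hc
    push Not at hc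
    nlinarith
  have hβ2 : β ≤ 2 := by
    by_contra hc
    push Not at hc
    nlinarith
  have hab : |α - β| ≤ 8 * r := by
    have e : α - β = α * β * (Q - P) := by
      have : α * β * (Q - P) = (β * Q) * α - (α * P) * β := by ring
      rw [this, hαP, hβQ]
      ring
    rw [e, abs_mul, abs_of_pos (mul_pos hα0 hβ0), abs_sub_comm]
    have h1 : α * β ≤ 4 := by nlinarith
    calc α * β * |P - Q| ≤ 4 * (2 * r) := by
          exact mul_le_mul h1 hPQ (abs_nonneg _) (by norm_num)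
      _ = 8 * r := by ring
  have hαe : α ≤ 1 - (P - 1) + 2 * r ^ 2 := by
    have h1 : (P - 1) ^ 2 ≤ r ^ 2 := by
      rw [← sq_abs]
      exact pow_le_pow_left₀ (abs_nonneg _) hP1 2
    have h2 : α * P ≤ (1 - (P - 1) + 2 * r ^ 2) * P := by
      rw [hαP]
      have : r ^ 2 * P ≥ r ^ 2 * (1 / 2) := mul_le_mul_of_nonneg_left hPpos (sq_nonneg r)
      nlinarith
    exact le_of_mul_le_mul_right h2 hP0
  have hβe : β ≤ 1 - (Q - 1) + 2 * r ^ 2 := by
    have h1 : (Q - 1) ^ 2 ≤ r ^ 2 := by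
      rw [← sq_abs]
      exact pow_le_pow_left₀ (abs_nonneg _) hQ1 2
    have h2 : β * Q ≤ (1 - (Q - 1) + 2 * r ^ 2) * Q := by
      rw [hβQ]
      have : r ^ 2 * Q ≥ r ^ 2 * (1 / 2) := mul_le_mul_of_nonneg_left hQpos (sq_nonneg r)
      nlinarith
    exact le_of_mul_le_mul_right h2 hQ0
  have hu1 : ‖α • (y + v)‖ = 1 := by
    rw [norm_smul, Real.norm_of_nonneg hα0.le]
    exact hαP
  have hu2 : ‖β • (y - v)‖ = 1 := by
    rw [norm_smul, Real.norm_of_nonneg hβ0.le]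
    exact hβQ
  have h1 := hdef _ _ hu1 hu2
  have e1 : α • (y + v) - β • (y - v) = (α - β) • y + (α + β) • v := by
    simp only [smul_add, smul_sub, sub_smul, add_smul]
    abel
  have e2 : α • (y + v) + β • (y - v) = (α + β) • y + (α - β) • v := by
    simp only [smul_add, smul_sub, sub_smul, add_smul]
    abel
  have hn1 : ‖α • (y + v) - β • (y - v)‖ ≤ 12 * r := by
    rw [e1]
    calc ‖(α - β) • y + (α + β) • v‖ ≤ ‖(α - β) • y‖ + ‖(α + β) • v‖ := norm_add_le _ _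
      _ = |α - β| * 1 + (α + β) * r := by
        rw [norm_smul, norm_smul, hy, Real.norm_eq_abs,
          Real.norm_of_nonneg (by positivity : 0 ≤ α + β)]
      _ ≤ 12 * r := by nlinarith
  have hn2 : ‖α • (y + v) + β • (y - v)‖ ≤ α + β + 8 * r ^ 2 := by
    rw [e2]
    calc ‖(α + β) • y + (α - β) • v‖ ≤ ‖(α + β) • y‖ + ‖(α - β) • v‖ := norm_add_le _ _
      _ = (α + β) * 1 + |α - β| * r := by
        rw [norm_smul, norm_smul, hy, Real.norm_eq_abs (α - β),
          Real.norm_of_nonneg (by positivity : 0 ≤ α + β)]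
      _ ≤ α + β + 8 * r ^ 2 := by nlinarith
  have hn3 : ‖α • (y + v) - β • (y - v)‖ ^ 2 ≤ (12 * r) ^ 2 :=
    pow_le_pow_left₀ (norm_nonneg _) hn1 2
  have h2 := mul_le_mul_of_nonneg_left hn3 hK
  nlinarith

/-- A norm with a bound on the second difference is differentiable with a quadratic error. -/
lemma hasFDerivAt_of_bound {K' : ℝ} (hK' : 0 ≤ K')
    (hsum : ∀ y v : E, ‖y‖ = 1 → ‖v‖ ≤ 1 / 2 → ‖y + v‖ + ‖y - v‖ - 2 ≤ K' * ‖v‖ ^ 2) {y : E}
    (hy : ‖y‖ = 1) {χ : E →L[ℝ] ℝ} (h1 : ‖χ‖ ≤ 1) (h2 : χ y = 1) :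
    HasFDerivAt (fun z : E => ‖z‖) χ y := by
  have hχ : ∀ w, χ w ≤ ‖w‖ := fun w => by
    have h3 := χ.le_opNorm w
    rw [Real.norm_eq_abs] at h3
    have h4 := mul_le_mul_of_nonneg_right h1 (norm_nonneg w)
    linarith [le_abs_self (χ w)]
  have hbd : ∀ v : E, ‖v‖ ≤ 1 / 2 → |‖y + v‖ - ‖y‖ - χ v| ≤ K' * ‖v‖ ^ 2 := by
    intro v hv
    have h3 := hsum y v hy hv
    have h4 := hχ (y + v)
    have h5 := hχ (y - v)
    rw [map_add, h2] at h4
    rw [map_sub, h2] at h5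
    rw [hy, abs_le]
    have h6 : 0 ≤ K' * ‖v‖ ^ 2 := by positivity
    constructor <;> linarith
  rw [hasFDerivAt_iff_isLittleO_nhds_zero]
  have h3 : (fun v : E => ‖v‖ ^ 2) =o[𝓝 0] fun v => v :=
    Asymptotics.isLittleO_norm_pow_id (by norm_num)
  refine Asymptotics.IsBigO.trans_isLittleO ?_ h3
  refine Asymptotics.IsBigO.of_bound K' ?_
  have h4 : ∀ᶠ v : E in 𝓝 0, ‖v‖ < 1 / 2 := by
    have : Tendsto (fun v : E => ‖v‖) (𝓝 0) (𝓝 0) := by
      simpa using (continuous_norm (E := E)).tendsto 0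
    exact this.eventually (gt_mem_nhds (by norm_num))
  filter_upwards [h4] with v hv
  have h5 := hbd v hv.le
  rw [Real.norm_eq_abs, norm_pow, norm_norm]
  exact h5

/-- A bound on the second difference implies that the norm is `C^1`. -/
theorem normC1_of_bound [FiniteDimensional ℝ E] {K' : ℝ} (hK' : 0 ≤ K')
    (hsum : ∀ y v : E, ‖y‖ = 1 → ‖v‖ ≤ 1 / 2 → ‖y + v‖ + ‖y - v‖ - 2 ≤ K' * ‖v‖ ^ 2) :
    NormC 1 E := by
  classical
  -- derivative at the unit vectors
  have hunit : ∀ y : E, ‖y‖ = 1 → HasFDerivAt (fun z : E => ‖z‖) (chi y) y := by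
    intro y hy
    have hy0 : y ≠ 0 := by
      rw [← norm_pos_iff, hy]
      norm_num
    obtain ⟨χ, h1, h2⟩ := exists_dual_vector'' ℝ y
    have h2' : χ y = 1 := by
      have : (RCLike.ofReal ‖y‖ : ℝ) = 1 := by
        simp [hy]
      rw [h2, this]
    have h3 := hasFDerivAt_of_bound hK' hsum hy h1 h2'
    have h4 : chi y = χ := h3.fderiv
    rw [h4]
    exact h3
  have hall : ∀ y : E, y ≠ 0 → HasFDerivAt (fun z : E => ‖z‖) (chi y) y := by
    intro y hy
    have hspos : 0 < ‖y‖ := norm_pos_iff.2 hy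
    have h1 := hunit _ (unit_of_ne hy)
    have h2 := h1.hasFDerivAt_norm_smul_pos hspos
    have e : ‖y‖ • ‖y‖⁻¹ • y = y := by
      rw [smul_smul, mul_inv_cancel₀ hspos.ne', one_smul]
    rw [e] at h2
    rwa [chi_unit hy] at h2
  -- upper bound by the tangent plane
  have hup : ∀ y v : E, ‖y‖ = 1 → ‖v‖ ≤ 1 / 2 → ‖y + v‖ ≤ 1 + chi y v + K' * ‖v‖ ^ 2 := by
    intro y v hy hv
    have h3 := hsum y v hy hv
    have h5 : chi y (y - v) ≤ ‖y - v‖ := chi_le y _
    have hy0 : y ≠ 0 := by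
      rw [← norm_pos_iff, hy]
      norm_num
    have h6 : chi y y = 1 := by
      have h7 := (hall y hy0).differentiableAt.fderiv_norm_self
      rw [hy] at h7
      exact h7
    rw [map_sub, h6] at h5
    linarith
  -- continuity on the sphere
  have hcont1 : ∀ y : E, ‖y‖ = 1 → ∀ y' : E, ‖y'‖ = 1 → ‖y' - y‖ ≤ 1 / 2 →
      ‖chi y' - chi y‖ ≤ 2 * K' * ‖y' - y‖ := by
    intro y hy y' hy' hyy
    set r : ℝ := ‖y' - y‖ with hr
    have hr0 : 0 ≤ r := norm_nonneg _
    have hy'0 : y' ≠ 0 := by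
      rw [← norm_pos_iff, hy']
      norm_num
    have h6 : chi y' y' = 1 := by
      have h7 := (hall y' hy'0).differentiableAt.fderiv_norm_self
      rw [hy'] at h7
      exact h7
    have hsame : ∀ w : E, ‖w‖ = 1 → r * (chi y' w - chi y w) ≤ 2 * K' * r ^ 2 := by
      intro w hw
      have hvn : ‖r • w‖ = r := by
        rw [norm_smul, hw, mul_one, Real.norm_of_nonneg hr0]
      have h1 := hup y (r • w) hy (by rw [hvn]; exact hyy)
      rw [hvn, map_smul, smul_eq_mul] at h1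
      have h2 : chi y' (y + r • w) ≤ ‖y + r • w‖ := chi_le y' _
      rw [map_add, map_smul, smul_eq_mul] at h2
      have h3 := hup y' (y - y') hy' (by rw [norm_sub_rev]; exact hyy)
      have e : y' + (y - y') = y := by abel
      rw [e, hy, norm_sub_rev, ← hr, map_sub, h6] at h3
      nlinarith
    rcases hr0.eq_or_lt with h0 | hpos
    · have h1 : y' = y := by
        have := h0.symm
        rw [hr] at this
        exact sub_eq_zero.1 (norm_eq_zero.1 this)
      rw [h1, sub_self, norm_zero]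
      exact mul_nonneg (by linarith) hr0
    · refine ContinuousLinearMap.opNorm_le_of_unit_norm (by positivity) fun w hw => ?_
      rw [Real.norm_eq_abs, abs_le]
      simp only [_root_.sub_apply]
      have h1 := hsame w hw
      have h2 := hsame (-w) (by rwa [norm_neg])
      simp only [map_neg] at h2
      have e : 2 * K' * r ^ 2 = r * (2 * K' * r) := by ring
      rw [e] at h1 h2
      have h3 := le_of_mul_le_mul_left h1 hpos
      have h4 := le_of_mul_le_mul_left h2 hpos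
      constructor <;> linarith
  have hcontU : ∀ y : E, ‖y‖ = 1 → ContinuousWithinAt (chi : E → E →L[ℝ] ℝ) {z | ‖z‖ = 1} y := by
    intro y hy
    rw [Metric.continuousWithinAt_iff]
    intro ε hε
    refine ⟨min (1 / 2) (ε / (2 * (K' + 1))), by positivity, ?_⟩
    intro y' hy' hd
    rw [dist_eq_norm] at hd ⊢
    have h1 : ‖y' - y‖ ≤ 1 / 2 := hd.le.trans (min_le_left _ _)
    have h2 := hcont1 y hy y' hy' h1
    have h3 : ‖y' - y‖ < ε / (2 * (K' + 1)) := hd.trans_le (min_le_right _ _)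
    have h4 : ‖y' - y‖ * (2 * (K' + 1)) < ε := by
      rwa [lt_div_iff₀ (by positivity)] at h3
    have h5 : 2 * K' * ‖y' - y‖ ≤ ‖y' - y‖ * (2 * (K' + 1)) := by
      have := norm_nonneg (y' - y)
      nlinarith
    linarith
  have hcont : ∀ y : E, y ≠ 0 → ContinuousAt (chi : E → E →L[ℝ] ℝ) y := by
    intro y hy
    have h1 : ContinuousAt (fun z : E => ‖z‖⁻¹ • z) y :=
      ((continuous_norm.continuousAt).inv₀ (norm_ne_zero_iff.2 hy)).smul continuousAt_id
    have h2 : Tendsto (fun z : E => ‖z‖⁻¹ • z) (𝓝 y) (𝓝[{z | ‖z‖ = 1}] (‖y‖⁻¹ • y)) := by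
      refine tendsto_nhdsWithin_iff.2 ⟨h1, ?_⟩
      filter_upwards [isOpen_ne.mem_nhds hy] with z hz
      exact unit_of_ne hz
    have h3 := (hcontU _ (unit_of_ne hy)).tendsto.comp h2
    have h4 : ContinuousAt (chi ∘ fun z : E => ‖z‖⁻¹ • z) y := by
      unfold ContinuousAt
      exact h3
    refine h4.congr ?_
    filter_upwards [isOpen_ne.mem_nhds hy] with z hz
    exact chi_unit hz
  intro y hy
  have h0 : ((1 : ℕ) : WithTop ℕ∞) = ((0 : ℕ) : WithTop ℕ∞) + 1 := by norm_num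
  rw [h0, contDiffAt_succ_iff_hasFDerivAt]
  refine ⟨chi, ⟨{0}ᶜ, isOpen_compl_singleton.mem_nhds hy, fun z hz => hall z hz⟩, ?_⟩
  rw [Nat.cast_zero, contDiffAt_zero]
  refine ⟨{0}ᶜ, isOpen_compl_singleton.mem_nhds hy, fun z hz =>
    (hcont z hz).continuousWithinAt⟩

/-- For a `C^2` norm on a finite-dimensional space, the derivative is Lipschitz on the sphere. -/
lemma exists_lipschitz_chi [FiniteDimensional ℝ E] (hE : NormC 2 E) :
    ∃ M : ℝ, 0 ≤ M ∧ ∀ a b : E, ‖a‖ = 1 → ‖b‖ = 1 → ‖chi a - chi b‖ ≤ M * ‖a - b‖ := by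
  have hcomp : IsCompact (sphere (0 : E) 1) := isCompact_sphere _ _
  have hloc : LocallyLipschitzOn (sphere (0 : E) 1) (chi : E → E →L[ℝ] ℝ) := by
    intro x hx
    have hx0 : x ≠ 0 := by
      intro h0
      rw [h0] at hx
      simp at hx
    have h1 : NormC (1 + 1) E := hE
    have h2 : ContDiffAt ℝ ((1 : ℕ) : WithTop ℕ∞) (chi : E → E →L[ℝ] ℝ) x := h1.chi_contDiffAt hx0
    have h3 : ContDiffAt ℝ 1 (chi : E → E →L[ℝ] ℝ) x := by
      simpa using h2
    obtain ⟨K, t, ht, hL⟩ := h3.exists_lipschitzOnWith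
    exact ⟨K, t, mem_nhdsWithin_of_mem_nhds ht, hL⟩
  obtain ⟨K, hK⟩ := hloc.exists_lipschitzOnWith_of_compact hcomp
  refine ⟨K, K.2, fun a b ha hb => ?_⟩
  have h1 := hK.dist_le_mul a (by simpa using ha) b (by simpa using hb)
  rwa [dist_eq_norm, dist_eq_norm] at h1

end Second

end Vale.Agent.Lib.P084
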