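import Mathlib
import Vale.Agent.Lib.P084.Transfer

/-! Transfer of the smoothness of the norm through a sphere isometry: the inductive step. -/

namespace Vale.Agent.Lib.P084

open Set Metric Filter Topology

section

variable {X Y : Type*} [NormedAddCommGroup X] [NormedSpace ℝ X]
  [NormedAddCommGroup Y] [NormedSpace ℝ Y] {g : X → Y} {h : Y → X}
  [FiniteDimensional ℝ X] [FiniteDimensional ℝ Y] [Nontrivial X]

/-- The first step: a `C^2` norm makes the norm of the target `C^1`. -/
theorem normC1_of_iso (H : SphereIso g h) (hX : NormC 2 X) : NormC 1 Y := by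
  obtain ⟨M, hM0, hM⟩ := exists_lipschitz_chi hX
  have hK : 0 ≤ M / 2 := by positivity
  have hdef : ∀ a b : Y, ‖a‖ = 1 → ‖b‖ = 1 → 2 - ‖a + b‖ ≤ M / 2 * ‖a - b‖ ^ 2 := by
    intro a b ha hb
    have h1 := midpoint_defect hX (by norm_num) hM (H.map_h a ha) (H.map_h b hb)
    rw [H.iso_h a b ha hb] at h1
    have h2 := radial_norm_add H (u := h a) (u' := h b) (by rw [H.map_h a ha, H.map_h b hb])
    rw [radial_of_unit g (H.map_h a ha), radial_of_unit g (H.map_h b hb), H.right a ha,
      H.right b hb] at h2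
    rwa [← h2] at h1
  exact normC1_of_bound (by positivity) fun y v hy hv => sum_bound hK hdef hy hv

/-- The inductive step: the norm of the target gains a derivative. -/
theorem normC_succ (H : SphereIso g h) {j : ℕ} (hj : 1 ≤ j) (hX : NormC (j + 1) X)
    (hY : NormC j Y) : NormC (j + 1) Y := by
  intro y₀ hy₀
  have hjne : (j : WithTop ℕ∞) ≠ 0 := by
    have : j ≠ 0 := by omega
    exact_mod_cast this
  have hXj : NormC j X := hX.mono (by omega)
  have hX1 : 1 ≤ j + 1 := by omega
  -- the base points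
  set p : Y := ‖y₀‖⁻¹ • y₀ with hp
  have hpu : ‖p‖ = 1 := unit_of_ne hy₀
  have hp0 : p ≠ 0 := by
    rw [← norm_pos_iff, hpu]
    norm_num
  haveI : Nontrivial Y := ⟨⟨p, 0, hp0⟩⟩
  set xb : X := h p with hxb
  have hxbu : ‖xb‖ = 1 := H.map_h p hpu
  have hxb0 : xb ≠ 0 := by
    rw [← norm_pos_iff, hxbu]
    norm_num
  have hTxb : radial g xb = p := by
    rw [radial_of_unit g hxbu, hxb, H.right p hpu]
  have hRp : radial h p = xb := radial_of_unit h hpu
  have hTC : ContDiffAt ℝ j (radial g) xb := radial_contDiffAt H hj hXj hY hxb0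
  have hRC : ∀ y : Y, y ≠ 0 → ContDiffAt ℝ j (radial h) y := fun y hy =>
    radial_contDiffAt H.symm hj hY hXj hy
  set A : X →L[ℝ] Y := fderiv ℝ (radial g) xb with hA
  have hAd : HasFDerivAt (radial g) A xb := (hTC.differentiableAt hjne).hasFDerivAt
  set B : Y →L[ℝ] X := fderiv ℝ (radial h) p with hB
  have hBd : HasFDerivAt (radial h) B p := ((hRC p hp0).differentiableAt hjne).hasFDerivAt
  have hAB : ∀ v, A (B v) = v := by
    have hT' : HasFDerivAt (radial g) A (radial h p) := by
      rw [hRp]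
      exact hAd
    have h1 := hT'.comp p hBd
    have h2 : (radial g ∘ radial h) = id := by
      funext z
      exact radial_symm H.symm z
    rw [h2] at h1
    have h3 := h1.unique (hasFDerivAt_id p)
    intro v
    exact congrArg (fun L => L v) h3
  have hχ : ∀ s, chi p (A s) = chi xb s := by
    have hN : HasFDerivAt (fun z : Y => ‖z‖) (chi p) (radial g xb) := by
      rw [hTxb]
      exact hY.hasFDerivAt hj hp0
    have h1 := hN.comp xb hAd
    have h2 : ((fun z : Y => ‖z‖) ∘ radial g) = fun z : X => ‖z‖ := by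
      funext z
      exact radial_norm H z
    rw [h2] at h1
    have h3 := h1.unique (hX.hasFDerivAt hX1 hxb0)
    intro s
    exact congrArg (fun L => L s) h3
  -- the chord identity
  have hchord : ∀ a : X, ‖a‖ = 1 → a ≠ xb → ∀ s, chi xb s = 0 →
      chi (p - g a) (A s) = chi (xb - a) s := by
    intro a ha hne s hs
    have hgne : g a ≠ p := by
      intro h1
      apply hne
      rw [hxb, ← h1, H.left a ha]
    have h1 : HasFDerivAt (dc a) (dcD a xb) xb :=
      dc_hasFDerivAt hX hX1 hxb0 (by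
        rw [hxbu, one_smul]
        exact sub_ne_zero.2 hne.symm)
    have h2 : HasFDerivAt (dc (g a)) (dcD (g a) p) (radial g xb) := by
      rw [hTxb]
      exact dc_hasFDerivAt hY hj hp0 (by
        rw [hpu, one_smul]
        exact sub_ne_zero.2 hgne.symm)
    have h3 := h2.comp xb hAd
    have h4 : (dc (g a) ∘ radial g) = dc a := by
      funext z
      exact dc_radial H ha z
    rw [h4] at h3
    have h5 := h3.unique h1
    have h6 := congrArg (fun L => L s) h5
    simp only [ContinuousLinearMap.comp_apply, dcD_apply, hpu, hxbu, one_smul, hχ, hs, zero_smul,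
      sub_zero] at h6
    exact h6
  -- the chord map and its local inverse
  let π : Y → Y := fun w => ‖w‖ • p - w
  have hm0 : (-p : Y) ≠ 0 := neg_ne_zero.2 hp0
  have hπC : ContDiffAt ℝ j π (-p) :=
    ((hY _ hm0).smul contDiffAt_const).sub contDiffAt_id
  have hcpp : chi p p = 1 := by rw [hY.chi_self hj hp0, hpu]
  let D : Y →L[ℝ] Y := -(chi p).smulRight p - ContinuousLinearMap.id ℝ Y
  have hπD : HasFDerivAt π D (-p) := by
    have h1 : HasFDerivAt (fun z : Y => ‖z‖) (-chi p) (-p) := by
      rw [← chi_neg]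
      exact hY.hasFDerivAt hj hm0
    have h2 := (h1.smul_const p).sub (hasFDerivAt_id (-p))
    refine h2.congr_fderiv ?_
    ext v
    simp [D]
  let E : Y →L[ℝ] Y := -ContinuousLinearMap.id ℝ Y + ((1 / 2 : ℝ) • chi p).smulRight p
  have hDE : D.comp E = ContinuousLinearMap.id ℝ Y := by
    ext v
    simp only [D, E, ContinuousLinearMap.comp_apply, _root_.sub_apply, _root_.add_apply,
      _root_.neg_apply, ContinuousLinearMap.smulRight_apply, ContinuousLinearMap.id_apply,
      _root_.smul_apply, smul_eq_mul, map_add, map_neg, map_smul, hcpp]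
    module
  have hED : E.comp D = ContinuousLinearMap.id ℝ Y := by
    ext v
    simp only [D, E, ContinuousLinearMap.comp_apply, _root_.sub_apply, _root_.add_apply,
      _root_.neg_apply, ContinuousLinearMap.smulRight_apply, ContinuousLinearMap.id_apply,
      _root_.smul_apply, smul_eq_mul, map_sub, map_neg, map_smul, hcpp]
    module
  let D' : Y ≃L[ℝ] Y := ContinuousLinearEquiv.equivOfInverse D E
    (fun v => congrArg (fun L => L v) hED) (fun v => congrArg (fun L => L v) hDE)
  have hπD' : HasFDerivAt π (D' : Y →L[ℝ] Y) (-p) := hπD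
  have hσC := hπC.to_localInverse hπD' hjne
  set σ : Y → Y := hπC.localInverse hπD' hjne with hσ
  have hstrict := hπC.hasStrictFDerivAt' hπD' hjne
  have hq : π (-p) = (2 : ℝ) • p := by
    simp only [π, norm_neg, hpu, one_smul, sub_neg_eq_add, two_smul]
  have hq0 : π (-p) ≠ 0 := by
    rw [hq]
    exact smul_ne_zero two_ne_zero hp0
  have hσq : σ (π (-p)) = -p := hstrict.localInverse_apply_image
  have hright : ∀ᶠ y in 𝓝 (π (-p)), π (σ y) = y := hstrict.eventually_right_inverse
  have hσcont : ContinuousAt σ (π (-p)) := hσC.continuousAt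
  -- the chord functional in the source
  let Ψ : Y → X →L[ℝ] ℝ := fun w => chi (‖w‖ • xb - radial h w)
  have hRm : radial h (-p) = -xb := by
    have : ‖(-p : Y)‖ = 1 := by rwa [norm_neg]
    rw [radial_of_unit h this, sphere_odd H.symm hpu]
  have hval : ‖(-p : Y)‖ • xb - radial h (-p) = (2 : ℝ) • xb := by
    rw [norm_neg, hpu, one_smul, hRm, sub_neg_eq_add, two_smul]
  have hΨC : ContDiffAt ℝ j Ψ (-p) := by
    have h1 : ContDiffAt ℝ j (fun w : Y => ‖w‖ • xb - radial h w) (-p) :=
      ((hY _ hm0).smul contDiffAt_const).sub (hRC _ hm0)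
    have h2 : ContDiffAt ℝ j (chi : X → X →L[ℝ] ℝ) (‖(-p : Y)‖ • xb - radial h (-p)) := by
      rw [hval]
      exact hX.chi_contDiffAt (smul_ne_zero two_ne_zero hxb0)
    exact h2.comp (-p) h1
  have hΨσ : ContDiffAt ℝ j (fun y => Ψ (σ y)) (π (-p)) := by
    have h1 : ContDiffAt ℝ j Ψ (σ (π (-p))) := by
      rw [hσq]
      exact hΨC
    exact h1.comp (π (-p)) hσC
  -- the explicit formula
  let c : Y → ℝ := fun y => (chi p y)⁻¹
  let P : Y → Y →L[ℝ] Y := fun y =>
    ContinuousLinearMap.id ℝ Y - c y • (chi p).smulRight y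
  let Φ : Y → Y →L[ℝ] ℝ := fun y =>
    (Ψ (σ y)).comp (B.comp (P y)) + (c y * ‖y‖) • chi p
  have hcq : chi p (π (-p)) ≠ 0 := by
    rw [hq, map_smul, hcpp]
    norm_num
  have hcC : ContDiffAt ℝ j c (π (-p)) :=
    ((chi p).contDiff.contDiffAt).inv hcq
  have hPC : ContDiffAt ℝ j P (π (-p)) := by
    have h1 : ContDiff ℝ j (fun y : Y => (chi p).smulRight y) :=
      (ContinuousLinearMap.smulRightL ℝ Y Y (chi p)).contDiff
    exact contDiffAt_const.sub (hcC.smul h1.contDiffAt)
  have hΦC : ContDiffAt ℝ j Φ (π (-p)) :=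
    (hΨσ.clm_comp (contDiffAt_const.clm_comp hPC)).add
      ((hcC.mul (hY _ hq0)).smul contDiffAt_const)
  -- the formula holds near the base point
  have hΦeq : ∀ᶠ y in 𝓝 (π (-p)), chi y = Φ y := by
    have h1 : ∀ᶠ y in 𝓝 (π (-p)), σ y ≠ 0 := by
      refine hσcont.eventually_ne ?_
      rw [hσq]
      exact hm0
    have h2 : ∀ᶠ y in 𝓝 (π (-p)), y ≠ 0 := isOpen_ne.mem_nhds hq0
    have h3 : ∀ᶠ y in 𝓝 (π (-p)), chi p y ≠ 0 :=
      ((chi p).continuous.continuousAt).eventually_ne hcq
    filter_upwards [hright, h1, h2, h3] with y hy1 hw0 hy0' hcy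
    set w : Y := σ y with hw
    set n : ℝ := ‖w‖ with hn
    have hnpos : 0 < n := norm_pos_iff.2 hw0
    set w₁ : Y := n⁻¹ • w with hw₁
    have hw₁u : ‖w₁‖ = 1 := unit_of_ne hw0
    have hwe : w = n • w₁ := by
      rw [hw₁, smul_smul, mul_inv_cancel₀ hnpos.ne', one_smul]
    have hye : y = n • (p - w₁) := by
      rw [smul_sub, ← hwe]
      exact hy1.symm
    set a : X := h w₁ with ha
    have hau : ‖a‖ = 1 := H.map_h _ hw₁u
    have hga : g a = w₁ := H.right _ hw₁u
    have hane : a ≠ xb := by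
      intro h4
      have h5 : w₁ = p := by
        rw [← hga, h4, hxb, H.right p hpu]
      apply hy0'
      rw [hye, h5, sub_self, smul_zero]
    have hchiy : chi y = chi (p - g a) := by
      rw [hye, hga, chi_smul hnpos]
    have hΨw : Ψ w = chi (xb - a) := by
      have h4 : radial h w = n • a := rfl
      simp only [Ψ]
      rw [h4, ← hn, ← smul_sub, chi_smul hnpos]
    ext v
    simp only [Φ, P, c, _root_.add_apply, ContinuousLinearMap.comp_apply, _root_.sub_apply,
      _root_.smul_apply, ContinuousLinearMap.id_apply, ContinuousLinearMap.smulRight_apply,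
      smul_eq_mul]
    rw [← hw, hΨw]
    set c₀ : ℝ := (chi p y)⁻¹ with hc₀
    have hc₀m : c₀ * chi p y = 1 := inv_mul_cancel₀ hcy
    set v₀ : Y := v - c₀ • chi p v • y with hv₀
    have hcv₀ : chi p v₀ = 0 := by
      simp only [hv₀, map_sub, map_smul, smul_eq_mul]
      have : c₀ * (chi p v * chi p y) = chi p v * (c₀ * chi p y) := by ring
      rw [this, hc₀m]
      ring
    have hcs : chi xb (B v₀) = 0 := by
      rw [← hχ, hAB, hcv₀]
    have h5 := hchord a hau hane (B v₀) hcs
    rw [hAB] at h5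
    rw [← h5, ← hchiy]
    have h6 : chi y v₀ = chi y v - c₀ * chi p v * ‖y‖ := by
      simp only [hv₀, map_sub, map_smul, smul_eq_mul, hY.chi_self hj hy0']
      ring
    rw [h6]
    ring
  have hχC : ContDiffAt ℝ j (chi : Y → Y →L[ℝ] ℝ) (π (-p)) :=
    hΦC.congr_of_eventuallyEq hΦeq
  -- back to the original point
  have hspos : 0 < ‖y₀‖ := norm_pos_iff.2 hy₀
  set κ : ℝ := 2 * ‖y₀‖⁻¹ with hκ
  have hκpos : 0 < κ := by positivity
  have hκy : κ • y₀ = π (-p) := by
    rw [hq, hp, smul_smul]
  have hχC₀ : ContDiffAt ℝ j (chi : Y → Y →L[ℝ] ℝ) y₀ := by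
    have h1 : ContDiffAt ℝ j (chi : Y → Y →L[ℝ] ℝ) (κ • y₀) := by
      rw [hκy]
      exact hχC
    have h2 : ContDiffAt ℝ j (fun z : Y => κ • z) y₀ := contDiffAt_const.smul contDiffAt_id
    have h3 := h1.comp y₀ h2
    refine h3.congr_of_eventuallyEq (Eventually.of_forall fun z => ?_)
    exact (chi_smul hκpos z).symm
  have e : ((j + 1 : ℕ) : WithTop ℕ∞) = (j : WithTop ℕ∞) + 1 := by push_cast; rfl
  rw [e, contDiffAt_succ_iff_hasFDerivAt]
  exact ⟨chi, ⟨{0}ᶜ, isOpen_compl_singleton.mem_nhds hy₀, fun z hz => hY.hasFDerivAt hj hz⟩, hχC₀⟩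

/-- Smoothness transfers through a sphere isometry. -/
theorem normC_transfer (H : SphereIso g h) {k : ℕ} (hk : 2 ≤ k) (hX : NormC k X) : NormC k Y := by
  induction k, hk using Nat.le_induction with
  | base => exact normC_succ H (j := 1) le_rfl hX (normC1_of_iso H hX)
  | succ k hk ih =>
    exact normC_succ H (j := k) (by omega) hX (ih (hX.mono (by omega)))

end

end Vale.Agent.Lib.P084
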