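import Mathlib
import Vale.Agent.Lib.P084.Rigid
import Vale.Agent.Lib.P084.Transfer2
import Vale.Agent.Lib.P084.Interface

/-! The Mazur-Ulam property for `C^2` norms of positive curvature in dimension at least three. -/

namespace Vale.Agent.Lib.P084

open Set Metric Filter Topology

variable {X Y : Type*} [NormedAddCommGroup X] [NormedSpace ℝ X]
  [NormedAddCommGroup Y] [NormedSpace ℝ Y]

theorem smooth_extends [FiniteDimensional ℝ X] (hdim : 3 ≤ Module.finrank ℝ X)
    (hsmooth : ∀ x : X, x ≠ 0 → ContDiffAt ℝ 2 (fun z : X => ‖z‖) x)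
    (hconv : Dense {x : X | ∀ u, u ≠ 0 → fderiv ℝ (fun z : X => ‖z‖) x u = 0 →
      0 < fderiv ℝ (fderiv ℝ (fun z : X => ‖z‖)) x u u})
    (f : sphere (0 : X) 1 ≃ᵢ sphere (0 : Y) 1) :
    ∃ T : X ≃ₗᵢ[ℝ] Y, ∀ x : sphere (0 : X) 1, T x = f x := by
  haveI : FiniteDimensional ℝ Y := finiteDimensional_of_sphere f
  haveI : Nontrivial X := Module.nontrivial_of_finrank_pos (R := ℝ) (by omega)
  obtain ⟨g, h, H, hg⟩ := exists_sphereIso f
  have hX : NormC 2 X := hsmooth
  have hY : NormC 2 Y := normC_transfer H (by norm_num) hX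
  obtain ⟨T, hT⟩ := smooth_extends_core H hX hY hdim hconv
  refine ⟨T, fun x => ?_⟩
  rw [hT x (by simpa using x.2), hg]

end Vale.Agent.Lib.P084
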