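import Mathlib
import Vale.Agent.Lib.P084.Smooth

/-! A strictly convex `C^2` norm has positive curvature on a dense set. -/

namespace Vale.Agent.Lib.P084

open Set Metric Filter Topology MeasureTheory

section

variable {E : Type*} [NormedAddCommGroup E] [NormedSpace ℝ E]

lemma chi_monotone {k : ℕ} (hE : NormC k E) (hk : 1 ≤ k) {a b : E} (ha : a ≠ 0) (hb : b ≠ 0) :
    0 ≤ (chi a - chi b) (a - b) := by
  have h1 := hE.chi_self hk ha
  have h2 := hE.chi_self hk hb
  have h3 := chi_le a b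
  have h4 := chi_le b a
  simp only [_root_.sub_apply, map_sub]
  linarith

lemma hess_nonneg (hE : NormC 2 E) {z : E} (hz : z ≠ 0) (u : E) : 0 ≤ hess z u u := by
  have h1 : HasDerivAt (fun t : ℝ => z + t • u) u 0 := by
    simpa using ((hasDerivAt_id (0 : ℝ)).smul_const u).const_add z
  have h0 : z + (0 : ℝ) • u = z := by simp
  have h2 : HasFDerivAt (chi : E → E →L[ℝ] ℝ) (hess z) (z + (0 : ℝ) • u) := by
    rw [h0]
    exact hE.hess_hasFDerivAt (by norm_num) hz
  have h3 := h2.comp_hasDerivAt (0 : ℝ) h1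
  have h4 : HasDerivAt (fun t : ℝ => chi (z + t • u) u) (hess z u u) 0 := by
    have := h3.clm_apply (hasDerivAt_const (0 : ℝ) u)
    simpa [h0] using this
  have h5 := h4.tendsto_slope_zero_right
  refine ge_of_tendsto h5 ?_
  have h6 : ∀ᶠ t in 𝓝[>] (0 : ℝ), z + t • u ≠ 0 := by
    have hc : ContinuousAt (fun t : ℝ => z + t • u) 0 := by fun_prop
    exact nhdsWithin_le_nhds (hc.eventually_ne (by rwa [h0]))
  filter_upwards [h6, self_mem_nhdsWithin] with t ht htpos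
  have htp : (0 : ℝ) < t := htpos
  have h7 := chi_monotone hE (by norm_num) ht hz
  have e : z + t • u - z = t • u := by abel
  rw [e] at h7
  simp only [_root_.sub_apply, map_smul, smul_eq_mul] at h7
  have h8 : 0 ≤ t * (chi (z + t • u) u - chi z u) := by linarith
  have h9 : 0 ≤ chi (z + t • u) u - chi z u := nonneg_of_mul_nonneg_right h8 htp
  simp only [zero_add, h0, smul_eq_mul]
  exact mul_nonneg (inv_pos.2 htp).le h9

lemma hess_kernel (hE : NormC 2 E) {z u : E} (hz : z ≠ 0) (h : hess z u u ≤ 0) : hess z u = 0 := by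
  have h0 : hess z u u = 0 := le_antisymm h (hess_nonneg hE hz u)
  ext v
  by_contra hc
  have hc' : hess z u v ≠ 0 := hc
  set s : ℝ := -(hess z v v + 1) / (2 * hess z u v) with hs
  have key := hess_nonneg hE hz (v + s • u)
  simp only [map_add, map_smul, _root_.add_apply, _root_.smul_apply, smul_eq_mul, h0,
    hess_symm hE (by norm_num) hz v u] at key
  have e : s * hess z u v = -(hess z v v + 1) / 2 := by
    rw [hs]
    field_simp
  nlinarith

lemma norm_chi_eq {k : ℕ} (hE : NormC k E) (hk : 1 ≤ k) {z : E} (hz : z ≠ 0) : ‖chi z‖ = 1 := by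
  refine le_antisymm (chi_norm_le z) ?_
  have h1 := hE.chi_self hk hz
  have h2 := (chi z).le_opNorm z
  rw [h1, norm_norm] at h2
  have h3 : 0 < ‖z‖ := norm_pos_iff.2 hz
  nlinarith

variable [FiniteDimensional ℝ E]

lemma exists_dualMap_eq {k : ℕ} (hE : NormC k E) (hk : 1 ≤ k) [Nontrivial E] {ψ : E →L[ℝ] ℝ}
    (hψ : ψ ≠ 0) : ∃ z : E, z ≠ 0 ∧ ‖z‖ = ‖ψ‖ ∧ ‖z‖ • chi z = ψ := by
  have hψn : 0 < ‖ψ‖ := norm_pos_iff.2 hψ
  have hne : (sphere (0 : E) 1).Nonempty := NormedSpace.sphere_nonempty.2 zero_le_one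
  obtain ⟨z₁, hz₁, hmax⟩ := (isCompact_sphere (0 : E) 1).exists_isMaxOn hne ψ.continuous.continuousOn
  have hz₁u : ‖z₁‖ = 1 := by simpa using hz₁
  have hz₁0 : z₁ ≠ 0 := by
    rw [← norm_pos_iff, hz₁u]
    norm_num
  have hle : ‖ψ‖ ≤ ψ z₁ := by
    refine ContinuousLinearMap.opNorm_le_of_unit_norm ?_ fun w hw => ?_
    · have h1 : ψ (-z₁) ≤ ψ z₁ := hmax (by simpa using hz₁u)
      rw [map_neg] at h1
      linarith
    · have h1 : ψ w ≤ ψ z₁ := hmax (by simpa using hw)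
      have h2 : ψ (-w) ≤ ψ z₁ := hmax (by simpa using hw)
      rw [map_neg] at h2
      rw [Real.norm_eq_abs, abs_le]
      constructor <;> linarith
  have hge : ψ z₁ ≤ ‖ψ‖ := by
    have h1 := ψ.le_opNorm z₁
    rw [hz₁u, mul_one, Real.norm_eq_abs] at h1
    exact (le_abs_self _).trans h1
  have heq : ψ z₁ = ‖ψ‖ := le_antisymm hge hle
  have hd : DifferentiableAt ℝ (fun y : E => ‖y‖) z₁ := (hE.hasFDerivAt hk hz₁0).differentiableAt
  have h1 : ‖ψ‖⁻¹ • ψ = chi z₁ := by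
    refine functional_eq_of_differentiableAt hd ?_ (chi_norm_le z₁) ?_ (hE.chi_self hk hz₁0)
    · rw [norm_smul, norm_inv, norm_norm, inv_mul_cancel₀ hψn.ne']
    · simp only [_root_.smul_apply, smul_eq_mul]
      rw [heq, inv_mul_cancel₀ hψn.ne', hz₁u]
  refine ⟨‖ψ‖ • z₁, smul_ne_zero hψn.ne' hz₁0, ?_, ?_⟩
  · rw [norm_smul, norm_norm, hz₁u, mul_one]
  · rw [chi_smul hψn, ← h1, norm_smul, norm_norm, hz₁u, mul_one, smul_smul,
      mul_inv_cancel₀ hψn.ne', one_smul]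

lemma dualMap_injective {k : ℕ} [StrictConvexSpace ℝ E] (hE : NormC k E) (hk : 1 ≤ k) {a b : E}
    (ha : a ≠ 0) (hb : b ≠ 0) (h : ‖a‖ • chi a = ‖b‖ • chi b) : a = b := by
  have hna : 0 < ‖a‖ := norm_pos_iff.2 ha
  have hn : ‖a‖ = ‖b‖ := by
    have := congrArg norm h
    rwa [norm_smul, norm_smul, norm_norm, norm_norm, norm_chi_eq hE hk ha, norm_chi_eq hE hk hb,
      mul_one, mul_one] at this
  have hchi : chi a = chi b := by
    rw [← hn] at h
    exact smul_right_injective _ hna.ne' h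
  have h1 : chi a (a + b) ≤ ‖a + b‖ := chi_le a _
  rw [map_add, hE.chi_self hk ha, hchi, hE.chi_self hk hb] at h1
  have h2 : ‖a + b‖ = ‖a‖ + ‖b‖ := le_antisymm (norm_add_le a b) h1
  have h3 := (sameRay_iff_norm_add.2 h2).norm_smul_eq
  rw [← hn] at h3
  exact (smul_right_injective _ hna.ne' h3).symm

/-- A strictly convex `C^2` norm on a finite-dimensional space has positive curvature on a dense
set: otherwise the gradient of half the squared norm, a homeomorphism onto the dual minus the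
origin, would have vanishing Jacobian on an open set, against the easy case of Sard's theorem. -/
theorem dense_positive_of_strictConvex [Nontrivial E] [StrictConvexSpace ℝ E] (hE : NormC 2 E) :
    Dense {x : E | ∀ u, u ≠ 0 → chi x u = 0 → 0 < hess x u u} := by
  classical
  rw [dense_iff_inter_open]
  intro U hU hUne
  by_contra hne
  obtain ⟨z₀, hz₀U, hz₀⟩ := (dense_compl_singleton (0 : E)).inter_open_nonempty U hU hUne
  have hz₀0 : z₀ ≠ 0 := hz₀
  set W : Set E := U ∩ {0}ᶜ with hW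
  have hWo : IsOpen W := hU.inter isOpen_compl_singleton
  have hbad : ∀ z ∈ W, ∃ u, u ≠ 0 ∧ chi z u = 0 ∧ hess z u = 0 := by
    intro z hz
    have hz0 : z ≠ 0 := hz.2
    by_contra hc
    apply hne
    refine ⟨z, hz.1, fun u hu hcu => ?_⟩
    by_contra hp
    exact hc ⟨u, hu, hcu, hess_kernel hE hz0 (not_lt.1 hp)⟩
  let Φ : E → E →L[ℝ] ℝ := fun z => ‖z‖ • chi z
  have hfin : Module.finrank ℝ (E →L[ℝ] ℝ) = Module.finrank ℝ E := by
    rw [← Subspace.dual_finrank_eq (K := ℝ) (V := E)]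
    exact (LinearMap.toContinuousLinearMap (𝕜 := ℝ) (E := E) (F' := ℝ)).symm.finrank_eq
  let Λ : (E →L[ℝ] ℝ) ≃L[ℝ] E := ContinuousLinearEquiv.ofFinrankEq hfin
  letI : MeasurableSpace E := borel E
  haveI : BorelSpace E := ⟨rfl⟩
  let μ : Measure E := Measure.addHaar
  let Ψ : E → E := fun z => Λ (Φ z)
  let Ψ' : E → E →L[ℝ] E := fun z =>
    (Λ : (E →L[ℝ] ℝ) →L[ℝ] E).comp (‖z‖ • hess z + (chi z).smulRight (chi z))
  have hΨ' : ∀ z ∈ W, HasFDerivWithinAt Ψ (Ψ' z) W z := by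
    intro z hz
    have hz0 : z ≠ 0 := hz.2
    have h1 := hE.hasFDerivAt (by norm_num) hz0
    have h2 := hE.hess_hasFDerivAt (by norm_num) hz0
    have h3 : HasFDerivAt Φ (‖z‖ • hess z + (chi z).smulRight (chi z)) z := h1.smul h2
    exact ((Λ : (E →L[ℝ] ℝ) →L[ℝ] E).hasFDerivAt.comp z h3).hasFDerivWithinAt
  have hdet : ∀ z ∈ W, (Ψ' z).det = 0 := by
    intro z hz
    obtain ⟨u, hu0, hu1, hu2⟩ := hbad z hz
    have h1 : Ψ' z u = 0 := by
      simp only [Ψ', ContinuousLinearMap.comp_apply, _root_.add_apply, _root_.smul_apply, hu2,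
        ContinuousLinearMap.smulRight_apply, hu1, zero_smul, smul_zero, add_zero]
      simp
    have h2 : LinearMap.det ((Ψ' z : E →L[ℝ] E) : E →ₗ[ℝ] E) = 0 := by
      rw [LinearMap.det_eq_zero_iff_ker_ne_bot]
      intro hbot
      have h3 : u ∈ LinearMap.ker ((Ψ' z : E →L[ℝ] E) : E →ₗ[ℝ] E) := h1
      rw [hbot] at h3
      exact hu0 h3
    exact h2
  have hnull : μ (Ψ '' W) = 0 := addHaar_image_eq_zero_of_det_fderivWithin_eq_zero μ hΨ' hdet
  -- an open subset of the image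
  have hr : 0 < ‖z₀‖ := norm_pos_iff.2 hz₀0
  set r : ℝ := ‖z₀‖ / 2 with hrdef
  set R : ℝ := 2 * ‖z₀‖ with hRdef
  have hrpos : 0 < r := by positivity
  set K : Set E := closedBall (0 : E) R ∩ (ball (0 : E) r)ᶜ with hK
  have hKc : IsCompact (K ∩ Wᶜ) :=
    ((isCompact_closedBall (0 : E) R).inter_right isOpen_ball.isClosed_compl).inter_right
      hWo.isClosed_compl
  have hK0 : ∀ z ∈ K, z ≠ 0 := by
    intro z hz h0
    apply hz.2
    rw [h0]
    exact mem_ball_self hrpos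
  have hΦc : ContinuousOn Φ (K ∩ Wᶜ) := by
    intro z hz
    have hz0 := hK0 z hz.1
    have h1 : ContinuousAt (fun z : E => ‖z‖) z := continuous_norm.continuousAt
    have h2 : ContinuousAt (chi : E → E →L[ℝ] ℝ) z :=
      (hE.hess_hasFDerivAt (by norm_num) hz0).continuousAt
    exact (h1.smul h2).continuousWithinAt
  have hC : IsClosed (Φ '' (K ∩ Wᶜ)) := (hKc.image_of_continuousOn hΦc).isClosed
  let O : Set (E →L[ℝ] ℝ) := {ψ | r < ‖ψ‖} ∩ {ψ | ‖ψ‖ < R} ∩ (Φ '' (K ∩ Wᶜ))ᶜ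
  have hOo : IsOpen O :=
    ((isOpen_lt continuous_const continuous_norm).inter
      (isOpen_lt continuous_norm continuous_const)).inter hC.isOpen_compl
  have hnΦ : ∀ z : E, z ≠ 0 → ‖Φ z‖ = ‖z‖ := by
    intro z hz
    simp only [Φ]
    rw [norm_smul, norm_norm, norm_chi_eq hE (by norm_num) hz, mul_one]
  have hz₀O : Φ z₀ ∈ O := by
    refine ⟨⟨?_, ?_⟩, ?_⟩
    · show r < ‖Φ z₀‖
      rw [hnΦ z₀ hz₀0]
      linarith
    · show ‖Φ z₀‖ < R
      rw [hnΦ z₀ hz₀0]
      linarith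
    · rintro ⟨z, hz, hzeq⟩
      have h1 := dualMap_injective hE (by norm_num) (hK0 z hz.1) hz₀0 hzeq
      rw [h1] at hz
      exact hz.2 ⟨hz₀U, hz₀⟩
  have hOsub : O ⊆ Φ '' W := by
    rintro ψ ⟨⟨h1, h2⟩, h3⟩
    have hψ0 : ψ ≠ 0 := by
      intro h0
      rw [mem_ofPred_eq, h0, norm_zero] at h1
      linarith
    obtain ⟨z, hz0, hz1, hz2⟩ := exists_dualMap_eq hE (by norm_num) hψ0
    have hzK : z ∈ K := by
      refine ⟨?_, ?_⟩
      · rw [mem_closedBall_zero_iff, hz1]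
        exact (le_of_lt h2)
      · rw [mem_compl_iff, mem_ball_zero_iff, hz1]
        exact not_lt.2 (le_of_lt h1)
    have hzW : z ∈ W := by
      by_contra hc
      exact h3 ⟨z, ⟨hzK, hc⟩, hz2⟩
    exact ⟨z, hzW, hz2⟩
  have hOpen2 : IsOpen (Λ '' O) := Λ.toHomeomorph.isOpenMap _ hOo
  have hNe2 : (Λ '' O).Nonempty := ⟨_, ⟨_, hz₀O, rfl⟩⟩
  have hpos := hOpen2.measure_pos μ hNe2
  have hsub2 : Λ '' O ⊆ Ψ '' W := by
    rintro _ ⟨ψ, hψ, rfl⟩
    obtain ⟨z, hz, rfl⟩ := hOsub hψ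
    exact ⟨z, hz, rfl⟩
  have h0 := measure_mono_null hsub2 hnull
  rw [h0] at hpos
  exact lt_irrefl _ hpos

end

section

variable {X Y : Type*} [NormedAddCommGroup X] [NormedSpace ℝ X]
  [NormedAddCommGroup Y] [NormedSpace ℝ Y]

/-- **Tingley's problem for `C^2` strictly convex norms** in dimension at least three. -/
theorem strict_extends [FiniteDimensional ℝ X] [StrictConvexSpace ℝ X]
    (hdim : 3 ≤ Module.finrank ℝ X)
    (hsmooth : ∀ x : X, x ≠ 0 → ContDiffAt ℝ 2 (fun z : X => ‖z‖) x)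
    (f : sphere (0 : X) 1 ≃ᵢ sphere (0 : Y) 1) :
    ∃ T : X ≃ₗᵢ[ℝ] Y, ∀ x : sphere (0 : X) 1, T x = f x := by
  haveI : Nontrivial X := Module.nontrivial_of_finrank_pos (R := ℝ) (by omega)
  have hX : NormC 2 X := hsmooth
  exact smooth_extends hdim hsmooth (dense_positive_of_strictConvex hX) f

end

end Vale.Agent.Lib.P084
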